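import Vale.Agent.P230.UDefs

/-! Geometric lemmas for the assembly of the lattice upper bound. -/

open MeasureTheory Matrix
open scoped ENNReal Pointwise

namespace Vale.Agent.P230

lemma as_vol {n : ℕ} {ι : Type} [Fintype ι] (T : E n ≃ₗ[ℝ] (ι → ℝ)) :
    ∃ c : ℝ≥0∞, c ≠ 0 ∧ c ≠ ⊤ ∧ ∀ A, volume (T '' A) = c * volume A := by
  let S := T.symm.toContinuousLinearEquiv
  have h1 : Measure.map S volume = Measure.addHaarScalarFactor (Measure.map S volume) volume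
      • (volume : Measure (E n)) := Measure.isAddLeftInvariant_eq_smul _ _
  refine ⟨Measure.addHaarScalarFactor (Measure.map S volume) volume,
    ENNReal.coe_ne_zero.2 (Measure.addHaarScalarFactor_pos_of_isAddHaarMeasure _ _).ne',
    ENNReal.coe_ne_top, fun A => ?_⟩
  have h2 : Measure.map S volume A = volume (S ⁻¹' A) :=
    S.toHomeomorph.toMeasurableEquiv.map_apply A
  have h3 : T '' A = S ⁻¹' A := T.toEquiv.image_eq_preimage_symm A
  rw [h3, ← h2]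
  exact congrArg (fun μ : Measure (E n) => μ A) h1

lemma as_card {n : ℕ} {ι : Type} [Fintype ι] (T : E n ≃ₗ[ℝ] (ι → ℝ)) : Fintype.card ι = n := by
  have := T.finrank_eq
  rw [finrank_euclideanSpace_fin, Module.finrank_fintype_fun_eq_card] at this
  exact this.symm

lemma as_theta {n : ℕ} {ι : Type} [Fintype ι] [DecidableEq ι] (T : E n ≃ₗ[ℝ] (ι → ℝ))
    (M : Matrix ι ι ℝ) (hM : M.det ≠ 0) (K : Set (E n))
    (h : ∀ y, ∃ z : ι → ℤ, ∃ x ∈ K, y = T x + M *ᵥ fun c => (z c : ℝ)) :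
    thetaL K ≤ volume (T '' K) / ENNReal.ofReal |M.det| := by
  obtain ⟨c, hc0, hct, hc⟩ := as_vol T
  let e : ι ≃ Fin n := Fintype.equivFinOfCardEq (as_card T)
  let b0 : Module.Basis ι ℝ (ι → ℝ) := (Pi.basisFun ℝ ι).map
    (M.toLinearEquiv' (invertibleOfIsUnitDet M (Ne.isUnit hM)))
  have hb0 : ∀ j, b0 j = Mᵀ j := fun j => by
    funext i
    change (M *ᵥ Pi.basisFun ℝ ι j) i = M i j
    simp
  let b := (b0.map T.symm).reindex e
  have h1 : ENNReal.ofReal |M.det| = c * volume (ZSpan.fundamentalDomain b) := by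
    rw [← hc, ZSpan.fundamentalDomain_reindex, ZSpan.map_fundamentalDomain,
      ZSpan.volume_fundamentalDomain, ← det_transpose M]
    congr 3
    ext j i
    rw [of_apply, Module.Basis.map_apply, Module.Basis.map_apply, T.apply_symm_apply, hb0]
  rw [h1, hc, ENNReal.mul_div_mul_left _ _ hc0 hct]
  refine iInf₂_le b (Set.eq_univ_of_forall fun w => ?_)
  obtain ⟨z, x, hx, hw⟩ := h (T w)
  refine ⟨x, hx, T.symm (M *ᵥ fun c => (z c : ℝ)), ?_, ?_⟩
  · rw [SetLike.mem_coe, Module.Basis.range_reindex, Submodule.mem_span_range_iff_exists_fun]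
    refine ⟨z, ?_⟩
    rw [mulVec_eq_sum, map_sum]
    refine Finset.sum_congr rfl fun j _ => ?_
    rw [Module.Basis.map_apply, hb0, op_smul_eq_smul, map_smul, Int.cast_smul_eq_zsmul]
  · apply T.injective
    rw [hw]
    simp

lemma as_theta_aff {n : ℕ} {ι : Type} [Fintype ι] [DecidableEq ι] (T : E n ≃ₗ[ℝ] (ι → ℝ))
    (M : Matrix ι ι ℝ) (hM : M.det ≠ 0) (K : Set (E n)) (x0 : E n) (L : E n ≃ₗ[ℝ] E n)
    (h : ∀ y, ∃ z : ι → ℤ, ∃ x ∈ (fun x => L (x - x0)) '' K, y = T x + M *ᵥ fun c => (z c : ℝ)) :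
    thetaL K ≤ volume (T '' ((fun x => L (x - x0)) '' K)) / ENNReal.ofReal |M.det| := by
  have h1 : T '' ((fun x => L (x - x0)) '' K) = (fun w => w + T (L x0)) ⁻¹' (L.trans T '' K) := by
    ext w
    rw [Set.image_image]
    simp only [Set.mem_image, Set.mem_preimage, LinearEquiv.trans_apply,
      map_sub, sub_eq_iff_eq_add]
  rw [h1, measure_preimage_add_right]
  refine as_theta (L.trans T) M hM K fun y => ?_
  obtain ⟨z, _, ⟨x, hx, rfl⟩, hy⟩ := h (y - T (L x0))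
  refine ⟨z, x, hx, ?_⟩
  simp only [map_sub, sub_add_eq_add_sub, sub_left_inj] at hy
  exact hy

lemma as_reindex {ι ι' : Type} [Fintype ι] [Fintype ι'] (e : ι' ≃ ι) (A : Set (ι → ℝ)) :
    volume (LinearEquiv.funCongrLeft ℝ ℝ e '' A) = volume A := by
  rw [← (volume_preserving_arrowCongr' e (MeasurableEquiv.refl ℝ)
    (MeasurePreserving.id _)).measure_preimage_equiv A]
  congr 1
  exact (LinearEquiv.funCongrLeft ℝ ℝ e).toEquiv.image_eq_preimage_symm A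

lemma as_vol_bounds {n : ℕ} {ι : Type} [Fintype ι] (T : E n ≃ₗ[ℝ] (ι → ℝ)) {K : Set (E n)}
    {a b : ℝ} (ha : 0 ≤ a) (hb : 0 ≤ b) (h1 : ∀ y, (∀ c, |T y c| ≤ a) → y ∈ K)
    (h2 : ∀ x ∈ K, ∀ c, |T x c| ≤ b) :
    volume (T '' K) ≠ ⊤ ∧ (2 * a) ^ n ≤ (volume (T '' K)).toReal ∧
      (volume (T '' K)).toReal ≤ (2 * b) ^ n := by
  have key : ∀ r : ℝ, 0 ≤ r →
      volume (Set.Icc (fun _ : ι => -r) fun _ => r) = ENNReal.ofReal ((2 * r) ^ n) := by
    intro r hr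
    rw [Real.volume_Icc_pi, Finset.prod_const, Finset.card_univ, as_card T,
      ENNReal.ofReal_pow (by positivity), sub_neg_eq_add, two_mul]
  have hu : volume (T '' K) ≤ ENNReal.ofReal ((2 * b) ^ n) := by
    rw [← key b hb]
    refine measure_mono ?_
    rintro _ ⟨x, hx, rfl⟩
    exact ⟨fun c => (abs_le.1 (h2 x hx c)).1, fun c => (abs_le.1 (h2 x hx c)).2⟩
  have hl : ENNReal.ofReal ((2 * a) ^ n) ≤ volume (T '' K) := by
    rw [← key a ha]
    refine measure_mono fun w hw => ⟨T.symm w, h1 _ fun c => ?_, T.apply_symm_apply w⟩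
    rw [T.apply_symm_apply]
    exact abs_le.2 ⟨hw.1 c, hw.2 c⟩
  have ht := (hu.trans_lt ENNReal.ofReal_lt_top).ne
  exact ⟨ht, (ENNReal.ofReal_le_iff_le_toReal ht).1 hl,
    ENNReal.toReal_le_of_le_ofReal (by positivity) hu⟩

lemma as_pr {n : ℕ} {ι : Type} [Fintype ι] (T : E n ≃ₗ[ℝ] (ι → ℝ)) (K A : Set (E n)) :
    pr K A * (volume (T '' K)).toReal ≤ (volume (T '' (K ∩ A))).toReal := by
  obtain ⟨c, -, -, hc⟩ := as_vol T
  rw [hc, hc, ENNReal.toReal_mul, ENNReal.toReal_mul, pr, mul_left_comm]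
  refine mul_le_mul_of_nonneg_left ?_ ENNReal.toReal_nonneg
  rcases eq_or_ne (volume K).toReal 0 with h | h
  · rw [h, mul_zero]
    exact ENNReal.toReal_nonneg
  · rw [div_mul_cancel₀ _ h]

variable {n : ℕ} {κ H : Type} [Fintype κ] [Fintype H] [DecidableEq H]

open Classical in
/-- the horizontal cells met by a slice -/
noncomputable def asS (K : Set (E n)) (T : E n ≃ₗ[ℝ] (κ ⊕ H → ℝ)) (h δ : ℝ) (R : ℤ)
    (s : κ → ℝ) : Finset (H → ℤ) :=
  (Fintype.piFinset fun _ => Finset.Icc (-R) R).filter fun u =>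
    ∃ x ∈ K, (∀ i, |T x (Sum.inl i) - s i| ≤ δ) ∧ ∀ c, ⌊T x (Sum.inr c) / h⌋ = u c

lemma as_slice (K : Set (E n)) (T : E n ≃ₗ[ℝ] (κ ⊕ H → ℝ)) {h δ : ℝ} {R : ℤ} (s : κ → ℝ)
    (hh : 0 < h) (hδ : 0 ≤ δ) (hR : ∀ x ∈ K, ∀ c, |⌊T x (Sum.inr c) / h⌋| ≤ R) :
    pr K {x | ∀ i, |T x (Sum.inl i) - s i| ≤ δ} * (volume (T '' K)).toReal
      ≤ (asS K T h δ R s).card * ((2 * δ) ^ Fintype.card κ * h ^ Fintype.card H) := by
  classical
  refine (as_pr T K _).trans (ENNReal.toReal_le_of_le_ofReal (by positivity) ?_)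
  have h1 : T '' (K ∩ {x | ∀ i, |T x (Sum.inl i) - s i| ≤ δ}) ⊆ ⋃ u ∈ asS K T h δ R s,
      Set.Icc (Sum.elim (fun i => s i - δ) fun c => u c * h)
        (Sum.elim (fun i => s i + δ) fun c => (u c + 1) * h) := by
    rintro _ ⟨x, ⟨hx, hs⟩, rfl⟩
    refine Set.mem_iUnion₂.2 ⟨fun c => ⌊T x (Sum.inr c) / h⌋, ?_, ?_, ?_⟩
    · exact Finset.mem_filter.2 ⟨Fintype.mem_piFinset.2 fun c =>
        Finset.mem_Icc.2 (abs_le.1 (hR x hx c)), x, hx, hs, fun _ => rfl⟩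
    · rintro (i | c)
      · have := (abs_le.1 (hs i)).1
        simp only [Sum.elim_inl]
        linarith
      · exact (le_div_iff₀ hh).1 (Int.floor_le _)
    · rintro (i | c)
      · have := (abs_le.1 (hs i)).2
        simp only [Sum.elim_inl]
        linarith
      · exact (div_le_iff₀ hh).1 (Int.lt_floor_add_one _).le
  refine (measure_mono h1).trans ((measure_biUnion_finset_le _ _).trans (le_of_eq ?_))
  rw [ENNReal.ofReal_mul (Nat.cast_nonneg _), ENNReal.ofReal_natCast, ← nsmul_eq_mul,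
    ← Finset.sum_const]
  refine Finset.sum_congr rfl fun u _ => ?_
  rw [Real.volume_Icc_pi, Fintype.prod_sum_type, ENNReal.ofReal_mul (by positivity),
    ENNReal.ofReal_pow (by positivity), ENNReal.ofReal_pow hh.le, ← Finset.card_univ,
    ← Finset.card_univ, ← Finset.prod_const, ← Finset.prod_const]
  congr 1
  · exact Finset.prod_congr rfl fun i _ => congrArg _ (by simp only [Sum.elim_inl]; ring)
  · exact Finset.prod_congr rfl fun i _ => congrArg _ (by simp only [Sum.elim_inr]; ring)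

/-- the covering step -/
lemma as_cover [DecidableEq κ] {K : Set (E n)} (hK : Convex ℝ K) (T : E n ≃ₗ[ℝ] (κ ⊕ H → ℝ))
    {h : ℝ} {R : ℤ} {η : κ → ℝ} (hn : 2 ≤ n) (hh : 0 < h) (hh' : h ≤ 1 / (n : ℝ) ^ 5)
    (hη : ∀ i, 0 < η i) (h1 : ∀ y, (∀ c, |T y c| ≤ 1 / (n : ℝ) ^ 3) → y ∈ K)
    (B : Matrix (κ ⊕ H) (κ ⊕ H) ℤ)
    (hB : ∀ (o : ∀ i, Fin ⌈η i * (n : ℝ) ^ 5⌉₊) (t : κ ⊕ H → ℤ), ∃ z : κ ⊕ H → ℤ,
      (t - B.mulVec z) ∘ Sum.inr ∈ asS K T h (1 / (n : ℝ) ^ 5) R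
        fun i => η i * ((t - B.mulVec z) ∘ Sum.inl) i + (o i : ℕ) / (n : ℝ) ^ 5) (y : κ ⊕ H → ℝ) :
    ∃ z : κ ⊕ H → ℤ, ∃ x ∈ K, y = T x + ((1 + (n : ℝ)⁻¹)⁻¹ •
      (diagonal (Sum.elim η fun _ => h) * B.map (Int.castRingHom ℝ))) *ᵥ fun c => (z c : ℝ) := by
  classical
  have hn' : (2 : ℝ) ≤ n := by exact_mod_cast hn
  have hn0 : (0 : ℝ) < n := by linarith
  have hn5 : (0 : ℝ) < (n : ℝ) ^ 5 := by positivity
  set st : κ ⊕ H → ℝ := Sum.elim η fun _ => h with hst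
  have hst0 : ∀ c, 0 < st c := by
    rintro (i | c)
    exacts [hη i, hh]
  set w := (1 + (n : ℝ)⁻¹) • y with hw
  let t : κ ⊕ H → ℤ := fun c => ⌊w c / st c⌋
  have hr0 : ∀ c, 0 ≤ w c - t c * st c := fun c =>
    sub_nonneg.2 ((le_div_iff₀ (hst0 c)).1 (Int.floor_le _))
  have hr1 : ∀ c, w c - t c * st c < st c := fun c => by
    have := (div_lt_iff₀ (hst0 c)).1 (Int.lt_floor_add_one (w c / st c))
    linarith
  obtain ⟨z, hz⟩ := hB (fun i => ⟨⌊(w (.inl i) - t (.inl i) * η i) * (n : ℝ) ^ 5⌋₊,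
    Nat.floor_lt_ceil_of_lt_of_pos (mul_lt_mul_of_pos_right (hr1 (.inl i)) hn5)
      (mul_pos (hη i) hn5)⟩) t
  obtain ⟨x, hx, hx1, hx2⟩ := (Finset.mem_filter.1 hz).2
  let d : κ ⊕ H → ℝ := fun c => w c - st c * (B.mulVec z c : ℤ) - T x c
  have hd : ∀ c, |d c| ≤ 2 / (n : ℝ) ^ 5 := by
    rintro (i | c)
    · have a1 := abs_le.1 (hx1 i)
      have a2 := (div_le_iff₀ hn5).2 (Nat.floor_le (mul_nonneg (hr0 (.inl i)) hn5.le))
      have a3 := (lt_div_iff₀ hn5).2 (Nat.lt_floor_add_one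
        ((w (.inl i) - t (.inl i) * η i) * (n : ℝ) ^ 5))
      simp only [Function.comp_apply, Pi.sub_apply, Int.cast_sub] at a1
      simp only [hst, Sum.elim_inl] at a2
      rw [add_div] at a3
      have a4 : (2 : ℝ) / (n : ℝ) ^ 5 = 1 / (n : ℝ) ^ 5 + 1 / (n : ℝ) ^ 5 := by ring
      have a5 : (0 : ℝ) < 1 / (n : ℝ) ^ 5 := by positivity
      simp only [d, hst, Sum.elim_inl]
      rw [abs_le]
      constructor <;> linarith [a1.1, a1.2]
    · have a1 := (le_div_iff₀ hh).1 (Int.floor_le (T x (.inr c) / h))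
      have a2 := (div_lt_iff₀ hh).1 (Int.lt_floor_add_one (T x (.inr c) / h))
      have a3 := hr0 (.inr c)
      have a4 := hr1 (.inr c)
      rw [hx2 c] at a1 a2
      simp only [Function.comp_apply, Pi.sub_apply, Int.cast_sub] at a1 a2
      simp only [hst, Sum.elim_inr] at a3 a4
      have a5 : (2 : ℝ) / (n : ℝ) ^ 5 = 1 / (n : ℝ) ^ 5 + 1 / (n : ℝ) ^ 5 := by ring
      simp only [d, hst, Sum.elim_inr]
      rw [abs_le]
      constructor <;> linarith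
  have hy : T.symm ((n : ℝ) • d) ∈ K := h1 _ fun c => by
    rw [T.apply_symm_apply, Pi.smul_apply, smul_eq_mul, abs_mul, abs_of_pos hn0]
    refine (mul_le_mul_of_nonneg_left (hd c) hn0.le).trans ?_
    rw [← mul_div_assoc, div_le_div_iff₀ hn5 (by positivity)]
    nlinarith [pow_pos hn0 4]
  refine ⟨z, _, hK hx hy (a := n / (n + 1)) (b := 1 / (n + 1)) (by positivity) (by positivity)
    (by field_simp), funext fun c => ?_⟩
  have hc : (B.map (Int.castRingHom ℝ) *ᵥ fun c => (z c : ℝ)) c = (B.mulVec z c : ℤ) :=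
    (RingHom.map_mulVec (Int.castRingHom ℝ) B z c).symm
  rw [smul_mulVec, ← mulVec_mulVec, map_add, map_smul, map_smul, T.apply_symm_apply]
  simp only [Pi.add_apply, Pi.smul_apply, smul_eq_mul, mulVec_diagonal, hc, d, hw]
  field_simp
  ring

end Vale.Agent.P230
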