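import Vale.Agent.P230.AsGeo

/-! Assembly of the lattice upper bound. -/

open MeasureTheory Matrix
open scoped ENNReal Pointwise

namespace Vale.Agent.P230

lemma as_pow8 {n N : ℕ} (hN : 96 ≤ N) (h : n ≤ 2 * N) : 2 * n ^ 8 ≤ 2 ^ N := by
  have h1 : n ≤ 2 ^ (5 + N / 16) := by
    have := Nat.lt_two_pow_self (n := N / 16)
    rw [pow_add]
    omega
  calc 2 * n ^ 8 ≤ 2 * (2 ^ (5 + N / 16)) ^ 8 := by gcongr
    _ = 2 ^ ((5 + N / 16) * 8 + 1) := by rw [← pow_mul, pow_succ']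
    _ ≤ 2 ^ N := Nat.pow_le_pow_right (by norm_num) (by omega)

lemma as_param {n k N p : ℕ} {V Q G : ℝ} (hn : 200 ≤ n) (hk : k + N = n) (hk' : 20 * k ≤ n)
    (hV1 : (2 * (1 / (n : ℝ) ^ 3)) ^ n ≤ V) (hV2 : V ≤ (2 * (n : ℝ) ^ 2) ^ n)
    (hQ1 : (1 / (n : ℝ) ^ 6) ^ k ≤ Q) (hQ2 : Q ≤ (n : ℝ) ^ k) (hG1 : 1 ≤ G)
    (hG2 : G ≤ (n : ℝ) ^ 3) (hp1 : n ^ 8 ≤ p) (hp2 : p ≤ 2 * n ^ 8) :
    ∃ m ≤ N, ∃ h : ℝ, 2 ^ n ≤ p ^ m ∧ 1 / (2 * (n : ℝ) ^ 5) ≤ h ∧ h ≤ 1 / (n : ℝ) ^ 5 ∧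
      V = G * (h ^ N * Q * (p : ℝ) ^ m) := by
  classical
  have hn' : (200 : ℝ) ≤ n := by exact_mod_cast hn
  have hn0 : (0 : ℝ) < n := by linarith
  have hn1 : (1 : ℝ) ≤ n := by linarith
  have hQ0 : 0 < Q := lt_of_lt_of_le (by positivity) hQ1
  have hG0 : 0 < G := by linarith
  have hp0 : (0 : ℝ) < p := by
    have : 0 < n ^ 8 := by positivity
    exact_mod_cast this.trans_le hp1
  set R := V * ((n : ℝ) ^ 5) ^ N / (Q * G) with hR
  have hR1 : (2 : ℝ) ^ n ≤ R := by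
    rw [hR, le_div_iff₀ (by positivity)]
    calc (2 : ℝ) ^ n * (Q * G) ≤ 2 ^ n * ((n : ℝ) ^ k * (n : ℝ) ^ 3) := by gcongr
      _ = (2 * (1 / (n : ℝ) ^ 3)) ^ n * (n : ℝ) ^ (3 * n + (k + 3)) := by
        rw [mul_pow, one_div, inv_pow, ← pow_mul, pow_add, pow_add]
        field_simp
      _ ≤ V * (n : ℝ) ^ (5 * N) := by
        gcongr
        · exact le_trans (by positivity) hV1
        · omega
      _ = _ := by rw [pow_mul]
  have hR2 : R < (p : ℝ) ^ N := by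
    have a1 : (2 : ℝ) ^ n ≤ (n : ℝ) ^ ((n + 1) / 2) := by
      calc (2 : ℝ) ^ n ≤ 2 ^ (2 * ((n + 1) / 2)) := pow_le_pow_right₀ one_le_two (by omega)
        _ = 4 ^ ((n + 1) / 2) := by rw [pow_mul]; norm_num
        _ ≤ _ := pow_le_pow_left₀ (by norm_num) (by linarith) _
    have a2 : ((n : ℝ) ^ 8) ^ N ≤ (p : ℝ) ^ N :=
      pow_le_pow_left₀ (by positivity) (by exact_mod_cast hp1) _
    refine lt_of_lt_of_le ?_ a2
    rw [hR, div_lt_iff₀ (by positivity)]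
    calc V * ((n : ℝ) ^ 5) ^ N ≤ (2 * (n : ℝ) ^ 2) ^ n * ((n : ℝ) ^ 5) ^ N := by gcongr
      _ ≤ (n : ℝ) ^ ((n + 1) / 2) * ((n : ℝ) ^ 2) ^ n * ((n : ℝ) ^ 5) ^ N := by
        rw [mul_pow]
        gcongr
      _ = (n : ℝ) ^ ((n + 1) / 2 + 2 * n + 5 * N + 6 * k) * ((1 / (n : ℝ) ^ 6) ^ k * 1) := by
        rw [one_div, inv_pow, ← pow_mul, ← pow_mul, ← pow_mul, pow_add, pow_add, pow_add]
        field_simp
      _ < (n : ℝ) ^ (8 * N) * ((1 / (n : ℝ) ^ 6) ^ k * 1) :=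
        mul_lt_mul_of_pos_right (pow_lt_pow_right₀ (by linarith) (by omega)) (by positivity)
      _ ≤ _ := by
        rw [pow_mul]
        gcongr
  have hex : ∃ m, R < (p : ℝ) ^ m := ⟨N, hR2⟩
  have hm := Nat.find_spec hex
  have hm0 : Nat.find hex ≠ 0 := by
    intro h0
    rw [h0, pow_zero] at hm
    exact absurd (hR1.trans_lt hm) (not_lt.2 (one_le_pow₀ one_le_two))
  obtain ⟨j, hj⟩ := Nat.exists_eq_succ_of_ne_zero hm0
  have hj' : (p : ℝ) ^ j ≤ R := not_lt.1 (Nat.find_min hex (by omega))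
  have hN0 : N ≠ 0 := by omega
  have hρ0 : 0 ≤ R / (p : ℝ) ^ Nat.find hex := div_nonneg (le_trans (by positivity) hR1) (by positivity)
  have hpow := Real.rpow_inv_natCast_pow hρ0 hN0
  have hr0 := Real.rpow_nonneg hρ0 (N⁻¹ : ℝ)
  set r := (R / (p : ℝ) ^ Nat.find hex) ^ (N⁻¹ : ℝ)
  refine ⟨Nat.find hex, Nat.find_min' hex hR2, r / (n : ℝ) ^ 5, ?_, ?_, ?_, ?_⟩
  · exact_mod_cast (hR1.trans_lt hm).le
  · rw [← div_div]
    refine div_le_div_of_nonneg_right ?_ (by positivity)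
    refine (pow_le_pow_iff_left₀ (by norm_num) hr0 hN0).1 ?_
    have a1 : (p : ℝ) ≤ 2 ^ N := by
      exact_mod_cast hp2.trans (as_pow8 (by omega) (by omega))
    rw [hpow, hj, pow_succ, one_div, inv_pow, le_div_iff₀ (by positivity), mul_comm, mul_assoc]
    refine le_trans (mul_le_of_le_one_right (by positivity) ?_) hj'
    rwa [mul_inv_le_iff₀ (by positivity), one_mul]
  · refine div_le_div_of_nonneg_right ?_ (by positivity)
    rw [← pow_le_one_iff_of_nonneg hr0 hN0, hpow, div_le_one (by positivity)]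
    exact hm.le
  · have key : ∀ P : ℝ, 0 < P → V = G * (R / P / ((n : ℝ) ^ 5) ^ N * Q * P) := fun P hP => by
      rw [hR]
      field_simp
    rw [div_pow, hpow]
    exact key _ (by positivity)

lemma as_k {n k : ℕ} {v : ℝ} (hn : 20 ≤ n) (hv : v ^ 100 = n) (hk : (k : ℝ) ≤ v) :
    20 * k ≤ n := by
  have h1 : k ^ 100 ≤ n := by
    have : (k : ℝ) ^ 100 ≤ n := hv ▸ pow_le_pow_left₀ (Nat.cast_nonneg k) hk 100
    exact_mod_cast this
  rcases le_or_gt k 1 with h | h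
  · omega
  · refine le_trans ?_ h1
    rw [pow_succ]
    exact Nat.mul_le_mul_right k (le_trans (by norm_num) (Nat.pow_le_pow_left h 99))

theorem upper_of (h1 : IsoPosP) (h2 : CGP) (h3 : DFP) :
    ∃ C : ℝ, 0 < C ∧ ∃ n0 : ℕ, ∀ n ≥ n0, ThetaL n ≤ ENNReal.ofReal (C * n * Real.log n) := by
  obtain ⟨n2, h2⟩ := h2
  obtain ⟨C, hC, n3, h3⟩ := h3
  refine ⟨600 * C, by positivity, n2 + n3 + 200 + ⌈200 * C⌉₊ + ⌈C⁻¹⌉₊, fun n hn => ?_⟩
  refine iSup₂_le fun K0 hK0 => ?_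
  obtain ⟨x0, L, hK⟩ := h1 n K0 hK0
  have hn200 : 200 ≤ n := by omega
  have hn' : (200 : ℝ) ≤ n := by exact_mod_cast hn200
  have hn0 : (0 : ℝ) < n := by linarith
  have hnC : 200 * C ≤ n := Nat.ceil_le.1 (by omega)
  have hnC' : 1 ≤ C * n := (inv_le_iff_one_le_mul₀' hC).1 (Nat.ceil_le.1 (by omega))
  have hlog : 1 ≤ Real.log n := by
    rw [Real.le_log_iff_exp_le hn0]
    linarith [Real.exp_one_lt_three]
  have hlog' : Real.log n ≤ n := Real.log_le_self hn0.le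
  have hv0 := Real.rpow_nonneg hn0.le (((100 : ℕ) : ℝ)⁻¹)
  have hv := Real.rpow_inv_natCast_pow hn0.le (by norm_num : (100 : ℕ) ≠ 0)
  generalize (n : ℝ) ^ (((100 : ℕ) : ℝ)⁻¹) = v at hv0 hv
  have hvn : v ≤ n := by
    refine (pow_le_pow_iff_left₀ hv0 hn0.le (by norm_num : (100 : ℕ) ≠ 0)).1 ?_
    rw [hv]
    exact le_self_pow₀ (by linarith) (by norm_num)
  obtain ⟨κ, _, _, η, J, D, hG, hD1, hD2, h3⟩ := h3 n (by omega) v hv0 hv
  obtain ⟨N, T, bad, hT1, hT2, hbad, hgood⟩ := h2 n (by omega) _ hK v hv0 hv κ η J hG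
  obtain ⟨p, hp, hp1, hp2⟩ := Nat.exists_prime_lt_and_le_two_mul (n ^ 8) (by positivity)
  have hcard : Fintype.card κ + N = n := by simpa using as_card T
  have hη : ∀ i, 0 < η i := fun i => lt_of_lt_of_le (by positivity) (hG.2.1 i).1
  have hP0 : 0 < ∏ i, η i := Finset.prod_pos fun i _ => hη i
  have hD' : (1 : ℝ) ≤ D := by exact_mod_cast hD1
  obtain ⟨hVt, hV1, hV2⟩ := as_vol_bounds T (by positivity) (by positivity) hT1 hT2
  obtain ⟨m, hm, h, hpm, hh1, hh2, hV⟩ := as_param (Q := D * ∏ i, η i)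
    (G := 200 * (C * n * Real.log n)) hn200 hcard (as_k (by omega) hv hG.1) hV1 hV2
    (by
      refine le_trans ?_ (le_mul_of_one_le_left hP0.le hD')
      rw [← Finset.card_univ, ← Finset.prod_const]
      exact Finset.prod_le_prod (fun i _ => by positivity) fun i _ => (hG.2.1 i).1)
    (hD2.trans (pow_le_pow_left₀ hv0 hvn _)) (by nlinarith)
    (by
      calc 200 * (C * n * Real.log n) = 200 * C * n * Real.log n := by ring
        _ ≤ n * n * n := by gcongr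
        _ = _ := by ring) hp1.le hp2
  have hh0 : 0 < h := lt_of_lt_of_le (by positivity) hh1
  obtain ⟨a, rfl⟩ := Nat.exists_eq_add_of_le' hm
  let e : κ ⊕ (Fin a ⊕ Fin m) ≃ κ ⊕ Fin (a + m) := Equiv.sumCongr (Equiv.refl κ) finSumFinEquiv
  let T' := T.trans (LinearEquiv.funCongrLeft ℝ ℝ e)
  have hvol : volume (T' '' ((fun x => L (x - x0)) '' K0))
      = volume (T '' ((fun x => L (x - x0)) '' K0)) := by
    rw [← as_reindex e (T '' _), Set.image_image (LinearEquiv.funCongrLeft ℝ ℝ e)]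
    rfl
  have hcH : Fintype.card (Fin a ⊕ Fin m) = a + m := by simp
  have hR : ∀ x ∈ (fun x => L (x - x0)) '' K0, ∀ c,
      |⌊T' x (Sum.inr c) / h⌋| ≤ 2 * (n : ℤ) ^ 7 := by
    intro x hx c
    have a1 : |T' x (Sum.inr c) / h| ≤ ((2 * (n : ℤ) ^ 7 : ℤ) : ℝ) := by
      rw [abs_div, abs_of_pos hh0, div_le_iff₀ hh0]
      refine (hT2 x hx (e (Sum.inr c))).trans (le_of_eq_of_le ?_
        (mul_le_mul_of_nonneg_left hh1 (by positivity)))
      push_cast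
      field_simp
    rw [abs_le] at a1 ⊢
    exact ⟨Int.le_floor.2 (by exact_mod_cast a1.1), by
      exact_mod_cast (Int.floor_le _).trans a1.2⟩
  obtain ⟨B, hdet, hB⟩ := h3 bad hbad p hp hp1.le hp2 (Fin a) (Fin m)
    (by rw [Fintype.card_fin]; omega) (by rwa [Fintype.card_fin])
    (∀ i, Fin ⌈η i * (n : ℝ) ^ 5⌉₊) (by simp)
    (fun o ι => asS ((fun x => L (x - x0)) '' K0) T' h (1 / (n : ℝ) ^ 5) (2 * (n : ℤ) ^ 7)
      fun i => η i * ι i + (o i : ℕ) / (n : ℝ) ^ 5)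
    (by
      classical
      intro o ι x hx c
      have a1 := abs_le.2 (Finset.mem_Icc.1 (Fintype.mem_piFinset.1 (Finset.mem_filter.1 hx).1 c))
      have a2 : (n : ℤ) ^ 8 < p := by exact_mod_cast hp1
      have a3 : (200 : ℤ) ≤ n := by exact_mod_cast hn200
      nlinarith [pow_pos (show (0 : ℤ) < n by linarith) 7])
    (by
      intro o ι hι hb
      have a1 := hgood ι hι hb (fun i => η i * ι i + (o i : ℕ) / (n : ℝ) ^ 5) fun i =>
        ⟨le_add_of_nonneg_right (by positivity), by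
          have := (div_lt_iff₀ (by positivity : (0 : ℝ) < (n : ℝ) ^ 5)).2 (Nat.lt_ceil.1 (o i).2)
          linarith⟩
      have a2 := as_slice ((fun x => L (x - x0)) '' K0) T'
        (fun i => η i * ι i + (o i : ℕ) / (n : ℝ) ^ 5) hh0
        (by positivity : 0 ≤ 1 / (n : ℝ) ^ 5) hR
      rw [hvol, hcH] at a2
      have a3 := (mul_le_mul_of_nonneg_right a1 ENNReal.toReal_nonneg).trans a2
      refine le_of_mul_le_mul_right (le_of_eq_of_le ?_ a3) (by positivity)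
      rw [hV, Finset.prod_mul_distrib, Finset.prod_const, Finset.prod_div_distrib,
        Finset.card_univ, Fintype.card_fin, mul_one_div]
      field_simp)
  rw [Fintype.card_fin] at hdet
  have hlam : (0 : ℝ) < 1 + (n : ℝ)⁻¹ := by positivity
  have hM : ((1 + (n : ℝ)⁻¹)⁻¹ • (diagonal (Sum.elim η fun _ => h) * B.map (Int.castRingHom ℝ))).det
      = ((1 + (n : ℝ)⁻¹) ^ n)⁻¹ * (h ^ (a + m) * (D * ∏ i, η i) * (p : ℝ) ^ m) := by
    rw [det_smul, as_card T', det_mul, det_diagonal, Fintype.prod_sum_type, ← RingHom.mapMatrix_apply,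
      ← RingHom.map_det, hdet, inv_pow]
    simp only [Sum.elim_inl, Sum.elim_inr, Finset.prod_const, Finset.card_univ, hcH, eq_intCast]
    push_cast
    ring
  have hp0 : (0 : ℝ) < p := by exact_mod_cast hp.pos
  have hM0 : 0 < ((1 + (n : ℝ)⁻¹) ^ n)⁻¹ * (h ^ (a + m) * (D * ∏ i, η i) * (p : ℝ) ^ m) := by
    positivity
  refine (as_theta_aff T' _ (hM.trans_ne hM0.ne') K0 x0 L (as_cover hK.1.2.1 T' (by omega) hh0 hh2 hη
    (fun y hy => hT1 y fun c => ?_) B hB)).trans ?_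
  · obtain ⟨c', rfl⟩ := e.surjective c
    exact hy c'
  · rw [hvol, hM, abs_of_pos hM0, ← ENNReal.ofReal_toReal hVt, ← ENNReal.ofReal_div_of_pos hM0, hV]
    refine ENNReal.ofReal_le_ofReal ?_
    have a1 := Real.one_add_inv_pow_le_exp (n := n) |>.trans Real.exp_one_lt_three.le
    rw [mul_div_mul_right _ _ (by positivity), div_inv_eq_mul]
    calc 200 * (C * n * Real.log n) * (1 + (n : ℝ)⁻¹) ^ n ≤ 200 * (C * n * Real.log n) * 3 := by
          gcongr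
      _ = _ := by ring

end Vale.Agent.P230
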