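import Vale.Agent.P230.Pair

/-! Uniform averages on finite types. -/

open Finset

namespace Vale.Agent.P230

/-- uniform average -/
noncomputable def av {Ω : Type*} [Fintype Ω] (f : Ω → ℝ) : ℝ := (∑ ω, f ω) / Fintype.card Ω

section
variable {Ω Ω' : Type*} [Fintype Ω] [Fintype Ω']

lemma av_mono {f g : Ω → ℝ} (h : ∀ ω, f ω ≤ g ω) : av f ≤ av g :=
  div_le_div_of_nonneg_right (sum_le_sum fun ω _ => h ω) (Nat.cast_nonneg _)

lemma av_nonneg {f : Ω → ℝ} (h : ∀ ω, 0 ≤ f ω) : 0 ≤ av f :=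
  div_nonneg (sum_nonneg fun ω _ => h ω) (Nat.cast_nonneg _)

lemma av_congr {f g : Ω → ℝ} (h : ∀ ω, f ω = g ω) : av f = av g := by
  rw [show f = g from funext h]

lemma av_const [Nonempty Ω] (c : ℝ) : av (fun _ : Ω => c) = c := by
  unfold av
  have : (Fintype.card Ω : ℝ) ≠ 0 := by exact_mod_cast Fintype.card_ne_zero
  rw [sum_const, card_univ, nsmul_eq_mul]; field_simp

lemma av_le_const [Nonempty Ω] {f : Ω → ℝ} {c : ℝ} (h : ∀ ω, f ω ≤ c) : av f ≤ c :=
  (av_mono h).trans (av_const c).le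

lemma av_add (f g : Ω → ℝ) : av (fun ω => f ω + g ω) = av f + av g := by
  unfold av; rw [sum_add_distrib, add_div]

lemma av_sub (f g : Ω → ℝ) : av (fun ω => f ω - g ω) = av f - av g := by
  unfold av; rw [sum_sub_distrib, sub_div]

lemma av_smul (c : ℝ) (f : Ω → ℝ) : av (fun ω => c * f ω) = c * av f := by
  unfold av; rw [← mul_sum, mul_div_assoc]

lemma av_mul_const (c : ℝ) (f : Ω → ℝ) : av (fun ω => f ω * c) = av f * c := by
  rw [mul_comm, ← av_smul]; exact av_congr fun ω => mul_comm _ _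

lemma av_sum {κ : Type*} (s : Finset κ) (f : κ → Ω → ℝ) :
    av (fun ω => ∑ k ∈ s, f k ω) = ∑ k ∈ s, av (f k) := by
  unfold av; rw [sum_comm, sum_div]

lemma av_equiv (e : Ω ≃ Ω') (f : Ω' → ℝ) : av (fun ω => f (e ω)) = av f := by
  unfold av; rw [Equiv.sum_comp e f, Fintype.card_congr e]

lemma av_comm (f : Ω → Ω' → ℝ) :
    av (fun ω => av (fun ω' => f ω ω')) = av (fun ω' => av (fun ω => f ω ω')) := by
  unfold av
  simp only [← sum_div]
  rw [sum_comm, div_div, div_div, mul_comm]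

lemma av_prod (f : Ω × Ω' → ℝ) : av f = av (fun ω => av (fun ω' => f (ω, ω'))) := by
  unfold av
  simp only [← sum_div]
  rw [Fintype.sum_prod_type, Fintype.card_prod, div_div, mul_comm]; push_cast; rfl

lemma av_pi_prod {ι : Type*} [Fintype ι] [DecidableEq ι] (f : ι → Ω → ℝ) :
    av (fun U : ι → Ω => ∏ i, f i (U i)) = ∏ i, av (f i) := by
  unfold av
  rw [prod_div_distrib, Finset.prod_univ_sum, Fintype.piFinset_univ, Fintype.card_fun]
  simp

lemma av_ind_mem [DecidableEq Ω] (A : Finset Ω) :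
    av (fun ω => ind (ω ∈ A)) = (A.card : ℝ) / Fintype.card Ω := by
  unfold av
  rw [sum_ind]; simp

lemma exists_le_av [Nonempty Ω] (f : Ω → ℝ) : ∃ ω, f ω ≤ av f := by
  refine exists_le_of_sum_le (s := univ) univ_nonempty ?_ |>.imp fun ω h => h.2
  have : (Fintype.card Ω : ℝ) ≠ 0 := by exact_mod_cast Fintype.card_ne_zero
  rw [sum_const, card_univ, nsmul_eq_mul]; unfold av; field_simp; rfl

lemma single_le_av {f : Ω → ℝ} (h : ∀ ω, 0 ≤ f ω) (ω : Ω) : f ω ≤ Fintype.card Ω * av f := by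
  have : Nonempty Ω := ⟨ω⟩
  have h1 : (Fintype.card Ω : ℝ) ≠ 0 := by exact_mod_cast Fintype.card_ne_zero
  unfold av
  rw [mul_div_cancel₀ _ h1]
  exact single_le_sum (fun ω _ => h ω) (mem_univ ω)

/-- Jensen's inequality for concave powers -/
lemma av_rpow_le [Nonempty Ω] {f : Ω → ℝ} (h : ∀ ω, 0 ≤ f ω) {θ : ℝ} (h0 : 0 < θ) (h1 : θ ≤ 1) :
    av (fun ω => f ω ^ θ) ≤ (av f) ^ θ := by
  have hc : (0 : ℝ) < Fintype.card Ω := by exact_mod_cast Fintype.card_pos
  have h2 := Real.rpow_arith_mean_le_arith_mean_rpow univ (fun _ => 1 / (Fintype.card Ω : ℝ))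
    (fun ω => f ω ^ θ) (fun _ _ => by positivity) (by simp) (fun ω _ => Real.rpow_nonneg (h ω) _)
    (p := 1 / θ) (by rw [le_div_iff₀ h0]; linarith)
  have e1 : ∀ g : Ω → ℝ, ∑ ω, 1 / (Fintype.card Ω : ℝ) * g ω = av g := by
    intro g; unfold av; rw [← mul_sum]; ring
  rw [e1, e1] at h2
  have e2 : av (fun ω => (f ω ^ θ) ^ (1 / θ)) = av f := av_congr fun ω => by
    rw [← Real.rpow_mul (h ω), mul_one_div_cancel h0.ne', Real.rpow_one]
  rw [e2] at h2
  have h3 : 0 ≤ av (fun ω => f ω ^ θ) := av_nonneg fun ω => Real.rpow_nonneg (h ω) _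
  have h4 := Real.rpow_le_rpow (Real.rpow_nonneg h3 _) h2 h0.le
  rwa [← Real.rpow_mul h3, one_div_mul_cancel h0.ne', Real.rpow_one] at h4

/-- Markov's inequality -/
lemma av_markov {f : Ω → ℝ} (h : ∀ ω, 0 ≤ f ω) {t : ℝ} (ht : 0 < t) :
    av (fun ω => ind (t ≤ f ω)) ≤ av f / t := by
  rw [div_eq_mul_inv, ← av_mul_const]
  refine av_mono fun ω => ?_
  by_cases e : t ≤ f ω
  · rw [ind_pos e, ← div_eq_mul_inv, le_div_iff₀ ht]; linarith
  · rw [ind_neg e]; exact mul_nonneg (h ω) (by positivity)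

/-- union bound -/
lemma exists_good [Nonempty Ω] {κ : Type*} (s : Finset κ) (B : κ → Ω → Prop)
    (h : ∑ k ∈ s, av (fun ω => ind (B k ω)) < 1) : ∃ ω, ∀ k ∈ s, ¬ B k ω := by
  obtain ⟨ω, hω⟩ := exists_le_av (fun ω => ∑ k ∈ s, ind (B k ω))
  rw [av_sum] at hω
  refine ⟨ω, fun k hk hB => ?_⟩
  have := single_le_sum (f := fun k => ind (B k ω)) (fun _ _ => ind_nonneg _) hk
  rw [ind_pos hB] at this
  linarith

end

end Vale.Agent.P230
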