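import Vale.Agent.P230.BTAux

/-! The typical set of a block. -/

open Finset

namespace Vale.Agent.P230

lemma bt_two_pow (k : ℕ) : (2 : ℝ) ^ k = Real.exp (k * Real.log 2) := by
  rw [Real.exp_nat_mul, Real.exp_log two_pos]

lemma bt_inv_sq {b : ℝ} (hb : 100 ≤ b) : Real.exp (-(2 * b)) ≤ 1 / b ^ 2 := by
  have h1 := Real.add_one_le_exp b
  have h2 : Real.exp (2 * b) = Real.exp b ^ 2 := by rw [← Real.exp_nat_mul]; norm_num
  rw [Real.exp_neg, h2, one_div]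
  exact inv_anti₀ (by positivity) (pow_le_pow_left₀ (by linarith) (by linarith) 2)

lemma bt_D {β : ℕ} (hβ : 100 ≤ β) : (β : ℝ) ^ 5 ≤ 2 ^ (4 * β ^ 2) := by
  have h1 : β ^ 5 ≤ (2 ^ β) ^ 5 := Nat.pow_le_pow_left Nat.lt_two_pow_self.le 5
  have h2 : (2 ^ β) ^ 5 ≤ 2 ^ (4 * β ^ 2) := by
    rw [← pow_mul]; exact Nat.pow_le_pow_right two_pos (by nlinarith)
  exact_mod_cast h1.trans h2

lemma bt_dd (β : ℕ) : (dd β : ℝ) = (2 ^ (4 * β ^ 2)) ^ 2 := by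
  unfold dd
  push_cast
  rw [← pow_mul]; congr 1; ring

lemma bt_eta {β p : ℕ} (hβ : 100 ≤ β) (h1 : dd β ^ 7 ≤ p) (h2 : p ≤ 2 * dd β ^ 7) :
    0 < p / 2 ∧ Real.exp (-39 * (β : ℝ) ^ 2) ≤ 4 * β / (p / 2 : ℕ) ∧
      4 * β / (p / 2 : ℕ) ≤ Real.exp (-30 * (β : ℝ) ^ 2) := by
  have hb : (100 : ℝ) ≤ β := by exact_mod_cast hβ
  have hd : ((dd β ^ 7 : ℕ) : ℝ) = Real.exp (56 * (β : ℝ) ^ 2 * Real.log 2) := by
    unfold dd
    push_cast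
    rw [← pow_mul, bt_two_pow]; congr 1; push_cast; ring
  have hl1 := Real.log_two_gt_d9
  have hl2 := Real.log_two_lt_d9
  have hb2 : (0 : ℝ) < (β : ℝ) ^ 2 := by positivity
  have hd1 : Real.exp (38 * (β : ℝ) ^ 2) ≤ ((dd β ^ 7 : ℕ) : ℝ) := by
    rw [hd]; exact Real.exp_le_exp.2 (by nlinarith)
  have hd2 : ((dd β ^ 7 : ℕ) : ℝ) ≤ Real.exp (39 * (β : ℝ) ^ 2) := by
    rw [hd]; exact Real.exp_le_exp.2 (by nlinarith)
  have hd3 : 2 ≤ dd β ^ 7 := by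
    have := Real.add_one_le_exp (38 * (β : ℝ) ^ 2)
    have h3 : (2 : ℝ) ≤ ((dd β ^ 7 : ℕ) : ℝ) := by nlinarith
    exact_mod_cast h3
  have hJ1 : p / 2 ≤ dd β ^ 7 := by omega
  have hJ2 : dd β ^ 7 ≤ 4 * (p / 2) := by omega
  have hJ0 : 0 < p / 2 := by omega
  have hJ0' : (0 : ℝ) < (p / 2 : ℕ) := by exact_mod_cast hJ0
  have hJ1' : ((p / 2 : ℕ) : ℝ) ≤ Real.exp (39 * (β : ℝ) ^ 2) :=
    le_trans (by exact_mod_cast hJ1) hd2
  have hJ2' : Real.exp (38 * (β : ℝ) ^ 2) ≤ 4 * ((p / 2 : ℕ) : ℝ) :=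
    hd1.trans (by exact_mod_cast hJ2)
  refine ⟨hJ0, ?_, ?_⟩
  · rw [le_div_iff₀ hJ0']
    have e : Real.exp (-39 * (β : ℝ) ^ 2) * Real.exp (39 * (β : ℝ) ^ 2) = 1 := by
      rw [← Real.exp_add]; simp
    have := mul_le_mul_of_nonneg_left hJ1' (Real.exp_pos (-39 * (β : ℝ) ^ 2)).le
    linarith
  · rw [div_le_iff₀ hJ0']
    have e : Real.exp (-30 * (β : ℝ) ^ 2) * Real.exp (38 * (β : ℝ) ^ 2) =
        Real.exp (8 * (β : ℝ) ^ 2) := by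
      rw [← Real.exp_add]; congr 1; ring
    have := mul_le_mul_of_nonneg_left hJ2' (Real.exp_pos (-30 * (β : ℝ) ^ 2)).le
    have h3 := Real.add_one_le_exp (8 * (β : ℝ) ^ 2)
    nlinarith

lemma bt_small {b : ℝ} (hb : 100 ≤ b) : Real.exp (-30 * b ^ 2) ≤ 1 / 100 := by
  have h1 := Real.add_one_le_exp (30 * b ^ 2)
  have e : Real.exp (-30 * b ^ 2) * Real.exp (30 * b ^ 2) = 1 := by
    rw [← Real.exp_add]; simp
  have h2 := Real.exp_pos (-30 * b ^ 2)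
  have h3 : 100 ≤ Real.exp (30 * b ^ 2) := by nlinarith
  nlinarith

lemma bt_loss {β : ℕ} (hβ : 100 ≤ β) :
    2 * (dd β : ℝ) * (Real.exp (-(4 * (β : ℝ)) ^ 2 / 2) + 3 * Real.exp (-30 * (β : ℝ) ^ 2))
      ≤ 2 / (β : ℝ) ^ 2 := by
  have hb : (100 : ℝ) ≤ β := by exact_mod_cast hβ
  have hb2 : (10000 : ℝ) ≤ (β : ℝ) ^ 2 := by nlinarith
  have hd : (dd β : ℝ) ≤ Real.exp (6 * (β : ℝ) ^ 2) := by
    unfold dd
    push_cast
    rw [bt_two_pow]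
    have hl2 := Real.log_two_lt_d9
    refine Real.exp_le_exp.2 ?_
    push_cast
    nlinarith
  have h1 : Real.exp (-30 * (β : ℝ) ^ 2) ≤ Real.exp (-8 * (β : ℝ) ^ 2) :=
    Real.exp_le_exp.2 (by nlinarith)
  have h2 : Real.exp (-(4 * (β : ℝ)) ^ 2 / 2) = Real.exp (-8 * (β : ℝ) ^ 2) := by
    congr 1; ring
  have h3 : Real.exp (6 * (β : ℝ) ^ 2) * Real.exp (-8 * (β : ℝ) ^ 2) =
      Real.exp (-(2 * (β : ℝ) ^ 2)) := by
    rw [← Real.exp_add]; congr 1; ring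
  have h4 := bt_inv_sq (b := (β : ℝ) ^ 2) (by linarith)
  have h5 : 1 / ((β : ℝ) ^ 2) ^ 2 ≤ 1 / (4 * (β : ℝ) ^ 2) :=
    one_div_le_one_div_of_le (by positivity) (by nlinarith)
  have h6 : 2 / (β : ℝ) ^ 2 = 8 * (1 / (4 * (β : ℝ) ^ 2)) := by field_simp; norm_num
  have h7 := mul_le_mul_of_nonneg_right hd (Real.exp_pos (-8 * (β : ℝ) ^ 2)).le
  have h8 : (0 : ℝ) ≤ dd β := by positivity
  have h9 := mul_le_mul_of_nonneg_left h1 h8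
  rw [h2, h6]
  nlinarith

lemma bt_top {β : ℕ} (hβ : 100 ≤ β) :
    600 * (β : ℝ) ^ 3 * 2 ^ (4 * β ^ 2) + 2 * β + 50 * (β : ℝ) ^ 2 ≤ 2 ^ (4 * β ^ 2 + 4 * β) := by
  have hb : (100 : ℝ) ≤ β := by exact_mod_cast hβ
  have h1 : (β : ℝ) ≤ 2 ^ β := by exact_mod_cast Nat.lt_two_pow_self.le
  have h2 : (700 : ℝ) ≤ 2 ^ β := le_trans (by norm_num)
    (pow_le_pow_right₀ (by norm_num : (1 : ℝ) ≤ 2) (show 10 ≤ β by omega))
  have h3 : (β : ℝ) ^ 3 ≤ (2 ^ β) ^ 3 := pow_le_pow_left₀ (by linarith) h1 3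
  have h4 : 700 * (β : ℝ) ^ 3 ≤ 2 ^ (4 * β) := by
    have e : (2 : ℝ) ^ (4 * β) = 2 ^ β * (2 ^ β) ^ 3 := by rw [← pow_mul, ← pow_add]; congr 1; ring
    rw [e]; exact mul_le_mul h2 h3 (by positivity) (by positivity)
  have h5 : (1 : ℝ) ≤ 2 ^ (4 * β ^ 2) := one_le_pow₀ (by norm_num)
  rw [pow_add]
  have h6 := mul_le_mul_of_nonneg_left h4 (by positivity : (0 : ℝ) ≤ 2 ^ (4 * β ^ 2))
  have h7 : 100 * (β : ℝ) ^ 3 * 1 ≤ 100 * (β : ℝ) ^ 3 * 2 ^ (4 * β ^ 2) :=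
    mul_le_mul_of_nonneg_left h5 (by positivity)
  have h8 : 2 * (β : ℝ) + 50 * (β : ℝ) ^ 2 ≤ 100 * (β : ℝ) ^ 3 := by nlinarith
  nlinarith

lemma bt_gain_num {β : ℕ} (hβ : 100 ≤ β) :
    (2 : ℝ) ^ (4 * β ^ 2 + 4 * β) - dd β * Real.exp (-2 * ((β : ℝ) + 1) ^ 2 - 2)
      ≤ -2 ^ (5 * β ^ 2 - 1) := by
  have hb : (100 : ℝ) ≤ β := by exact_mod_cast hβ
  have h1 : (2 : ℝ) ^ (4 * β ^ 2 + 4 * β) ≤ 2 ^ (5 * β ^ 2 - 1) :=
    pow_le_pow_right₀ (by norm_num) (by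
      have : 100 * β ≤ β ^ 2 := by nlinarith
      omega)
  have h2 : (2 : ℝ) ^ (5 * β ^ 2) = 2 * 2 ^ (5 * β ^ 2 - 1) := by
    rw [← pow_succ']
    congr 1
    have : 1 ≤ β ^ 2 := Nat.one_le_pow _ _ (by omega)
    omega
  have h3 : (2 : ℝ) ^ (5 * β ^ 2) ≤ dd β * Real.exp (-2 * ((β : ℝ) + 1) ^ 2 - 2) := by
    unfold dd
    push_cast
    rw [bt_two_pow, bt_two_pow, ← Real.exp_add]
    refine Real.exp_le_exp.2 ?_
    push_cast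
    have hl1 := Real.log_two_gt_d9
    have h4 : 0.6931 * (β : ℝ) ^ 2 ≤ Real.log 2 * (β : ℝ) ^ 2 :=
      mul_le_mul_of_nonneg_right (by linarith) (by positivity)
    nlinarith
  linarith

lemma bt_prod_exp {n : ℕ} (f : Fin n → ℝ) (hf : ∀ c, 0 < f c) :
    ∏ c, f c = Real.exp (∑ c, Real.log (f c)) := by
  rw [Real.exp_sum]
  exact prod_congr rfl fun c _ => (Real.exp_log (hf c)).symm

lemma bt_union {P A E1 E2 E3 : Prop} (hA : A) :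
    1 - ind (¬ P) - ind E1 - ind E2 - ind E3 ≤ ind (P ∧ A ∧ ¬ E1 ∧ ¬ E2 ∧ ¬ E3) := by
  have h0 := ind_nonneg (¬ P)
  have h1 := ind_nonneg E1
  have h2 := ind_nonneg E2
  have h3 := ind_nonneg E3
  have h4 := ind_nonneg (P ∧ A ∧ ¬ E1 ∧ ¬ E2 ∧ ¬ E3)
  by_cases hP : P
  · by_cases e1 : E1
    · rw [ind_pos e1] at *; linarith
    · by_cases e2 : E2
      · rw [ind_pos e2] at *; linarith
      · by_cases e3 : E3
        · rw [ind_pos e3] at *; linarith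
        · rw [ind_pos (show P ∧ A ∧ ¬ E1 ∧ ¬ E2 ∧ ¬ E3 from ⟨hP, hA, e1, e2, e3⟩)]; linarith
  · rw [ind_pos hP] at *; linarith

lemma bt_total {W1 W2 : Finset ℤ} {q1 q2 : ℤ → ℝ} (r d : ℕ) {x : ℝ} (hx1 : x ≤ 1)
    (h1 : 1 - x ≤ ∑ i ∈ W1, q1 i) (h2 : 1 - x ≤ ∑ i ∈ W2, q2 i) :
    1 - (r + d) * x ≤ ∑ j ∈ Fintype.piFinset fun _ : Fin r => W1,
      ∑ s ∈ Fintype.piFinset fun _ : Fin d => W2, (∏ c, q1 (j c)) * ∏ c, q2 (s c) := by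
  rw [← sum_mul_sum, ← prod_univ_sum (fun _ => W1) fun _ i => q1 i,
    ← prod_univ_sum (fun _ => W2) fun _ i => q2 i]
  simp only [prod_const, card_univ, Fintype.card_fin]
  have h3 := one_add_mul_le_pow (a := -x) (by linarith) (r + d)
  have h4 : (1 + -x) ^ (r + d) ≤ (∑ i ∈ W1, q1 i) ^ r * (∑ i ∈ W2, q2 i) ^ d := by
    rw [pow_add]
    exact mul_le_mul (pow_le_pow_left₀ (by linarith) (by linarith) r)
      (pow_le_pow_left₀ (by linarith) (by linarith) d) (pow_nonneg (by linarith) d)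
      (pow_nonneg (by linarith) r)
  push_cast at h3
  linarith

lemma bt_lq {b η : ℝ} {J : ℕ} (hb : 100 ≤ b) (hη1 : Real.exp (-39 * b ^ 2) ≤ η)
    (hη2 : η ≤ Real.exp (-30 * b ^ 2)) (hJ : η * J = 4 * b) {i : ℤ} (hi : i ∈ Win J) :
    -50 * b ^ 2 ≤ Real.log (qq η i) ∧ Real.log (qq η i) ≤ -30 * b ^ 2 := by
  have hη : 0 < η := (Real.exp_pos _).trans_le hη1
  have hq : 0 < qq η i := mul_pos hη (rk_gd_pos _)
  obtain ⟨g1, g2⟩ := bt_gd_win hb hη (by linarith [bt_small hb]) hJ hi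
  constructor
  · rw [Real.le_log_iff_exp_le hq]
    have e : Real.exp (-48 * b ^ 2) = Real.exp (-39 * b ^ 2) * Real.exp (-9 * b ^ 2) := by
      rw [← Real.exp_add]; congr 1; ring
    refine le_trans (Real.exp_le_exp.2 (show -50 * b ^ 2 ≤ -48 * b ^ 2 by nlinarith)) ?_
    rw [e]
    exact mul_le_mul hη1 g1 (Real.exp_pos _).le hη.le
  · rw [Real.log_le_iff_le_exp hq]
    refine le_trans ?_ hη2
    exact mul_le_of_le_one_right hη.le (by linarith)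

lemma bt_lu {b η : ℝ} {p : ℕ} (hb : 100 ≤ b) (hη : 0 < η) (hη1 : η ≤ 1 / 2) (hp0 : 0 < p)
    (hp : η * p = 4 * b) {s : ℤ} (hs : s ∈ Win p) :
    -9 * b ^ 2 ≤ Real.log (p * qq η s) ∧ Real.log (p * qq η s) ≤ Real.log (fold η p s) ∧
      Real.log (fold η p s) ≤ b := by
  have hub : ∀ s ∈ Win p, Real.exp (-9 * b ^ 2) ≤ p * qq η s ∧ p * qq η s ≤ 2 * b := by
    intro s hs
    obtain ⟨g1, g2⟩ := bt_gd_win hb hη hη1 hp hs
    have e : (p : ℝ) * qq η s = 4 * b * gd (η * (|(s : ℝ)| + 2)) := by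
      unfold qq; rw [← hp]; ring
    rw [e]
    have := Real.exp_pos (-9 * b ^ 2)
    constructor <;> nlinarith
  have hexpb : 4 * b ≤ Real.exp b := by
    have h1 := Real.add_one_le_exp (b / 2)
    have e : Real.exp b = Real.exp (b / 2) * Real.exp (b / 2) := by
      rw [← Real.exp_add]; congr 1; ring
    nlinarith
  have hu : 0 < (p : ℝ) * qq η s := (Real.exp_pos _).trans_le (hub s hs).1
  refine ⟨(Real.le_log_iff_exp_le hu).2 (hub s hs).1, Real.log_le_log hu (bt_fold_lo hη hs),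
    (Real.log_le_iff_le_exp (hu.trans_le (bt_fold_lo hη hs))).2 ?_⟩
  have := bt_fold_hi hp0 (by linarith) (fun s hs => (hub s hs).2) (s : ZMod p)
  linarith

lemma bt_r {b D α m : ℝ} (hb : 100 ≤ b) (hD : b ^ 5 ≤ D) (hα1 : 30 * b ^ 2 ≤ α)
    (hα2 : α ≤ 50 * b ^ 2) (hm1 : 1 ≤ m) (hm2 : m ≤ b) :
    ∃ r : ℕ, r * α ≤ D ^ 2 * m - 300 * b ^ 3 * D - 2 * b ∧
      D ^ 2 * m - 300 * b ^ 3 * D - 2 * b < (r + 1) * α ∧ D ^ 2 ≤ 1000 * b ^ 2 * r ∧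
      (r : ℝ) ≤ D ^ 2 ∧ 4000 * b ≤ r := by
  have hb2 : 10000 ≤ b ^ 2 := by nlinarith
  have hb3 : 1000000 ≤ b ^ 3 := by nlinarith
  have hD3 : 10000 * b ^ 3 ≤ D := by
    have : b ^ 5 = b ^ 2 * b ^ 3 := by ring
    nlinarith
  have hD1 : 1 ≤ D := by linarith
  set X : ℝ := D ^ 2 * m - 300 * b ^ 3 * D - 2 * b with hX
  have hα : 0 < α := by linarith
  have hDD : 10000 * b ^ 3 * D ≤ D * D := mul_le_mul_of_nonneg_right hD3 (by linarith)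
  have hbb : b ≤ b ^ 3 := by nlinarith
  have hbD : b ^ 3 * 1 ≤ b ^ 3 * D := mul_le_mul_of_nonneg_left hD1 (by linarith)
  have hX1 : D ^ 2 / 2 ≤ X := by
    have h1 : D ^ 2 * 1 ≤ D ^ 2 * m := mul_le_mul_of_nonneg_left hm1 (by positivity)
    nlinarith
  have hX2 : X ≤ D ^ 2 * b := by
    have h1 : D ^ 2 * m ≤ D ^ 2 * b := mul_le_mul_of_nonneg_left hm2 (by positivity)
    linarith
  have hX0 : 0 ≤ X := le_trans (by positivity) hX1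
  set r : ℕ := ⌊X / α⌋₊ with hr
  have hr1 : r * α ≤ X := by
    have := Nat.floor_le (div_nonneg hX0 hα.le)
    rwa [le_div_iff₀ hα] at this
  have hr2 : X < (r + 1) * α := by
    have := Nat.lt_floor_add_one (X / α)
    rwa [div_lt_iff₀ hα] at this
  have hr0 : (0 : ℝ) ≤ r := by positivity
  have hrlo : D ^ 2 ≤ 1000 * b ^ 2 * r := by
    have h1 : ((r : ℝ) + 1) * α ≤ (r + 1) * (50 * b ^ 2) :=
      mul_le_mul_of_nonneg_left hα2 (by positivity)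
    have h3 : b ^ 2 ≤ b ^ 3 := by nlinarith
    have h2 : 1000 * b ^ 2 ≤ D ^ 2 := by nlinarith
    nlinarith
  refine ⟨r, hr1, hr2, hrlo, ?_, ?_⟩
  · have h1 : (r : ℝ) * (30 * b ^ 2) ≤ r * α := mul_le_mul_of_nonneg_left hα1 hr0
    have h2 : D ^ 2 * b ≤ D ^ 2 * (30 * b ^ 2) :=
      mul_le_mul_of_nonneg_left (by nlinarith) (by positivity)
    exact le_of_mul_le_mul_right (a := 30 * b ^ 2) (by linarith) (by positivity)
  · have h5 : b ^ 3 * 1000000 ≤ b ^ 3 * D := mul_le_mul_of_nonneg_left (by linarith) (by linarith)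
    have h4 : 1000 * b ^ 2 * (4000 * b) ≤ 1000 * b ^ 2 * r := by nlinarith
    exact le_of_mul_le_mul_left h4 (by positivity)

lemma bt_mass {α β : Type*} {S1 : Finset α} {S2 : Finset β} {w : α → β → ℝ}
    (hw : ∀ j s, 0 ≤ w j s) {P : α → Prop} {A : β → Prop} {E1 E2 E3 : α → β → Prop}
    (hA : ∀ s ∈ S2, A s) {δ : ℝ} (h : 1 - 2 * δ ≤ ∑ j ∈ S1, ∑ s ∈ S2, w j s)
    (h0 : ∑ j ∈ S1, ∑ s ∈ S2, w j s * ind (¬ P j) ≤ δ)
    (h1 : ∑ j ∈ S1, ∑ s ∈ S2, w j s * ind (E1 j s) ≤ δ)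
    (h2 : ∑ j ∈ S1, ∑ s ∈ S2, w j s * ind (E2 j s) ≤ δ)
    (h3 : ∑ j ∈ S1, ∑ s ∈ S2, w j s * ind (E3 j s) ≤ δ) :
    1 - 6 * δ ≤ ∑ j ∈ S1, ∑ s ∈ S2,
      w j s * ind (P j ∧ A s ∧ ¬ E1 j s ∧ ¬ E2 j s ∧ ¬ E3 j s) := by
  have key := sum_le_sum (s := S1) fun j _ => sum_le_sum (s := S2) fun s hs =>
    mul_le_mul_of_nonneg_left (bt_union (P := P j) (E1 := E1 j s) (E2 := E2 j s) (E3 := E3 j s)
      (hA s hs)) (hw j s)
  simp only [mul_sub, mul_one, sum_sub_distrib] at key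
  linarith

lemma bt_tailnum {b D r d : ℝ} (hb : 100 ≤ b) (hD : 1 ≤ D) (hr : r ≤ D ^ 2) (hd : d = D ^ 2) :
    Real.exp (-(1 / (100 * b ^ 2 * D)) * (300 * b ^ 3 * D) + (r + d) * (1 / D) ^ 2)
      ≤ 1 / b ^ 2 := by
  refine le_trans (Real.exp_le_exp.2 ?_) (bt_inv_sq hb)
  have e1 : 1 / (100 * b ^ 2 * D) * (300 * b ^ 3 * D) = 3 * b := by
    field_simp; norm_num
  have e2 : (r + d) * (1 / D) ^ 2 ≤ 2 := by
    rw [hd, div_pow, one_pow, mul_one_div, div_le_iff₀ (by positivity)]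
    linarith
  linarith

lemma bt_T0 (h : RKP) {η η' : ℝ} {J p r d : ℕ} (hη : 0 < η) (hη1 : η ≤ 1 / 100)
    (hJ : 1 ≤ η * J) (hη' : 0 < η') :
    ∑ j ∈ Fintype.piFinset fun _ : Fin r => Win J,
      ∑ s ∈ Fintype.piFinset fun _ : Fin d => Win p,
        (∏ c, qq η (j c)) * (∏ c, qq η' (s c)) * ind (¬ TypD η J j)
      ≤ Real.exp (-(r : ℝ) / 2000) := by
  have h1 := h.2.2.1 η J r hη hη1 hJ
  have h2 : ∑ s ∈ Fintype.piFinset fun _ : Fin d => Win p, ∏ c, qq η' (s c) ≤ 1 := by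
    rw [← prod_univ_sum (fun _ => Win p) fun _ a => qq η' a]
    exact prod_le_one (fun k _ => sum_nonneg fun a _ => rk_qq_nonneg hη' a)
      fun k _ => h.1 η' p hη'
  refine le_trans (sum_le_sum fun j _ => ?_) h1
  have e : ∑ s ∈ Fintype.piFinset fun _ : Fin d => Win p,
      (∏ c, qq η (j c)) * (∏ c, qq η' (s c)) * ind (¬ TypD η J j) =
      (∏ c, qq η (j c)) * ind (¬ TypD η J j) *
        ∑ s ∈ Fintype.piFinset fun _ : Fin d => Win p, ∏ c, qq η' (s c) := by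
    rw [mul_sum]
    exact sum_congr rfl fun s _ => by ring
  rw [e]
  exact mul_le_of_le_one_right
    (mul_nonneg (prod_nonneg fun c _ => rk_qq_nonneg hη _) (ind_nonneg _)) h2

lemma bt_exp_sq {b : ℝ} (hb : 0 ≤ b) : b ^ 2 ≤ Real.exp (2 * b) := by
  have h2 := Real.add_one_le_exp b
  have h3 : Real.exp (2 * b) = Real.exp b ^ 2 := by rw [← Real.exp_nat_mul]; norm_num
  rw [h3]; exact pow_le_pow_left₀ hb (by linarith) 2

/-- the statement with abstract parameters -/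
lemma bt_core (h : RKP) {b D ηD ηS x : ℝ} {J p d : ℕ} (hb : 100 ≤ b) (hD : b ^ 5 ≤ D)
    (hd : (d : ℝ) = D ^ 2) (hη1 : Real.exp (-39 * b ^ 2) ≤ ηD)
    (hη2 : ηD ≤ Real.exp (-30 * b ^ 2)) (hηS0 : 0 < ηS) (hSD : ηS ≤ ηD) (hp0 : 0 < p)
    (hDJ : ηD * J = 4 * b) (hSp : ηS * p = 4 * b) (hx9 : x ≤ 1 / 9) (hx0 : 0 ≤ x)
    (hloss : 2 * (d : ℝ) * x ≤ 2 / b ^ 2)
    (hmD : 1 - x ≤ ∑ i ∈ Win J, qq ηD i) (hmS : 1 - x ≤ ∑ i ∈ Win p, qq ηS i) :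
    ∃ (r : ℕ) (Typ : (Fin r → ℤ) → (Fin d → ℤ) → Prop), D ^ 2 ≤ 1000 * b ^ 2 * r ∧
      (r : ℝ) ≤ D ^ 2 ∧
      1 - 6 * (1 / b ^ 2) ≤ ∑ j ∈ Fintype.piFinset fun _ : Fin r => Win J,
        ∑ s ∈ Fintype.piFinset fun _ : Fin d => Win p,
          (∏ c, qq ηD (j c)) * (∏ c, qq ηS (s c)) * ind (Typ j s) ∧
      ∀ j s, Typ j s → TypD ηD J j ∧ (∀ c, s c ∈ Win p) ∧
        b ^ 2 ≤ (∏ c, qq ηD (j c)) * ∏ c, fold ηS p (s c) ∧
        (∏ c, qq ηD (j c)) * ∏ c, fold ηS p (s c)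
          ≤ Real.exp (600 * b ^ 3 * D + 2 * b + 50 * b ^ 2) ∧
        (∏ c, qq ηD (j c)) * ∏ c, (p * qq ηS (s c))
          ≤ Real.exp (600 * b ^ 3 * D + 2 * b + 50 * b ^ 2 -
            d * Real.exp (-2 * (b + 1) ^ 2 - 2)) := by
  have hηD0 : 0 < ηD := hηS0.trans_le hSD
  have hsm := hη2.trans (bt_small hb)
  have hp0' : (0 : ℝ) < p := by exact_mod_cast hp0
  have hb1 : b ≤ b ^ 2 := by nlinarith
  have hD1 : 1 ≤ D := le_trans (one_le_pow₀ (by linarith)) hD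
  have hsD : 0 < ∑ i ∈ Win J, qq ηD i := by linarith
  have hsS : 0 < ∑ i ∈ Win p, qq ηS i := by linarith
  have hqD0 := rk_qq_nonneg hηD0
  have hqS0 := rk_qq_nonneg hηS0
  have hqD : ∀ i, 0 < qq ηD i := fun i => mul_pos hηD0 (rk_gd_pos _)
  have hqS : ∀ i, 0 < qq ηS i := fun i => mul_pos hηS0 (rk_gd_pos _)
  set lq : ℤ → ℝ := fun i => Real.log (qq ηD i) with hlq
  set lu : ℤ → ℝ := fun s => Real.log (p * qq ηS s) with hlu
  set lf : ℤ → ℝ := fun s => Real.log (fold ηS p s) with hlf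
  have hlqb : ∀ i ∈ Win J, -50 * b ^ 2 ≤ lq i ∧ lq i ≤ -30 * b ^ 2 :=
    fun i hi => bt_lq hb hη1 hη2 hDJ hi
  have hlub : ∀ s ∈ Win p, -9 * b ^ 2 ≤ lu s ∧ lu s ≤ lf s ∧ lf s ≤ b :=
    fun s hs => bt_lu hb hηS0 (by linarith) hp0 hSp hs
  have hfpos : ∀ s ∈ Win p, 0 < fold ηS p s := fun s hs =>
    (mul_pos hp0' (hqS s)).trans_le (bt_fold_lo hηS0 hs)
  have hmD1 : -50 * b ^ 2 ≤ btMean (Win J) (qq ηD) lq :=
    bt_le_mean hqD0 hsD fun i hi => (hlqb i hi).1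
  have hmD2 : btMean (Win J) (qq ηD) lq ≤ -30 * b ^ 2 :=
    bt_mean_le hqD0 hsD fun i hi => (hlqb i hi).2
  have hmU1 : 1 ≤ btMean (Win p) (qq ηS) lu := bt_meanU hb hηS0 hSp (by linarith)
  have hmF1 : btMean (Win p) (qq ηS) lu + Real.exp (-2 * (b + 1) ^ 2 - 2) ≤
      btMean (Win p) (qq ηS) lf := bt_gain hb hηS0 (by linarith) hSp hsS
  have hmF2 : btMean (Win p) (qq ηS) lf ≤ b := bt_mean_le hqS0 hsS fun s hs => (hlub s hs).2.2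
  have hmF3 : 1 ≤ btMean (Win p) (qq ηS) lf := by
    linarith [Real.exp_pos (-2 * (b + 1) ^ 2 - 2)]
  have hlam0 : 0 < 1 / (100 * b ^ 2 * D) := by positivity
  have hl1 : |1 / (100 * b ^ 2 * D)| * (100 * b ^ 2) ≤ 1 / D := by
    rw [abs_of_pos hlam0]; apply le_of_eq; field_simp
  have hl2 : |-(1 / (100 * b ^ 2 * D))| * (100 * b ^ 2) ≤ 1 / D := by rwa [abs_neg]
  have hε : 1 / D ≤ 1 := by rw [div_le_one (by linarith)]; exact hD1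
  have rq : ∀ i ∈ Win J, -50 * b ^ 2 ≤ lq i ∧ lq i ≤ -50 * b ^ 2 + 100 * b ^ 2 := fun i hi =>
    ⟨(hlqb i hi).1, by linarith [(hlqb i hi).2]⟩
  have ru : ∀ i ∈ Win p, -50 * b ^ 2 ≤ lu i ∧ lu i ≤ -50 * b ^ 2 + 100 * b ^ 2 := fun i hi =>
    ⟨by linarith [(hlub i hi).1], by linarith [(hlub i hi).2.1, (hlub i hi).2.2]⟩
  have rf : ∀ i ∈ Win p, -50 * b ^ 2 ≤ lf i ∧ lf i ≤ -50 * b ^ 2 + 100 * b ^ 2 := fun i hi =>
    ⟨by linarith [(hlub i hi).1, (hlub i hi).2.1], by linarith [(hlub i hi).2.2]⟩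
  have hsD1 := h.1 ηD J hηD0
  have hsS1 := h.1 ηS p hηS0
  have m1 := bt_mgf hqD0 hsD hsD1 rq hl1 hε
  have m2 := bt_mgf hqD0 hsD hsD1 rq hl2 hε
  have m3 := bt_mgf hqS0 hsS hsS1 rf hl1 hε
  have m4 := bt_mgf hqS0 hsS hsS1 rf hl2 hε
  have m5 := bt_mgf hqS0 hsS hsS1 ru hl1 hε
  simp only [neg_mul_comm (1 / (100 * b ^ 2 * D))] at m2 m4
  generalize btMean (Win J) (qq ηD) lq = mD at *
  generalize btMean (Win p) (qq ηS) lu = mU at *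
  generalize btMean (Win p) (qq ηS) lf = mF at *
  obtain ⟨r, hr1, hr2, hrlo, hrhi, hr4⟩ :=
    bt_r (α := -mD) hb hD (by linarith) (by linarith) hmF3 hmF2
  have htail := bt_tailnum hb hD1 hrhi hd
  have T1 := (bt_tail hqD0 hqS0 r d _ hlam0.le m1 m3).trans htail
  have T2 := (bt_tail hqD0 hqS0 r d _ hlam0.le m2 m4).trans htail
  have T3 := (bt_tail hqD0 hqS0 r d _ hlam0.le m1 m5).trans htail
  have T0 := (bt_T0 h (p := p) (r := r) (d := d) hηD0 hsm (show 1 ≤ ηD * J by linarith)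
    hηS0).trans ((Real.exp_le_exp.2 (by linarith)).trans (bt_inv_sq hb))
  have Ttot := bt_total r d (by linarith) hmD hmS
  have hloss2 : ((r : ℝ) + d) * x ≤ 2 * (1 / b ^ 2) := by
    rw [mul_one_div]
    refine le_trans (mul_le_mul_of_nonneg_right ?_ hx0) hloss
    linarith
  refine ⟨r, _, hrlo, hrhi, bt_mass (w := fun (j : Fin r → ℤ) (s : Fin d → ℤ) =>
    (∏ c, qq ηD (j c)) * ∏ c, qq ηS (s c)) (A := fun s => ∀ c, s c ∈ Win p)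
    (fun j s => mul_nonneg (prod_nonneg fun c _ => hqD0 _) (prod_nonneg fun c _ => hqS0 _))
    (fun s hs => Fintype.mem_piFinset.1 hs) (by linarith) T0 T1 T2 T3, ?_⟩
  rintro j s ⟨hT, hs, e1, e2, e3⟩
  have hu : ∀ c, 0 < (p : ℝ) * qq ηS (s c) := fun c => mul_pos hp0' (hqS _)
  rw [bt_prod_exp _ fun c => hqD (j c), bt_prod_exp _ fun c => hfpos (s c) (hs c),
    bt_prod_exp _ hu, ← Real.exp_add, ← Real.exp_add]
  rw [not_lt] at e1 e2 e3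
  simp only [sum_neg_distrib, sum_sub_distrib, sum_const, card_univ, Fintype.card_fin,
    nsmul_eq_mul, hd] at e1 e2 e3
  refine ⟨hT, hs, ?_, Real.exp_le_exp.2 ?_, Real.exp_le_exp.2 ?_⟩
  · refine (bt_exp_sq (by linarith)).trans (Real.exp_le_exp.2 ?_)
    change 2 * b ≤ ∑ c, lq (j c) + ∑ c, lf (s c)
    linarith
  · change ∑ c, lq (j c) + ∑ c, lf (s c) ≤ _
    linarith
  · change ∑ c, lq (j c) + ∑ c, lu (s c) ≤ _
    have h1 := mul_le_mul_of_nonneg_left hmF1 (sq_nonneg D)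
    rw [hd]
    linarith

theorem bt (h : RKP) : BTP := by
  intro β hβ p hp1 hp2
  obtain ⟨hJ0, hη1, hη2⟩ := bt_eta hβ hp1 hp2
  have hb : (100 : ℝ) ≤ β := by exact_mod_cast hβ
  have hdd := bt_dd β
  have hloss := bt_loss hβ
  have htop := bt_top hβ
  have hgn := bt_gain_num hβ
  have hp0 : 0 < p := by omega
  have hJ0' : (0 : ℝ) < (p / 2 : ℕ) := by exact_mod_cast hJ0
  have hp0' : (0 : ℝ) < p := by exact_mod_cast hp0
  have hJp : ((p / 2 : ℕ) : ℝ) ≤ p := by exact_mod_cast Nat.div_le_self p 2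
  have hηD0 : (0 : ℝ) < 4 * β / (p / 2 : ℕ) := by positivity
  have hηS0 : (0 : ℝ) < 4 * β / p := by positivity
  have hSD : (4 * β / p : ℝ) ≤ 4 * β / (p / 2 : ℕ) :=
    div_le_div_of_nonneg_left (by positivity) hJ0' hJp
  have hDJ : (4 * β / (p / 2 : ℕ) : ℝ) * (p / 2 : ℕ) = 4 * β := div_mul_cancel₀ _ hJ0'.ne'
  have hSp : (4 * β / p : ℝ) * p = 4 * β := div_mul_cancel₀ _ hp0'.ne'
  have hx0 : 0 ≤ Real.exp (-(4 * (β : ℝ)) ^ 2 / 2) + 3 * Real.exp (-30 * (β : ℝ) ^ 2) := by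
    positivity
  have hx9 : Real.exp (-(4 * (β : ℝ)) ^ 2 / 2) + 3 * Real.exp (-30 * (β : ℝ) ^ 2) ≤ 1 / 9 := by
    have h1 : 2 / (β : ℝ) ^ 2 ≤ 2 / 10000 :=
      div_le_div_of_nonneg_left (by norm_num) (by norm_num) (by nlinarith)
    have h2 : 1 ≤ (dd β : ℝ) := by exact_mod_cast Nat.one_le_two_pow
    have h3 := mul_le_mul_of_nonneg_right h2 hx0
    linarith
  have hmD := h.2.1 _ (p / 2) hηD0
  have hmS := h.2.1 _ p hηS0
  rw [hDJ] at hmD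
  rw [hSp] at hmS
  obtain ⟨r, Typ, h1, h2, h3, h4⟩ := bt_core h hb (bt_D hβ) hdd hη1 hη2 hηS0 hSD hp0 hDJ hSp hx9
    hx0 hloss (by linarith) (by linarith)
  rw [← hdd] at h1 h2
  refine ⟨r, Typ, by exact_mod_cast h1, by exact_mod_cast h2, by rwa [mul_one_div] at h3,
    fun j s hT => ?_⟩
  obtain ⟨g1, g2, g3, g4, g5⟩ := h4 j s hT
  exact ⟨g1, g2, g3, g4.trans (Real.exp_le_exp.2 htop), g5.trans (Real.exp_le_exp.2 (by linarith))⟩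

end Vale.Agent.P230
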