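import Vale.Agent.P230.RK

/-! Tail bounds for sums of independent bounded terms and pointwise bounds for the block
weights. -/

open Finset

namespace Vale.Agent.P230

/-- weighted mean -/
noncomputable def btMean (W : Finset ℤ) (q f : ℤ → ℝ) : ℝ := (∑ i ∈ W, q i * f i) / ∑ i ∈ W, q i

lemma bt_mean_le {W : Finset ℤ} {q f : ℤ → ℝ} (hq : ∀ i, 0 ≤ q i) (hs : 0 < ∑ i ∈ W, q i)
    {B : ℝ} (hf : ∀ i ∈ W, f i ≤ B) : btMean W q f ≤ B := by
  unfold btMean
  rw [div_le_iff₀ hs, mul_sum]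
  exact sum_le_sum fun i hi => by
    rw [mul_comm B]; exact mul_le_mul_of_nonneg_left (hf i hi) (hq i)

lemma bt_le_mean {W : Finset ℤ} {q f : ℤ → ℝ} (hq : ∀ i, 0 ≤ q i) (hs : 0 < ∑ i ∈ W, q i)
    {A : ℝ} (hf : ∀ i ∈ W, A ≤ f i) : A ≤ btMean W q f := by
  unfold btMean
  rw [le_div_iff₀ hs, mul_sum]
  exact sum_le_sum fun i hi => by
    rw [mul_comm A]; exact mul_le_mul_of_nonneg_left (hf i hi) (hq i)

lemma bt_mgf {W : Finset ℤ} {q f : ℤ → ℝ} (hq : ∀ i, 0 ≤ q i) (hs : 0 < ∑ i ∈ W, q i)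
    (hs1 : ∑ i ∈ W, q i ≤ 1) {A L ε : ℝ} (hf : ∀ i ∈ W, A ≤ f i ∧ f i ≤ A + L) {lam : ℝ}
    (hl : |lam| * L ≤ ε) (hε : ε ≤ 1) :
    ∑ i ∈ W, q i * Real.exp (lam * (f i - btMean W q f)) ≤ Real.exp (ε ^ 2) := by
  set m := btMean W q f with hm
  have h1 : A ≤ m := bt_le_mean hq hs fun i hi => (hf i hi).1
  have h2 : m ≤ A + L := bt_mean_le hq hs fun i hi => (hf i hi).2
  have hpt : ∀ i ∈ W, q i * Real.exp (lam * (f i - m)) ≤
      q i * (1 + ε ^ 2) + lam * (q i * f i) - lam * m * q i := by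
    intro i hi
    have hd : |f i - m| ≤ L := abs_le.2 ⟨by linarith [(hf i hi).1], by linarith [(hf i hi).2]⟩
    have hx : |lam * (f i - m)| ≤ ε := by
      rw [abs_mul]; exact (mul_le_mul_of_nonneg_left hd (abs_nonneg _)).trans hl
    have h3 := (abs_le.1 (Real.abs_exp_sub_one_sub_id_le (hx.trans hε))).2
    have h4 : (lam * (f i - m)) ^ 2 ≤ ε ^ 2 := by
      rw [← sq_abs]; exact pow_le_pow_left₀ (abs_nonneg _) hx 2
    have h5 : Real.exp (lam * (f i - m)) ≤ 1 + ε ^ 2 + lam * (f i - m) := by linarith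
    have := mul_le_mul_of_nonneg_left h5 (hq i)
    linarith
  have h3 := sum_le_sum hpt
  rw [sum_sub_distrib, sum_add_distrib, ← sum_mul, ← mul_sum, ← mul_sum] at h3
  have h4 : ∑ i ∈ W, q i * f i = m * ∑ i ∈ W, q i := by
    rw [hm, btMean, div_mul_cancel₀ _ hs.ne']
  rw [h4] at h3
  have h5 := Real.add_one_le_exp (ε ^ 2)
  have h6 : (∑ i ∈ W, q i) * (1 + ε ^ 2) ≤ 1 * (1 + ε ^ 2) :=
    mul_le_mul_of_nonneg_right hs1 (by positivity)
  linarith

lemma bt_tail {W1 W2 : Finset ℤ} {q1 q2 g1 g2 : ℤ → ℝ} (hq1 : ∀ i, 0 ≤ q1 i)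
    (hq2 : ∀ i, 0 ≤ q2 i) (r d : ℕ) {lam K : ℝ} (t : ℝ) (hlam : 0 ≤ lam)
    (h1 : ∑ i ∈ W1, q1 i * Real.exp (lam * g1 i) ≤ Real.exp K)
    (h2 : ∑ i ∈ W2, q2 i * Real.exp (lam * g2 i) ≤ Real.exp K) :
    ∑ j ∈ Fintype.piFinset fun _ : Fin r => W1, ∑ s ∈ Fintype.piFinset fun _ : Fin d => W2,
      (∏ c, q1 (j c)) * (∏ c, q2 (s c)) * ind (t < ∑ c, g1 (j c) + ∑ c, g2 (s c))
      ≤ Real.exp (-lam * t + (r + d) * K) := by
  have hpt : ∀ (j : Fin r → ℤ) (s : Fin d → ℤ),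
      (∏ c, q1 (j c)) * (∏ c, q2 (s c)) * ind (t < ∑ c, g1 (j c) + ∑ c, g2 (s c)) ≤
      Real.exp (-lam * t) * ((∏ c, q1 (j c) * Real.exp (lam * g1 (j c))) *
        ∏ c, q2 (s c) * Real.exp (lam * g2 (s c))) := by
    intro j s
    rw [prod_mul_distrib, prod_mul_distrib, ← Real.exp_sum, ← Real.exp_sum, ← mul_sum, ← mul_sum]
    have hP : 0 ≤ (∏ c, q1 (j c)) * (∏ c, q2 (s c)) :=
      mul_nonneg (prod_nonneg fun c _ => hq1 _) (prod_nonneg fun c _ => hq2 _)
    have e : Real.exp (-lam * t) * (((∏ c, q1 (j c)) * Real.exp (lam * ∑ c, g1 (j c))) *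
        ((∏ c, q2 (s c)) * Real.exp (lam * ∑ c, g2 (s c)))) =
        (∏ c, q1 (j c)) * (∏ c, q2 (s c)) *
          Real.exp (lam * (∑ c, g1 (j c) + ∑ c, g2 (s c) - t)) := by
      rw [show lam * (∑ c, g1 (j c) + ∑ c, g2 (s c) - t) =
        -lam * t + (lam * ∑ c, g1 (j c) + lam * ∑ c, g2 (s c)) by ring, Real.exp_add, Real.exp_add]
      ring
    rw [e]
    refine mul_le_mul_of_nonneg_left ?_ hP
    by_cases hT : t < ∑ c, g1 (j c) + ∑ c, g2 (s c)
    · rw [ind_pos hT]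
      exact Real.one_le_exp (mul_nonneg hlam (by linarith))
    · rw [ind_neg hT]; exact (Real.exp_pos _).le
  have hA : ∑ j ∈ Fintype.piFinset fun _ : Fin r => W1,
      ∏ c, q1 (j c) * Real.exp (lam * g1 (j c)) ≤ Real.exp (r * K) := by
    rw [← prod_univ_sum (fun _ => W1) fun _ i => q1 i * Real.exp (lam * g1 i)]
    refine (prod_le_prod (fun c _ => sum_nonneg fun i _ =>
      mul_nonneg (hq1 i) (Real.exp_pos _).le) fun c _ => h1).trans ?_
    rw [← Real.exp_sum]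
    simp
  have hB : ∑ s ∈ Fintype.piFinset fun _ : Fin d => W2,
      ∏ c, q2 (s c) * Real.exp (lam * g2 (s c)) ≤ Real.exp (d * K) := by
    rw [← prod_univ_sum (fun _ => W2) fun _ i => q2 i * Real.exp (lam * g2 i)]
    refine (prod_le_prod (fun c _ => sum_nonneg fun i _ =>
      mul_nonneg (hq2 i) (Real.exp_pos _).le) fun c _ => h2).trans ?_
    rw [← Real.exp_sum]
    simp
  calc _ ≤ ∑ j ∈ Fintype.piFinset fun _ : Fin r => W1,
        ∑ s ∈ Fintype.piFinset fun _ : Fin d => W2,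
          Real.exp (-lam * t) * ((∏ c, q1 (j c) * Real.exp (lam * g1 (j c))) *
            ∏ c, q2 (s c) * Real.exp (lam * g2 (s c))) :=
        sum_le_sum fun j _ => sum_le_sum fun s _ => hpt j s
    _ = Real.exp (-lam * t) * ((∑ j ∈ Fintype.piFinset fun _ : Fin r => W1,
          ∏ c, q1 (j c) * Real.exp (lam * g1 (j c))) *
        ∑ s ∈ Fintype.piFinset fun _ : Fin d => W2,
          ∏ c, q2 (s c) * Real.exp (lam * g2 (s c))) := by
        rw [sum_mul_sum, mul_sum]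
        refine sum_congr rfl fun j _ => ?_
        rw [mul_sum]
    _ ≤ Real.exp (-lam * t) * (Real.exp (r * K) * Real.exp (d * K)) := by
        refine mul_le_mul_of_nonneg_left (mul_le_mul hA hB ?_ (Real.exp_pos _).le)
          (Real.exp_pos _).le
        exact sum_nonneg fun s _ => prod_nonneg fun c _ => mul_nonneg (hq2 _) (Real.exp_pos _).le
    _ = _ := by rw [← Real.exp_add, ← Real.exp_add]; congr 1; ring

lemma bt_abs_le {J : ℕ} {i : ℤ} (hi : i ∈ Win J) : |(i : ℝ)| ≤ J := by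
  simp only [Win, mem_Ico] at hi
  have : |i| ≤ (J : ℤ) := abs_le.2 ⟨hi.1, hi.2.le⟩
  exact_mod_cast this

lemma bt_gd_lo (x : ℝ) : Real.exp (-x ^ 2 / 2 - 1) ≤ gd x := by
  unfold gd
  have h1 := rk_sqrt_lo
  have h2 := rk_sqrt_hi
  have h3 := Real.exp_one_gt_d9
  rw [le_div_iff₀ (by linarith), Real.exp_sub, div_mul_eq_mul_div,
    div_le_iff₀ (Real.exp_pos _)]
  exact mul_le_mul_of_nonneg_left (by linarith) (Real.exp_pos _).le

lemma bt_gd_hi {x : ℝ} (hx : 0 ≤ x) : gd x ≤ 2 / 5 :=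
  (rk_gd_anti (Set.mem_Ici.2 le_rfl) (Set.mem_Ici.2 hx) hx).trans rk_gd_zero

/-- the weight on the window lies between two explicit bounds -/
lemma bt_gd_win {b η : ℝ} {J : ℕ} (hb : 100 ≤ b) (hη : 0 < η) (hη1 : η ≤ 1 / 2)
    (hJ : η * J = 4 * b) {i : ℤ} (hi : i ∈ Win J) :
    Real.exp (-9 * b ^ 2) ≤ gd (η * (|(i : ℝ)| + 2)) ∧ gd (η * (|(i : ℝ)| + 2)) ≤ 2 / 5 := by
  have h0 : 0 ≤ η * (|(i : ℝ)| + 2) := by positivity
  have h1 : η * (|(i : ℝ)| + 2) ≤ 4 * b + 1 := by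
    have := mul_le_mul_of_nonneg_left (bt_abs_le hi) hη.le
    linarith
  refine ⟨le_trans (Real.exp_le_exp.2 ?_) (bt_gd_lo _), bt_gd_hi h0⟩
  have := pow_le_pow_left₀ h0 h1 2
  nlinarith

lemma bt_class {p : ℕ} (hp : 0 < p) (τ : ZMod p) :
    ((Win p).filter fun s : ℤ => (s : ZMod p) = τ).card ≤ 2 := by
  classical
  have : NeZero p := ⟨hp.ne'⟩
  have hsub : ((Win p).filter fun s : ℤ => (s : ZMod p) = τ) ⊆ {(τ.val : ℤ), (τ.val : ℤ) - p} := by
    intro s hs
    obtain ⟨h1, h2⟩ := mem_filter.1 hs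
    simp only [Win, mem_Ico] at h1
    have h3 : ((τ.val : ℤ) : ZMod p) = (s : ZMod p) := by
      rw [h2]; simp
    obtain ⟨k, hk⟩ := (ZMod.intCast_eq_intCast_iff_dvd_sub _ _ p).1 h3
    have hv : (τ.val : ℤ) < p := by exact_mod_cast ZMod.val_lt τ
    have hv0 : (0 : ℤ) ≤ τ.val := by positivity
    have hp' : (0 : ℤ) < p := by exact_mod_cast hp
    have k1 : k < 1 := by
      by_contra hc
      have : (p : ℤ) * 1 ≤ p * k := mul_le_mul_of_nonneg_left (not_lt.1 hc) hp'.le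
      omega
    have k2 : -2 < k := by
      by_contra hc
      have : (p : ℤ) * k ≤ p * (-2) := mul_le_mul_of_nonneg_left (not_lt.1 hc) hp'.le
      omega
    simp only [mem_insert, mem_singleton]
    have hk' : k = 0 ∨ k = -1 := by omega
    rcases hk' with rfl | rfl
    · left; omega
    · right; omega
  exact (card_le_card hsub).trans card_le_two

lemma bt_fold_hi {η B : ℝ} {p : ℕ} (hp : 0 < p) (hB0 : 0 ≤ B)
    (hB : ∀ s ∈ Win p, p * qq η s ≤ B) (τ : ZMod p) : fold η p τ ≤ 2 * B := by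
  classical
  unfold fold
  rw [mul_sum]
  have h1 : ∀ s ∈ Win p, (p : ℝ) * (qq η s * ind ((s : ZMod p) = τ)) ≤
      B * ind ((s : ZMod p) = τ) := fun s hs => by
    rw [← mul_assoc]; exact mul_le_mul_of_nonneg_right (hB s hs) (ind_nonneg _)
  refine (sum_le_sum h1).trans ?_
  rw [← mul_sum, sum_ind, mul_comm]
  refine mul_le_mul_of_nonneg_right ?_ hB0
  exact_mod_cast bt_class hp τ

lemma bt_fold_lo {η : ℝ} (hη : 0 < η) {p : ℕ} {s : ℤ} (hs : s ∈ Win p) :
    p * qq η s ≤ fold η p s := by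
  unfold fold
  refine mul_le_mul_of_nonneg_left ?_ (by positivity)
  have := single_le_sum (f := fun x : ℤ => qq η x * ind ((x : ZMod p) = (s : ZMod p)))
    (fun x _ => mul_nonneg (rk_qq_nonneg hη x) (ind_nonneg _)) hs
  rwa [ind_pos rfl, mul_one] at this

lemma bt_fold_two {η : ℝ} (hη : 0 < η) {p : ℕ} {s : ℤ} (h1 : (p : ℤ) < 2 * s) (h2 : s < p) :
    2 * (p * qq η s) ≤ fold η p s := by
  unfold fold
  have hsub : ({s, s - p} : Finset ℤ) ⊆ Win p := by
    intro x hx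
    simp only [mem_insert, mem_singleton] at hx
    simp only [Win, mem_Ico]
    omega
  have h3 := sum_le_sum_of_subset_of_nonneg hsub
    (f := fun x : ℤ => qq η x * ind ((x : ZMod p) = (s : ZMod p)))
    (fun x _ _ => mul_nonneg (rk_qq_nonneg hη x) (ind_nonneg _))
  have hne : s ≠ s - p := by omega
  rw [sum_pair hne, ind_pos rfl, ind_pos (by simp), mul_one, mul_one] at h3
  have h4 : qq η s ≤ qq η (s - p) := by
    unfold qq
    refine mul_le_mul_of_nonneg_left (rk_gd_anti (Set.mem_Ici.2 (by positivity))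
      (Set.mem_Ici.2 (by positivity)) (mul_le_mul_of_nonneg_left ?_ hη.le)) hη.le
    have : |s - p| ≤ |s| := by
      rw [abs_of_nonpos (by omega), abs_of_nonneg (by omega)]; omega
    have h5 : |((s - p : ℤ) : ℝ)| ≤ |(s : ℝ)| := by exact_mod_cast this
    linarith
  have hp : (0 : ℝ) ≤ p := by positivity
  nlinarith

/-- second moment of the discretised Gaussian -/
lemma bt_second {η : ℝ} (hη : 0 < η) (J : ℕ) :
    ∑ i ∈ Win J, qq η i * ((η * (|(i : ℝ)| + 2)) ^ 2 / 2) ≤ 8 / 3 := by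
  have h1 : ∀ i ∈ Win J, qq η i * ((η * (|(i : ℝ)| + 2)) ^ 2 / 2) ≤ 8 / 3 * qq (η / 2) i := by
    intro i _
    unfold qq gd
    set y := η * (|(i : ℝ)| + 2) with hy
    have e : η / 2 * (|(i : ℝ)| + 2) = y / 2 := by rw [hy]; ring
    rw [e]
    have h2 := Real.add_one_le_exp (3 * y ^ 2 / 8)
    have e2 : Real.exp (-(y / 2) ^ 2 / 2) = Real.exp (-y ^ 2 / 2) * Real.exp (3 * y ^ 2 / 8) := by
      rw [← Real.exp_add]; congr 1; ring
    rw [e2]
    have h3 := rk_sqrt_lo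
    have h4 : 0 ≤ η * (Real.exp (-y ^ 2 / 2) / √(2 * Real.pi)) := by positivity
    have h5 : y ^ 2 / 2 ≤ 4 / 3 * Real.exp (3 * y ^ 2 / 8) := by linarith
    calc _ ≤ η * (Real.exp (-y ^ 2 / 2) / √(2 * Real.pi)) * (4 / 3 * Real.exp (3 * y ^ 2 / 8)) :=
          mul_le_mul_of_nonneg_left h5 h4
      _ = _ := by ring
  refine (sum_le_sum h1).trans ?_
  rw [← mul_sum]
  have := rk_one (η / 2) J (by positivity)
  linarith

/-- mean of the logarithm of the rescaled weight -/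
lemma bt_meanU {b η : ℝ} {p : ℕ} (hb : 100 ≤ b) (hη : 0 < η) (hp : η * p = 4 * b)
    (hs : 8 / 9 ≤ ∑ i ∈ Win p, qq η i) :
    1 ≤ btMean (Win p) (qq η) (fun s => Real.log (p * qq η s)) := by
  unfold btMean
  rw [le_div_iff₀ (by linarith)]
  have h1 : ∀ s ∈ Win p, qq η s * 4 - qq η s * ((η * (|(s : ℝ)| + 2)) ^ 2 / 2) ≤
      qq η s * Real.log (p * qq η s) := by
    intro s _
    rw [← mul_sub]
    refine mul_le_mul_of_nonneg_left ?_ (rk_qq_nonneg hη s)
    set y := η * (|(s : ℝ)| + 2) with hy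
    have e : (p : ℝ) * qq η s = 4 * b * gd y := by
      unfold qq; rw [← hp]; ring
    rw [e, Real.le_log_iff_exp_le (mul_pos (by linarith) (rk_gd_pos y))]
    have h2 := bt_gd_lo y
    have h3 : Real.exp 5 ≤ 400 := by
      have h4 : Real.exp 5 = Real.exp 1 ^ 5 := by rw [← Real.exp_nat_mul]; norm_num
      have h5 := pow_le_pow_left₀ (Real.exp_pos 1).le (Real.exp_one_lt_d9.le.trans
        (show (2.7182818286 : ℝ) ≤ 3 by norm_num)) 5
      rw [h4]; linarith
    have e2 : Real.exp (4 - y ^ 2 / 2) = Real.exp 5 * Real.exp (-y ^ 2 / 2 - 1) := by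
      rw [← Real.exp_add]; congr 1; ring
    rw [e2]
    exact mul_le_mul (by linarith) h2 (Real.exp_pos _).le (by linarith)
  have h2 := sum_le_sum h1
  rw [sum_sub_distrib, ← sum_mul] at h2
  have h3 := bt_second hη p
  linarith

/-- the folding gains a definite amount of entropy -/
lemma bt_gain {b η : ℝ} {p : ℕ} (hb : 100 ≤ b) (hη : 0 < η) (hη1 : η ≤ 1 / 10)
    (hp : η * p = 4 * b) (hs : 0 < ∑ i ∈ Win p, qq η i) :
    btMean (Win p) (qq η) (fun s => Real.log (p * qq η s)) + Real.exp (-2 * (b + 1) ^ 2 - 2) ≤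
      btMean (Win p) (qq η) (fun s => Real.log (fold η p s)) := by
  have hp0 : (0 : ℝ) < p := by
    by_contra hc
    have : (p : ℝ) = 0 := le_antisymm (not_lt.1 hc) (by positivity)
    rw [this] at hp; linarith
  have hqpos : ∀ s, 0 < qq η s := fun s => mul_pos hη (rk_gd_pos _)
  set N := ⌈1 / η⌉₊ with hN
  have hN1 : 1 / η ≤ N := Nat.le_ceil _
  have hN2 : (N : ℝ) < 1 / η + 1 := Nat.ceil_lt_add_one (by positivity)
  have hN1' : 1 ≤ η * N := by rw [div_le_iff₀ hη] at hN1; linarith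
  have hN2' : η * N < 1 + η := by
    have := mul_lt_mul_of_pos_left hN2 hη
    rwa [mul_add, mul_one_div_cancel hη.ne', mul_one] at this
  set J := p / 2 with hJ
  have hJ1 : (J : ℝ) ≤ p / 2 := Nat.cast_div_le
  set A : Finset ℤ := Finset.Ico ((J : ℤ) + 1) (J + 1 + N) with hA
  have hJN : J + 1 + N ≤ p := by
    have : (J : ℝ) + 1 + N ≤ p := by
      by_contra hc
      have := mul_lt_mul_of_pos_left (not_le.1 hc) hη
      have h2 := mul_le_mul_of_nonneg_left hJ1 hη.le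
      nlinarith
    exact_mod_cast this
  have hAW : A ⊆ Win p := by
    intro x hx
    simp only [hA, Win, mem_Ico] at hx ⊢
    omega
  set g : ℤ → ℝ := fun s => Real.log (fold η p s) - Real.log (p * qq η s) with hg
  have hg0 : ∀ s ∈ Win p, 0 ≤ g s := fun s hs =>
    sub_nonneg.2 (Real.log_le_log (mul_pos hp0 (hqpos s)) (bt_fold_lo hη hs))
  have hgA : ∀ s ∈ A, η * Real.exp (-2 * (b + 1) ^ 2 - 2) ≤ qq η s * g s := by
    intro s hs
    simp only [hA, mem_Ico] at hs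
    have h1 : Real.log 2 ≤ g s := by
      have h2 := Real.log_le_log (mul_pos two_pos (mul_pos hp0 (hqpos s)))
        (bt_fold_two hη (p := p) (s := s) (by omega) (by omega))
      rw [Real.log_mul two_ne_zero (mul_pos hp0 (hqpos s)).ne'] at h2
      simp only [hg]; linarith
    have h2 : η * (|(s : ℝ)| + 2) ≤ 2 * (b + 1) := by
      have h3 : |s| ≤ (J : ℤ) + N := by rw [abs_of_nonneg (by omega)]; omega
      have h4 : |(s : ℝ)| ≤ J + N := by exact_mod_cast h3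
      have h5 := mul_le_mul_of_nonneg_left h4 hη.le
      have h6 := mul_le_mul_of_nonneg_left hJ1 hη.le
      nlinarith
    have h3 : Real.exp (-2 * (b + 1) ^ 2 - 1) ≤ gd (η * (|(s : ℝ)| + 2)) := by
      refine le_trans (Real.exp_le_exp.2 ?_) (bt_gd_lo _)
      have := pow_le_pow_left₀ (by positivity) h2 2
      nlinarith
    have h4 : Real.exp (-1) ≤ g s := by
      have h5 := Real.log_two_gt_d9
      have h6 : Real.exp (-1) * Real.exp 1 = 1 := by rw [← Real.exp_add]; norm_num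
      have h7 := Real.exp_one_gt_d9
      have h8 := Real.exp_pos (-1)
      nlinarith
    have e : Real.exp (-2 * (b + 1) ^ 2 - 2) = Real.exp (-2 * (b + 1) ^ 2 - 1) * Real.exp (-1) := by
      rw [← Real.exp_add]; congr 1; ring
    rw [e, ← mul_assoc]
    unfold qq
    exact mul_le_mul (mul_le_mul_of_nonneg_left h3 hη.le) h4 (Real.exp_pos _).le
      (mul_pos hη (rk_gd_pos _)).le
  have h1 := card_nsmul_le_sum _ _ _ hgA
  have hcard : A.card = N := by simp only [hA, Int.card_Ico]; omega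
  rw [hcard, nsmul_eq_mul] at h1
  have h2 := sum_le_sum_of_subset_of_nonneg hAW (f := fun s => qq η s * g s)
    (fun s hs _ => mul_nonneg (hqpos s).le (hg0 s hs))
  have h3 : ∑ s ∈ Win p, qq η s * g s = ∑ s ∈ Win p, qq η s * Real.log (fold η p s) -
      ∑ s ∈ Win p, qq η s * Real.log (p * qq η s) := by
    rw [← sum_sub_distrib]
    exact sum_congr rfl fun s _ => by simp only [hg]; ring
  have h4 := rk_one η p hη
  have h5 := Real.exp_pos (-2 * (b + 1) ^ 2 - 2)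
  unfold btMean
  rw [div_add' _ _ _ hs.ne']
  refine div_le_div_of_nonneg_right ?_ hs.le
  have h6 : Real.exp (-2 * (b + 1) ^ 2 - 2) * ∑ i ∈ Win p, qq η i ≤
      Real.exp (-2 * (b + 1) ^ 2 - 2) * 1 := mul_le_mul_of_nonneg_left h4 h5.le
  have h7 : 1 * Real.exp (-2 * (b + 1) ^ 2 - 2) ≤ η * N * Real.exp (-2 * (b + 1) ^ 2 - 2) :=
    mul_le_mul_of_nonneg_right hN1' h5.le
  nlinarith

end Vale.Agent.P230
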