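import Mathlib

/-! Finite Bernoulli product spaces and the planting operator. -/

open Finset

namespace Vale.Agent.P230

variable {ι : Type*} [Fintype ι] [DecidableEq ι]

/-- weight of a configuration -/
noncomputable def wt (p : ι → ℝ) (ω : ι → Bool) : ℝ := ∏ u, if ω u then p u else 1 - p u

/-- expectation -/
noncomputable def Ex (p : ι → ℝ) (f : (ι → Bool) → ℝ) : ℝ := ∑ ω, wt p ω * f ω

/-- `f` depends only on the coordinates in `S` -/
def Dep (f : (ι → Bool) → ℝ) (S : Finset ι) : Prop :=
  ∀ ω ω' : ι → Bool, (∀ u ∈ S, ω u = ω' u) → f ω = f ω'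

section basic
variable {p : ι → ℝ}

lemma wt_nonneg (h0 : ∀ u, 0 ≤ p u) (h1 : ∀ u, p u ≤ 1) (ω : ι → Bool) : 0 ≤ wt p ω := by
  unfold wt
  refine prod_nonneg fun u _ => ?_
  split_ifs
  · exact h0 u
  · linarith [h1 u]

lemma sum_wt (p : ι → ℝ) : ∑ ω, wt p ω = 1 := by
  unfold wt
  have := Finset.prod_univ_sum (fun _ : ι => (univ : Finset Bool))
    (fun u (b : Bool) => if b then p u else 1 - p u)
  rw [Fintype.piFinset_univ] at this
  rw [← this]
  simp

lemma Ex_const (p : ι → ℝ) (c : ℝ) : Ex p (fun _ => c) = c := by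
  unfold Ex
  rw [← sum_mul, sum_wt, one_mul]

lemma Ex_mono (h0 : ∀ u, 0 ≤ p u) (h1 : ∀ u, p u ≤ 1) {f g : (ι → Bool) → ℝ}
    (h : ∀ ω, f ω ≤ g ω) : Ex p f ≤ Ex p g :=
  sum_le_sum fun ω _ => mul_le_mul_of_nonneg_left (h ω) (wt_nonneg h0 h1 ω)

lemma Ex_nonneg (h0 : ∀ u, 0 ≤ p u) (h1 : ∀ u, p u ≤ 1) {f : (ι → Bool) → ℝ}
    (h : ∀ ω, 0 ≤ f ω) : 0 ≤ Ex p f :=
  sum_nonneg fun ω _ => mul_nonneg (wt_nonneg h0 h1 ω) (h ω)

lemma Ex_add (f g : (ι → Bool) → ℝ) : Ex p (fun ω => f ω + g ω) = Ex p f + Ex p g := by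
  unfold Ex; rw [← sum_add_distrib]; simp [mul_add]

lemma Ex_sub (f g : (ι → Bool) → ℝ) : Ex p (fun ω => f ω - g ω) = Ex p f - Ex p g := by
  unfold Ex; rw [← sum_sub_distrib]; simp [mul_sub]

lemma Ex_smul (c : ℝ) (f : (ι → Bool) → ℝ) : Ex p (fun ω => c * f ω) = c * Ex p f := by
  unfold Ex; rw [mul_sum]; exact sum_congr rfl fun ω _ => by ring

lemma Ex_sum {κ : Type*} (s : Finset κ) (f : κ → (ι → Bool) → ℝ) :
    Ex p (fun ω => ∑ k ∈ s, f k ω) = ∑ k ∈ s, Ex p (f k) := by
  unfold Ex; rw [sum_comm]; simp [mul_sum]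

lemma Ex_congr {f g : (ι → Bool) → ℝ} (h : ∀ ω, f ω = g ω) : Ex p f = Ex p g := by
  have : f = g := funext h
  rw [this]

lemma Dep.mono {f : (ι → Bool) → ℝ} {S T : Finset ι} (h : Dep f S) (hST : S ⊆ T) : Dep f T :=
  fun ω ω' hω => h ω ω' fun u hu => hω u (hST hu)

lemma Dep.mul {f g : (ι → Bool) → ℝ} {S : Finset ι} (hf : Dep f S) (hg : Dep g S) :
    Dep (fun ω => f ω * g ω) S := fun ω ω' hω => by
  simp only [hf ω ω' hω, hg ω ω' hω]

/-- independence of functions of disjoint sets of coordinates -/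
lemma Ex_mul_indep {f g : (ι → Bool) → ℝ} {S T : Finset ι} (hf : Dep f S) (hg : Dep g T)
    (hST : Disjoint S T) : Ex p (fun ω => f ω * g ω) = Ex p f * Ex p g := by
  let sw : (ι → Bool) × (ι → Bool) → (ι → Bool) × (ι → Bool) := fun x =>
    (fun u => if u ∈ S then x.1 u else x.2 u, fun u => if u ∈ S then x.2 u else x.1 u)
  have hinv : Function.Involutive sw := by
    intro x
    ext u <;> simp only [sw] <;> split_ifs <;> rfl
  have h1 : Ex p f * Ex p g
      = ∑ x : (ι → Bool) × (ι → Bool), wt p x.1 * wt p x.2 * (f x.1 * g x.2) := by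
    unfold Ex
    rw [sum_mul_sum, Fintype.sum_prod_type]
    refine sum_congr rfl fun a _ => sum_congr rfl fun b _ => by ring
  have h2 : Ex p (fun ω => f ω * g ω)
      = ∑ x : (ι → Bool) × (ι → Bool), wt p x.1 * wt p x.2 * (f x.1 * g x.1) := by
    unfold Ex
    rw [Fintype.sum_prod_type]
    refine sum_congr rfl fun a _ => ?_
    have : ∑ b : ι → Bool, wt p a * wt p b * (f a * g a)
        = (wt p a * (f a * g a)) * ∑ b : ι → Bool, wt p b := by
      rw [mul_sum]; exact sum_congr rfl fun b _ => by ring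
    rw [this, sum_wt, mul_one]
  rw [h1, h2, ← Equiv.sum_comp hinv.toPerm]
  refine sum_congr rfl fun x _ => ?_
  have hw : wt p (sw x).1 * wt p (sw x).2 = wt p x.1 * wt p x.2 := by
    unfold wt
    rw [← prod_mul_distrib, ← prod_mul_distrib]
    refine prod_congr rfl fun u _ => ?_
    simp only [sw]
    by_cases hu : u ∈ S <;> simp [hu, mul_comm]
  have hf' : f (sw x).1 = f x.1 := hf _ _ fun u hu => by simp [sw, hu]
  have hg' : g (sw x).1 = g x.2 := hg _ _ fun u hu => by
    have : u ∉ S := fun h => (Finset.disjoint_left.1 hST h) hu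
    simp [sw, this]
  simp only [Function.Involutive.coe_toPerm]
  rw [hw, hf', hg']

/-- product over pairwise disjoint dependence sets -/
lemma Ex_prod_indep {κ : Type*} [DecidableEq κ] (s : Finset κ) (f : κ → (ι → Bool) → ℝ)
    (S : κ → Finset ι) (hf : ∀ k ∈ s, Dep (f k) (S k))
    (hS : ∀ k ∈ s, ∀ l ∈ s, k ≠ l → Disjoint (S k) (S l)) :
    Ex p (fun ω => ∏ k ∈ s, f k ω) = ∏ k ∈ s, Ex p (f k) := by
  induction s using Finset.induction_on with
  | empty => simp [Ex_const]
  | insert a s ha ih =>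
    simp only [prod_insert ha]
    have hdep : Dep (fun ω => ∏ k ∈ s, f k ω) (s.biUnion S) := by
      intro ω ω' hω
      refine prod_congr rfl fun k hk => hf k (mem_insert_of_mem hk) _ _ fun u hu => hω u ?_
      exact mem_biUnion.2 ⟨k, hk, hu⟩
    rw [Ex_mul_indep (hf a (mem_insert_self _ _)) hdep, ih]
    · exact fun k hk => hf k (mem_insert_of_mem hk)
    · exact fun k hk l hl => hS k (mem_insert_of_mem hk) l (mem_insert_of_mem hl)
    · rw [disjoint_biUnion_right]
      intro k hk
      exact hS a (mem_insert_self _ _) k (mem_insert_of_mem hk) (fun h => ha (h ▸ hk))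

/-- flipping one coordinate -/
lemma Ex_flip (u : ι) (g : (ι → Bool) → ℝ) :
    Ex p (fun ω => if ω u then (1 - p u) * g (Function.update ω u false) else 0)
      = Ex p (fun ω => if ω u then 0 else p u * g ω) := by
  let fl : (ι → Bool) → (ι → Bool) := fun ω => Function.update ω u (!ω u)
  have hinv : Function.Involutive fl := by
    intro ω; ext v; by_cases h : v = u
    · subst h; simp [fl]
    · simp [fl, Function.update_of_ne h]
  unfold Ex
  rw [← Equiv.sum_comp hinv.toPerm]
  refine sum_congr rfl fun ω _ => ?_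
  simp only [Function.Involutive.coe_toPerm, fl, Function.update_self]
  cases hω : ω u
  · have h1 : Function.update (Function.update ω u true) u false = ω := by
      ext v; by_cases h : v = u
      · subst h; simp [hω]
      · simp [Function.update_of_ne h]
    simp only [Bool.not_false, if_true, h1, Bool.false_eq_true, if_false]
    have : wt p (Function.update ω u true) * (1 - p u) = wt p ω * p u := by
      unfold wt
      rw [← mul_prod_erase univ _ (mem_univ u), ← mul_prod_erase univ
        (fun v => if ω v = true then p v else 1 - p v) (mem_univ u)]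
      have : ∏ x ∈ univ.erase u, (if Function.update ω u true x = true then p x else 1 - p x)
          = ∏ x ∈ univ.erase u, (if ω x = true then p x else 1 - p x) :=
        prod_congr rfl fun v hv => by rw [Function.update_of_ne (ne_of_mem_erase hv)]
      rw [this]
      simp [hω]; ring
    calc wt p (Function.update ω u true) * ((1 - p u) * g ω)
        = (wt p (Function.update ω u true) * (1 - p u)) * g ω := by ring
      _ = wt p ω * (p u * g ω) := by rw [this]; ring
  · simp

end basic

end Vale.Agent.P230
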