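import Vale.Agent.P230.Config

/-! The random body: convexity, volume, and the union bound. -/

open MeasureTheory Finset Metric
open scoped ENNReal

namespace Vale.Agent.P230

variable {n : ℕ}

lemma isConvexBody_KB {a R : ℝ} (ha : 0 < a) (ha1 : a ≤ 1 / 2) (hR : 0 < R)
    (ω : Gr n R → Bool) : IsConvexBody (KB a R ω) := by
  have hset : {z : E n | ∀ v : Gr n R, ω v = true →
      ‖z‖ ^ 2 - (1 - a ^ 2) * R ^ 2 ≤ ‖z - emb v.1‖ ^ 2}
      = ⋂ v : Gr n R, ⋂ _ : ω v = true,
        {z : E n | inner ℝ (emb v.1) z ≤ (‖emb v.1‖ ^ 2 + (1 - a ^ 2) * R ^ 2) / 2} := by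
    ext z
    simp only [Set.mem_ofPred_eq, Set.mem_iInter]
    refine forall₂_congr fun v _ => ?_
    rw [norm_sub_sq_real, real_inner_comm]
    constructor <;> intro h <;> linarith
  refine ⟨?_, ?_, ?_⟩
  · refine (isCompact_closedBall _ _).inter_right ?_
    rw [hset]
    exact isClosed_iInter fun v => isClosed_iInter fun _ =>
      isClosed_le (by fun_prop) continuous_const
  · refine (convex_closedBall _ _).inter ?_
    rw [hset]
    exact convex_iInter fun v => convex_iInter fun _ =>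
      convex_halfSpace_le (innerₛₗ ℝ (emb v.1)).isLinear _
  · refine ⟨0, mem_interior.2 ⟨ball 0 (R / 2), fun z hz => ?_, isOpen_ball,
      mem_ball_self (by linarith)⟩⟩
    rw [mem_ball, dist_zero_right] at hz
    refine ⟨by rw [mem_closedBall, dist_zero_right]; linarith, fun v _ => ?_⟩
    have h1 : ‖z‖ ^ 2 ≤ (R / 2) ^ 2 := pow_le_pow_left₀ (norm_nonneg _) hz.le 2
    have h2 : a ^ 2 ≤ 1 / 4 := by nlinarith
    have h3 : a ^ 2 * R ^ 2 ≤ 1 / 4 * R ^ 2 := mul_le_mul_of_nonneg_right h2 (sq_nonneg _)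
    nlinarith [sq_nonneg ‖z - emb v.1‖, sq_nonneg R]

/-- the part of the ball removed by `v` -/
def cap (a R : ℝ) (v : Lat n) : Set (E n) :=
  closedBall 0 R ∩ {z | ‖z - emb v‖ ^ 2 < ‖z‖ ^ 2 - (1 - a ^ 2) * R ^ 2}

lemma measurableSet_cap (a R : ℝ) (v : Lat n) : MeasurableSet (cap a R v) :=
  measurableSet_closedBall.inter (isOpen_lt (by fun_prop) (by fun_prop)).measurableSet

lemma cap_lt_top (a R : ℝ) (v : Lat n) : volume (cap a R v) ≠ ⊤ :=
  ((measure_mono Set.inter_subset_left).trans_lt measure_closedBall_lt_top).ne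

lemma sum_cap {a R : ℝ} (ha : 0 ≤ a) (hR : 0 ≤ R) :
    ∑ v : Gr n R, (volume (cap a R v.1)).toReal ≤ om n * (a * R + √n) ^ n * (om n * R ^ n) := by
  classical
  have hom := @om_pos n
  have h1 : ∑ v : Gr n R, volume (cap a R v.1)
      ≤ ENNReal.ofReal (om n * (a * R + √n) ^ n) * volume (closedBall (0 : E n) R) := by
    calc ∑ v : Gr n R, volume (cap a R v.1)
        = ∑ v : Gr n R, ∫⁻ z, (cap a R v.1).indicator 1 z :=
          sum_congr rfl fun v _ => (lintegral_indicator_one (measurableSet_cap a R v.1)).symm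
      _ = ∫⁻ z, ∑ v : Gr n R, (cap a R v.1).indicator 1 z :=
          (lintegral_finsetSum _ fun v _ =>
            measurable_one.indicator (measurableSet_cap a R v.1)).symm
      _ ≤ ∫⁻ z, (closedBall (0 : E n) R).indicator
            (fun _ => ENNReal.ofReal (om n * (a * R + √n) ^ n)) z := by
          refine lintegral_mono fun z => ?_
          by_cases hz : z ∈ closedBall (0 : E n) R
          · rw [Set.indicator_of_mem hz]
            have e1 : ∑ v : Gr n R, (cap a R v.1).indicator (1 : E n → ℝ≥0∞) z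
                = ((univ.filter fun v : Gr n R => z ∈ cap a R v.1).card : ℝ≥0∞) := by
              rw [Finset.card_filter]
              push_cast
              refine sum_congr rfl fun v _ => ?_
              by_cases h : z ∈ cap a R v.1 <;> simp [h]
            rw [e1, ← ENNReal.ofReal_natCast]
            refine ENNReal.ofReal_le_ofReal (le_trans (Nat.cast_le.2 (card_le_of_sub _
              (LB z (a * R)) fun v hv => ?_)) (card_LB_le _ (mul_nonneg ha hR)))
            have h2 := (mem_filter.1 hv).2.2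
            rw [Set.mem_ofPred_eq] at h2
            rw [mem_closedBall, dist_zero_right] at hz
            have h3 : ‖z‖ ^ 2 ≤ R ^ 2 := pow_le_pow_left₀ (norm_nonneg _) hz 2
            rw [mem_LB, norm_sub_rev]
            refine abs_le_of_sq_le_sq' ?_ (mul_nonneg ha hR) |>.2
            nlinarith
          · rw [Set.indicator_of_notMem hz, sum_eq_zero]
            intro v _
            exact Set.indicator_of_notMem (fun h => hz h.1) _
      _ = _ := by rw [lintegral_indicator_const measurableSet_closedBall]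
  rw [volume_closedBall_eq _ hR, ← ENNReal.ofReal_mul (by positivity)] at h1
  have h2 := ENNReal.toReal_mono ENNReal.ofReal_ne_top h1
  rwa [ENNReal.toReal_sum fun v _ => cap_lt_top a R v.1,
    ENNReal.toReal_ofReal (by positivity)] at h2

/-- bound for the removed volume -/
noncomputable def lost (a R : ℝ) (ω : Gr n R → Bool) : ℝ :=
  ∑ v : Gr n R, (volume (cap a R v.1)).toReal * ind (ω v = true)

lemma volume_KB {a R : ℝ} (hR : 0 ≤ R) (ω : Gr n R → Bool) :
    ENNReal.ofReal (om n * R ^ n - lost a R ω) ≤ volume (KB a R ω) := by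
  classical
  have hom := @om_pos n
  have h1 : closedBall (0 : E n) R ⊆ KB a R ω ∪
      ⋃ v ∈ (univ.filter fun v : Gr n R => ω v = true), cap a R v.1 := by
    intro z hz
    by_cases h : z ∈ KB a R ω
    · exact Or.inl h
    · right
      have : ¬ ∀ v : Gr n R, ω v = true →
          ‖z‖ ^ 2 - (1 - a ^ 2) * R ^ 2 ≤ ‖z - emb v.1‖ ^ 2 := fun e => h ⟨hz, e⟩
      push Not at this
      obtain ⟨v, hv, h2⟩ := this
      simp only [Set.mem_iUnion]
      exact ⟨v, mem_filter.2 ⟨mem_univ _, hv⟩, hz, h2⟩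
  have h2 := (measure_mono (μ := volume) h1).trans ((measure_union_le _ _).trans
    (add_le_add le_rfl (measure_biUnion_finset_le _ _)))
  have h3 : ∑ v ∈ (univ.filter fun v : Gr n R => ω v = true), volume (cap a R v.1)
      = ENNReal.ofReal (lost a R ω) := by
    unfold lost
    rw [ENNReal.ofReal_sum_of_nonneg fun v _ => mul_nonneg ENNReal.toReal_nonneg (ind_nonneg _),
      sum_filter]
    refine sum_congr rfl fun v _ => ?_
    by_cases h : ω v = true
    · rw [if_pos h, ind_pos h, mul_one, ENNReal.ofReal_toReal (cap_lt_top _ _ _)]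
    · rw [if_neg h, ind_neg h, mul_zero, ENNReal.ofReal_zero]
  rw [h3, volume_closedBall_eq _ hR] at h2
  have hl0 : 0 ≤ lost a R ω := sum_nonneg fun v _ =>
    mul_nonneg ENNReal.toReal_nonneg (ind_nonneg _)
  rw [ENNReal.ofReal_sub _ hl0]
  exact tsub_le_iff_right.2 h2

lemma Ex_lost {a R : ℝ} (ha : 0 ≤ a) (hR : 0 ≤ R) :
    Ex (fun _ => pp n a R) (lost (n := n) a R) ≤ om n * R ^ n / 2 := by
  unfold lost
  rw [Ex_sum]
  simp only [Ex_smul, Ex_coord]
  rw [← sum_mul]
  have h1 := one_le_om (n := n) (mul_nonneg ha hR)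
  refine (mul_le_mul_of_nonneg_right (sum_cap ha hR) (pp_pos (mul_nonneg ha hR)).le).trans
    (le_of_eq ?_)
  unfold pp
  generalize om n * (a * R + √n) ^ n = N at h1
  have : N ≠ 0 := by linarith
  field_simp

lemma card_small_subsets {κ : Type*} [DecidableEq κ] (s : Finset κ) (T : ℕ) :
    (s.powerset.filter fun C => C.card ≤ T).card ≤ (s.card + 1) ^ T := by
  have h1 : (s.powerset.filter fun C => C.card ≤ T) ⊆
      (range (T + 1)).biUnion fun k => powersetCard k s := by
    intro C hC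
    rw [mem_filter, mem_powerset] at hC
    exact mem_biUnion.2 ⟨C.card, mem_range.2 (by omega), mem_powersetCard.2 ⟨hC.1, rfl⟩⟩
  refine (card_le_card h1).trans (card_biUnion_le.trans ?_)
  rw [add_pow]
  refine sum_le_sum fun k hk => ?_
  rw [card_powersetCard, one_pow, mul_one]
  have h2 : 1 ≤ T.choose k := Nat.choose_pos (by have := mem_range.1 hk; omega)
  exact (Nat.choose_le_pow _ _).trans (Nat.le_mul_of_pos_right _ h2)

lemma exists_body {a a' r0 R Θ : ℝ} {S L T : ℕ} (hn : 0 < n) (ha : 0 < a) (ha1 : a ≤ 1 / 2)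
    (hR : 0 < R) (hg : 7 * n * √n ≤ a ^ 2 * R) (hS : 2 * S / a ^ 2 + 1 ≤ n / 2) (hΘ : 0 < Θ)
    (ha' : 0 ≤ a') (hr0 : 0 ≤ r0) (haa : a ^ 2 - r0 ^ 2 / 4 ≤ a' ^ 2)
    (Hnear : (T : ℝ) ^ 2 * (om n * (r0 * R + √n) ^ n) * Real.exp Θ * 2
      ≤ om n * (a * R - √n) ^ n)
    (Hfar : pp n a R * ((Θ / 4) ^ 2 * (om n * (a' * R + √n) ^ n))
      * ((1 + Θ / 4 * Real.exp (4 * S / a ^ 2 + 4)) ^ 2 + 2) ≤ 1 / 2)
    (HL : L * (2 * ((T : ℝ) ^ 2 * (om n * (4 * (a * R) + √n) ^ n) + 1)) ≤ om n * (R - √n) ^ n)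
    (HU : ((6 * R + 1) ^ n + 1) ^ T * (2 / 3) ^ L < 1 / 3) :
    ∃ ω : Gr n R → Bool, ENNReal.ofReal (om n * R ^ n / 4) ≤ volume (KB a R ω) ∧
      ∀ C : Finset (Lat n), C ⊆ LB (0 : E n) (3 * R) → C.card ≤ T →
        ∑ u ∈ LB (0 : E n) R, ∑ b ∈ LB (0 : E n) (a * R), cost a R Θ S C (u + b)
          ≤ (LB (0 : E n) R).card * (LB (0 : E n) (a * R)).card * (Θ / 4) →
        ¬ AllCov a R C ω := by
  classical
  have hom := @om_pos n
  have haR : 0 ≤ a * R := by positivity
  have hp0 := pp_pos (n := n) haR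
  have hp1 := pp_le (n := n) haR
  have hq0 : ∀ _ : Gr n R, 0 ≤ pp n a R := fun _ => hp0.le
  have hq1 : ∀ _ : Gr n R, pp n a R ≤ 1 := fun _ => by linarith
  obtain ⟨F, hF⟩ : ∃ F : Finset (Finset (Lat n)), ∀ C, C ∈ F ↔ C ⊆ LB (0 : E n) (3 * R) ∧
      C.card ≤ T ∧ ∑ u ∈ LB (0 : E n) R, ∑ b ∈ LB (0 : E n) (a * R), cost a R Θ S C (u + b)
          ≤ (LB (0 : E n) R).card * (LB (0 : E n) (a * R)).card * (Θ / 4) :=
    ⟨(LB (0 : E n) (3 * R)).powerset.filter fun C => C.card ≤ T ∧
      ∑ u ∈ LB (0 : E n) R, ∑ b ∈ LB (0 : E n) (a * R), cost a R Θ S C (u + b)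
          ≤ (LB (0 : E n) R).card * (LB (0 : E n) (a * R)).card * (Θ / 4), fun C => by
      simp only [mem_filter, mem_powerset]⟩
  have hFc : (F.card : ℝ) ≤ ((6 * R + 1) ^ n + 1) ^ T := by
    have h1 : F.card ≤ ((LB (0 : E n) (3 * R)).card + 1) ^ T := by
      refine le_trans (card_le_card fun C hC => ?_) (card_small_subsets _ T)
      rw [hF] at hC
      exact mem_filter.2 ⟨mem_powerset.2 hC.1, hC.2.1⟩
    have h2 : (F.card : ℝ) ≤ (((LB (0 : E n) (3 * R)).card : ℝ) + 1) ^ T := by exact_mod_cast h1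
    refine h2.trans (pow_le_pow_left₀ (by positivity) ?_ _)
    have := card_LB_triv (n := n) (3 * R) (by positivity)
    rw [show 2 * (3 * R) + 1 = 6 * R + 1 by ring] at this
    linarith
  have hV : 0 < om n * R ^ n := by positivity
  have hE : Ex (fun _ => pp n a R) (fun ω : Gr n R → Bool =>
      4 / (3 * (om n * R ^ n)) * lost a R ω + ∑ C ∈ F, ind (AllCov a R C ω)) < 1 := by
    rw [Ex_add, Ex_smul, Ex_sum]
    have h1 : 4 / (3 * (om n * R ^ n)) * Ex (fun _ => pp n a R) (lost (n := n) a R) ≤ 2 / 3 := by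
      refine (mul_le_mul_of_nonneg_left (Ex_lost ha.le hR.le) (by positivity)).trans (le_of_eq ?_)
      field_simp; ring
    have h2 : ∑ C ∈ F, Ex (fun _ => pp n a R) (fun ω : Gr n R → Bool => ind (AllCov a R C ω))
        ≤ ∑ C ∈ F, (2 / 3 : ℝ) ^ L := by
      refine sum_le_sum fun C hC => ?_
      rw [hF] at hC
      exact config_bound hn ha ha1 hR hg hS hΘ ha' hr0 haa Hnear Hfar HL C
        (by exact_mod_cast hC.2.1) hC.2.2
    rw [sum_const, nsmul_eq_mul] at h2
    have h3 := mul_le_mul_of_nonneg_right hFc (by positivity : (0 : ℝ) ≤ (2 / 3) ^ L)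
    linarith
  obtain ⟨ω, hω⟩ : ∃ ω : Gr n R → Bool,
      4 / (3 * (om n * R ^ n)) * lost a R ω + ∑ C ∈ F, ind (AllCov a R C ω) < 1 := by
    by_contra h
    push Not at h
    have := Ex_mono hq0 hq1 (f := fun _ => 1) h
    rw [Ex_const] at this
    linarith
  have hl0 : 0 ≤ lost a R ω := sum_nonneg fun v _ =>
    mul_nonneg ENNReal.toReal_nonneg (ind_nonneg _)
  have hs0 : 0 ≤ ∑ C ∈ F, ind (AllCov a R C ω) := sum_nonneg fun _ _ => ind_nonneg _
  refine ⟨ω, le_trans (ENNReal.ofReal_le_ofReal ?_) (volume_KB hR.le ω), fun C h1 h2 h3 h4 => ?_⟩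
  · have h5 : 4 / (3 * (om n * R ^ n)) * lost a R ω ≤ 1 := by linarith
    rw [div_mul_eq_mul_div, div_le_one (by positivity)] at h5
    linarith
  · have h5 := single_le_sum (f := fun C => ind (AllCov a R C ω)) (fun _ _ => ind_nonneg _)
      ((hF C).2 ⟨h1, h2, h3⟩)
    rw [ind_pos h4] at h5
    have : 0 ≤ 4 / (3 * (om n * R ^ n)) * lost a R ω := by positivity
    linarith

end Vale.Agent.P230
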