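import Vale.Agent.P230.UDefs

/-! Most grid cells carry a Gaussian lower bound at every point. -/

open MeasureTheory Finset

namespace Vale.Agent.P230

lemma cg_ind_forall {κ : Type} [Fintype κ] (P : κ → Prop) : ind (∀ k, P k) = ∏ k, ind (P k) := by
  by_cases h : ∀ k, P k
  · rw [ind_pos h, prod_eq_one fun u _ => ind_pos (h u)]
  · rw [ind_neg h]
    push Not at h
    obtain ⟨k, hk⟩ := h
    exact (prod_eq_zero (mem_univ k) (ind_neg hk)).symm

lemma cg_gd_pos (x : ℝ) : 0 < gd x := by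
  unfold gd
  have := Real.pi_pos
  positivity

lemma cg_gd_neg (x : ℝ) : gd (-x) = gd x := by
  unfold gd
  rw [neg_sq]

lemma cg_gd_le {x y c : ℝ} (h : y ^ 2 - x ^ 2 ≤ 2 * c) : gd x ≤ gd y * Real.exp c := by
  unfold gd
  have := Real.pi_pos
  rw [div_mul_eq_mul_div, ← Real.exp_add]
  exact div_le_div_of_nonneg_right (Real.exp_le_exp.2 (by linarith)) (by positivity)

lemma cg_gd_anti {x y : ℝ} (h : |y| ≤ x) : gd x ≤ gd y := by
  have h1 : y ^ 2 ≤ x ^ 2 := by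
    rw [← sq_abs y]
    exact pow_le_pow_left₀ (abs_nonneg _) h 2
  simpa using cg_gd_le (x := x) (y := y) (c := 0) (by linarith)

lemma cg_gd_mul (a u : ℝ) : gd (a + u) * gd (a - u) = gd a ^ 2 * Real.exp (-u ^ 2) := by
  unfold gd
  rw [div_mul_div_comm, div_pow, ← Real.exp_add, div_mul_eq_mul_div, sq (Real.exp _),
    ← Real.exp_add, ← Real.exp_add, sq (√_)]
  congr 2
  ring

lemma cg_gd_zero : gd 0 ≤ 1 := by
  unfold gd
  have h1 : (1 : ℝ) ≤ √(2 * Real.pi) := by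
    rw [Real.one_le_sqrt]
    linarith [Real.pi_gt_three]
  simp only [ne_eq, OfNat.ofNat_ne_zero, not_false_eq_true, zero_pow, neg_zero, zero_div,
    Real.exp_zero]
  exact (div_le_one (by linarith)).2 h1

lemma cg_half {z : ℝ} (hz : 0 < z) (A : ℕ) :
    ∑ i ∈ range A, z * gd (z * ((i + 1 : ℕ) : ℝ)) ≤ 1 / 2 := by
  have hpi := Real.pi_pos
  have hf : (fun x : ℝ => z * gd (z * x))
      = fun x => z / √(2 * Real.pi) * Real.exp (-(z ^ 2 / 2) * x ^ 2) := by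
    funext x
    unfold gd
    rw [mul_div_assoc', div_mul_eq_mul_div]
    congr 3
    ring
  have hb : 0 < z ^ 2 / 2 := by positivity
  have h1 : AntitoneOn (fun x : ℝ => z * gd (z * x)) (Set.Icc 0 (0 + (A : ℝ))) := by
    intro x hx y _ hxy
    refine mul_le_mul_of_nonneg_left (cg_gd_anti ?_) hz.le
    rw [abs_of_nonneg (mul_nonneg hz.le hx.1)]
    exact mul_le_mul_of_nonneg_left hxy hz.le
  have h2 := h1.sum_le_integral
  simp only [zero_add] at h2
  refine h2.trans ?_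
  rw [intervalIntegral.integral_of_le (Nat.cast_nonneg A), hf]
  have h3 : ∫ x in Set.Ioc (0 : ℝ) A, z / √(2 * Real.pi) * Real.exp (-(z ^ 2 / 2) * x ^ 2)
      ≤ ∫ x in Set.Ioi (0 : ℝ), z / √(2 * Real.pi) * Real.exp (-(z ^ 2 / 2) * x ^ 2) :=
    setIntegral_mono_set ((integrable_exp_neg_mul_sq hb).const_mul _).integrableOn
      (Filter.Eventually.of_forall (fun x => by positivity))
      (Set.Ioc_subset_Ioi_self.eventuallyLE)
  refine h3.trans (le_of_eq ?_)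
  rw [integral_const_mul, integral_gaussian_Ioi]
  have h4 : Real.pi / (z ^ 2 / 2) = (2 * Real.pi) / z ^ 2 := by field_simp
  rw [h4, Real.sqrt_div (by positivity), Real.sqrt_sq hz.le]
  have h5 : 0 < √(2 * Real.pi) := by positivity
  field_simp

lemma cg_sum_symm (f : ℤ → ℝ) (hf : ∀ a, f (-a) = f a) (A : ℕ) :
    ∑ a ∈ Icc (-(A : ℤ)) A, f a = f 0 + 2 * ∑ i ∈ range A, f ((i + 1 : ℕ) : ℤ) := by
  induction A with
  | zero => simp
  | succ A ih =>
    have e : Icc (-((A + 1 : ℕ) : ℤ)) ((A + 1 : ℕ) : ℤ)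
        = insert (-((A + 1 : ℕ) : ℤ)) (insert ((A + 1 : ℕ) : ℤ) (Icc (-(A : ℤ)) A)) := by
      ext a
      simp only [mem_Icc, mem_insert]
      omega
    rw [e, sum_insert, sum_insert, ih, sum_range_succ, hf]
    · ring
    · simp only [mem_Icc]; omega
    · simp only [mem_Icc, mem_insert]; omega

lemma cg_gauss {z : ℝ} (hz : 0 < z) (A : ℕ) :
    ∑ a ∈ Icc (-(A : ℤ)) A, z * gd (z * (a : ℝ)) ≤ 1 + z := by
  rw [cg_sum_symm (fun a => z * gd (z * (a : ℝ))) (fun a => by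
    rw [Int.cast_neg, mul_neg, cg_gd_neg])]
  have h1 := cg_half hz A
  simp only [Int.cast_natCast, Int.cast_zero, mul_zero]
  have h2 := mul_le_mul_of_nonneg_left cg_gd_zero hz.le
  linarith

lemma cg_count (s : Finset ℤ) {y η r : ℝ} (hη : 0 < η) (hr : 0 ≤ r) :
    ∑ j ∈ s, ind (|y - η * (j : ℝ)| ≤ r) ≤ 2 * r / η + 1 := by
  classical
  rw [sum_ind]
  have h1 : s.filter (fun j : ℤ => |y - η * (j : ℝ)| ≤ r) ⊆ Icc ⌈(y - r) / η⌉ ⌊(y + r) / η⌋ := by
    intro j hj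
    have h := abs_le.1 (mem_filter.1 hj).2
    rw [mem_Icc, Int.ceil_le, Int.le_floor, div_le_iff₀ hη, le_div_iff₀ hη]
    constructor <;> linarith
  have h2 : ((s.filter (fun j : ℤ => |y - η * (j : ℝ)| ≤ r)).card : ℝ)
      ≤ ((Icc ⌈(y - r) / η⌉ ⌊(y + r) / η⌋).card : ℝ) := by exact_mod_cast card_le_card h1
  refine h2.trans ?_
  rw [Int.card_Icc]
  have h3 : 0 ≤ 2 * r / η + 1 := by positivity
  by_cases h : 0 ≤ ⌊(y + r) / η⌋ + 1 - ⌈(y - r) / η⌉
  · have h4 : (((⌊(y + r) / η⌋ + 1 - ⌈(y - r) / η⌉).toNat : ℕ) : ℝ)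
        = ((⌊(y + r) / η⌋ + 1 - ⌈(y - r) / η⌉ : ℤ) : ℝ) := by
      rw [← Int.cast_natCast, Int.toNat_of_nonneg h]
    rw [h4]
    push_cast
    have h5 := Int.floor_le ((y + r) / η)
    have h6 := Int.le_ceil ((y - r) / η)
    have h7 : (y + r) / η - (y - r) / η = 2 * r / η := by ring
    linarith
  · rw [Int.toNat_eq_zero.2 (by omega)]
    simpa using h3

lemma cg_exp_le {x : ℝ} (hx : x ≤ 1) : Real.exp x ≤ 3 :=
  (Real.exp_le_exp.2 hx).trans (Real.exp_one_lt_d9.le.trans (by norm_num))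

lemma cg_halfbad {κ : Type} [Fintype κ] [DecidableEq κ] (L : κ → ℕ) (B : (κ → ℤ) → Prop)
    (a0 : κ → ℤ) (h : ∀ b ∈ Fintype.piFinset fun i => Icc (-(L i : ℤ)) (L i),
      B (a0 + b) ∨ B (a0 - b)) :
    ∏ i, (2 * (L i : ℝ) + 1)
      ≤ 2 * ∑ b ∈ Fintype.piFinset fun i => Icc (-(L i : ℤ)) (L i), ind (B (a0 + b)) := by
  have h1 : ∑ b ∈ Fintype.piFinset fun i => Icc (-(L i : ℤ)) (L i), ind (B (a0 - b))
      = ∑ b ∈ Fintype.piFinset fun i => Icc (-(L i : ℤ)) (L i), ind (B (a0 + b)) := by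
    have hm : ∀ b ∈ Fintype.piFinset fun i => Icc (-(L i : ℤ)) (L i),
        -b ∈ Fintype.piFinset fun i => Icc (-(L i : ℤ)) (L i) := by
      intro b hb
      rw [Fintype.mem_piFinset] at hb ⊢
      intro i
      have := hb i
      simp only [mem_Icc, Pi.neg_apply] at this ⊢
      omega
    exact sum_bij' (fun b _ => -b) (fun b _ => -b) hm hm (fun b _ => neg_neg b)
      (fun b _ => neg_neg b) (fun b _ => by rw [sub_eq_add_neg])
  have h2 : ∏ i, (2 * (L i : ℝ) + 1)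
      = ∑ _b ∈ Fintype.piFinset fun i => Icc (-(L i : ℤ)) (L i), (1 : ℝ) := by
    rw [sum_const, Fintype.card_piFinset, nsmul_eq_mul, mul_one, Nat.cast_prod]
    refine prod_congr rfl (fun i _ => ?_)
    rw [Int.card_Icc]
    have : ((L i : ℤ) + 1 - -(L i : ℤ)).toNat = 2 * L i + 1 := by omega
    rw [this]
    push_cast
    ring
  rw [h2, two_mul]
  conv_rhs => rw [← h1]
  conv_rhs => congr; rw [h1]
  rw [← sum_add_distrib]
  refine sum_le_sum (fun b hb => ?_)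
  rcases h b hb with h3 | h3
  · rw [ind_pos h3]; linarith [ind_nonneg (B (a0 - b))]
  · rw [ind_pos h3]; linarith [ind_nonneg (B (a0 + b))]

lemma cg_floor {z s : ℝ} (hz : 0 < z) : 0 ≤ s - z * ⌊s / z⌋ ∧ s - z * ⌊s / z⌋ ≤ z := by
  have h1 := Int.floor_le (s / z)
  have h2 := Int.lt_floor_add_one (s / z)
  rw [le_div_iff₀ hz] at h1
  rw [div_lt_iff₀ hz] at h2
  constructor <;> linarith

lemma cg_core {κ : Type} [Fintype κ] [DecidableEq κ] (η ℓ : κ → ℝ) (J : κ → ℕ) {z : ℝ}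
    (hz : 0 < z) (hη : ∀ i, z ≤ η i ∧ η i ≤ 1) (hℓ : ∀ i, 0 < ℓ i)
    (h1 : ∑ i, η i / ℓ i ≤ 1 / 10) (h2 : ∑ i, (η i * J i + 2) * ℓ i ≤ 1 / 10)
    (B bad : (κ → ℤ) → Prop)
    (hbad : ∀ ι ∈ Fintype.piFinset fun i => Win (J i), bad ι → ∃ s : κ → ℝ,
      (∀ i, η i * ι i ≤ s i ∧ s i ≤ η i * (ι i + 1)) ∧ ∀ b : κ → ℤ, (∀ i, |z * b i| ≤ ℓ i) →
        B ((fun i => ⌊s i / z⌋) + b) ∨ B ((fun i => ⌊s i / z⌋) - b)) :
    ∑ ι ∈ Fintype.piFinset fun i => Win (J i), (∏ i, qq (η i) (ι i)) * ind (bad ι)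
      ≤ 18 * ∑ a ∈ Fintype.piFinset fun i =>
          Icc (-(⌊(η i * J i + 2) / z⌋₊ : ℤ)) (⌊(η i * J i + 2) / z⌋₊ : ℤ),
        (∏ i, z * gd (z * a i)) * ind (B a) := by
  set PA := Fintype.piFinset fun i =>
    Icc (-(⌊(η i * J i + 2) / z⌋₊ : ℤ)) (⌊(η i * J i + 2) / z⌋₊ : ℤ) with hPA
  set L : κ → ℕ := fun i => ⌊ℓ i / z⌋₊ with hL
  set W : (κ → ℤ) → ℝ := fun a => (∏ i, z * gd (z * a i)) * ind (B a) with hW
  have hη0 : ∀ i, 0 < η i := fun i => hz.trans_le (hη i).1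
  have hW0 : ∀ a, 0 ≤ W a := fun a =>
    mul_nonneg (prod_nonneg fun i _ => (mul_pos hz (cg_gd_pos _)).le) (ind_nonneg _)
  have hM : ∀ i, 2 ≤ η i * J i + 2 := fun i => by
    have := mul_nonneg (hη0 i).le (Nat.cast_nonneg (α := ℝ) (J i))
    linarith
  have hℓ1 : ∀ i, ℓ i ≤ 1 := fun i => by
    have h3 := single_le_sum (f := fun i => (η i * J i + 2) * ℓ i)
      (fun i _ => mul_nonneg (by linarith [hM i]) (hℓ i).le) (mem_univ i)
    have h4 := mul_le_mul_of_nonneg_right (hM i) (hℓ i).le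
    linarith
  have hηℓ : ∀ i, η i / ℓ i ≤ 1 / 10 := fun i =>
    (single_le_sum (f := fun i => η i / ℓ i)
      (fun i _ => div_nonneg (hη0 i).le (hℓ i).le) (mem_univ i)).trans h1
  set U : ℝ := ∏ i, (2 * (L i : ℝ) + 1) with hU
  have hU0 : 0 < U := prod_pos fun i _ => by positivity
  set c : ℝ := ∏ i, η i / z with hc
  have hc0 : 0 ≤ c := prod_nonneg fun i _ => div_nonneg (hη0 i).le hz.le
  have key : ∀ ι ∈ Fintype.piFinset fun i => Win (J i), (∏ i, qq (η i) (ι i)) * ind (bad ι)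
      ≤ 6 * c / U * ∑ a ∈ PA, W a * ind (∀ i, |z * a i - η i * ι i| ≤ ℓ i + η i) := by
    intro ι hι
    have hS0 : 0 ≤ ∑ a ∈ PA, W a * ind (∀ i, |z * a i - η i * ι i| ≤ ℓ i + η i) :=
      sum_nonneg fun a _ => mul_nonneg (hW0 a) (ind_nonneg _)
    by_cases hb : bad ι
    swap
    · rw [ind_neg hb, mul_zero]
      positivity
    obtain ⟨s, hs, hB⟩ := hbad ι hι hb
    set a0 : κ → ℤ := fun i => ⌊s i / z⌋ with ha0
    set PB := Fintype.piFinset fun i => Icc (-(L i : ℤ)) (L i) with hPB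
    have hzb : ∀ b ∈ PB, ∀ i, |z * b i| ≤ ℓ i := by
      intro b hb i
      have h3 := mem_Icc.1 (Fintype.mem_piFinset.1 hb i)
      have h4 : |(b i : ℝ)| ≤ L i := by
        rw [abs_le]
        exact ⟨by exact_mod_cast h3.1, by exact_mod_cast h3.2⟩
      have h5 : (L i : ℝ) ≤ ℓ i / z := Nat.floor_le (div_nonneg (hℓ i).le hz.le)
      rw [abs_mul, abs_of_pos hz, mul_comm, ← le_div_iff₀ hz]
      exact h4.trans h5
    have hhalf := cg_halfbad L B a0 (fun b hb => hB b (hzb b hb))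
    have hι' : ∀ i, -(J i : ℝ) ≤ ι i ∧ (ι i : ℝ) + 1 ≤ J i := fun i => by
      have h3 := mem_Ico.1 (Fintype.mem_piFinset.1 hι i)
      exact ⟨by exact_mod_cast h3.1, by exact_mod_cast h3.2⟩
    have hs0 : ∀ i, η i * (ι i - 1) ≤ z * a0 i ∧ z * a0 i ≤ η i * (ι i + 1) := fun i => by
      have h3 := cg_floor (s := s i) hz
      have h4 := hs i
      have h5 := (hη i).1
      simp only [ha0]
      constructor <;> linarith
    have hs1 : ∀ i, |z * a0 i| ≤ η i * J i + 1 := fun i => by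
      have h3 := hs0 i
      have h4 := mul_le_mul_of_nonneg_left (hι' i).1 (hη0 i).le
      have h5 := mul_le_mul_of_nonneg_left (hι' i).2 (hη0 i).le
      have h6 := (hη i).2
      rw [abs_le]
      constructor <;> linarith
    have hy : ∀ b ∈ PB, ∀ i, |z * ((a0 + b) i : ℤ)| ≤ η i * J i + 2 := fun b hb i => by
      rw [Pi.add_apply, Int.cast_add, mul_add]
      refine (abs_add_le _ _).trans ?_
      linarith [hs1 i, hzb b hb i, hℓ1 i]
    have hmem : ∀ b ∈ PB, a0 + b ∈ PA := fun b hb => by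
      rw [hPA, Fintype.mem_piFinset]
      intro i
      have h3 := hy b hb i
      rw [abs_mul, abs_of_pos hz, mul_comm, ← le_div_iff₀ hz, ← Int.cast_abs, ← Int.le_floor,
        ← Int.natCast_floor_eq_floor (div_nonneg (by linarith [hM i]) hz.le)] at h3
      exact mem_Icc.2 (abs_le.1 h3)
    have hnear : ∀ b ∈ PB, ∀ i, |z * ((a0 + b) i : ℤ) - η i * ι i| ≤ ℓ i + η i := fun b hb i => by
      rw [Pi.add_apply, Int.cast_add, mul_add]
      have h3 := hs0 i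
      have h4 := abs_le.1 (hzb b hb i)
      rw [abs_le]
      constructor <;> linarith
    have hq : ∀ b ∈ PB, ∏ i, qq (η i) (ι i) ≤ 3 * c * ∏ i, z * gd (z * ((a0 + b) i : ℤ)) := by
      intro b hb
      have h3 : ∀ i, qq (η i) (ι i) ≤ Real.exp ((η i * J i + 2) * ℓ i) * (η i / z) *
          (z * gd (z * ((a0 + b) i : ℤ))) := by
        intro i
        have e1 : gd (η i * (|(ι i : ℝ)| + 2)) ≤ gd (z * a0 i) := by
          refine cg_gd_anti ?_
          have h4 := hs0 i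
          have h5 := mul_le_mul_of_nonneg_left (le_abs_self (ι i : ℝ)) (hη0 i).le
          have h6 := mul_le_mul_of_nonneg_left (neg_abs_le (ι i : ℝ)) (hη0 i).le
          have h7 := hη0 i
          rw [abs_le]
          constructor <;> linarith
        have e2 : gd (z * a0 i) ≤ gd (z * ((a0 + b) i : ℤ)) *
            Real.exp ((η i * J i + 2) * ℓ i) := by
          refine cg_gd_le ?_
          have h4 := hy b hb i
          have h5 := hs1 i
          have h6 := hzb b hb i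
          rw [Pi.add_apply, Int.cast_add, mul_add] at h4 ⊢
          have h7 : (z * a0 i + z * b i) ^ 2 - (z * a0 i) ^ 2
              = (z * b i) * ((z * a0 i + z * b i) + z * a0 i) := by ring
          rw [h7]
          refine (le_abs_self _).trans ?_
          rw [abs_mul]
          have h8 : |(z * a0 i + z * b i) + z * a0 i| ≤ 2 * (η i * J i + 2) :=
            (abs_add_le _ _).trans (by linarith)
          have h9 := mul_le_mul h6 h8 (abs_nonneg _) (hℓ i).le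
          linarith
        have e3 := mul_le_mul_of_nonneg_left (e1.trans e2) (hη0 i).le
        refine e3.trans (le_of_eq ?_)
        field_simp
      refine (prod_le_prod (fun i _ => mul_nonneg (hη0 i).le (cg_gd_pos _).le)
        (fun i _ => h3 i)).trans ?_
      rw [prod_mul_distrib, prod_mul_distrib, ← Real.exp_sum]
      refine mul_le_mul_of_nonneg_right (mul_le_mul_of_nonneg_right (cg_exp_le (by linarith)) hc0)
        (prod_nonneg fun i _ => (mul_pos hz (cg_gd_pos _)).le)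
    have hsum : ∑ b ∈ PB, W (a0 + b)
        ≤ ∑ a ∈ PA, W a * ind (∀ i, |z * a i - η i * ι i| ≤ ℓ i + η i) := by
      have h3 : ∑ b ∈ PB, W (a0 + b) = ∑ a ∈ PB.image (fun b => a0 + b),
          W a * ind (∀ i, |z * a i - η i * ι i| ≤ ℓ i + η i) := by
        rw [sum_image (fun b _ b' _ e => add_left_cancel e)]
        exact sum_congr rfl (fun b hb => by rw [ind_pos (hnear b hb), mul_one])
      rw [h3]
      refine sum_le_sum_of_subset_of_nonneg (fun a ha => ?_)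
        (fun a _ _ => mul_nonneg (hW0 a) (ind_nonneg _))
      obtain ⟨b, hb, rfl⟩ := mem_image.1 ha
      exact hmem b hb
    have hQ0 : 0 ≤ ∏ i, qq (η i) (ι i) :=
      prod_nonneg fun i _ => mul_nonneg (hη0 i).le (cg_gd_pos _).le
    have h3 : (∏ i, qq (η i) (ι i)) * ∑ b ∈ PB, ind (B (a0 + b))
        ≤ 3 * c * ∑ b ∈ PB, W (a0 + b) := by
      rw [mul_sum, mul_sum]
      refine sum_le_sum (fun b hb => ?_)
      simp only [hW]
      rw [← mul_assoc]
      exact mul_le_mul_of_nonneg_right (hq b hb) (ind_nonneg _)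
    rw [ind_pos hb, mul_one, div_mul_eq_mul_div, le_div_iff₀ hU0]
    have h4 := mul_le_mul_of_nonneg_left hhalf hQ0
    have h5 := mul_le_mul_of_nonneg_left hsum hc0
    linarith
  have hcnt : ∀ a : κ → ℤ, c * ∑ ι ∈ Fintype.piFinset fun i => Win (J i),
      ind (∀ i, |z * a i - η i * ι i| ≤ ℓ i + η i) ≤ 3 * U := by
    intro a
    simp only [cg_ind_forall]
    rw [← prod_univ_sum (fun i => Win (J i))
      (fun i (j : ℤ) => ind (|z * a i - η i * j| ≤ ℓ i + η i)), hc, ← prod_mul_distrib]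
    have h3 : ∀ i, η i / z * ∑ j ∈ Win (J i), ind (|z * a i - η i * j| ≤ ℓ i + η i)
        ≤ Real.exp (3 * (η i / ℓ i)) * (2 * (L i : ℝ) + 1) := by
      intro i
      have e1 := cg_count (Win (J i)) (y := z * a i) (hη0 i) (add_pos (hℓ i) (hη0 i)).le
      have e2 : ℓ i / z < L i + 1 := Nat.lt_floor_add_one _
      have e3 := Real.add_one_le_exp (3 * (η i / ℓ i))
      have e4 : 0 ≤ η i / ℓ i := div_nonneg (hη0 i).le (hℓ i).le
      have e5 : 1 ≤ η i / z := (one_le_div hz).2 (hη i).1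
      have e6 : η i / z * (2 * (ℓ i + η i) / η i + 1) = 2 * (ℓ i / z) + 3 * (η i / z) := by
        have := (hη0 i).ne'
        field_simp
        ring
      have e7 : η i / ℓ i * (ℓ i / z) = η i / z := by
        have := (hℓ i).ne'
        field_simp
      have e8 := hηℓ i
      refine (mul_le_mul_of_nonneg_left e1 (by linarith)).trans ?_
      rw [e6]
      have e9 : 2 * (ℓ i / z) - 1 ≤ 2 * (L i : ℝ) + 1 := by linarith
      have e10 : (3 * (η i / ℓ i) + 1) * (2 * (ℓ i / z) - 1)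
          ≤ (3 * (η i / ℓ i) + 1) * (2 * (L i : ℝ) + 1) :=
        mul_le_mul_of_nonneg_left e9 (by linarith)
      have e11 := mul_le_mul_of_nonneg_right e3 (show 0 ≤ 2 * (L i : ℝ) + 1 by positivity)
      nlinarith
    refine (prod_le_prod (fun i _ => mul_nonneg (div_nonneg (hη0 i).le hz.le)
      (sum_nonneg fun j _ => ind_nonneg _)) (fun i _ => h3 i)).trans ?_
    rw [prod_mul_distrib, ← Real.exp_sum, ← mul_sum]
    exact mul_le_mul_of_nonneg_right (cg_exp_le (by linarith)) hU0.le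
  refine (sum_le_sum key).trans ?_
  rw [← mul_sum, sum_comm, mul_sum, mul_sum]
  refine sum_le_sum (fun a _ => ?_)
  rw [← mul_sum, div_mul_eq_mul_div, div_le_iff₀ hU0]
  have h3 := mul_le_mul_of_nonneg_left (hcnt a) (hW0 a)
  change _ ≤ 18 * W a * U
  nlinarith

lemma cg_pr_nonneg {n : ℕ} (K A : Set (E n)) : 0 ≤ pr K A :=
  div_nonneg ENNReal.toReal_nonneg ENNReal.toReal_nonneg

lemma cg_pr_mono {n : ℕ} {K A B : Set (E n)} (hK : IsConvexBody K) (h : A ⊆ B) :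
    pr K A ≤ pr K B := by
  refine div_le_div_of_nonneg_right (ENNReal.toReal_mono ?_
    (measure_mono (Set.inter_subset_inter_right _ h))) ENNReal.toReal_nonneg
  exact ((measure_mono Set.inter_subset_left).trans_lt hK.1.measure_lt_top).ne

lemma cg_meas {n N : ℕ} {κ : Type} [Fintype κ] (T : E n ≃ₗ[ℝ] (κ ⊕ Fin N → ℝ)) (s : κ → ℝ)
    (ζ : ℝ) : MeasurableSet {x : E n | ∀ i, |T x (Sum.inl i) - s i| ≤ ζ} := by
  have hT : Continuous T := T.toLinearMap.continuous_of_finiteDimensional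
  rw [Set.ofPred_forall]
  refine (isClosed_iInter fun i => isClosed_le ?_ continuous_const).measurableSet
  exact (((continuous_apply (Sum.inl i)).comp hT).sub continuous_const).abs

lemma cg_mid {n N : ℕ} {κ : Type} [Fintype κ] {K : Set (E n)} (hK : IsConvexBody K)
    (T : E n ≃ₗ[ℝ] (κ ⊕ Fin N → ℝ)) (s u : κ → ℝ) (ζ : ℝ) :
    pr K {x | ∀ i, |T x (Sum.inl i) - (s i + u i)| ≤ ζ} *
      pr K {x | ∀ i, |T x (Sum.inl i) - (s i - u i)| ≤ ζ}
      ≤ pr K {x | ∀ i, |T x (Sum.inl i) - s i| ≤ ζ} ^ 2 := by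
  refine pr_mid hK (cg_meas T (fun i => s i + u i) ζ) (cg_meas T (fun i => s i - u i) ζ)
    (cg_meas T s ζ) (fun x _ hx y _ hy i => ?_)
  have h1 := abs_le.1 (hx i)
  have h2 := abs_le.1 (hy i)
  rw [map_smul, map_add, Pi.smul_apply, Pi.add_apply, smul_eq_mul, abs_le]
  constructor <;> linarith

lemma cg_g5 {κ : Type} [Fintype κ] (η : κ → ℝ) (ι : κ → ℤ) (s : κ → ℝ) {z n ζ : ℝ}
    (hz0 : 0 < z) (hn4 : 4 ≤ n) (hk : 2 * (Fintype.card κ : ℝ) ≤ n)
    (hζe : ζ = (1 - 1 / n) * (1 / n ^ 5)) (hη : ∀ i, z ≤ η i)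
    (hs : ∀ i, η i * ι i ≤ s i ∧ s i ≤ η i * (ι i + 1)) :
    ∏ i, 2 / n ^ 5 * (qq (η i) (ι i) / η i) ≤ 2 * ∏ i, 2 * ζ * gd (z * (⌊s i / z⌋ : ℝ)) := by
  have hη0 : ∀ i, 0 < η i := fun i => hz0.trans_le (hη i)
  have hn0 : 0 < n := by linarith
  have e3 : 1 / n ≤ 1 := (div_le_one hn0).2 (by linarith)
  have hζ0 : 0 ≤ ζ := by
    rw [hζe]
    exact mul_nonneg (by linarith) (by positivity)
  have e1 : ∀ i, (1 - 1 / n) * (2 / n ^ 5 * (qq (η i) (ι i) / η i))
      ≤ 2 * ζ * gd (z * (⌊s i / z⌋ : ℝ)) := by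
    intro i
    have e2 : gd (η i * (|(ι i : ℝ)| + 2)) ≤ gd (z * (⌊s i / z⌋ : ℝ)) := by
      refine cg_gd_anti ?_
      have h3 := cg_floor (s := s i) hz0
      have h4 := hs i
      have h5 := mul_le_mul_of_nonneg_left (le_abs_self (ι i : ℝ)) (hη0 i).le
      have h6 := mul_le_mul_of_nonneg_left (neg_abs_le (ι i : ℝ)) (hη0 i).le
      have h7 := hη0 i
      have h8 := hη i
      rw [abs_le]
      constructor <;> linarith
    refine le_trans (le_of_eq ?_) (mul_le_mul_of_nonneg_left e2 (by linarith))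
    rw [hζe, qq, mul_div_cancel_left₀ _ (hη0 i).ne']
    ring
  have e0 : ∀ i, 0 ≤ 2 / n ^ 5 * (qq (η i) (ι i) / η i) := fun i =>
    mul_nonneg (by positivity)
      (div_nonneg (mul_nonneg (hη0 i).le (cg_gd_pos _).le) (hη0 i).le)
  have e4 := prod_le_prod (s := univ) (fun i _ => mul_nonneg (by linarith) (e0 i))
    (fun i _ => e1 i)
  rw [prod_mul_distrib, prod_const, card_univ] at e4
  have e5 := one_add_mul_le_pow (a := -(1 / n)) (by linarith) (Fintype.card κ)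
  rw [← sub_eq_add_neg] at e5
  have e6 : (Fintype.card κ : ℝ) * (1 / n) ≤ 1 / 2 := by
    rw [mul_one_div, div_le_iff₀ hn0]
    linarith
  have e7 : 1 / 2 ≤ (1 - 1 / n) ^ Fintype.card κ := by linarith
  have e8 := mul_le_mul_of_nonneg_right e7 (prod_nonneg (s := univ) fun i _ => e0 i)
  linarith

lemma cg_g6 {κ : Type} [Fintype κ] (M ℓ a u : κ → ℝ) (ζ : ℝ) (hM : ∀ i, 2 ≤ M i)
    (hℓ : ∀ i, 0 < ℓ i) (h2 : ∑ i, M i * ℓ i ≤ 1 / 10) (hb : ∀ i, |u i| ≤ ℓ i) :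
    (∏ i, 2 * ζ * gd (a i)) ^ 2 / 2
      ≤ (∏ i, 2 * ζ * gd (a i + u i)) * ∏ i, 2 * ζ * gd (a i - u i) := by
  have e1 : (∏ i, 2 * ζ * gd (a i + u i)) * ∏ i, 2 * ζ * gd (a i - u i)
      = (∏ i, 2 * ζ * gd (a i)) ^ 2 * Real.exp (∑ i, -(u i) ^ 2) := by
    rw [← prod_pow, Real.exp_sum, ← prod_mul_distrib, ← prod_mul_distrib]
    refine prod_congr rfl (fun i _ => ?_)
    linear_combination (4 * ζ ^ 2) * cg_gd_mul (a i) (u i)
  have e2 : -(1 / 10) ≤ ∑ i, -(u i) ^ 2 := by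
    rw [sum_neg_distrib, neg_le_neg_iff]
    refine le_trans (sum_le_sum fun i _ => ?_) h2
    have e3 := single_le_sum (f := fun i => M i * ℓ i)
      (fun i _ => mul_nonneg (by linarith [hM i]) (hℓ i).le) (mem_univ i)
    have e4 := mul_le_mul_of_nonneg_right (hM i) (hℓ i).le
    have e5 : (u i) ^ 2 ≤ ℓ i ^ 2 := by
      rw [← sq_abs]
      exact pow_le_pow_left₀ (abs_nonneg _) (hb i) 2
    have e6 := hℓ i
    nlinarith
  have e3 := Real.add_one_le_exp (∑ i, -(u i) ^ 2)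
  rw [e1]
  nlinarith [sq_nonneg (∏ i, 2 * ζ * gd (a i))]

lemma cg_contra {P F0 F1 F2 P1 P2 : ℝ} (hP : 0 < P) (h0 : 0 ≤ F0) (h1 : F0 ≤ P / 100)
    (h2 : F1 * F2 ≤ F0 ^ 2) (h3 : P1 / 20 ≤ F1) (h4 : P2 / 20 ≤ F2) (h5 : 0 ≤ P2) (h6 : 0 ≤ F1)
    (h7 : P ^ 2 / 2 ≤ P1 * P2) : False := by
  have g7 := mul_le_mul h3 h4 (div_nonneg h5 (by norm_num)) h6
  have g9 := pow_le_pow_left₀ h0 h1 2
  have g10 : 0 < P ^ 2 := by positivity
  nlinarith

theorem cellGood (h : MTP) : CGP := by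
  obtain ⟨n0, h⟩ := h
  refine ⟨max n0 4, fun n hn K hK v hv0 hv κ _ _ η J hG => ?_⟩
  classical
  obtain ⟨hk, hη, ℓ, hℓ, h1, h2⟩ := hG
  have hn4 : (4 : ℝ) ≤ n := by exact_mod_cast le_of_max_le_right hn
  have hn0 : (0 : ℝ) < n := by linarith
  have hv1 : 1 ≤ v := by
    by_contra hc
    have := pow_le_one₀ (n := 100) hv0 (not_le.1 hc).le
    linarith
  have hv2 : 2 * v ≤ n := by
    have e1 : 2 ≤ v ^ 50 := by
      by_contra hc
      have e2 : v ^ 100 = v ^ 50 * v ^ 50 := by ring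
      have e3 : 0 ≤ v ^ 50 := by positivity
      nlinarith
    have e2 : v ^ 51 ≤ v ^ 100 := pow_le_pow_right₀ hv1 (by norm_num)
    have e3 : v ^ 51 = v ^ 50 * v := by ring
    nlinarith
  set z : ℝ := 1 / (n : ℝ) ^ 6 with hz
  set ζ : ℝ := 1 / (n : ℝ) ^ 5 - 1 / (n : ℝ) ^ 6 with hζ
  have hz0 : 0 < z := by positivity
  have hζe : ζ = (1 - 1 / n) * (1 / (n : ℝ) ^ 5) := by
    rw [hζ]; field_simp
  have hzn : 1 / (n : ℝ) ^ 5 = n * z := by rw [hz]; field_simp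
  have hζ1 : z ≤ ζ := by rw [hζ, hzn, ← hz]; nlinarith
  have hζ0 : 0 < ζ := hz0.trans_le hζ1
  have hζ2 : ζ ≤ 1 / (n : ℝ) ^ 4 := by
    have : 1 / (n : ℝ) ^ 5 ≤ 1 / (n : ℝ) ^ 4 :=
      one_div_le_one_div_of_le (by positivity) (pow_le_pow_right₀ (by linarith) (by norm_num))
    rw [hζ, ← hz]
    linarith
  have hη0 : ∀ i, 0 < η i := fun i => hz0.trans_le (hη i).1
  have hM : ∀ i, 2 ≤ η i * J i + 2 := fun i => by
    have := mul_nonneg (hη0 i).le (Nat.cast_nonneg (α := ℝ) (J i))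
    linarith
  set PA := Fintype.piFinset fun i =>
    Icc (-(⌊(η i * J i + 2) / z⌋₊ : ℤ)) (⌊(η i * J i + 2) / z⌋₊ : ℤ) with hPA
  have hinj : Set.InjOn (fun (a : κ → ℤ) (i : κ) => z * (a i : ℝ)) PA := by
    intro a _ a' _ e
    funext i
    exact Int.cast_injective (mul_left_cancel₀ hz0.ne' (congrFun e i))
  obtain ⟨N, T, hT1, hT2, hT3⟩ := h n (le_of_max_le_left hn) K hK v hv0 hv κ hk ζ hζ1 hζ2
    (PA.image (fun a i => z * (a i : ℝ))) (fun s => ∏ i, z * gd (s i))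
    (fun s => prod_nonneg fun i _ => (mul_pos hz0 (cg_gd_pos _)).le) (by
      intro s hs i
      obtain ⟨a, ha, rfl⟩ := mem_image.1 hs
      have h3 := mem_Icc.1 (Fintype.mem_piFinset.1 ha i)
      have h4 : |(a i : ℝ)| ≤ ⌊(η i * J i + 2) / z⌋₊ := by
        rw [abs_le]
        exact ⟨by exact_mod_cast h3.1, by exact_mod_cast h3.2⟩
      have h5 := h4.trans (Nat.floor_le (div_nonneg (by linarith [hM i]) hz0.le))
      rw [le_div_iff₀ hz0] at h5
      refine le_trans ?_ (hη i).2.2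
      rw [← sq_abs, abs_mul, abs_of_pos hz0, mul_comm]
      exact pow_le_pow_left₀ (by positivity) h5 2)
  rw [sum_image hinj, sum_image hinj] at hT3
  refine ⟨N, T, fun ι => ∃ s : κ → ℝ, (∀ i, η i * ι i ≤ s i ∧ s i ≤ η i * (ι i + 1)) ∧
    pr K {x | ∀ i, |T x (Sum.inl i) - s i| ≤ 1 / (n : ℝ) ^ 5}
      < (∏ i, 2 / (n : ℝ) ^ 5 * (qq (η i) (ι i) / η i)) / 200, hT1, hT2, ?_,
    fun ι _ hb s hs => not_lt.1 (fun hlt => hb ⟨s, hs, hlt⟩)⟩
  refine (cg_core η ℓ J hz0 (fun i => ⟨(hη i).1, (hη i).2.1⟩) hℓ h1 h2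
    (fun a => pr K {x | ∀ i, |T x (Sum.inl i) - z * (a i : ℝ)| ≤ ζ}
      < (∏ i, 2 * ζ * gd (z * (a i : ℝ))) / 20) _ ?_).trans ?_
  · rintro ι _ ⟨s, hs, hlt⟩
    refine ⟨s, hs, fun b hb => ?_⟩
    by_contra hcon
    rw [not_or, not_lt, not_lt] at hcon
    obtain ⟨g1, g2⟩ := hcon
    simp only [Pi.add_apply, Pi.sub_apply, Int.cast_add, Int.cast_sub, mul_add, mul_sub] at g1 g2
    have g3 := cg_mid hK.1 T (fun i => z * (⌊s i / z⌋ : ℝ)) (fun i => z * (b i : ℝ)) ζ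
    set P : ℝ := ∏ i, 2 * ζ * gd (z * (⌊s i / z⌋ : ℝ)) with hP
    have hP0 : 0 < P := prod_pos fun i _ => mul_pos (by linarith) (cg_gd_pos _)
    have g4 : pr K {x | ∀ i, |T x (Sum.inl i) - z * (⌊s i / z⌋ : ℝ)| ≤ ζ}
        ≤ pr K {x | ∀ i, |T x (Sum.inl i) - s i| ≤ 1 / (n : ℝ) ^ 5} := by
      refine cg_pr_mono hK.1 (fun x hx i => ?_)
      have e1 := abs_le.1 (hx i)
      have e2 := cg_floor (s := s i) hz0
      rw [abs_le]
      constructor <;> linarith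
    have g5 : ∏ i, 2 / (n : ℝ) ^ 5 * (qq (η i) (ι i) / η i) ≤ 2 * P :=
      cg_g5 η ι s hz0 hn4 (by linarith) hζe (fun i => (hη i).1) hs
    have g6 := cg_g6 (fun i => η i * J i + 2) ℓ (fun i => z * (⌊s i / z⌋ : ℝ))
      (fun i => z * (b i : ℝ)) ζ hM hℓ h2 hb
    have g8 : pr K {x | ∀ i, |T x (Sum.inl i) - z * (⌊s i / z⌋ : ℝ)| ≤ ζ} ≤ P / 100 := by
      linarith only [g4, g5, hlt]
    exact cg_contra hP0 (cg_pr_nonneg _ _) g8 g3 g1 g2
      (prod_nonneg fun i _ => (mul_pos (by linarith only [hζ0]) (cg_gd_pos _)).le)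
      (cg_pr_nonneg _ _) g6
  · have e1 : ∑ a ∈ PA, ∏ i, z * gd (z * (a i : ℝ)) ≤ 3 := by
      rw [hPA, ← prod_univ_sum _ (fun _ (j : ℤ) => z * gd (z * (j : ℝ)))]
      refine (prod_le_prod (g := fun _ => Real.exp z)
        (fun i _ => sum_nonneg fun j _ => (mul_pos hz0 (cg_gd_pos _)).le)
        (fun i _ => (cg_gauss hz0 _).trans (by linarith [Real.add_one_le_exp z]))).trans ?_
      rw [← Real.exp_sum, sum_const, card_univ, nsmul_eq_mul]
      refine cg_exp_le ?_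
      have e2 : (n : ℝ) ≤ (n : ℝ) ^ 6 := le_self_pow₀ (by linarith) (by norm_num)
      rw [hz, mul_one_div, div_le_one (by positivity)]
      linarith
    have e2 : 0 < 1 / v := by positivity
    have e3 := mul_le_mul_of_nonneg_left e1 e2.le
    have e4 : 100 / v = 100 * (1 / v) := by ring
    rw [e4]
    linarith

end Vale.Agent.P230
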