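import Vale.Agent.P230.Geom

/-! The failure probability for one configuration of centres. -/

open MeasureTheory Finset Metric
open scoped ENNReal

namespace Vale.Agent.P230

variable {n : ℕ}

/-- two test points can see the same region through two centres -/
def nearP (ρ : ℝ) (C : Finset (Lat n)) (x x' : Lat n) : Prop :=
  ∃ c ∈ C, ∃ c' ∈ C, ‖(emb x - emb c) - (emb x' - emb c')‖ ≤ ρ

lemma nearP_symm {ρ : ℝ} {C : Finset (Lat n)} {x x' : Lat n} (h : nearP ρ C x x') :
    nearP ρ C x' x := by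
  obtain ⟨c, hc, c', hc', h⟩ := h
  exact ⟨c', hc', c, hc, by rwa [norm_sub_rev]⟩

lemma near_count {ρ T : ℝ} (hρ : 0 ≤ ρ) (C : Finset (Lat n)) (hT : (C.card : ℝ) ≤ T)
    (Q : Finset (Lat n)) (x : Lat n) :
    ∑ x' ∈ Q, ind (nearP ρ C x x') ≤ T ^ 2 * (om n * (ρ + √n) ^ n) := by
  classical
  rw [sum_ind]
  have h1 : Q.filter (fun x' => nearP ρ C x x') ⊆
      C.biUnion fun c => C.biUnion fun c' => LB (emb x - emb c + emb c') ρ := by
    intro x' hx'
    obtain ⟨c, hc, c', hc', h⟩ := (mem_filter.1 hx').2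
    refine mem_biUnion.2 ⟨c, hc, mem_biUnion.2 ⟨c', hc', mem_LB.2 ?_⟩⟩
    rw [norm_sub_rev]
    refine le_trans (le_of_eq ?_) h
    congr 1; abel
  have hom := @om_pos n
  have hN : 0 ≤ om n * (ρ + √n) ^ n := by positivity
  refine (Nat.cast_le.2 ((card_le_card h1).trans card_biUnion_le)).trans ?_
  push_cast
  calc ∑ c ∈ C, ((C.biUnion fun c' => LB (emb x - emb c + emb c') ρ).card : ℝ)
      ≤ ∑ c ∈ C, T * (om n * (ρ + √n) ^ n) := by
        refine sum_le_sum fun c _ => (Nat.cast_le.2 card_biUnion_le).trans ?_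
        push_cast
        refine (sum_le_sum fun c' _ => card_LB_le _ hρ).trans ?_
        rw [sum_const, nsmul_eq_mul]
        exact mul_le_mul_of_nonneg_right hT hN
    _ ≤ _ := by
        rw [sum_const, nsmul_eq_mul]
        have hT0 : 0 ≤ T := le_trans (Nat.cast_nonneg _) hT
        have := mul_le_mul_of_nonneg_right hT (mul_nonneg hT0 hN)
        linarith

/-- total cost of a test point -/
noncomputable def cost (a R Θ : ℝ) (S : ℕ) (C : Finset (Lat n)) (x : Lat n) : ℝ :=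
  ∑ c ∈ C, fc a R Θ S (emb x - emb c)

/-- every test point has a relevant centre whose removing set is missed -/
def AllCov (a R : ℝ) (C : Finset (Lat n)) (ω : Gr n R → Bool) : Prop :=
  ∀ u ∈ LB (0 : E n) R, ∀ b ∈ LB (0 : E n) (a * R), ∃ c ∈ C,
    ‖emb (u + b) - emb c‖ ≤ R + √n ∧ ¬ hit (AS a R (emb (u + b) - emb c)) ω

lemma markov {κ : Type*} (s : Finset κ) (h : κ → ℝ) (h0 : ∀ k ∈ s, 0 ≤ h k) (t : ℝ) :
    t * (s.card - ((s.filter fun k => h k < t).card : ℝ)) ≤ ∑ k ∈ s, h k := by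
  rw [← sum_ind]
  calc t * (s.card - ∑ k ∈ s, ind (h k < t)) = ∑ k ∈ s, t * (1 - ind (h k < t)) := by
        rw [← mul_sum, sum_sub_distrib]; simp
    _ ≤ _ := sum_le_sum fun k hk => by
        by_cases e : h k < t
        · rw [ind_pos e]; simpa using h0 k hk
        · rw [ind_neg e]; simpa using e

lemma config_bound {a a' r0 R Θ T : ℝ} {S L : ℕ} (hn : 0 < n) (ha : 0 < a) (ha1 : a ≤ 1 / 2)
    (hR : 0 < R) (hg : 7 * n * √n ≤ a ^ 2 * R) (hS : 2 * S / a ^ 2 + 1 ≤ n / 2) (hΘ : 0 < Θ)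
    (ha' : 0 ≤ a') (hr0 : 0 ≤ r0) (haa : a ^ 2 - r0 ^ 2 / 4 ≤ a' ^ 2)
    (Hnear : T ^ 2 * (om n * (r0 * R + √n) ^ n) * Real.exp Θ * 2 ≤ om n * (a * R - √n) ^ n)
    (Hfar : pp n a R * ((Θ / 4) ^ 2 * (om n * (a' * R + √n) ^ n))
      * ((1 + Θ / 4 * Real.exp (4 * S / a ^ 2 + 4)) ^ 2 + 2) ≤ 1 / 2)
    (HL : L * (2 * (T ^ 2 * (om n * (4 * (a * R) + √n) ^ n) + 1)) ≤ om n * (R - √n) ^ n)
    (C : Finset (Lat n)) (hT : (C.card : ℝ) ≤ T)
    (hcost : ∑ u ∈ LB (0 : E n) R, ∑ b ∈ LB (0 : E n) (a * R), cost a R Θ S C (u + b)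
      ≤ (LB (0 : E n) R).card * (LB (0 : E n) (a * R)).card * (Θ / 4)) :
    Ex (fun _ => pp n a R) (fun ω => ind (AllCov a R C ω)) ≤ (2 / 3) ^ L := by
  classical
  have hn' : (1 : ℝ) ≤ n := by exact_mod_cast hn
  have hg0 : 0 < √(n : ℝ) := Real.sqrt_pos.2 (by linarith)
  have haR : 0 < a * R := by positivity
  have hgaR : √n ≤ a * R := by
    have h1 : a ^ 2 * R ≤ a * R := by nlinarith
    have h2 : √n ≤ 7 * n * √n := by nlinarith
    linarith
  have haRR : a * R ≤ R / 2 := by nlinarith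
  have hom := @om_pos n
  set P := LB (0 : E n) R with hP
  set G0 := LB (0 : E n) (a * R) with hG0
  have hp0 := pp_pos (n := n) haR.le
  have hp1 := pp_le (n := n) haR.le
  have hG0c : (0 : ℝ) < G0.card := by
    have : (0 : Lat n) ∈ G0 := by rw [hG0, mem_LB, emb_zero]; simpa using haR.le
    exact_mod_cast card_pos.2 ⟨0, this⟩
  have hfc : ∀ y : E n, 0 ≤ fc a R Θ S y := fun y => fc_nonneg hΘ.le S y
  have hcost0 : ∀ x, 0 ≤ cost a R Θ S C x := fun x => sum_nonneg fun c _ => hfc _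
  let G : Lat n → Finset (Lat n) := fun u => G0.filter fun b => cost a R Θ S C (u + b) < Θ
  let P' := P.filter fun u => ∑ b ∈ G0, cost a R Θ S C (u + b) < G0.card * (Θ / 2)
  have hP' : (P.card : ℝ) ≤ 2 * P'.card := by
    have := (markov P (fun u => ∑ b ∈ G0, cost a R Θ S C (u + b))
      (fun u _ => sum_nonneg fun b _ => hcost0 _) (G0.card * (Θ / 2))).trans hcost
    have h2 : (G0.card * (Θ / 2)) * ((P.card : ℝ) - P'.card)
        ≤ (G0.card * (Θ / 2)) * (P.card / 2) := by linarith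
    have := le_of_mul_le_mul_left h2 (by positivity)
    linarith
  have hG : ∀ u ∈ P', (G0.card : ℝ) ≤ 2 * (G u).card := by
    intro u hu
    have := (markov G0 (fun b => cost a R Θ S C (u + b)) (fun b _ => hcost0 _) Θ).trans
      (mem_filter.1 hu).2.le
    have h2 : Θ * ((G0.card : ℝ) - (G u).card) ≤ Θ * (G0.card / 2) := by linarith
    have := le_of_mul_le_mul_left h2 hΘ
    linarith
  obtain ⟨I, hIP, hIind, hIcard⟩ := exists_indep P' (nearP (4 * (a * R)) C)
    (fun _ _ => nearP_symm) _ (fun u _ => near_count (by positivity) C hT P' u)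
  have hLI : L ≤ I.card := by
    have h1 := le_card_LB (0 : E n) (r := R) (by linarith)
    have h2 : 0 < 2 * (T ^ 2 * (om n * (4 * (a * R) + √n) ^ n) + 1) := by positivity
    have h3 : (L : ℝ) * (2 * (T ^ 2 * (om n * (4 * (a * R) + √n) ^ n) + 1))
        ≤ I.card * (2 * (T ^ 2 * (om n * (4 * (a * R) + √n) ^ n) + 1)) := by linarith
    exact_mod_cast le_of_mul_le_mul_right h3 h2
  let J : Lat n → Lat n → Finset (Lat n) :=
    fun u b => C.filter fun c => ‖emb (u + b) - emb c‖ ≤ R + √n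
  let A : Lat n → Lat n → Lat n → Finset (Gr n R) := fun u b c => AS a R (emb (u + b) - emb c)
  have hcb : ∀ u, ∀ b ∈ G u, ∀ c ∈ J u b, _ := fun u b hb c hc =>
    cost_bound (Θ := Θ) hn ha ha1 hR hg hS (mem_filter.1 hc).2
      (lt_of_le_of_lt (single_le_sum (f := fun c => fc a R Θ S (emb (u + b) - emb c))
        (fun c _ => hfc _) (mem_filter.1 hc).1) (mem_filter.1 hb).2)
  have hJsum : ∀ u, ∀ b ∈ G u, ∑ c ∈ J u b, fc a R Θ S (emb (u + b) - emb c) ≤ Θ :=
    fun u b hb => (sum_le_sum_of_subset_of_nonneg (filter_subset _ _) fun c _ _ => hfc _).trans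
      (mem_filter.1 hb).2.le
  have hJcard : ∀ u, ∀ b ∈ G u, ((J u b).card : ℝ) ≤ Θ / 4 := by
    intro u b hb
    have h1 : ∑ c ∈ J u b, (4 : ℝ) ≤ ∑ c ∈ J u b, fc a R Θ S (emb (u + b) - emb c) := by
      refine sum_le_sum fun c hc => ?_
      unfold fc
      rw [ind_pos (mem_filter.1 hc).2]
      have h1 := ind_nonneg (‖emb (u + b) - emb c‖ ≤ R * (1 - S / n))
      have h3 : 0 ≤ ∑ j ∈ range S, ind (‖emb (u + b) - emb c‖ ≤ R * (1 - j / n)) :=
        sum_nonneg fun _ _ => ind_nonneg _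
      have : 0 ≤ 4 / a ^ 2 * ∑ j ∈ range S, ind (‖emb (u + b) - emb c‖ ≤ R * (1 - j / n))
        + Θ * ind (‖emb (u + b) - emb c‖ ≤ R * (1 - S / n)) := by positivity
      linarith
    rw [sum_const, nsmul_eq_mul] at h1
    linarith [hJsum u b hb]
  have hmain := groups_bound hp0 hp1 I G (fun u hu => ?_) J A
    (fun u _ b hb c hc => (hcb u b hb c hc).1) (Real.exp Θ)
    (1 + Θ / 4 * Real.exp (4 * S / a ^ 2 + 4)) (fun u _ b hb => ?_) (fun u _ b hb => ?_)
    (nearP (r0 * R) C) (fun u hu b _ => ?_) (fun u _ b hb b' hb' hnn => ?_)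
    (fun u hu u' hu' hne b hb b' hb' c hc c' hc' => ?_)
  · refine le_trans (Ex_mono (fun _ => hp0.le) (fun _ => by linarith) fun ω => ind_mono ?_)
      (hmain.trans (pow_le_pow_of_le_one (by norm_num) (by norm_num) hLI))
    intro h u hu b hb
    obtain ⟨c, hc, h1, h2⟩ := h u (mem_filter.1 (hIP hu)).1 b (mem_filter.1 hb).1
    exact ⟨c, mem_filter.2 ⟨hc, h1⟩, h2⟩
  · have := hG u (hIP hu)
    rw [← card_pos]
    have : (0 : ℝ) < (G u).card := by linarith
    exact_mod_cast this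
  · refine le_trans (prod_le_prod (fun c _ => by positivity) fun c hc => (hcb u b hb c hc).2.1) ?_
    rw [← Real.exp_sum, Real.exp_le_exp]
    exact hJsum u b hb
  · have := sum_le_sum fun c hc => (hcb u b hb c hc).2.2
    rw [sum_const, nsmul_eq_mul] at this
    have h2 := mul_le_mul_of_nonneg_right (hJcard u b hb) (Real.exp_pos (4 * S / a ^ 2 + 4)).le
    simp only [A]
    linarith
  · have h1 := mul_le_mul_of_nonneg_right (near_count (ρ := r0 * R) (by positivity) C hT (G u) b)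
      (Real.exp_pos Θ).le
    have h2 := le_card_LB (0 : E n) hgaR
    have h3 := hG u (hIP hu)
    linarith
  · refine le_trans ?_ Hfar
    refine mul_le_mul_of_nonneg_right (mul_le_mul_of_nonneg_left ?_ hp0.le) (by positivity)
    have h1 : (J u b).biUnion (A u b) ∩ (J u b').biUnion (A u b') ⊆
        (J u b).biUnion fun c => (J u b').biUnion fun c' => A u b c ∩ A u b' c' := by
      intro v hv
      obtain ⟨h1, h2⟩ := mem_inter.1 hv
      obtain ⟨c, hc, h1⟩ := mem_biUnion.1 h1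
      obtain ⟨c', hc', h2⟩ := mem_biUnion.1 h2
      exact mem_biUnion.2 ⟨c, hc, mem_biUnion.2 ⟨c', hc', mem_inter.2 ⟨h1, h2⟩⟩⟩
    have hN : 0 ≤ om n * (a' * R + √n) ^ n := by positivity
    refine (Nat.cast_le.2 ((card_le_card h1).trans card_biUnion_le)).trans ?_
    push_cast
    calc ∑ c ∈ J u b, (((J u b').biUnion fun c' => A u b c ∩ A u b' c').card : ℝ)
        ≤ ∑ c ∈ J u b, Θ / 4 * (om n * (a' * R + √n) ^ n) := by
          refine sum_le_sum fun c hc => (Nat.cast_le.2 card_biUnion_le).trans ?_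
          push_cast
          refine (sum_le_sum (g := fun _ => om n * (a' * R + √n) ^ n) fun c' hc' => ?_).trans ?_
          · refine AS_overlap ha.le ha' hr0 hR.le (by linarith) haa (mem_filter.1 hc).2
              (mem_filter.1 hc').2 ?_
            by_contra hlt
            refine hnn ⟨c, (mem_filter.1 hc).1, c', (mem_filter.1 hc').1, ?_⟩
            rw [emb_add, emb_add] at hlt
            refine le_trans (le_of_eq ?_) (not_le.1 hlt).le
            congr 1; abel
          · rw [sum_const, nsmul_eq_mul]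
            exact mul_le_mul_of_nonneg_right (hJcard u b' hb') hN
      _ ≤ _ := by
          rw [sum_const, nsmul_eq_mul]
          have := mul_le_mul_of_nonneg_right (hJcard u b hb)
            (mul_nonneg (by positivity : 0 ≤ Θ / 4) hN)
          linarith
  · refine AS_disjoint ha.le hR.le (by linarith) (mem_filter.1 hc).2 (mem_filter.1 hc').2 ?_
    by_contra hle
    refine hIind u hu u' hu' hne ⟨c, (mem_filter.1 hc).1, c', (mem_filter.1 hc').1, ?_⟩
    have hb1 : ‖emb b‖ ≤ a * R := by simpa using mem_LB.1 (mem_filter.1 hb).1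
    have hb2 : ‖emb b'‖ ≤ a * R := by simpa using mem_LB.1 (mem_filter.1 hb').1
    rw [emb_add, emb_add] at hle
    calc ‖emb u - emb c - (emb u' - emb c')‖
        = ‖(emb u + emb b - emb c - (emb u' + emb b' - emb c')) - emb b + emb b'‖ := by
          congr 1; abel
      _ ≤ ‖emb u + emb b - emb c - (emb u' + emb b' - emb c')‖ + ‖emb b‖ + ‖emb b'‖ :=
          (norm_add_le _ _).trans (add_le_add (norm_sub_le _ _) le_rfl)
      _ ≤ _ := by linarith [not_lt.1 hle]

end Vale.Agent.P230
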