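import Vale.Agent.P230.Defs

/-! Lattice points in Euclidean balls. -/

open MeasureTheory Finset Metric
open scoped ENNReal

namespace Vale.Agent.P230

variable {n : ℕ}

/-- the integer lattice -/
abbrev Lat (n : ℕ) : Type := Fin n → ℤ

/-- embedding of the lattice -/
noncomputable def emb (v : Lat n) : E n := WithLp.toLp 2 (fun i => (v i : ℝ))

@[simp] lemma emb_apply (v : Lat n) (i : Fin n) : emb v i = (v i : ℝ) := rfl

lemma emb_add (v w : Lat n) : emb (v + w) = emb v + emb w := by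
  ext i; simp

lemma emb_sub (v w : Lat n) : emb (v - w) = emb v - emb w := by
  ext i; simp

lemma emb_zero : emb (0 : Lat n) = 0 := by
  ext i; simp

lemma abs_le_norm (x : E n) (i : Fin n) : |x i| ≤ ‖x‖ := by
  simpa using PiLp.norm_apply_le x i

open Classical in
/-- lattice points in a closed ball -/
noncomputable def LB (y : E n) (r : ℝ) : Finset (Lat n) :=
  (Fintype.piFinset fun i => Finset.Icc ⌈y i - r⌉ ⌊y i + r⌋).filter fun v => ‖emb v - y‖ ≤ r

lemma mem_LB {y : E n} {r : ℝ} {v : Lat n} : v ∈ LB y r ↔ ‖emb v - y‖ ≤ r := by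
  unfold LB
  rw [mem_filter]
  refine ⟨fun h => h.2, fun h => ⟨?_, h⟩⟩
  rw [Fintype.mem_piFinset]
  intro i
  have := (abs_le_norm (emb v - y) i).trans h
  simp only [PiLp.sub_apply, emb_apply] at this
  rw [abs_le] at this
  rw [Finset.mem_Icc, Int.ceil_le, Int.le_floor]
  constructor <;> linarith [this.1, this.2]

lemma card_LB_triv (r : ℝ) (hr : 0 ≤ r) : ((LB (0 : E n) r).card : ℝ) ≤ (2 * r + 1) ^ n := by
  unfold LB
  refine le_trans (Nat.cast_le.2 (card_filter_le _ _)) ?_
  rw [Fintype.card_piFinset]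
  push_cast
  rw [← Fin.prod_const]
  refine prod_le_prod (fun _ _ => Nat.cast_nonneg _) fun i _ => ?_
  rw [Int.card_Icc]
  simp only [PiLp.zero_apply, zero_sub, zero_add]
  have h1 := Int.floor_le r
  have h2 := Int.le_ceil (-r)
  have h3 : (0 : ℤ) ≤ ⌊r⌋ + 1 - ⌈-r⌉ := by
    have : (0 : ℤ) ≤ ⌊r⌋ := Int.floor_nonneg.2 hr
    have : ⌈-r⌉ ≤ 0 := Int.ceil_le.2 (by simpa using hr)
    omega
  have h4 : (((⌊r⌋ + 1 - ⌈-r⌉).toNat : ℤ) : ℝ) = ((⌊r⌋ + 1 - ⌈-r⌉ : ℤ) : ℝ) := by
    rw [Int.toNat_of_nonneg h3]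
  push_cast at h4
  rw [h4]
  linarith

/-- volume of the unit ball -/
noncomputable def om (n : ℕ) : ℝ := (volume (closedBall (0 : E n) 1)).toReal

lemma om_pos : 0 < om n :=
  ENNReal.toReal_pos (measure_closedBall_pos _ _ one_pos).ne' measure_closedBall_lt_top.ne

lemma volume_closedBall_eq (y : E n) {r : ℝ} (hr : 0 ≤ r) :
    volume (closedBall y r) = ENNReal.ofReal (om n * r ^ n) := by
  rw [Measure.addHaar_closedBall' _ _ hr, finrank_euclideanSpace_fin, mul_comm (om n),
    ENNReal.ofReal_mul (by positivity), om,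
    ENNReal.ofReal_toReal measure_closedBall_lt_top.ne]

/-- floor map -/
noncomputable def fl (x : E n) : Lat n := fun i => ⌊x i⌋

lemma norm_sub_fl (x : E n) : ‖x - emb (fl x)‖ ≤ √n := by
  rw [EuclideanSpace.norm_eq]
  refine Real.sqrt_le_sqrt ?_
  calc ∑ i, ‖(x - emb (fl x)) i‖ ^ 2 ≤ ∑ _i : Fin n, (1 : ℝ) := by
        refine sum_le_sum fun i _ => ?_
        simp only [PiLp.sub_apply, emb_apply, fl, Real.norm_eq_abs, sq_abs]
        have h1 := Int.floor_le (x i)
        have h2 := Int.lt_floor_add_one (x i)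
        nlinarith
    _ = n := by simp

/-- half-open unit cube -/
def ucube (v : Lat n) : Set (E n) := {x | fl x = v}

lemma ucube_eq (v : Lat n) : ucube v = (WithLp.ofLp : E n → (Fin n → ℝ)) ⁻¹'
    (Set.pi Set.univ fun i => Set.Ico (v i : ℝ) (v i + 1)) := by
  ext x
  simp only [ucube, Set.mem_ofPred_eq, Set.mem_preimage, Set.mem_pi, Set.mem_univ, true_imp_iff,
    Set.mem_Ico, funext_iff, fl, Int.floor_eq_iff]

lemma measurableSet_ucube (v : Lat n) : MeasurableSet (ucube v) := by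
  rw [ucube_eq]
  exact (PiLp.volume_preserving_ofLp (Fin n)).measurable
    (MeasurableSet.univ_pi fun i => measurableSet_Ico)

lemma volume_ucube (v : Lat n) : volume (ucube v) = 1 := by
  rw [ucube_eq, (PiLp.volume_preserving_ofLp (Fin n)).measure_preimage
    (MeasurableSet.univ_pi fun i => measurableSet_Ico).nullMeasurableSet, Real.volume_pi_Ico]
  simp

lemma volume_biUnion_ucube (s : Finset (Lat n)) : volume (⋃ v ∈ s, ucube v) = s.card := by
  rw [measure_biUnion_finset (fun v _ w _ h => ?_) fun v _ => measurableSet_ucube v]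
  · simp [volume_ucube]
  · rw [Function.onFun, Set.disjoint_left]
    intro x h1 h2
    exact h (h1.symm.trans h2)

lemma card_LB_le (y : E n) {r : ℝ} (hr : 0 ≤ r) :
    ((LB y r).card : ℝ) ≤ om n * (r + √n) ^ n := by
  have h1 : (⋃ v ∈ LB y r, ucube v) ⊆ closedBall y (r + √n) := by
    intro x hx
    simp only [Set.mem_iUnion] at hx
    obtain ⟨v, hv, hx⟩ := hx
    rw [mem_LB] at hv
    have h2 := norm_sub_fl x
    rw [show fl x = v from hx] at h2
    rw [mem_closedBall, dist_eq_norm]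
    calc ‖x - y‖ = ‖(x - emb v) + (emb v - y)‖ := by congr 1; abel
      _ ≤ _ := (norm_add_le _ _).trans (by linarith)
  have h2 := measure_mono (μ := volume) h1
  rw [volume_biUnion_ucube, volume_closedBall_eq _ (by positivity)] at h2
  have h3 := ENNReal.toReal_mono ENNReal.ofReal_ne_top h2
  rwa [ENNReal.toReal_natCast, ENNReal.toReal_ofReal (by have := @om_pos n; positivity)] at h3

lemma le_card_LB (y : E n) {r : ℝ} (hr : √n ≤ r) :
    om n * (r - √n) ^ n ≤ ((LB y r).card : ℝ) := by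
  have h1 : closedBall y (r - √n) ⊆ (⋃ v ∈ LB y r, ucube v) := by
    intro x hx
    simp only [Set.mem_iUnion]
    refine ⟨fl x, ?_, rfl⟩
    rw [mem_LB]
    have h2 := norm_sub_fl x
    rw [mem_closedBall, dist_eq_norm] at hx
    calc ‖emb (fl x) - y‖ = ‖(x - y) - (x - emb (fl x))‖ := by congr 1; abel
      _ ≤ _ := (norm_sub_le _ _).trans (by linarith)
  have h2 := measure_mono (μ := volume) h1
  rw [volume_biUnion_ucube, volume_closedBall_eq _ (by linarith)] at h2
  have h3 := ENNReal.toReal_mono (ENNReal.natCast_ne_top _) h2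
  have h4 : 0 ≤ r - √n := by linarith
  rwa [ENNReal.toReal_natCast, ENNReal.toReal_ofReal (by have := @om_pos n; positivity)] at h3

lemma one_le_om {r : ℝ} (hr : 0 ≤ r) : 1 ≤ om n * (r + √n) ^ n := by
  refine le_trans ?_ (card_LB_le (0 : E n) hr)
  have : (0 : Lat n) ∈ LB (0 : E n) r := by rw [mem_LB, emb_zero]; simpa using hr
  exact_mod_cast card_pos.2 ⟨0, this⟩

end Vale.Agent.P230
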