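import Vale.Agent.P230.Dirty

/-! Definitions and interface statements for the discrete covering theorem `DFP`. -/

open Finset

namespace Vale.Agent.P230

/-- Boolean trees of depth at most `h` -/
def TL {κ : Type} : ℕ → Finset (κ → ℤ) → Prop
  | 0, Z => Z.card ≤ 1
  | h + 1, Z => Z.card ≤ 1 ∨ ∃ (i : κ) (c : ℤ), (∀ z ∈ Z, z i = c ∨ z i = c + 1) ∧
      TL h (Z.filter fun z => z i = c) ∧ TL h (Z.filter fun z => z i = c + 1)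

/-- reduction of an integer vector modulo `p` -/
def zc {κ : Type} (p : ℕ) (z : κ → ℤ) : κ → ZMod p := fun i => (z i : ZMod p)

/-- `R` contains representatives of all cosets of the lattice spanned by the columns of `B` -/
def Reps {κ : Type} [Fintype κ] (B : Matrix κ κ ℤ) (R : Finset (κ → ℤ)) : Prop :=
  ∀ t : κ → ℤ, ∃ ρ ∈ R, ∃ z : κ → ℤ, t = ρ + B.mulVec z

/-- a weighted two-level tree of lattice points seen from `t` -/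
def Pat {κ₁ κ₂ : Type} [Fintype κ₁] [Fintype κ₂] (B : Matrix (κ₁ ⊕ κ₂) (κ₁ ⊕ κ₂) ℤ)
    (Q : (κ₁ ⊕ κ₂ → ℤ) → ℝ) (h₁ h₂ : ℕ) (tot ω ν : ℝ) (t : κ₁ ⊕ κ₂ → ℤ) : Prop :=
  ∃ (Z₁ : Finset (κ₁ → ℤ)) (Z₂ : (κ₁ → ℤ) → Finset (κ₂ → ℤ)) (w : (κ₁ → ℤ) → (κ₂ → ℤ) → ℝ),
    TL h₁ Z₁ ∧ (∀ g, TL h₂ (Z₂ g)) ∧ (∀ g z, 0 ≤ w g z) ∧
    (∀ g ∈ Z₁, ∀ z ∈ Z₂ g, w g z ≤ Q (t - B.mulVec (Sum.elim g z))) ∧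
    tot ≤ ∑ g ∈ Z₁, ∑ z ∈ Z₂ g, w g z ∧
    (∀ g ∈ Z₁, ∑ z ∈ Z₂ g, w g z ≤ ω) ∧
    ∀ g ∈ Z₁, ∀ z ∈ Z₂ g, w g z ≤ ν * ∑ z' ∈ Z₂ g, w g z'

/-- concentration of the decoded gain inside one group -/
def GroupP : Prop :=
  ∀ (p : ℕ) [Fact p.Prime] (κ Sg Zt Jt : Type) [Fintype κ] [DecidableEq κ] [Fintype Sg]
    [DecidableEq Sg] [Fintype Zt] [Fintype Jt] (r J μ k : ℕ) (η ε ε₂ ν N : ℝ)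
    (zv : Zt → κ → ZMod p) (jp : Jt → Fin r → ℤ) (w : Zt → ℝ)
    (g : Zt → Jt → (Sg → ZMod p) → ℝ),
    0 < η → η ≤ 1 / 100 → 2 * J ≤ p → Function.Injective zv → Function.Injective jp →
    (∀ j, TypD η J (jp j)) → 0 < ε → ε ≤ 1 / 2 → 0 ≤ ε₂ → ε₂ < 1 → Fintype.card Zt ≤ 2 ^ k →
    (∀ z, 0 ≤ w z) → 0 < ∑ z, w z → (∀ z, w z ≤ ν * ∑ z', w z') →
    (∀ z j τ, 0 ≤ g z j τ) → (∀ z j τ, g z j τ ≤ N) → μ * ν * N ≤ ε →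
    (∀ z j, av (fun τ => ind (0 < g z j τ)) ≤ ε * ∏ c, qq η (jp j c)) →
    (∀ z j, av (g z j) ≤ ∏ c, qq η (jp j c)) →
    (∀ z, 0 < w z → 1 - ε₂ ≤ ∑ j, av (g z j)) →
    1 ≤ μ → 2 * μ * (k + 2) ≤ p → 9 * μ + 1 ≤ p → 42000 * μ * Real.log p ≤ r →
    av (fun φ : κ ⊕ Fin r → Sg → ZMod p => av fun x => ind (∀ sel : Zt → Jt,
        ∑ z, w z * g z (sel z) (lin φ x (Sum.elim (zv z) (zc p (jp (sel z)))))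
          < (1 - 4 * ε - ε₂) * ∑ z, w z))
      ≤ Real.exp (3 - ε * μ)

/-- extension of a lattice by free coordinates `L₁` and coordinates `L₂` determined modulo `p` -/
def ExtP : Prop :=
  ∀ (κ L₁ L₂ : Type) [Fintype κ] [DecidableEq κ] [Fintype L₁] [DecidableEq L₁] [Fintype L₂]
    [DecidableEq L₂] (B : Matrix κ κ ℤ) (p : ℕ) (M : κ ⊕ L₁ → L₂ → ℤ), 0 < p →
    ∃ B' : Matrix (κ ⊕ (L₁ ⊕ L₂)) (κ ⊕ (L₁ ⊕ L₂)) ℤ,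
      B'.det = B.det * (p : ℤ) ^ Fintype.card L₂ ∧
      (∀ z z₁ z₂, B'.mulVec (Sum.elim z (Sum.elim z₁ z₂)) = Sum.elim (B.mulVec z)
        (Sum.elim z₁ fun c => ∑ i, Sum.elim z z₁ i * M i c + p * z₂ c)) ∧
      ∀ R : Finset (κ → ℤ), Reps B R → ∃ R' : Finset (κ ⊕ (L₁ ⊕ L₂) → ℤ), Reps B' R' ∧
        R'.card ≤ R.card * p ^ Fintype.card L₂ ∧
        ∀ ρ' ∈ R', ∃ ρ ∈ R, ∃ t : L₂ → ℤ, ρ' = Sum.elim ρ (Sum.elim 0 t)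

/-- one stage of the vertical construction -/
def StageP : Prop :=
  ∀ (κ₁ κ₂ : Type) [Fintype κ₁] [DecidableEq κ₁] [Fintype κ₂] [DecidableEq κ₂]
    (B : Matrix (κ₁ ⊕ κ₂) (κ₁ ⊕ κ₂) ℤ) (D : ℕ) (R : Finset (κ₁ ⊕ κ₂ → ℤ))
    (Q : (κ₁ ⊕ κ₂ → ℤ) → ℝ) (h₁ h₂ : ℕ) (tot ω ν : ℝ) (p r d J μ : ℕ) (η η' ε ε₁ N ν' : ℝ)
    (A : (κ₁ ⊕ κ₂ → ℤ) → (Fin r → ℤ) → (Fin d → ℤ) → Prop)
    (Q' : ((κ₁ ⊕ κ₂) ⊕ (Fin r ⊕ Fin d) → ℤ) → ℝ),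
    B.det = D → 1 ≤ D → R.card ≤ D → Reps B R → (∀ ρ ∈ R, Pat B Q h₁ h₂ tot ω ν ρ) →
    (∀ ζ, 0 < Q ζ → 1 - ε₁ ≤ ∑ j ∈ Fintype.piFinset fun _ : Fin r => Win J,
      ∑ s ∈ Fintype.piFinset fun _ : Fin d => Win p,
        (∏ c, qq η (j c)) * (∏ c, qq η' (s c)) * ind (A ζ j s)) →
    (∀ ζ j s, A ζ j s → TypD η J j ∧ (∀ c, s c ∈ Win p) ∧
      1 / ε ≤ (∏ c, qq η (j c)) * ∏ c, fold η' p (s c) ∧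
      (∏ c, qq η (j c)) * ∏ c, fold η' p (s c) ≤ N ∧
      (∏ c, qq η (j c)) * ∏ c, (p * qq η' (s c)) ≤ ν' ∧
      Q ζ * ((∏ c, qq η (j c)) * ∏ c, (p * qq η' (s c))) ≤ Q' (Sum.elim ζ (Sum.elim j s))) →
    p.Prime → 0 < η → η ≤ 1 / 100 → 0 < η' → 2 * J ≤ p → 0 < ε → 0 ≤ ε₁ → 5 * ε + ε₁ ≤ 1 →
    0 < tot → tot ≤ 1 → 0 < ω → ω ≤ 1 → 0 ≤ ν → 0 ≤ N → 0 ≤ ν' → 1 ≤ μ → μ * ν * N ≤ ε →
    2 * μ * (h₂ + 2) ≤ p → 9 * μ + 1 ≤ p → 42000 * μ * Real.log p ≤ r →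
    Real.log (4 * D) ≤ ε * (ε * μ - 3) → ω * d * Real.log p ≤ ε * (ε * μ - 3) →
    ∃ (B' : Matrix ((κ₁ ⊕ κ₂) ⊕ (Fin r ⊕ Fin d)) ((κ₁ ⊕ κ₂) ⊕ (Fin r ⊕ Fin d)) ℤ)
      (R' : Finset ((κ₁ ⊕ κ₂) ⊕ (Fin r ⊕ Fin d) → ℤ)),
      B'.det = (D * p ^ d : ℕ) ∧ R'.card ≤ D * p ^ d ∧ Reps B' R' ∧
      ∀ ρ' ∈ R', Pat B' Q' (h₁ + h₂) d (tot - 7 * ε - ε₁) (ν * N) ν' ρ'

/-- the vertical lattice -/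
def VertP : Prop :=
  ∃ C0 : ℝ, 1 ≤ C0 ∧ ∀ b : ℕ, 100 ≤ b →
    ∃ (κ : Type) (_ : Fintype κ) (_ : DecidableEq κ) (η ℓ : κ → ℝ) (J : κ → ℕ) (D h : ℕ),
      Fintype.card κ ≤ 4 * dd b ∧ h ≤ 3 * dd b ∧ 1 ≤ D ∧ D ≤ 2 ^ (114 * b ^ 2 * dd b) ∧
      (∀ i, 1 / (2 * (dd b : ℝ) ^ 7) ≤ η i ∧ η i ≤ 1 ∧ η i * J i ≤ 4 * b ∧ 0 < ℓ i) ∧
      ∑ i, η i / ℓ i ≤ 1 / 20 ∧ ∑ i, (η i * J i + 2) * ℓ i ≤ 1 / 20 ∧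
      (D : ℝ) * ∏ i, η i ≤ (4 * b) ^ Fintype.card κ ∧
      ∀ (pot : (κ → ℤ) → ℝ) (θ : ℝ), (∀ ζ, 0 ≤ pot ζ) → 0 < θ →
        ∑ ι ∈ Fintype.piFinset fun i => Win (J i), (∏ i, qq (η i) (ι i)) * pot ι ≤ θ →
        ∃ (B : Matrix κ κ ℤ) (R : Finset (κ → ℤ)), B.det = D ∧ R.card ≤ D ∧ Reps B R ∧
          ∀ ρ ∈ R, ∃ (Z : Finset (κ → ℤ)) (w : (κ → ℤ) → ℝ), TL h Z ∧ 1 / 2 ≤ ∑ z ∈ Z, w z ∧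
            ∀ z ∈ Z, 0 < w z ∧ w z ≤ Real.exp (-2 ^ (5 * b ^ 2 - 1)) ∧
              w z ≤ C0 * D * ∏ i, qq (η i) ((ρ - B.mulVec z) i) ∧
              (ρ - B.mulVec z ∈ Fintype.piFinset fun i => Win (J i)) ∧
              pot (ρ - B.mulVec z) ≤ C0 * (b.factorial : ℝ) ^ 2 * θ

/-- hole probability of a piece of the horizontal pattern -/
def BaseP : Prop :=
  ∀ (p : ℕ) [Fact p.Prime] (κ H1 H2 Zt Jt : Type) [Fintype κ] [DecidableEq κ] [Fintype H1]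
    [DecidableEq H1] [Fintype H2] [DecidableEq H2] [Fintype Zt] [Fintype Jt] (r J cap : ℕ)
    (η : ℝ) (zv : Zt → κ → ZMod p) (jp : Jt → Fin r → ℤ) (m : Zt → ℝ)
    (S : Zt → Jt → Finset ((H1 → ZMod p) × (H2 → ZMod p))),
    0 < η → η ≤ 1 / 100 → 2 * J ≤ p → Function.Injective zv → Function.Injective jp →
    (∀ j, TypD η J (jp j)) → (∀ z, 0 ≤ m z) → 10 ≤ ∑ z, m z → ∑ z, m z ≤ cap →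
    (∀ z j, ((S z j).card : ℝ) ≤ (p : ℝ) ^ Fintype.card H2 * (m z * ∏ c, qq η (jp j c))) →
    (p : ℝ) ^ Fintype.card H2 * (9 / 10 * ∑ z, m z - 1) ≤ ∑ z, ∑ j, ((S z j).card : ℝ) →
    10 * cap + 1 ≤ p → 64000 * cap * Real.log p ≤ r →
    av (fun φ : κ ⊕ (Fin r ⊕ H1) → H2 → ZMod p => av fun x => ind (∀ z j, ∀ y ∈ S z j,
        lin φ x (Sum.elim (zv z) (Sum.elim (zc p (jp j)) y.1)) ≠ y.2))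
      ≤ Real.exp (-(∑ z, m z) / 2)

end Vale.Agent.P230
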