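import Mathlib

open MeasureTheory Filter
open scoped Pointwise ENNReal

namespace Vale.Agent.P230

/-- Euclidean space `ℝ^n`. -/
abbrev E (n : ℕ) : Type := EuclideanSpace ℝ (Fin n)

/-- A convex body: compact, convex, nonempty interior. -/
def IsConvexBody {n : ℕ} (K : Set (E n)) : Prop :=
  IsCompact K ∧ Convex ℝ K ∧ (interior K).Nonempty

/-- The cube `Q_R = [-R, R]^n`. -/
def cube (n : ℕ) (R : ℝ) : Set (E n) := {x | ∀ i, |x i| ≤ R}

/-- `X` is locally finite: every bounded set contains finitely many points of `X`. -/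
def LocFin {n : ℕ} (X : Set (E n)) : Prop :=
  ∀ S : Set (E n), Bornology.IsBounded S → (X ∩ S).Finite

/-- Upper density `limsup_{R → ∞} |X ∩ Q_R| / (2R)^n`. -/
noncomputable def upperDensity {n : ℕ} (X : Set (E n)) : ℝ≥0∞ :=
  limsup (fun R : ℝ => ((X ∩ cube n R).ncard : ℝ≥0∞) / ENNReal.ofReal ((2 * R) ^ n)) atTop

/-- Translative covering density. -/
noncomputable def thetaT {n : ℕ} (K : Set (E n)) : ℝ≥0∞ :=
  ⨅ (X : Set (E n)) (_ : LocFin X) (_ : K + X = Set.univ), volume K * upperDensity X

/-- Lattice covering density: lattices are the integer spans of bases of `ℝ^n`, and the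
covolume is the volume of the half-open fundamental parallelepiped. -/
noncomputable def thetaL {n : ℕ} (K : Set (E n)) : ℝ≥0∞ :=
  ⨅ (b : Module.Basis (Fin n) ℝ (E n))
    (_ : K + (Submodule.span ℤ (Set.range b) : Set (E n)) = Set.univ),
    volume K / volume (ZSpan.fundamentalDomain b)

/-- Worst-case translative covering density in dimension `n`. -/
noncomputable def ThetaT (n : ℕ) : ℝ≥0∞ :=
  ⨆ (K : Set (E n)) (_ : IsConvexBody K), thetaT K

/-- Worst-case lattice covering density in dimension `n`. -/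
noncomputable def ThetaL (n : ℕ) : ℝ≥0∞ :=
  ⨆ (K : Set (E n)) (_ : IsConvexBody K), thetaL K

end Vale.Agent.P230
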