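import Vale.Agent.P230.Plant
import Vale.Agent.P230.Defs
import Vale.Agent.P074.PLd

/-! Definitions and interface statements for the lattice upper bound `Θ_L(n) ≤ C n log n`. -/

open MeasureTheory Finset Metric ProbabilityTheory
open scoped ENNReal

namespace Vale.Agent.P230

/-- normalised volume of `A` inside `K` -/
noncomputable def pr {n : ℕ} (K A : Set (E n)) : ℝ :=
  (volume (K ∩ A)).toReal / (volume K).toReal

/-- isotropic convex body (mean zero, identity covariance) -/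
def Iso {n : ℕ} (K : Set (E n)) : Prop :=
  IsConvexBody K ∧ (∀ θ : E n, ∫ x in K, inner ℝ θ x = 0) ∧
    ∀ θ : E n, ∫ x in K, (inner ℝ θ x) ^ 2 = ‖θ‖ ^ 2 * (volume K).toReal

/-- standard Gaussian density -/
noncomputable def gd (x : ℝ) : ℝ := Real.exp (-x ^ 2 / 2) / √(2 * Real.pi)

/-- midpoint Brunn-Minkowski inequality -/
theorem bm_mid {n : ℕ} {A B C : Set (E n)} (hA : MeasurableSet A) (hB : MeasurableSet B)
    (hC : MeasurableSet C) (h : ∀ x ∈ A, ∀ y ∈ B, (1 / 2 : ℝ) • (x + y) ∈ C) :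
    volume A * volume B ≤ volume C ^ 2 := by
  have h1 := P074.fourFn_euclid n (A.indicator 1) (B.indicator 1) (A.indicator 1) (fun _ => 0)
    (C.indicator 1) (measurable_one.indicator hA) (measurable_one.indicator hB)
    (measurable_one.indicator hA) measurable_const (measurable_one.indicator hC) (fun x y => by
      by_cases hx : x ∈ A
      · by_cases hy : y ∈ B
        · simp only [Set.indicator_of_mem hx, Set.indicator_of_mem hy,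
            Set.indicator_of_mem (h x hx y hy)]
          simp
        · simp [Set.indicator_of_notMem hy]
      · simp [Set.indicator_of_notMem hx])
  simp only [lintegral_indicator_one hA, lintegral_indicator_one hB, lintegral_indicator_one hC,
    lintegral_const, zero_mul, mul_zero, add_zero] at h1
  set P := volume A * volume B with hP
  by_cases h0 : P = 0
  · rw [h0]; exact zero_le
  by_cases ht : P = ⊤
  · rw [ht] at h1 ⊢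
    have h2 : volume C ≠ 0 := by
      intro e; rw [e] at h1; simp at h1
    by_contra hlt
    have hA0 : volume A ≠ 0 := fun e => h0 (by rw [hP, e, zero_mul])
    have hB0 : volume B ≠ 0 := fun e => h0 (by rw [hP, e, mul_zero])
    have hCt : volume C ≠ ⊤ := fun e => hlt (by rw [e]; simp)
    have key : ∀ {A B : Set (E n)}, (∀ x ∈ A, ∀ y ∈ B, (1 / 2 : ℝ) • (x + y) ∈ C) →
        volume B ≠ 0 → volume A ≠ ⊤ := by
      intro A B h hB0 hAt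
      obtain ⟨y, hy⟩ := nonempty_of_measure_ne_zero hB0
      have hsub : A ⊆ (fun x => x + y) ⁻¹' ((fun x => (1 / 2 : ℝ) • x) ⁻¹' C) :=
        fun x hx => h x hx y hy
      have := measure_mono (μ := volume) hsub
      rw [measure_preimage_add_right, Measure.addHaar_preimage_smul _ (by norm_num), hAt,
        top_le_iff] at this
      exact ENNReal.mul_ne_top ENNReal.ofReal_ne_top hCt this
    exact ENNReal.mul_ne_top (key h hB0)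
      (key (fun x hx y hy => by rw [add_comm]; exact h y hy x hx) hA0) (hP ▸ ht)
  · have e : P = P ^ (1 / 2 : ℝ) * P ^ (1 / 2 : ℝ) := by
      rw [← ENNReal.rpow_add _ _ h0 ht]; norm_num
    have h2 : P ^ (1 / 2 : ℝ) ≤ volume C := by
      have h3 : P ^ (1 / 2 : ℝ) * P ^ (1 / 2 : ℝ) ≤ P ^ (1 / 2 : ℝ) * volume C := e ▸ h1
      exact (ENNReal.mul_le_mul_iff_right (by simp [h0, ht]) (by simp [h0, ht])).1 h3
    rw [e, sq]
    exact mul_le_mul' h2 h2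

/-- midpoint Brunn-Minkowski inequality for the uniform measure on a convex body -/
theorem pr_mid {n : ℕ} {K A B C : Set (E n)} (hK : IsConvexBody K) (hA : MeasurableSet A)
    (hB : MeasurableSet B) (hC : MeasurableSet C)
    (h : ∀ x ∈ K, x ∈ A → ∀ y ∈ K, y ∈ B → (1 / 2 : ℝ) • (x + y) ∈ C) :
    pr K A * pr K B ≤ pr K C ^ 2 := by
  have hKm : MeasurableSet K := hK.1.measurableSet
  have h1 := bm_mid (hKm.inter hA) (hKm.inter hB) (hKm.inter hC) (fun x hx y hy => ⟨by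
    rw [smul_add]
    exact hK.2.1 hx.1 hy.1 (by norm_num) (by norm_num) (by norm_num), h x hx.1 hx.2 y hy.1 hy.2⟩)
  have hfin : volume (K ∩ C) ≠ ⊤ :=
    ((measure_mono Set.inter_subset_left).trans_lt hK.1.measure_lt_top).ne
  have h2 := ENNReal.toReal_mono (ENNReal.pow_ne_top hfin) h1
  rw [ENNReal.toReal_mul, ENNReal.toReal_pow] at h2
  unfold pr
  rw [div_mul_div_comm, div_pow, sq (volume K).toReal]
  exact div_le_div_of_nonneg_right h2 (by positivity)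

/-- every convex body has an isotropic affine image -/
def IsoPosP : Prop :=
  ∀ (n : ℕ) (K : Set (E n)), IsConvexBody K →
    ∃ (x0 : E n) (L : E n ≃ₗ[ℝ] E n), Iso ((fun x => L (x - x0)) '' K)

/-- elementary bounds for isotropic convex bodies -/
def IsoBoundsP : Prop :=
  ∀ (n : ℕ) (K : Set (E n)), 2 ≤ n → Iso K →
    K ⊆ closedBall 0 (10 * n) ∧ closedBall 0 (1 / (100 * n)) ⊆ K ∧
    pr K {x | 4 * √n ≤ ‖x‖} ≤ 1 / 16 ∧ pr K {x | ‖x‖ ≤ √n / 100} ≤ 3 / 5 ∧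
    ∀ θ : E n, ‖θ‖ = 1 → ∀ t : ℝ, 0 ≤ t →
      pr K {x | t ≤ |inner ℝ θ x|} ≤ 3 * Real.exp (-t / 10)

/-- law of a Gaussian matrix with rows indexed by `κ` -/
noncomputable def gmat (n : ℕ) (κ : Type) [Fintype κ] : Measure (κ → E n) :=
  Measure.pi fun _ : κ => stdGaussian (E n)

/-- second moment bound for Gaussian projections of a thin shell -/
def SMP : Prop :=
  ∀ (n : ℕ) (K : Set (E n)), 2 ≤ n → Iso K → ∀ (κ : Type) [Fintype κ] (A : Set (E n))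
    (σ θ ζ τ X : ℝ) (s : κ → ℝ), MeasurableSet A → 1 / 100 ≤ σ → 0 ≤ θ → 0 < ζ → 0 ≤ τ →
    (∀ x ∈ A, σ * √n ≤ ‖x‖ ∧ ‖x‖ ≤ σ * (1 + θ) * √n) → (∀ i, |s i| ≤ X) → 0 < pr K A →
    (Fintype.card κ + 1) * (X ^ 2 + 1) * (θ + ζ + 100 * τ / √n) ≤ 1 / 100 →
    gmat n κ {g | pr K (A ∩ {x | ∀ i, |inner ℝ (g i) x / (σ * √n) - s i| ≤ ζ})
        < pr K A * (∏ i, 2 * ζ * gd (s i)) / 2}
      ≤ ENNReal.ofReal (1000 * ((Fintype.card κ + 1) * (X ^ 2 + 1) * (θ + ζ + 100 * τ / √n))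
        + 12 * Real.exp (-τ / 10) / (pr K A * ∏ i, 2 * ζ * gd (s i)) ^ 2)

/-- first moment upper bound for Gaussian projections -/
def SMUpP : Prop :=
  ∀ (n : ℕ) (K : Set (E n)), 1 ≤ n → IsConvexBody K → ∀ (κ : Type) [Fintype κ] (σ ζ : ℝ),
    0 < ζ → ζ < σ →
    gmat n κ {g | 4 * (2 * ζ * gd 1 / (σ - ζ)) ^ Fintype.card κ
        ≤ pr K {x | ∀ i, |inner ℝ (g i) x / √n - σ| ≤ ζ}} ≤ ENNReal.ofReal (1 / 4)

/-- weak thin shell estimate -/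
def ThinP : Prop :=
  ∃ n0 : ℕ, ∀ n ≥ n0, ∀ (K : Set (E n)), Iso K → ∀ v : ℝ, 0 ≤ v → v ^ 100 = n →
    ∃ ρ : ℝ, 1 / 100 ≤ ρ ∧ ρ ≤ 4 ∧
      1 / 10 ≤ pr K {x | ρ * √n ≤ ‖x‖ ∧ ‖x‖ ≤ ρ * (1 + 1 / v ^ 4) * √n}

/-- Gaussian lower bound for most points of a low-dimensional marginal -/
def MTP : Prop :=
  ∃ n0 : ℕ, ∀ n ≥ n0, ∀ (K : Set (E n)), Iso K → ∀ v : ℝ, 0 ≤ v → v ^ 100 = n →
    ∀ (κ : Type) [Fintype κ], (Fintype.card κ : ℝ) ≤ v →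
    ∀ (ζ : ℝ), 1 / (n : ℝ) ^ 6 ≤ ζ → ζ ≤ 1 / (n : ℝ) ^ 4 →
    ∀ (S : Finset (κ → ℝ)) (w : (κ → ℝ) → ℝ), (∀ s, 0 ≤ w s) → (∀ s ∈ S, ∀ i, s i ^ 2 ≤ v) →
    ∃ (N : ℕ) (T : E n ≃ₗ[ℝ] (κ ⊕ Fin N → ℝ)),
      (∀ y, (∀ c, |T y c| ≤ 1 / (n : ℝ) ^ 3) → y ∈ K) ∧ (∀ x ∈ K, ∀ c, |T x c| ≤ (n : ℝ) ^ 2) ∧
      ∑ s ∈ S, w s * ind (pr K {x | ∀ i, |T x (Sum.inl i) - s i| ≤ ζ}
        < (∏ i, 2 * ζ * gd (s i)) / 20) ≤ 1 / v * ∑ s ∈ S, w s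

/-- discretised Gaussian weight for the grid step `η` -/
noncomputable def qq (η : ℝ) (i : ℤ) : ℝ := η * gd (η * (|(i : ℝ)| + 2))

/-- window of integers -/
noncomputable def Win (J : ℕ) : Finset ℤ := Finset.Ico (-(J : ℤ)) J

/-- admissible grid data in the vertical directions -/
def GridOK (n : ℕ) (v : ℝ) {κ : Type} [Fintype κ] (η : κ → ℝ) (J : κ → ℕ) : Prop :=
  (Fintype.card κ : ℝ) ≤ v ∧ (∀ i, 1 / (n : ℝ) ^ 6 ≤ η i ∧ η i ≤ 1 ∧ (η i * J i + 2) ^ 2 ≤ v) ∧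
    ∃ ℓ : κ → ℝ, (∀ i, 0 < ℓ i) ∧ ∑ i, η i / ℓ i ≤ 1 / 10 ∧ ∑ i, (η i * J i + 2) * ℓ i ≤ 1 / 10

/-- most grid cells carry a Gaussian lower bound at every point -/
def CGP : Prop :=
  ∃ n0 : ℕ, ∀ n ≥ n0, ∀ (K : Set (E n)), Iso K → ∀ v : ℝ, 0 ≤ v → v ^ 100 = n →
    ∀ (κ : Type) [Fintype κ] [DecidableEq κ] (η : κ → ℝ) (J : κ → ℕ), GridOK n v η J →
    ∃ (N : ℕ) (T : E n ≃ₗ[ℝ] (κ ⊕ Fin N → ℝ)) (bad : (κ → ℤ) → Prop),
      (∀ y, (∀ c, |T y c| ≤ 1 / (n : ℝ) ^ 3) → y ∈ K) ∧ (∀ x ∈ K, ∀ c, |T x c| ≤ (n : ℝ) ^ 2) ∧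
      ∑ ι ∈ Fintype.piFinset fun i => Win (J i), (∏ i, qq (η i) (ι i)) * ind (bad ι) ≤ 100 / v ∧
      ∀ ι ∈ Fintype.piFinset fun i => Win (J i), ¬ bad ι → ∀ s : κ → ℝ,
        (∀ i, η i * ι i ≤ s i ∧ s i ≤ η i * (ι i + 1)) →
        (∏ i, 2 / (n : ℝ) ^ 5 * (qq (η i) (ι i) / η i)) / 200
          ≤ pr K {x | ∀ i, |T x (Sum.inl i) - s i| ≤ 1 / (n : ℝ) ^ 5}

/-- the discrete covering theorem -/
def DFP : Prop :=
  ∃ C : ℝ, 0 < C ∧ ∃ n0 : ℕ, ∀ n ≥ n0, ∀ v : ℝ, 0 ≤ v → v ^ 100 = n →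
    ∃ (κ : Type) (_ : Fintype κ) (_ : DecidableEq κ) (η : κ → ℝ) (J : κ → ℕ) (D : ℕ),
      GridOK n v η J ∧ 1 ≤ D ∧ (D : ℝ) * ∏ i, η i ≤ v ^ Fintype.card κ ∧
      ∀ bad : (κ → ℤ) → Prop,
        ∑ ι ∈ Fintype.piFinset fun i => Win (J i), (∏ i, qq (η i) (ι i)) * ind (bad ι) ≤ 100 / v →
      ∀ (p : ℕ), p.Prime → n ^ 8 ≤ p → p ≤ 2 * n ^ 8 →
      ∀ (H1 H2 : Type) [Fintype H1] [DecidableEq H1] [Fintype H2] [DecidableEq H2],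
        Fintype.card H2 ≤ n → 2 ^ n ≤ p ^ Fintype.card H2 →
      ∀ (O : Type) [Fintype O], Fintype.card O ≤ ∏ i, ⌈η i * (n : ℝ) ^ 5⌉₊ →
      ∀ S : O → (κ → ℤ) → Finset (H1 ⊕ H2 → ℤ),
        (∀ o ι, ∀ x ∈ S o ι, ∀ c, 2 * |x c| < p) →
        (∀ o, ∀ ι ∈ Fintype.piFinset fun i => Win (J i), ¬ bad ι →
          C * n * Real.log n * (p : ℝ) ^ Fintype.card H2 * D * ∏ i, qq (η i) (ι i)
            ≤ (S o ι).card) →
      ∃ B : Matrix (κ ⊕ (H1 ⊕ H2)) (κ ⊕ (H1 ⊕ H2)) ℤ, B.det = D * p ^ Fintype.card H2 ∧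
        ∀ (o : O) (t : κ ⊕ (H1 ⊕ H2) → ℤ), ∃ z : κ ⊕ (H1 ⊕ H2) → ℤ,
          (t - B.mulVec z) ∘ Sum.inr ∈ S o ((t - B.mulVec z) ∘ Sum.inl)

/-- typical dense part: many coordinates near the origin -/
def TypD (η : ℝ) (J : ℕ) {r : ℕ} (j : Fin r → ℤ) : Prop :=
  (∀ c, j c ∈ Win J) ∧ 31 / 100 * (r : ℝ) ≤ ∑ c, ind (j c ∈ Win ⌊1 / (2 * η)⌋₊)

/-- one-dimensional estimates and killing of linear relations -/
def RKP : Prop :=
  (∀ (η : ℝ) (J : ℕ), 0 < η → ∑ i ∈ Win J, qq η i ≤ 1) ∧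
  (∀ (η : ℝ) (J : ℕ), 0 < η →
    1 - Real.exp (-(η * J) ^ 2 / 2) - 3 * η ≤ ∑ i ∈ Win J, qq η i) ∧
  (∀ (η : ℝ) (J r : ℕ), 0 < η → η ≤ 1 / 100 → 1 ≤ η * J →
    ∑ j ∈ Fintype.piFinset fun _ : Fin r => Win J, (∏ c, qq η (j c)) * ind (¬ TypD η J j)
      ≤ Real.exp (-(r : ℝ) / 2000)) ∧
  ∀ (η : ℝ) (J r p l : ℕ) (m : Fin l → ZMod p), 0 < η → η ≤ 1 / 100 → p.Prime → 2 * J ≤ p →
    (∃ i i', i ≠ i' ∧ m i ≠ 0 ∧ m i' ≠ 0) →
    ∑ e ∈ Fintype.piFinset fun _ : Fin l => Fintype.piFinset fun _ : Fin r => Win J,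
      (∏ i, ∏ c, qq η (e i c)) *
        ind (∃ j : Fin r → ℤ, TypD η J j ∧ ∀ c, (j c : ZMod p) = ∑ i, m i * (e i c : ZMod p))
      ≤ Real.exp (-(r : ℝ) / 2000)

/-- number of sparse coordinates of block `β` -/
def dd (β : ℕ) : ℕ := 2 ^ (8 * β ^ 2)

/-- folded weight of a residue class -/
noncomputable def fold (η : ℝ) (p : ℕ) (τ : ZMod p) : ℝ :=
  p * ∑ s ∈ Win p, qq η s * ind ((s : ZMod p) = τ)

/-- typical set of a block -/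
def BTP : Prop :=
  ∀ β : ℕ, 100 ≤ β → ∀ p : ℕ, dd β ^ 7 ≤ p → p ≤ 2 * dd β ^ 7 →
    ∃ (r : ℕ) (Typ : (Fin r → ℤ) → (Fin (dd β) → ℤ) → Prop), dd β ≤ 1000 * β ^ 2 * r ∧ r ≤ dd β ∧
      1 - 6 / (β : ℝ) ^ 2 ≤ ∑ j ∈ Fintype.piFinset fun _ : Fin r => Win (p / 2),
        ∑ s ∈ Fintype.piFinset fun _ : Fin (dd β) => Win p,
          (∏ c, qq (4 * β / (p / 2 : ℕ)) (j c)) * (∏ c, qq (4 * β / p) (s c)) * ind (Typ j s) ∧
      ∀ j s, Typ j s → TypD (4 * β / (p / 2 : ℕ)) (p / 2) j ∧ (∀ c, s c ∈ Win p) ∧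
        (β : ℝ) ^ 2 ≤ (∏ c, qq (4 * β / (p / 2 : ℕ)) (j c)) * ∏ c, fold (4 * β / p) p (s c) ∧
        (∏ c, qq (4 * β / (p / 2 : ℕ)) (j c)) * ∏ c, fold (4 * β / p) p (s c)
          ≤ Real.exp (2 ^ (4 * β ^ 2 + 4 * β)) ∧
        (∏ c, qq (4 * β / (p / 2 : ℕ)) (j c)) * ∏ c, (p * qq (4 * β / p) (s c))
          ≤ Real.exp (-2 ^ (5 * β ^ 2 - 1))

end Vale.Agent.P230
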