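import Vale.Agent.P230.Sieve
import Vale.Agent.P230.UDefs

/-! Bounding the contribution of linearly dependent configurations. -/

open Finset

namespace Vale.Agent.P230

lemma gd_pos (x : ℝ) : 0 < gd x := by
  unfold gd
  have := Real.pi_pos
  positivity

lemma qq_nonneg {η : ℝ} (h : 0 ≤ η) (i : ℤ) : 0 ≤ qq η i := mul_nonneg h (gd_pos _).le

lemma ind_forall' {κ : Type*} [Fintype κ] (P : κ → Prop) : ind (∀ k, P k) = ∏ k, ind (P k) := by
  rw [← ind_forall]; exact ind_congr (by simp)

lemma ind_le_sum {κ : Type*} (s : Finset κ) (P : Prop) (f : κ → ℝ) (h0 : ∀ k ∈ s, 0 ≤ f k)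
    (h : P → ∃ k ∈ s, 1 ≤ f k) : ind P ≤ ∑ k ∈ s, f k := by
  by_cases hP : P
  · obtain ⟨k, hk, h1⟩ := h hP
    rw [ind_pos hP]; exact h1.trans (single_le_sum h0 hk)
  · rw [ind_neg hP]; exact sum_nonneg h0

lemma dirty_bound (hRK : RKP) {p : ℕ} [hp : Fact p.Prime] {D α : Type*} [Fintype α]
    [DecidableEq α] (vec : α → D → ZMod p) {η : ℝ} {J r : ℕ} (hη0 : 0 < η) (hη1 : η ≤ 1 / 100)
    (hJ : 2 * J ≤ p) (jp : α → Fin r → ℤ) (em : Fin r → D)
    (hv : ∀ y c, vec y (em c) = (jp y c : ZMod p)) (ht : ∀ y, TypD η J (jp y))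
    (a : α → ℝ) (ha : ∀ y, 0 ≤ a y) {x : ℝ} (hx : 0 ≤ x)
    (hdom : ∀ j : Fin r → ℤ, ∑ y, a y * ind (jp y = j) ≤ x * ∏ c, qq η (j c)) (g : ℕ) :
    ∑ S : Finset α, ind (S.card ≤ g ∧ Dirty vec S) * ∏ y ∈ S, a y
      ≤ Real.exp (-(r : ℝ) / 2000) * ∑ l ∈ range (g + 1), (p * x) ^ l := by
  classical
  let h : (l : ℕ) → (Fin l → ZMod p) → (Fin l → Fin r → ℤ) → ℝ := fun l m e =>
    ind (∃ j : Fin r → ℤ, TypD η J j ∧ ∀ c, (j c : ZMod p) = ∑ i, m i * (e i c : ZMod p))
  let G : (l : ℕ) → (Fin l → α) → ℝ := fun l e => ∑ m : Fin l → ZMod p,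
    ind (∃ i i', i ≠ i' ∧ m i ≠ 0 ∧ m i' ≠ 0) * h l m (fun i => jp (e i)) * ∏ i, a (e i)
  have hG0 : ∀ l e, 0 ≤ G l e := fun l e => sum_nonneg fun m _ =>
    mul_nonneg (mul_nonneg (ind_nonneg _) (ind_nonneg _)) (prod_nonneg fun i _ => ha _)
  have s1 : ∀ S : Finset α, ind (S.card ≤ g ∧ Dirty vec S) * ∏ y ∈ S, a y
      ≤ ∑ l ∈ range (g + 1), ∑ e : Fin l → α, ind (univ.image e = S) * G l e := by
    intro S
    have hnn : ∀ l ∈ range (g + 1), 0 ≤ ∑ e : Fin l → α, ind (univ.image e = S) * G l e :=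
      fun l _ => sum_nonneg fun e _ => mul_nonneg (ind_nonneg _) (hG0 l e)
    by_cases hS : S.card ≤ g ∧ Dirty vec S
    · rw [ind_pos hS, one_mul]
      obtain ⟨hg, m, ⟨y1, h1, y2, h2, hne, m1, m2⟩, y, hy⟩ := hS
      let e : Fin S.card → α := fun i => (S.equivFin.symm i).1
      have hsum : ∀ {M : Type} [AddCommMonoid M] (f : α → M), ∑ i, f (e i) = ∑ s ∈ S, f s := by
        intro M _ f
        rw [← sum_coe_sort S f]
        exact Equiv.sum_comp S.equivFin.symm (fun s => f s.1)
      have hprod : ∏ i, a (e i) = ∏ s ∈ S, a s := by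
        rw [← prod_coe_sort S a]
        exact Equiv.prod_comp S.equivFin.symm (fun s => a s.1)
      have him : univ.image e = S := by
        ext s
        simp only [mem_image, mem_univ, true_and]
        exact ⟨fun ⟨i, hi⟩ => hi ▸ (S.equivFin.symm i).2,
          fun hs => ⟨S.equivFin ⟨s, hs⟩, by simp [e]⟩⟩
      refine le_trans ?_ (single_le_sum hnn (mem_range.2 (Nat.lt_succ_of_le hg)))
      refine le_trans ?_ (single_le_sum (f := fun e : Fin S.card → α =>
        ind (univ.image e = S) * G S.card e)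
        (fun e _ => mul_nonneg (ind_nonneg _) (hG0 _ e)) (mem_univ e))
      simp only [ind_pos him, one_mul]
      refine le_trans ?_ (single_le_sum (f := fun m : Fin S.card → ZMod p =>
        ind (∃ i i', i ≠ i' ∧ m i ≠ 0 ∧ m i' ≠ 0) * h S.card m (fun i => jp (e i)) * ∏ i, a (e i))
        (fun m _ => mul_nonneg (mul_nonneg (ind_nonneg _) (ind_nonneg _))
          (prod_nonneg fun i _ => ha _)) (mem_univ (fun i => m (e i))))
      have i1 : ∃ i i', i ≠ i' ∧ m (e i) ≠ 0 ∧ m (e i') ≠ 0 :=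
        ⟨S.equivFin ⟨y1, h1⟩, S.equivFin ⟨y2, h2⟩,
          fun hh => hne (congrArg Subtype.val (S.equivFin.injective hh)), by simpa [e], by simpa [e]⟩
      have i2 : ∃ j : Fin r → ℤ, TypD η J j ∧
          ∀ c, (j c : ZMod p) = ∑ i, m (e i) * (jp (e i) c : ZMod p) := by
        refine ⟨jp y, ht y, fun c => ?_⟩
        rw [hsum (fun s => m s * (jp s c : ZMod p)), ← hv, hy]
        simp [hv]
      simp only [h, ind_pos i1, ind_pos i2, hprod, one_mul, le_refl]
    · rw [ind_neg hS, zero_mul]; exact sum_nonneg hnn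
  have s2 : ∀ l, ∑ e : Fin l → α, G l e ≤ Real.exp (-(r : ℝ) / 2000) * (p * x) ^ l := by
    intro l
    simp only [G]
    rw [sum_comm]
    have s3 : ∀ m : Fin l → ZMod p, ∑ e : Fin l → α,
        ind (∃ i i', i ≠ i' ∧ m i ≠ 0 ∧ m i' ≠ 0) * h l m (fun i => jp (e i)) * ∏ i, a (e i)
        ≤ Real.exp (-(r : ℝ) / 2000) * x ^ l := by
      intro m
      by_cases hm : ∃ i i', i ≠ i' ∧ m i ≠ 0 ∧ m i' ≠ 0
      · simp only [ind_pos hm, one_mul]
        have hrk := hRK.2.2.2 η J r p l m hη0 hη1 hp.out hJ hm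
        calc ∑ e : Fin l → α, h l m (fun i => jp (e i)) * ∏ i, a (e i)
            = ∑ e : Fin l → α, ∑ Jt ∈ Fintype.piFinset fun _ : Fin l =>
                Fintype.piFinset fun _ : Fin r => Win J,
                h l m Jt * ∏ i, (a (e i) * ind (jp (e i) = Jt i)) := by
              refine sum_congr rfl fun e _ => ?_
              rw [sum_eq_single (fun i => jp (e i))]
              · simp [ind_pos]
              · intro Jt _ hne
                obtain ⟨i, hi⟩ := Function.ne_iff.1 hne
                rw [prod_eq_zero (mem_univ i) (by rw [ind_neg (Ne.symm hi), mul_zero]), mul_zero]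
              · intro hn
                exact absurd (Fintype.mem_piFinset.2 fun i =>
                  Fintype.mem_piFinset.2 fun c => (ht (e i)).1 c) hn
          _ = ∑ Jt ∈ Fintype.piFinset fun _ : Fin l => Fintype.piFinset fun _ : Fin r => Win J,
                h l m Jt * ∏ i, ∑ y, (a y * ind (jp y = Jt i)) := by
              rw [sum_comm]
              refine sum_congr rfl fun Jt _ => ?_
              rw [← mul_sum, Finset.prod_univ_sum, Fintype.piFinset_univ]
          _ ≤ ∑ Jt ∈ Fintype.piFinset fun _ : Fin l => Fintype.piFinset fun _ : Fin r => Win J,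
                x ^ l * ((∏ i, ∏ c, qq η (Jt i c)) * h l m Jt) := by
              refine sum_le_sum fun Jt _ => ?_
              have := prod_le_prod (s := univ) (fun i _ => sum_nonneg fun y _ =>
                mul_nonneg (ha y) (ind_nonneg _)) fun i _ => hdom (Jt i)
              rw [prod_mul_distrib, prod_const, card_univ, Fintype.card_fin] at this
              have := mul_le_mul_of_nonneg_left this (ind_nonneg (∃ j : Fin r → ℤ, TypD η J j ∧
                ∀ c, (j c : ZMod p) = ∑ i, m i * (Jt i c : ZMod p)))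
              simp only [h]
              linarith
          _ ≤ _ := by
              rw [← mul_sum, mul_comm]
              exact mul_le_mul_of_nonneg_right hrk (pow_nonneg hx _)
      · simp only [ind_neg hm, zero_mul, sum_const_zero]; positivity
    refine (sum_le_sum fun m _ => s3 m).trans (le_of_eq ?_)
    rw [sum_const, card_univ, Fintype.card_fun, ZMod.card, Fintype.card_fin, nsmul_eq_mul, mul_pow]
    push_cast; ring
  refine (sum_le_sum fun S _ => s1 S).trans ?_
  rw [sum_comm, mul_sum]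
  refine sum_le_sum fun l _ => le_trans (le_of_eq ?_) (s2 l)
  rw [sum_comm]
  refine sum_congr rfl fun e _ => ?_
  rw [← sum_mul, sum_eq_single (univ.image e)]
  · rw [ind_pos rfl, one_mul]
  · intro S _ hne; exact ind_neg (Ne.symm hne)
  · intro hn; exact absurd (mem_univ _) hn

end Vale.Agent.P230
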