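import Vale.Agent.P230.DDefs

/-! Extension of lattices and the hole probability of a horizontal piece. -/

open Finset

namespace Vale.Agent.P230

theorem extP : ExtP := by
  intro κ L₁ L₂ _ _ _ _ _ _ B p M hp
  have hp' : (0 : ℤ) < p := by exact_mod_cast hp
  let C : Matrix (L₁ ⊕ L₂) κ ℤ :=
    Matrix.of fun a i => Sum.elim (fun _ => 0) (M (Sum.inl i)) a
  let C' : Matrix L₂ L₁ ℤ := Matrix.of fun c i => M (Sum.inr i) c
  let B' : Matrix (κ ⊕ (L₁ ⊕ L₂)) (κ ⊕ (L₁ ⊕ L₂)) ℤ :=
    Matrix.fromBlocks B 0 C (Matrix.fromBlocks 1 0 C' ((p : ℤ) • 1))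
  have hmv : ∀ z z₁ z₂, B'.mulVec (Sum.elim z (Sum.elim z₁ z₂)) = Sum.elim (B.mulVec z)
      (Sum.elim z₁ fun c => ∑ i, Sum.elim z z₁ i * M i c + p * z₂ c) := by
    intro z z₁ z₂
    simp only [B', Matrix.fromBlocks_mulVec, Sum.elim_comp_inl, Sum.elim_comp_inr,
      Matrix.zero_mulVec, add_zero, Matrix.one_mulVec, Matrix.smul_mulVec]
    congr 1
    funext a
    rcases a with a | a
    · simp [C, Matrix.mulVec, dotProduct]
    · simp [C, C', Matrix.mulVec, dotProduct, Fintype.sum_sum_type, mul_comm, add_assoc]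
  refine ⟨B', ?_, hmv, ?_⟩
  · simp only [B', Matrix.det_fromBlocks_zero₁₂, Matrix.det_smul, Matrix.det_one, one_mul, mul_one]
  · intro R hR
    refine ⟨(R ×ˢ Fintype.piFinset fun _ : L₂ => Finset.Ico (0 : ℤ) p).image
      fun q => Sum.elim q.1 (Sum.elim 0 q.2), ?_, ?_, ?_⟩
    · intro t
      obtain ⟨ρ, hρ, z, hz⟩ := hR (fun i => t (Sum.inl i))
      let z₁ : L₁ → ℤ := fun i => t (Sum.inr (Sum.inl i))
      let y : L₂ → ℤ := fun c => t (Sum.inr (Sum.inr c)) - ∑ i, Sum.elim z z₁ i * M i c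
      refine ⟨Sum.elim ρ (Sum.elim 0 fun c => y c % p), ?_,
        Sum.elim z (Sum.elim z₁ fun c => y c / p), ?_⟩
      · refine mem_image.2 ⟨(ρ, fun c => y c % p), mem_product.2 ⟨hρ, ?_⟩, rfl⟩
        exact Fintype.mem_piFinset.2 fun c =>
          mem_Ico.2 ⟨Int.emod_nonneg _ hp'.ne', Int.emod_lt_of_pos _ hp'⟩
      · rw [hmv]
        funext a
        rcases a with a | a | a
        · simpa using congrFun hz a
        · simp [z₁]
        · have := Int.emod_add_mul_ediv (y a) p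
          simp only [Pi.add_apply, Sum.elim_inr]
          have e : t (Sum.inr (Sum.inr a)) = y a + ∑ i, Sum.elim z z₁ i * M i a := by
            simp [y]
          rw [e]; linarith
    · refine card_image_le.trans ?_
      rw [card_product, Fintype.card_piFinset]
      simp
    · intro ρ' h
      obtain ⟨q, hq, rfl⟩ := mem_image.1 h
      exact ⟨q.1, (mem_product.1 hq).1, q.2, rfl⟩

lemma ext_win_inj {p J : ℕ} (hJ : 2 * J ≤ p) {a b : ℤ} (ha : a ∈ Win J) (hb : b ∈ Win J)
    (h : (a : ZMod p) = (b : ZMod p)) : a = b := by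
  rw [ZMod.intCast_eq_intCast_iff_dvd_sub] at h
  unfold Win at ha hb
  rw [mem_Ico] at ha hb
  have hJ' : 2 * (J : ℤ) ≤ p := by exact_mod_cast hJ
  have := Int.eq_zero_of_abs_lt_dvd h (by rw [abs_lt]; constructor <;> omega)
  omega

lemma ext_sum_ind_le {Jt β : Type} [Fintype Jt] {jp : Jt → β} (h : Function.Injective jp)
    (j : β) : ∑ j', ind (jp j' = j) ≤ 1 := by
  classical
  rw [sum_ind]
  have : (univ.filter fun j' => jp j' = j).card ≤ 1 := card_le_one.2 fun a ha b hb =>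
    h ((mem_filter.1 ha).2.trans (mem_filter.1 hb).2.symm)
  exact_mod_cast this

lemma ext_sum_q_le (h : RKP) {Jt : Type} [Fintype Jt] {r J : ℕ} {η : ℝ} (h0 : 0 < η)
    {jp : Jt → Fin r → ℤ} (hi : Function.Injective jp) (ht : ∀ j, TypD η J (jp j)) :
    ∑ j, ∏ c, qq η (jp j c) ≤ 1 := by
  classical
  have e1 : ∑ j, ∏ c, qq η (jp j c) = ∑ j ∈ univ.image jp, ∏ c, qq η (j c) := by
    rw [sum_image fun a _ b _ e => hi e]
  have e2 : ∑ j ∈ univ.image jp, ∏ c, qq η (j c)
      ≤ ∑ j ∈ Fintype.piFinset fun _ : Fin r => Win J, ∏ c, qq η (j c) := by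
    refine sum_le_sum_of_subset_of_nonneg ?_ fun j _ _ =>
      prod_nonneg fun c _ => qq_nonneg h0.le _
    intro j hj
    obtain ⟨j', _, rfl⟩ := mem_image.1 hj
    exact Fintype.mem_piFinset.2 (ht j').1
  rw [e1]
  refine e2.trans ?_
  rw [← Finset.prod_univ_sum (fun _ : Fin r => Win J) (fun _ i => qq η i)]
  exact prod_le_one (fun _ _ => sum_nonneg fun i _ => qq_nonneg h0.le _) fun _ _ => h.1 η J h0

lemma ext_num {p cap r : ℕ} {M s P : ℝ} (hM : 10 ≤ M) (hc : M ≤ cap) (hs1 : 9 / 10 * M - 1 ≤ s)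
    (hs2 : s ≤ M) (hP : P ≤ Real.exp (-s)) (hp : 10 * cap + 1 ≤ p)
    (hr : 64000 * cap * Real.log p ≤ r) :
    P + Real.exp (2 * s) / 2 ^ (10 * cap)
      + Real.exp (-(r : ℝ) / 2000) * ∑ l ∈ range (10 * cap + 1), (p * M) ^ l
      ≤ Real.exp (-M / 2) := by
  have hpR : 10 * (cap : ℝ) + 1 ≤ p := by exact_mod_cast hp
  have hp0 : (0 : ℝ) < p := by linarith
  have hlog : 1 ≤ Real.log p := by
    rw [Real.le_log_iff_exp_le hp0]
    have := Real.exp_one_lt_d9
    linarith
  have t1 : P ≤ Real.exp (-M / 2) * (1 / 4) := by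
    refine hP.trans ?_
    have a1 : Real.exp (-s) ≤ Real.exp (-M / 2) * Real.exp (-3) := by
      rw [← Real.exp_add]; exact Real.exp_le_exp.2 (by linarith)
    refine a1.trans (mul_le_mul_of_nonneg_left ?_ (Real.exp_pos _).le)
    rw [Real.exp_neg, one_div]
    exact inv_anti₀ (by norm_num) (by linarith [Real.add_one_le_exp 3])
  have t0 : Real.exp (-(cap : ℝ)) ≤ Real.exp (-M / 2) * (1 / 4) := by
    have a1 : Real.exp (-(cap : ℝ)) ≤ Real.exp (-M / 2) * Real.exp (-3) := by
      rw [← Real.exp_add]; exact Real.exp_le_exp.2 (by linarith)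
    refine a1.trans (mul_le_mul_of_nonneg_left ?_ (Real.exp_pos _).le)
    rw [Real.exp_neg, one_div]
    exact inv_anti₀ (by norm_num) (by linarith [Real.add_one_le_exp 3])
  have t2 : Real.exp (2 * s) / 2 ^ (10 * cap) ≤ Real.exp (-(cap : ℝ)) := by
    rw [div_le_iff₀ (by positivity)]
    have a1 : (2 : ℝ) ^ (10 * cap) = Real.exp ((10 * cap : ℕ) * Real.log 2) := by
      rw [Real.exp_nat_mul, Real.exp_log (by norm_num)]
    rw [a1, ← Real.exp_add]
    refine Real.exp_le_exp.2 ?_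
    have := Real.log_two_gt_d9
    push_cast
    have hc0 : (0 : ℝ) ≤ cap := Nat.cast_nonneg _
    nlinarith
  have t3 : Real.exp (-(r : ℝ) / 2000) * ∑ l ∈ range (10 * cap + 1), (p * M) ^ l
      ≤ Real.exp (-(cap : ℝ)) := by
    have b1 : 1 ≤ (p : ℝ) * M := by nlinarith
    have b2 : (p : ℝ) * M ≤ (p : ℝ) ^ 2 := by nlinarith
    have b3 : ∑ l ∈ range (10 * cap + 1), ((p : ℝ) * M) ^ l
        ≤ (10 * cap + 1 : ℕ) * ((p : ℝ) ^ 2) ^ (10 * cap) := by
      have := sum_le_card_nsmul (range (10 * cap + 1)) (fun l => ((p : ℝ) * M) ^ l)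
        (((p : ℝ) ^ 2) ^ (10 * cap)) (fun l hl => by
          have hl' : l ≤ 10 * cap := Nat.lt_succ_iff.1 (mem_range.1 hl)
          exact (pow_le_pow_right₀ b1 hl').trans (pow_le_pow_left₀ (by linarith) b2 _))
      rwa [card_range, nsmul_eq_mul] at this
    have b4 : ((10 * cap + 1 : ℕ) : ℝ) * ((p : ℝ) ^ 2) ^ (10 * cap) ≤ (p : ℝ) ^ (20 * cap + 1) := by
      rw [← pow_mul, pow_succ', show 2 * (10 * cap) = 20 * cap by ring]
      refine mul_le_mul_of_nonneg_right ?_ (by positivity)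
      exact_mod_cast hp
    have b5 : (p : ℝ) ^ (20 * cap + 1) = Real.exp ((20 * cap + 1 : ℕ) * Real.log p) := by
      rw [Real.exp_nat_mul, Real.exp_log hp0]
    calc _ ≤ Real.exp (-(r : ℝ) / 2000) * Real.exp ((20 * cap + 1 : ℕ) * Real.log p) := by
          rw [← b5]
          exact mul_le_mul_of_nonneg_left (b3.trans b4) (Real.exp_pos _).le
      _ ≤ _ := by
          rw [← Real.exp_add]
          refine Real.exp_le_exp.2 ?_
          push_cast
          have hc0 : (10 : ℝ) ≤ cap := hM.trans hc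
          nlinarith [mul_le_mul hc0 hlog (by norm_num) (by linarith),
            mul_le_mul_of_nonneg_left hlog (show (0 : ℝ) ≤ cap by linarith)]
  have := Real.exp_pos (-M / 2)
  linarith

theorem baseP (h : RKP) : BaseP := by
  intro p _ κ H1 H2 Zt Jt _ _ _ _ _ _ _ _ r J cap η zv jp m S hη0 hη1 hJ hzv hjp ht hm hM hc hS1
    hS2 hp hr
  classical
  have hp0 : (0 : ℝ) < p := by exact_mod_cast (Fact.out : p.Prime).pos
  have hpp : (0 : ℝ) < (p : ℝ) ^ Fintype.card H2 := by positivity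
  have hcard : (Fintype.card (H2 → ZMod p) : ℝ) = (p : ℝ) ^ Fintype.card H2 := by
    rw [Fintype.card_fun, ZMod.card]; push_cast; rfl
  let vec : Zt × Jt × (H1 → ZMod p) → κ ⊕ (Fin r ⊕ H1) → ZMod p :=
    fun y => Sum.elim (zv y.1) (Sum.elim (zc p (jp y.2.1)) y.2.2)
  have hinj : Function.Injective vec := by
    rintro ⟨z, j, u⟩ ⟨z', j', u'⟩ e
    have e1 : z = z' := hzv (funext fun i => congrFun e (Sum.inl i))
    have e2 : j = j' := hjp (funext fun c =>
      ext_win_inj hJ ((ht j).1 c) ((ht j').1 c) (congrFun e (Sum.inr (Sum.inl c))))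
    have e3 : u = u' := funext fun i => congrFun e (Sum.inr (Sum.inr i))
    rw [e1, e2, e3]
  let A : Zt × Jt × (H1 → ZMod p) → Finset (H2 → ZMod p) :=
    fun y => univ.filter fun τ => (y.2.2, τ) ∈ S y.1 y.2.1
  let a : Zt × Jt × (H1 → ZMod p) → ℝ :=
    fun y => ((A y).card : ℝ) / Fintype.card (H2 → ZMod p)
  have ha0 : ∀ y, 0 ≤ a y := fun y => by positivity
  have ha1 : ∀ y, a y ≤ 1 := fun y => by
    have : (0 : ℝ) < Fintype.card (H2 → ZMod p) := by rw [hcard]; exact hpp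
    rw [div_le_one this]; exact_mod_cast card_le_univ _
  have hA : ∀ z j, ∑ u, a (z, j, u) = ((S z j).card : ℝ) / (p : ℝ) ^ Fintype.card H2 := by
    intro z j
    simp only [a, hcard]
    rw [← sum_div]
    congr 1
    have : (S z j).card = ∑ u, (A (z, j, u)).card := by
      simp only [A, card_filter]
      rw [← Fintype.sum_prod_type' (f := fun u τ => if (u, τ) ∈ S z j then 1 else 0)]
      simp
    rw [this]; push_cast; rfl
  have hA' : ∀ z j, ∑ u, a (z, j, u) ≤ m z * ∏ c, qq η (jp j c) := by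
    intro z j
    rw [hA, div_le_iff₀ hpp, mul_comm]
    exact hS1 z j
  have hsum : ∀ F : Zt × Jt × (H1 → ZMod p) → ℝ, ∑ y, F y = ∑ z, ∑ j, ∑ u, F (z, j, u) := by
    intro F
    rw [Fintype.sum_prod_type]
    exact sum_congr rfl fun z _ => Fintype.sum_prod_type _
  have hlow : 9 / 10 * ∑ z, m z - 1 ≤ ∑ y, a y := by
    rw [hsum]
    simp only [hA, ← sum_div]
    rw [le_div_iff₀ hpp, mul_comm]
    exact hS2
  have hup : ∑ y, a y ≤ ∑ z, m z := by
    rw [hsum]
    refine sum_le_sum fun z _ => ?_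
    refine (sum_le_sum fun j _ => hA' z j).trans ?_
    rw [← mul_sum]
    exact mul_le_of_le_one_right (hm z) (ext_sum_q_le h hη0 hjp ht)
  have hb := hole_bound hinj A (10 * cap) a (fun _ => rfl)
  have hd := dirty_bound h vec hη0 hη1 hJ (fun y => jp y.2.1) (fun c => Sum.inr (Sum.inl c))
    (fun _ _ => rfl) (fun y => ht y.2.1) a ha0 (x := ∑ z, m z) (by linarith) (fun j => by
      rw [hsum, sum_mul]
      refine sum_le_sum fun z _ => ?_
      have hq : 0 ≤ m z * ∏ c, qq η (j c) :=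
        mul_nonneg (hm z) (prod_nonneg fun c _ => qq_nonneg hη0.le _)
      calc ∑ j', ∑ u, a (z, j', u) * ind (jp j' = j)
          ≤ ∑ j', (m z * ∏ c, qq η (j c)) * ind (jp j' = j) := by
            refine sum_le_sum fun j' _ => ?_
            rw [← sum_mul]
            by_cases e : jp j' = j
            · rw [← e]
              exact mul_le_mul_of_nonneg_right (hA' z j') (ind_nonneg _)
            · rw [ind_neg e, mul_zero, mul_zero]
        _ ≤ _ := by
            rw [← mul_sum]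
            exact mul_le_of_le_one_right hq (ext_sum_ind_le hjp j)) (10 * cap)
  have hP : ∏ y, (1 - a y) ≤ Real.exp (-∑ y, a y) := by
    rw [← sum_neg_distrib, Real.exp_sum]
    refine prod_le_prod (fun y _ => by linarith [ha1 y]) fun y _ => ?_
    linarith [Real.add_one_le_exp (-a y)]
  have hfin := ext_num hM hc hlow hup hP hp hr
  refine le_trans (le_of_eq ?_) (hb.trans (le_trans (by linarith) hfin))
  refine av_congr fun φ => av_congr fun x => ind_congr ?_
  constructor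
  · rintro H ⟨z, j, u⟩ hy
    exact H z j _ (mem_filter.1 hy).2 rfl
  · intro H z j y hy e
    refine H (z, j, y.1) (mem_filter.2 ⟨mem_univ _, ?_⟩)
    have e' : lin φ x (vec (z, j, y.1)) = y.2 := e
    rw [e']
    exact hy

end Vale.Agent.P230
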