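import Vale.Agent.P230.HDefs

/-! The discrete covering theorem from the vertical and horizontal stages. -/

open Finset Filter

namespace Vale.Agent.P230

lemma fin_params (b0 : ℕ) (hb0 : 4 ≤ b0) (C0 : ℝ) :
    ∃ n0 : ℕ, ∀ n ≥ n0, ∀ v : ℝ, 0 ≤ v → v ^ 100 = (n : ℝ) → ∃ b : ℕ, b0 ≤ b ∧
      Real.log n ≤ (2 : ℝ) ^ (b ^ 2) ∧ ((2 : ℝ) ^ (b ^ 2)) ^ 34 ≤ v ∧ C0 ≤ (2 : ℝ) ^ (b ^ 2) ∧
      1 ≤ Real.log n := by
  have t1 : Tendsto (fun n : ℕ => Real.log n) atTop atTop :=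
    Real.tendsto_log_atTop.comp tendsto_natCast_atTop_atTop
  have t2 : ∀ᶠ L : ℝ in atTop, L ^ 68 ≤ Real.exp (L / 100) := by
    have h := (isLittleO_pow_exp_pos_mul_atTop 68 (b := 1 / 100) (by norm_num)).bound one_pos
    filter_upwards [h, eventually_ge_atTop 0] with L hL h0
    rw [one_mul, Real.norm_of_nonneg (by positivity), Real.norm_of_nonneg (by positivity)] at hL
    rw [div_eq_inv_mul, ← one_div]
    exact hL
  have t3 : ∀ᶠ L : ℝ in atTop, L ^ 68 ≤ Real.exp (L / 100) ∧ (2 : ℝ) ^ (b0 ^ 2) < L ∧ C0 ≤ L ∧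
      1 ≤ L :=
    t2.and ((eventually_gt_atTop _).and ((eventually_ge_atTop _).and (eventually_ge_atTop _)))
  obtain ⟨n0, hn0⟩ := eventually_atTop.1 (t1.eventually t3)
  refine ⟨max n0 1, fun n hn v hv hvn => ?_⟩
  obtain ⟨h1, h2, h3, h4⟩ := hn0 n (le_of_max_le_left hn)
  have hn1 : (0 : ℝ) < n := by exact_mod_cast (le_of_max_le_right hn : 1 ≤ n)
  set L := Real.log n with hL
  have hvL : v = Real.exp (L / 100) := by
    rw [← pow_left_inj₀ hv (Real.exp_pos _).le (n := 100) (by norm_num), hvn, ← Real.exp_nat_mul]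
    rw [show ((100 : ℕ) : ℝ) * (L / 100) = L by push_cast; ring, hL, Real.exp_log hn1]
  have hex : ∃ b : ℕ, b0 ≤ b ∧ L ≤ (2 : ℝ) ^ (b ^ 2) := by
    refine ⟨max b0 ⌈L⌉₊, le_max_left _ _, ?_⟩
    set b := max b0 ⌈L⌉₊ with hb
    have e1 : L ≤ (b : ℝ) := (Nat.le_ceil L).trans (by exact_mod_cast le_max_right _ _)
    have e2 : b ≤ 2 ^ (b ^ 2) := by
      have : b ≤ b ^ 2 := by nlinarith [Nat.zero_le b, Nat.le_self_pow (n := 2) (by norm_num) b]
      exact this.trans Nat.lt_two_pow_self.le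
    exact e1.trans (by exact_mod_cast e2)
  classical
  obtain ⟨hb1, hb2⟩ := Nat.find_spec hex
  set b := Nat.find hex with hb
  have hne : b ≠ b0 := by
    intro e
    rw [e] at hb2
    exact absurd h2 (not_lt.2 hb2)
  obtain ⟨a, ha⟩ : ∃ a, b = a + 1 := ⟨b - 1, by omega⟩
  have hmin := Nat.find_min hex (m := a) (by omega)
  have ha2 : (2 : ℝ) ^ (a ^ 2) < L := by
    by_contra hc
    exact hmin ⟨by omega, not_lt.1 hc⟩
  have ha3 : b ^ 2 ≤ a ^ 2 * 2 := by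
    have : 4 ≤ a := by omega
    rw [ha]; nlinarith
  have hu : (2 : ℝ) ^ (b ^ 2) ≤ L ^ 2 :=
    calc (2 : ℝ) ^ (b ^ 2) ≤ (2 : ℝ) ^ (a ^ 2 * 2) := pow_le_pow_right₀ one_le_two ha3
      _ = ((2 : ℝ) ^ (a ^ 2)) ^ 2 := pow_mul _ _ _
      _ ≤ L ^ 2 := pow_le_pow_left₀ (by positivity) ha2.le 2
  refine ⟨b, hb1, hb2, ?_, h3.trans hb2, h4⟩
  calc ((2 : ℝ) ^ (b ^ 2)) ^ 34 ≤ (L ^ 2) ^ 34 := pow_le_pow_left₀ (by positivity) hu 34
    _ = L ^ 68 := by rw [← pow_mul]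
    _ ≤ v := hvL ▸ h1

lemma fin_sum_elim {κ κ' : Type} [Fintype κ] [DecidableEq κ] [Fintype κ'] [DecidableEq κ']
    (W : κ ⊕ κ' → Finset ℤ) (f : (κ ⊕ κ' → ℤ) → ℝ) :
    ∑ ι ∈ Fintype.piFinset W, f ι = ∑ ζ ∈ Fintype.piFinset fun i => W (Sum.inl i),
      ∑ j ∈ Fintype.piFinset fun i => W (Sum.inr i), f (Sum.elim ζ j) := by
  rw [← Finset.sum_product']
  symm
  refine Finset.sum_bij' (fun x _ => Sum.elim x.1 x.2)
    (fun ι _ => (fun i => ι (Sum.inl i), fun i => ι (Sum.inr i))) ?_ ?_ ?_ ?_ ?_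
  · rintro ⟨ζ, j⟩ h
    simp only [mem_product, Fintype.mem_piFinset] at h ⊢
    rintro (i | i)
    · exact h.1 i
    · exact h.2 i
  · intro ι h
    simp only [mem_product, Fintype.mem_piFinset] at h ⊢
    exact ⟨fun i => h _, fun i => h _⟩
  · rintro ⟨ζ, j⟩ _
    rfl
  · intro ι _
    funext i
    rcases i with i | i <;> rfl
  · rintro ⟨ζ, j⟩ _
    rfl

lemma fin_exp_neg {x : ℝ} (hx : 50 ≤ x) : Real.exp (-x) ≤ 1 / 50 := by
  have h := Real.add_one_le_exp x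
  rw [Real.exp_neg, ← one_div]
  exact one_div_le_one_div_of_le (by norm_num) (by linarith)

/-- mass of the good dense part -/
lemma fin_mass (h1 : RKP) {η : ℝ} {J r b : ℕ} (hη : 0 < η) (hη1 : η ≤ 1 / 100)
    (hJ : η * J = 8 * b) (hb : 100 ≤ b) (hr : r = 2 ^ (32 * b ^ 2)) (hr2 : 150 * r * η ≤ 1)
    (P : (Fin r → ℤ) → Prop)
    (hP : ∑ j ∈ Fintype.piFinset fun _ : Fin r => Win J, (∏ c, qq η (j c)) * ind (P j) ≤ 1 / 50) :
    ∃ G : Finset (Fin r → ℤ), (∀ j ∈ G, TypD η J j ∧ ¬ P j) ∧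
      9 / 10 ≤ ∑ j ∈ G, ∏ c, qq η (j c) := by
  classical
  have hbR : (100 : ℝ) ≤ b := by exact_mod_cast hb
  refine ⟨(Fintype.piFinset fun _ : Fin r => Win J).filter fun j => TypD η J j ∧ ¬ P j,
    fun j hj => (mem_filter.1 hj).2, ?_⟩
  have hT := h1.2.2.1 η J r hη hη1 (by rw [hJ]; linarith)
  have hW := h1.2.1 η J hη
  have hx : (200 : ℝ) ≤ ((32 * b ^ 2 : ℕ) : ℝ) := by push_cast; nlinarith
  have hr3 : (100000 : ℝ) ≤ r := by
    have e1 : 32 * b ^ 2 ≤ r := by rw [hr]; exact Nat.lt_two_pow_self.le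
    have e2 : ((32 * b ^ 2 : ℕ) : ℝ) ≤ r := by exact_mod_cast e1
    push_cast at e2
    nlinarith
  have hT2 : Real.exp (-(r : ℝ) / 2000) ≤ 1 / 50 := by
    rw [neg_div]; exact fin_exp_neg (by linarith)
  have hE : (r : ℝ) * Real.exp (-(η * J) ^ 2 / 2) ≤ 1 / 50 := by
    have e1 : -(η * J) ^ 2 / 2 = -((32 * b ^ 2 : ℕ) : ℝ) := by rw [hJ]; push_cast; ring
    have e2 : (r : ℝ) = Real.exp (((32 * b ^ 2 : ℕ) : ℝ) * Real.log 2) := by
      rw [Real.exp_nat_mul, Real.exp_log two_pos, hr]; push_cast; rfl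
    rw [e1, e2, ← Real.exp_add]
    generalize ((32 * b ^ 2 : ℕ) : ℝ) = x at hx ⊢
    have e3 := Real.log_two_lt_d9
    have e4 : x * Real.log 2 + -x ≤ -(x / 4) := by nlinarith
    exact (Real.exp_le_exp.2 e4).trans (fin_exp_neg (by linarith))
  have hall : 1 - 2 / 50 ≤ ∑ j ∈ Fintype.piFinset fun _ : Fin r => Win J, ∏ c, qq η (j c) := by
    rw [← Finset.prod_univ_sum (fun _ : Fin r => Win J) (fun _ i => qq η i), prod_const, card_univ,
      Fintype.card_fin]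
    set a := Real.exp (-(η * J) ^ 2 / 2) + 3 * η with ha
    have ha0 : 0 ≤ a := by positivity
    have ha1 : (r : ℝ) * a ≤ 2 / 50 := by rw [ha]; nlinarith
    have ha2 : a ≤ 1 := by nlinarith
    have e1 := one_add_mul_le_pow (a := -a) (by linarith) r
    have e2 : (1 + -a) ^ r ≤ (∑ i ∈ Win J, qq η i) ^ r :=
      pow_le_pow_left₀ (by linarith) (by rw [ha]; linarith) r
    linarith
  have key : ∑ j ∈ Fintype.piFinset fun _ : Fin r => Win J, ∏ c, qq η (j c) ≤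
      ∑ j ∈ (Fintype.piFinset fun _ : Fin r => Win J).filter (fun j => TypD η J j ∧ ¬ P j),
        ∏ c, qq η (j c) +
      ∑ j ∈ Fintype.piFinset fun _ : Fin r => Win J, (∏ c, qq η (j c)) * ind (¬ TypD η J j) +
      ∑ j ∈ Fintype.piFinset fun _ : Fin r => Win J, (∏ c, qq η (j c)) * ind (P j) := by
    rw [sum_filter, ← sum_add_distrib, ← sum_add_distrib]
    refine sum_le_sum fun j _ => ?_
    have h0 : 0 ≤ ∏ c, qq η (j c) := prod_nonneg fun c _ => qq_nonneg hη.le _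
    have i1 := mul_nonneg h0 (ind_nonneg (¬ TypD η J j))
    have i2 := mul_nonneg h0 (ind_nonneg (P j))
    split_ifs with hc
    · linarith
    · by_cases hp : P j
      · rw [ind_pos hp]; linarith
      · have : ¬ TypD η J j := fun ht => hc ⟨ht, hp⟩
        rw [ind_pos this]; linarith
  linarith

lemma fin_u {b u : ℕ} (hb : 100 ≤ b) (hu : u = 2 ^ (b ^ 2)) :
    1000000 ≤ u ∧ 2 * b ^ 2 ≤ u ∧ b.factorial ≤ u ∧ (u : ℝ) ≤ 2 ^ (5 * b ^ 2 - 1) := by
  have e0 : 20 ≤ b ^ 2 := by nlinarith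
  refine ⟨?_, ?_, ?_, ?_⟩
  · have : 2 ^ 20 ≤ 2 ^ (b ^ 2) := Nat.pow_le_pow_right two_pos e0
    omega
  · obtain ⟨a, ha⟩ : ∃ a, b ^ 2 = a + 1 := ⟨b ^ 2 - 1, by omega⟩
    rw [hu, ha, pow_succ]
    have := (Nat.lt_two_pow_self (n := a))
    omega
  · calc b.factorial ≤ b ^ b := Nat.factorial_le_pow b
      _ ≤ (2 ^ b) ^ b := Nat.pow_le_pow_left Nat.lt_two_pow_self.le b
      _ = u := by rw [hu, ← pow_mul, sq]
  · rw [hu]
    push_cast
    exact pow_le_pow_right₀ one_le_two (by omega)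

lemma fin_pow {u : ℕ} (hu : 1000000 ≤ u) (c k m : ℕ) (hc : c ≤ 1000000) (hk : k < m) :
    c * u ^ k ≤ u ^ m :=
  calc c * u ^ k ≤ u * u ^ k := Nat.mul_le_mul_right _ (hc.trans hu)
    _ = u ^ (k + 1) := by rw [pow_succ']
    _ ≤ u ^ m := Nat.pow_le_pow_right (by omega) hk

lemma fin_powR {u : ℕ} (hu : 1000000 ≤ u) {v : ℝ} (hv : (u : ℝ) ^ 34 ≤ v) (c k : ℕ)
    (hc : c ≤ 1000000) (hk : k < 34) : (c : ℝ) * (u : ℝ) ^ k ≤ v := by
  have h := fin_pow hu c k 34 hc hk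
  have h' : (c : ℝ) * (u : ℝ) ^ k ≤ (u : ℝ) ^ 34 := by exact_mod_cast h
  exact h'.trans hv

lemma fin_v {u n : ℕ} (hu : 1000000 ≤ u) {v : ℝ} (hv : (u : ℝ) ^ 34 ≤ v)
    (hvn : v ^ 100 = (n : ℝ)) :
    1000000 ≤ v ∧ v ^ 5 ≤ n ∧ v ≤ n ∧ u ^ 34 ≤ n := by
  have h1 : (1000000 : ℝ) ≤ v := by simpa using fin_powR hu hv 1000000 0 le_rfl (by norm_num)
  have h2 : v ^ 5 ≤ n := hvn ▸ pow_le_pow_right₀ (by linarith) (by norm_num)
  have h3 : v ≤ n := hvn ▸ le_self_pow₀ (by linarith) (by norm_num)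
  exact ⟨h1, h2, h3, by exact_mod_cast hv.trans h3⟩

lemma fin_grid {κ : Type} [Fintype κ] {b u n r : ℕ} {v : ℝ} {η ℓ : κ → ℝ} {J : κ → ℕ}
    (hb : 100 ≤ b) (hu : 1000000 ≤ u) (hbu : 2 * b ^ 2 ≤ u) (hv : (u : ℝ) ^ 34 ≤ v)
    (hvn : v ^ 100 = (n : ℝ)) (hr : r = u ^ 32) (hκ : Fintype.card κ ≤ 4 * u ^ 8)
    (hη : ∀ i, 1 / (2 * ((u ^ 8 : ℕ) : ℝ) ^ 7) ≤ η i ∧ η i ≤ 1 ∧ η i * J i ≤ 4 * b ∧ 0 < ℓ i)
    (hs1 : ∑ i, η i / ℓ i ≤ 1 / 20) (hs2 : ∑ i, (η i * J i + 2) * ℓ i ≤ 1 / 20) :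
    GridOK n v (Sum.elim η fun _ : Fin r => 1 / (n : ℝ) ^ 5)
      (Sum.elim J fun _ : Fin r => 8 * b * n ^ 5) := by
  obtain ⟨v1, v5, vn, un⟩ := fin_v hu hv hvn
  have hbR : (100 : ℝ) ≤ b := by exact_mod_cast hb
  have hbuR : 2 * (b : ℝ) ^ 2 ≤ u := by exact_mod_cast hbu
  have n1 : (1000000 : ℝ) ≤ n := v1.trans vn
  have hrv : (r : ℝ) ≤ v := by
    have := fin_powR hu hv 1 32 (by norm_num) (by norm_num)
    rw [hr]; push_cast at this ⊢; linarith
  have hb8 : (8 * (b : ℝ) + 2) ^ 2 ≤ v := by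
    have := fin_powR hu hv 100 1 (by norm_num) (by norm_num)
    push_cast at this
    nlinarith
  have eJ : 1 / (n : ℝ) ^ 5 * ((8 * b * n ^ 5 : ℕ) : ℝ) = 8 * b := by
    push_cast; field_simp
  have n5 : (n : ℝ) ≤ (n : ℝ) ^ 5 := le_self_pow₀ (by linarith) (by norm_num)
  refine ⟨?_, ?_, Sum.elim ℓ fun _ => 1 / v ^ 3, ?_, ?_, ?_⟩
  · rw [Fintype.card_sum, Fintype.card_fin]
    have e1 := fin_pow hu 4 8 32 (by norm_num) (by norm_num)
    have e2 : Fintype.card κ + r ≤ 2 * u ^ 32 := by omega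
    have e3 : ((Fintype.card κ + r : ℕ) : ℝ) ≤ ((2 * u ^ 32 : ℕ) : ℝ) := by exact_mod_cast e2
    have e4 := fin_powR hu hv 2 32 (by norm_num) (by norm_num)
    push_cast at e3 e4 ⊢
    linarith
  · rintro (i | i)
    · obtain ⟨a1, a2, a3, -⟩ := hη i
      have hpos : (0 : ℝ) < 2 * ((u ^ 8 : ℕ) : ℝ) ^ 7 := by
        have : 0 < u := by omega
        positivity
      have hη0 : 0 ≤ η i := le_trans (by positivity) a1
      refine ⟨le_trans (one_div_le_one_div_of_le hpos ?_) a1, a2, ?_⟩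
      · have e1 : 2 * (u ^ 8) ^ 7 ≤ n ^ 6 :=
          calc 2 * (u ^ 8) ^ 7 = 2 * u ^ 56 := by rw [← pow_mul]
            _ ≤ u ^ 68 := fin_pow hu 2 56 68 (by norm_num) (by norm_num)
            _ = (u ^ 34) ^ 2 := by rw [← pow_mul]
            _ ≤ n ^ 2 := Nat.pow_le_pow_left un 2
            _ ≤ n ^ 6 := Nat.pow_le_pow_right (by exact_mod_cast (by linarith : (0 : ℝ) < n))
                (by norm_num)
        exact_mod_cast e1
      · simp only [Sum.elim_inl]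
        have : 0 ≤ η i * J i := by positivity
        exact le_trans (pow_le_pow_left₀ (by linarith) (by linarith) 2) hb8
    · simp only [Sum.elim_inr]
      refine ⟨one_div_le_one_div_of_le (by positivity)
        (pow_le_pow_right₀ (by linarith) (by norm_num)), ?_, ?_⟩
      · rw [div_le_one (by positivity)]; linarith
      · rw [eJ]; exact hb8
  · rintro (i | i)
    · exact (hη i).2.2.2
    · simp only [Sum.elim_inr]; positivity
  · rw [Fintype.sum_sum_type]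
    simp only [Sum.elim_inl, Sum.elim_inr, sum_const, card_univ, Fintype.card_fin, nsmul_eq_mul]
    have e1 : (r : ℝ) * (1 / (n : ℝ) ^ 5 / (1 / v ^ 3)) = r * v ^ 3 / (n : ℝ) ^ 5 := by
      field_simp
    have e2 : (r : ℝ) * v ^ 3 / (n : ℝ) ^ 5 ≤ 1 / 20 := by
      rw [div_le_div_iff₀ (by positivity) (by norm_num)]
      have e3 : (r : ℝ) * v ^ 3 ≤ v * v ^ 3 := mul_le_mul_of_nonneg_right hrv (by positivity)
      have e4 : v * v ^ 3 * 20 ≤ v * v ^ 3 * v :=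
        mul_le_mul_of_nonneg_left (by linarith) (by positivity)
      have e5 : v * v ^ 3 * v = v ^ 5 := by ring
      linarith
    linarith
  · rw [Fintype.sum_sum_type]
    simp only [Sum.elim_inl, Sum.elim_inr, sum_const, card_univ, Fintype.card_fin, nsmul_eq_mul]
    rw [eJ]
    have e0 : 8 * (b : ℝ) + 2 ≤ v := by nlinarith
    have e1 : (r : ℝ) * ((8 * b + 2) * (1 / v ^ 3)) = r * (8 * b + 2) / v ^ 3 := by
      field_simp
    have e2 : (r : ℝ) * (8 * b + 2) / v ^ 3 ≤ 1 / 20 := by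
      rw [div_le_div_iff₀ (by positivity) (by norm_num)]
      have e3 : (r : ℝ) * (8 * b + 2) ≤ v * v := mul_le_mul hrv e0 (by positivity) (by linarith)
      have e4 : v * v * 20 ≤ v * v * v := mul_le_mul_of_nonneg_left (by linarith) (by positivity)
      have e5 : v * v * v = v ^ 3 := by ring
      linarith
    linarith

lemma fin_logp {n p : ℕ} (hL : 1 ≤ Real.log n) (hp0 : 0 < p) (hp : p ≤ 2 * n ^ 8) :
    Real.log p ≤ 9 * Real.log n := by
  have hn : (0 : ℝ) < n := by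
    rcases Nat.eq_zero_or_pos n with e | e
    · rw [e] at hL; norm_num at hL
    · exact_mod_cast e
  have e1 : (p : ℝ) ≤ 2 * (n : ℝ) ^ 8 := by exact_mod_cast hp
  have e2 := Real.log_le_log (by exact_mod_cast hp0) e1
  rw [Real.log_mul two_ne_zero (by positivity), Real.log_pow] at e2
  have e3 := Real.log_two_lt_d9
  push_cast at e2
  linarith

lemma fin_count {u n h r b : ℕ} (hu : 1000000 ≤ u) (un : u ^ 34 ≤ n) (hL : Real.log n ≤ u)
    (hh : h ≤ 3 * u ^ 8) (hr : r = u ^ 32) (hJ : 2 * (8 * b * n ^ 5) ≤ n ^ 8) :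
    2 ^ h * (2 * (8 * b * n ^ 5)) ^ r ≤ 2 ^ n := by
  have u0 : 0 < u := by omega
  have n0 : 0 < n := lt_of_lt_of_le (by positivity) un
  have e1 : n ≤ 2 ^ (2 * u) := by
    have a1 : (n : ℝ) ≤ Real.exp u := by
      rw [← Real.exp_log (x := n) (by exact_mod_cast n0)]
      exact Real.exp_le_exp.2 hL
    have a2 : Real.exp u ≤ 2 ^ (2 * u) := by
      rw [pow_mul, ← mul_one (u : ℝ), Real.exp_nat_mul]
      exact pow_le_pow_left₀ (Real.exp_pos _).le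
        (by have := Real.exp_one_lt_d9; norm_num at this ⊢; linarith) u
    exact_mod_cast a1.trans a2
  have e2 : (2 * (8 * b * n ^ 5)) ^ r ≤ 2 ^ (2 * u * 8 * r) := by
    rw [pow_mul, pow_mul]
    exact Nat.pow_le_pow_left (hJ.trans (Nat.pow_le_pow_left e1 8)) r
  have e3 : h + 2 * u * 8 * r ≤ n := by
    have a1 := fin_pow hu 3 8 33 (by norm_num) (by norm_num)
    have a2 := fin_pow hu 17 33 34 (by norm_num) (by norm_num)
    have a3 : 2 * u * 8 * r = 16 * u ^ 33 := by rw [hr]; ring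
    omega
  calc 2 ^ h * (2 * (8 * b * n ^ 5)) ^ r ≤ 2 ^ h * 2 ^ (2 * u * 8 * r) :=
        Nat.mul_le_mul_left _ e2
    _ = 2 ^ (h + 2 * u * 8 * r) := by rw [pow_add]
    _ ≤ 2 ^ n := Nat.pow_le_pow_right two_pos e3

lemma fin_card {κ : Type} [Fintype κ] {u n b r D cR cO : ℕ} {η : κ → ℝ} (hu : 1000000 ≤ u)
    (hn : 1 ≤ n) (hL : Real.log n ≤ u) (hbu : 2 * b ^ 2 ≤ u) (hκ : Fintype.card κ ≤ 4 * u ^ 8)
    (hη : ∀ i, η i ≤ 1) (hD : D ≤ 2 ^ (114 * b ^ 2 * u ^ 8)) (hR : cR ≤ D)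
    (hO : cO ≤ ∏ i, ⌈Sum.elim η (fun _ : Fin r => 1 / (n : ℝ) ^ 5) i * (n : ℝ) ^ 5⌉₊) :
    (cR : ℝ) * cO < Real.exp (((500 * u ^ 8 * u : ℕ) : ℝ) / 4) := by
  have nR : (0 : ℝ) < n := by exact_mod_cast hn
  have e1 : cO ≤ (n ^ 5) ^ (4 * u ^ 8) := by
    refine hO.trans ?_
    rw [Fintype.prod_sum_type]
    simp only [Sum.elim_inl, Sum.elim_inr]
    rw [one_div_mul_cancel (by positivity), Nat.ceil_one, prod_const_one, mul_one]
    calc ∏ i, ⌈η i * (n : ℝ) ^ 5⌉₊ ≤ ∏ _i : κ, n ^ 5 := by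
          refine prod_le_prod' fun i _ => Nat.ceil_le.2 ?_
          push_cast
          exact mul_le_of_le_one_left (by positivity) (hη i)
      _ = (n ^ 5) ^ Fintype.card κ := by rw [prod_const, card_univ]
      _ ≤ (n ^ 5) ^ (4 * u ^ 8) := Nat.pow_le_pow_right (by positivity) hκ
  obtain ⟨d, hd⟩ : ∃ d, d = u ^ 8 := ⟨_, rfl⟩
  have d0 : 0 < d := by
    have : 0 < u := by omega
    rw [hd]; positivity
  rw [← hd] at e1 hD ⊢
  have dR : (0 : ℝ) < d := by exact_mod_cast d0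
  have uR : (1000000 : ℝ) ≤ u := by exact_mod_cast hu
  have hbuR : 2 * (b : ℝ) ^ 2 ≤ u := by exact_mod_cast hbu
  have e2 : (cO : ℝ) ≤ Real.exp (20 * d * u) := by
    have a1 : (cO : ℝ) ≤ ((n : ℝ) ^ 5) ^ (4 * d) := by exact_mod_cast e1
    refine a1.trans ?_
    rw [← pow_mul, ← Real.exp_log nR, ← Real.exp_nat_mul]
    refine Real.exp_le_exp.2 ?_
    push_cast
    nlinarith
  have e3 : (cR : ℝ) ≤ Real.exp (57 * d * u) := by
    have a1 : (cR : ℝ) ≤ (2 : ℝ) ^ (114 * b ^ 2 * d) := by exact_mod_cast hR.trans hD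
    refine a1.trans ?_
    have a2 : (2 : ℝ) ≤ Real.exp 1 := by have := Real.add_one_le_exp 1; linarith
    refine (pow_le_pow_left₀ two_pos.le a2 _).trans ?_
    rw [← Real.exp_nat_mul]
    refine Real.exp_le_exp.2 ?_
    push_cast
    nlinarith
  calc (cR : ℝ) * cO ≤ Real.exp (57 * d * u) * Real.exp (20 * d * u) :=
        mul_le_mul e3 e2 (by positivity) (by positivity)
    _ = Real.exp (77 * (d * u)) := by rw [← Real.exp_add]; ring_nf
    _ < _ := by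
        refine Real.exp_lt_exp.2 ?_
        push_cast
        have : 0 < (d : ℝ) * u := by positivity
        nlinarith

lemma fin_m {u n b : ℕ} {w : ℝ} (hu : 1000000 ≤ u) (hn : 1 ≤ n) (hL : Real.log n ≤ u)
    (hL1 : 1 ≤ Real.log n) (hub : (u : ℝ) ≤ 2 ^ (5 * b ^ 2 - 1))
    (hw : w ≤ Real.exp (-2 ^ (5 * b ^ 2 - 1))) :
    400 * n * Real.log n * w ≤ ((6000 * (u ^ 8) ^ 2 * u : ℕ) : ℝ) := by
  have nR : (0 : ℝ) < n := by exact_mod_cast hn
  have uR : (1000000 : ℝ) ≤ u := by exact_mod_cast hu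
  have e1 : (n : ℝ) * w ≤ 1 := by
    have a1 : (n : ℝ) ≤ Real.exp u := by
      rw [← Real.exp_log nR]
      exact Real.exp_le_exp.2 hL
    have a2 : w ≤ Real.exp (-u) := hw.trans (Real.exp_le_exp.2 (by linarith))
    calc (n : ℝ) * w ≤ n * Real.exp (-u) := mul_le_mul_of_nonneg_left a2 nR.le
      _ ≤ Real.exp u * Real.exp (-u) := mul_le_mul_of_nonneg_right a1 (Real.exp_pos _).le
      _ = 1 := by rw [← Real.exp_add]; simp
  have e2 : (1 : ℝ) ≤ ((u : ℝ) ^ 8) ^ 2 := one_le_pow₀ (one_le_pow₀ (by linarith))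
  push_cast
  generalize ((u : ℝ) ^ 8) ^ 2 = D at e2 ⊢
  have e3 : 400 * n * Real.log n * w = 400 * Real.log n * (n * w) := by ring
  have e4 : 400 * Real.log n * (n * w) ≤ 400 * Real.log n * 1 :=
    mul_le_mul_of_nonneg_left e1 (by linarith)
  nlinarith

lemma fin_nat {u n b p h : ℕ} (hu : 1000000 ≤ u) (un : u ^ 34 ≤ n) (hbu : 2 * b ^ 2 ≤ u)
    (hh : h ≤ 3 * u ^ 8) (hp : n ^ 8 ≤ p) :
    2 * (8 * b * n ^ 5) ≤ n ^ 8 ∧ 10 ≤ 500 * u ^ 8 * u ∧
      500 * u ^ 8 * u ≤ 6000 * (u ^ 8) ^ 2 * u ∧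
      4 * h * (500 * u ^ 8 * u) ≤ 6000 * (u ^ 8) ^ 2 * u ∧
      10 * (6000 * (u ^ 8) ^ 2 * u) + 1 ≤ p ∧ 10 * (u ^ 8 * u) ≤ n ∧ 150 * u ^ 32 ≤ n ∧
      64000 * (6000 * (u ^ 8) ^ 2 * u) * (9 * u) ≤ u ^ 32 := by
  have u0 : 0 < u := by omega
  have n0 : 0 < n := lt_of_lt_of_le (by positivity) un
  have d0 : 0 < u ^ 8 := by positivity
  have hb : b ≤ u := by nlinarith
  refine ⟨?_, by nlinarith, ?_, ?_, ?_, ?_, ?_, ?_⟩
  · have a1 := fin_pow hu 16 1 34 (by norm_num) (by norm_num)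
    have a2 : n ≤ n ^ 3 := Nat.le_self_pow (by norm_num) n
    have a3 : 16 * b ≤ n ^ 3 := by rw [pow_one] at a1; omega
    calc 2 * (8 * b * n ^ 5) = 16 * b * n ^ 5 := by ring
      _ ≤ n ^ 3 * n ^ 5 := Nat.mul_le_mul_right _ a3
      _ = n ^ 8 := by ring
  · generalize u ^ 8 = d at d0 ⊢
    exact Nat.mul_le_mul_right _ (by nlinarith)
  · generalize u ^ 8 = d at d0 hh ⊢
    calc 4 * h * (500 * d * u) ≤ 4 * (3 * d) * (500 * d * u) :=
          Nat.mul_le_mul_right _ (Nat.mul_le_mul_left _ hh)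
      _ = 6000 * d ^ 2 * u := by ring
  · have a1 := fin_pow hu 60001 17 34 (by norm_num) (by norm_num)
    have a2 : n ≤ n ^ 8 := Nat.le_self_pow (by norm_num) n
    have a3 : 10 * (6000 * (u ^ 8) ^ 2 * u) = 60000 * u ^ 17 := by ring
    have a4 : 0 < u ^ 17 := by positivity
    omega
  · have a1 := fin_pow hu 10 9 34 (by norm_num) (by norm_num)
    have a3 : 10 * (u ^ 8 * u) = 10 * u ^ 9 := by ring
    omega
  · exact (fin_pow hu 150 32 34 (by norm_num) (by norm_num)).trans un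
  · have a1 := fin_pow hu 64000 19 32 (by norm_num) (by norm_num)
    have a2 := fin_pow hu 54000 18 19 (by norm_num) (by norm_num)
    have a3 : 64000 * (6000 * (u ^ 8) ^ 2 * u) * (9 * u) = 64000 * (54000 * u ^ 18) := by ring
    rw [a3]
    exact (Nat.mul_le_mul_left _ a2).trans a1

theorem dfp (h1 : RKP) (h2 : VertP) (h3 : HorP) : DFP := by
  obtain ⟨C0, hC0, hV⟩ := h2
  obtain ⟨n0, hn0⟩ := fin_params 100 (by norm_num) C0
  refine ⟨400 * C0, by linarith, n0, fun n hn v hv hvn => ?_⟩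
  obtain ⟨b, hb, hLu, huv, hCu, hL1⟩ := hn0 n hn v hv hvn
  obtain ⟨κ, iF, iD, η, ℓ, J, D, h, hκ, hh, hD1, hD2, hη, hs1, hs2, hDη, hmain⟩ := hV b hb
  obtain ⟨u, hu⟩ : ∃ u : ℕ, u = 2 ^ (b ^ 2) := ⟨_, rfl⟩
  have huR : (2 : ℝ) ^ (b ^ 2) = u := by rw [hu]; push_cast; rfl
  rw [huR] at hLu huv hCu
  have hd : dd b = u ^ 8 := by rw [hu, dd, ← pow_mul, mul_comm]
  rw [hd] at hκ hh hD2 hη
  obtain ⟨u6, hbu, hfac, hub⟩ := fin_u hb hu
  obtain ⟨v1, v5, vn, un⟩ := fin_v u6 huv hvn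
  obtain ⟨r, hr⟩ : ∃ r : ℕ, r = u ^ 32 := ⟨_, rfl⟩
  have hr' : r = 2 ^ (32 * b ^ 2) := by rw [hr, hu, ← pow_mul, mul_comm]
  have n1 : (1000000 : ℝ) ≤ n := v1.trans vn
  have n1' : 1 ≤ n := by exact_mod_cast (by linarith : (1 : ℝ) ≤ n)
  have n5 : (n : ℝ) ≤ (n : ℝ) ^ 5 := le_self_pow₀ (by linarith) (by norm_num)
  have hbR : (100 : ℝ) ≤ b := by exact_mod_cast hb
  have hbuR : 2 * (b : ℝ) ^ 2 ≤ u := by exact_mod_cast hbu
  have uR : (1000000 : ℝ) ≤ u := by exact_mod_cast u6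
  have hη'0 : (0 : ℝ) < 1 / (n : ℝ) ^ 5 := by positivity
  have hη'1 : 1 / (n : ℝ) ^ 5 ≤ 1 / 100 := one_div_le_one_div_of_le (by norm_num) (by linarith)
  have eJ : 1 / (n : ℝ) ^ 5 * ((8 * b * n ^ 5 : ℕ) : ℝ) = 8 * b := by
    push_cast; field_simp
  have hη0 : ∀ i, 0 ≤ η i := fun i => le_trans (by positivity) (hη i).1
  refine ⟨κ ⊕ Fin r, inferInstance, inferInstance, Sum.elim η fun _ : Fin r => 1 / (n : ℝ) ^ 5,
    Sum.elim J fun _ : Fin r => 8 * b * n ^ 5, D,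
    fin_grid hb u6 hbu huv hvn hr hκ hη hs1 hs2, hD1, ?_, ?_⟩
  · rw [Fintype.prod_sum_type, Fintype.card_sum, pow_add, ← mul_assoc]
    simp only [Sum.elim_inl, Sum.elim_inr]
    have a1 : 4 * (b : ℝ) ≤ v := by
      have := fin_powR u6 huv 1 1 (by norm_num) (by norm_num)
      push_cast at this
      nlinarith
    refine mul_le_mul (hDη.trans (pow_le_pow_left₀ (by positivity) a1 _)) ?_
      (prod_nonneg fun _ _ => hη'0.le) (by positivity)
    exact (prod_le_one (fun _ _ => hη'0.le) fun _ _ => by linarith).trans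
      (one_le_pow₀ (by linarith))
  intro bad hbad p hp hp1 hp2 H1 H2 _ _ _ _ hH2 hH2p O _ hO S hS hSc
  obtain ⟨q1, q2, q3, q4, q5, q6, q7, q8⟩ := fin_nat u6 un hbu hh hp1
  have hlp := fin_logp hL1 hp.pos hp2
  have hlp0 : 0 ≤ Real.log p := Real.log_natCast_nonneg p
  obtain ⟨B, R, hB, hR, hReps, hρ⟩ := hmain
    (fun ζ => ∑ j ∈ Fintype.piFinset fun _ : Fin r => Win (8 * b * n ^ 5),
      (∏ c, qq (1 / (n : ℝ) ^ 5) (j c)) * ind (bad (Sum.elim ζ j))) (100 / v)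
    (fun ζ => sum_nonneg fun j _ =>
      mul_nonneg (prod_nonneg fun c _ => qq_nonneg hη'0.le _) (ind_nonneg _))
    (by positivity) (by
      rw [fin_sum_elim] at hbad
      refine le_of_eq_of_le (sum_congr rfl fun ζ _ => ?_) hbad
      rw [mul_sum]
      refine sum_congr rfl fun j _ => ?_
      rw [Fintype.prod_sum_type, ← mul_assoc]
      rfl)
  obtain ⟨B', hB', hcov⟩ := h3 κ H1 H2 O B R h r (8 * b * n ^ 5) (500 * u ^ 8 * u)
    (6000 * (u ^ 8) ^ 2 * u) p (1 / (n : ℝ) ^ 5) (200 * n * Real.log n) S hReps hS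
    (fun ρ hρR => by
      obtain ⟨Z, w, hT, hw, hz⟩ := hρ ρ hρR
      have hc : 0 ≤ 400 * n * Real.log n := by positivity
      refine ⟨Z, fun z => 400 * n * Real.log n * w z, hT, ?_, fun z hzZ => ?_⟩
      · rw [← mul_sum]
        have := mul_le_mul_of_nonneg_left hw hc
        linarith
      · obtain ⟨w0, w1, w2, w3, w4⟩ := hz z hzZ
        refine ⟨mul_nonneg hc w0.le, fin_m u6 n1' hLu hL1 hub w1, ?_⟩
        have hr2 : 150 * (r : ℝ) * (1 / (n : ℝ) ^ 5) ≤ 1 := by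
          rw [mul_one_div, div_le_one (by positivity)]
          have : 150 * (r : ℝ) ≤ n := by rw [hr]; exact_mod_cast q7
          linarith
        have hpot : C0 * (b.factorial : ℝ) ^ 2 * (100 / v) ≤ 1 / 50 := by
          have a1 : (b.factorial : ℝ) ≤ u := by exact_mod_cast hfac
          have a2 : C0 * (b.factorial : ℝ) ^ 2 ≤ u * (u : ℝ) ^ 2 :=
            mul_le_mul hCu (pow_le_pow_left₀ (by positivity) a1 2) (by positivity) (by positivity)
          have a3 := fin_powR u6 huv 5000 3 (by norm_num) (by norm_num)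
          rw [← mul_div_assoc, div_le_div_iff₀ (by positivity) (by norm_num)]
          have a4 : u * (u : ℝ) ^ 2 = (u : ℝ) ^ 3 := by ring
          push_cast at a3
          linarith
        obtain ⟨G, hG1, hG2⟩ := fin_mass h1 hη'0 hη'1 eJ hb hr' hr2
          (fun j => bad (Sum.elim (ρ - B.mulVec z) j)) (w4.trans hpot)
        refine ⟨G, fun j hj => (hG1 j hj).1, hG2, fun o j hj => ?_⟩
        refine le_trans ?_ (hSc o (Sum.elim (ρ - B.mulVec z) j) ?_ (hG1 j hj).2)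
        · rw [Fintype.prod_sum_type]
          simp only [Sum.elim_inl, Sum.elim_inr]
          have a0 : 0 ≤ ∏ c, qq (1 / (n : ℝ) ^ 5) (j c) :=
            prod_nonneg fun c _ => qq_nonneg hη'0.le _
          have a1 := mul_le_mul_of_nonneg_left
            (mul_le_mul_of_nonneg_right (mul_le_mul_of_nonneg_left w2 hc) a0)
            (by positivity : (0 : ℝ) ≤ (p : ℝ) ^ Fintype.card H2)
          refine a1.trans (le_of_eq ?_)
          ring
        · rw [Fintype.mem_piFinset] at w3 ⊢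
          rintro (i | i)
          · exact w3 i
          · exact (hG1 j hj).1.1 i)
    hp hη'0 hη'1 (q1.trans hp1) q2 q3 q4
    (by
      have a1 : 10 * ((u : ℝ) ^ 8 * u) ≤ n := by exact_mod_cast q6
      have a2 : (n : ℝ) * 1 ≤ n * Real.log n := mul_le_mul_of_nonneg_left hL1 (by positivity)
      push_cast
      linarith)
    q5
    (by
      have a1 : 64000 * ((6000 * (u ^ 8) ^ 2 * u : ℕ) : ℝ) * (9 * u) ≤ r := by
        rw [hr]; exact_mod_cast q8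
      exact (mul_le_mul_of_nonneg_left (by linarith) (by positivity)).trans a1)
    ((fin_count u6 un hLu hh hr q1).trans hH2p)
    (by
      have a1 : (Fintype.card H2 : ℝ) ≤ n := by exact_mod_cast hH2
      have a2 : (Fintype.card H2 : ℝ) * Real.log p ≤ n * (9 * Real.log n) :=
        mul_le_mul a1 hlp hlp0 (by positivity)
      have a3 : 0 ≤ n * Real.log n := by positivity
      linarith)
    (fin_card u6 n1' hLu hbu hκ (fun i => (hη i).2.1) hD2 hR hO)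
  exact ⟨B', by rw [hB', hB], hcov⟩

end Vale.Agent.P230
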