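import Vale.Agent.P230.Plant

/-! Pair bound, group bound and product bound. -/

open Finset

namespace Vale.Agent.P230

variable {ι : Type*} [Fintype ι] [DecidableEq ι]

lemma Ex_coord (p : ℝ) (u : ι) : Ex (fun _ : ι => p) (fun ω => ind (ω u = true)) = p := by
  have := Ex_flip (p := fun _ : ι => p) u (fun _ => 1)
  have h2 : Ex (fun _ : ι => p) (fun ω => if ω u = true then (1 - p) * 1 else 0)
      = (1 - p) * Ex (fun _ : ι => p) (fun ω => ind (ω u = true)) := by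
    rw [← Ex_smul]; exact Ex_congr fun ω => by by_cases h : ω u = true <;> simp [ind, h]
  have h3 : Ex (fun _ : ι => p) (fun ω => if ω u = true then 0 else p * 1)
      = p * (1 - Ex (fun _ : ι => p) (fun ω => ind (ω u = true))) := by
    conv_rhs => rw [← Ex_const (fun _ : ι => p) 1]
    rw [← Ex_sub, ← Ex_smul]
    exact Ex_congr fun ω => by by_cases h : ω u = true <;> simp [ind, h]
  rw [h2, h3] at this
  linarith

lemma ind_forall {κ : Type*} (s : Finset κ) (P : κ → Prop) :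
    ind (∀ k ∈ s, P k) = ∏ k ∈ s, ind (P k) := by
  by_cases h : ∀ k ∈ s, P k
  · rw [ind_pos h, prod_eq_one fun u hu => ind_pos (h u hu)]
  · rw [ind_neg h]
    push Not at h
    obtain ⟨u, hu, h⟩ := h
    exact (prod_eq_zero hu (ind_neg h)).symm

lemma Ex_pattern (p : ℝ) (B β : Finset ι) (hβ : β ⊆ B) :
    Ex (fun _ : ι => p) (fun ω => ind (∀ u ∈ B, (ω u = true ↔ u ∈ β)))
      = p ^ β.card * (1 - p) ^ (B.card - β.card) := by
  rw [Ex_congr fun ω => ind_forall B _,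
    Ex_prod_indep B (fun u ω => ind (ω u = true ↔ u ∈ β)) (fun u => {u})]
  · rw [← prod_sdiff hβ, mul_comm, ← card_sdiff_of_subset hβ, ← prod_const, ← prod_const]
    congr 1
    · refine prod_congr rfl fun u hu => ?_
      exact (Ex_congr fun ω => ind_congr (by simp [hu])).trans (Ex_coord p u)
    · refine prod_congr rfl fun u hu => ?_
      have hu' := (mem_sdiff.1 hu).2
      have : Ex (fun _ : ι => p) (fun ω => 1 - ind (ω u = true)) = 1 - p := by
        rw [Ex_sub, Ex_const, Ex_coord]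
      rw [← this]
      exact Ex_congr fun ω => by rw [← ind_not]; exact ind_congr (by simp [hu'])
  · intro u _ ω ω' h
    simp only [h u (mem_singleton_self u)]
  · intro u _ v _ huv
    exact disjoint_singleton.2 huv

lemma pair_bound {p : ℝ} (hp0 : 0 < p) (hp1 : p ≤ 1 / 2) {W W' : (ι → Bool) → ℝ}
    {D D' : Finset ι} {r : ℝ} (hr : 0 ≤ r)
    (h0 : ∀ ω, 0 ≤ W ω) (h0' : ∀ ω, 0 ≤ W' ω) (hD : Dep W D) (hD' : Dep W' D')
    (hsp : ∀ S : Finset ι, Ex (fun _ => p) (fun ω => W ω * ind (cont S ω)) ≤ (p * r) ^ S.card)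
    (hsp' : ∀ S : Finset ι, Ex (fun _ => p) (fun ω => W' ω * ind (cont S ω)) ≤ (p * r) ^ S.card) :
    Ex (fun _ => p) (fun ω => W ω * W' ω) ≤ Real.exp (p * (D ∩ D').card * (r ^ 2 + 2)) := by
  have hq0 : ∀ _ : ι, (0 : ℝ) ≤ p := fun _ => hp0.le
  have hq1 : ∀ _ : ι, p ≤ 1 := fun _ => by linarith
  have h1p : 0 < 1 - p := by linarith
  set B := D ∩ D' with hB
  let χ : Finset ι → (ι → Bool) → ℝ := fun β ω => ind (∀ u ∈ B, (ω u = true ↔ u ∈ β))
  let rep : Finset ι → (ι → Bool) → (ι → Bool) :=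
    fun β ω u => if u ∈ B then decide (u ∈ β) else ω u
  have hsum : ∀ ω, ∑ β ∈ B.powerset, χ β ω = 1 := by
    intro ω
    rw [sum_eq_single (B.filter fun u => ω u = true)]
    · exact ind_pos fun u hu => by simp [hu]
    · intro β hβ hne
      refine ind_neg fun h => hne ?_
      ext u
      rw [mem_filter]
      constructor
      · intro hu
        have := mem_powerset.1 hβ hu
        exact ⟨this, (h u this).2 hu⟩
      · rintro ⟨hu, hω⟩; exact (h u hu).1 hω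
    · intro h; exact absurd (mem_powerset.2 (filter_subset _ _)) h
  have hχD : ∀ β, Dep (χ β) B := by
    intro β ω ω' h
    refine ind_congr (forall₂_congr fun u hu => ?_)
    rw [h u hu]
  have hrep : ∀ (F : (ι → Bool) → ℝ) β ω, F ω * χ β ω = F (rep β ω) * χ β ω := by
    intro F β ω
    by_cases h : ∀ u ∈ B, (ω u = true ↔ u ∈ β)
    · have : rep β ω = ω := by
        ext u
        by_cases hu : u ∈ B
        · simp only [rep, if_pos hu]
          by_cases hω : ω u = true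
          · rw [hω]; simpa using (h u hu).1 hω
          · have : u ∉ β := fun e => hω ((h u hu).2 e)
            simp [this, hω]
        · simp only [rep, if_neg hu]
      rw [this]
    · simp only [χ, ind_neg h, mul_zero]
  have hrepD : ∀ (F : (ι → Bool) → ℝ) (S : Finset ι) β, Dep F S →
      Dep (fun ω => F (rep β ω)) (S \ B) := by
    intro F S β hF ω ω' h
    refine hF _ _ fun u hu => ?_
    by_cases huB : u ∈ B
    · simp only [rep, if_pos huB]
    · simp only [rep, if_neg huB]; exact h u (mem_sdiff.2 ⟨hu, huB⟩)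
  have hfac : ∀ (F : (ι → Bool) → ℝ) (S : Finset ι) β, Dep F S →
      Ex (fun _ => p) (fun ω => F ω * χ β ω)
        = Ex (fun _ => p) (fun ω => F (rep β ω)) * Ex (fun _ => p) (χ β) := by
    intro F S β hF
    rw [Ex_congr (hrep F β), Ex_mul_indep (hrepD F S β hF) (hχD β) sdiff_disjoint]
  have hle : ∀ (F : (ι → Bool) → ℝ), (∀ ω, 0 ≤ F ω) → ∀ β ⊆ B,
      Ex (fun _ => p) (fun ω => F ω * χ β ω) ≤ Ex (fun _ => p) (fun ω => F ω * ind (cont β ω)) := by
    intro F hF β hβ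
    refine Ex_mono hq0 hq1 fun ω => mul_le_mul_of_nonneg_left (ind_mono fun h u hu => ?_) (hF ω)
    exact (h u (hβ hu)).2 hu
  have hterm : ∀ β ∈ B.powerset, Ex (fun _ => p) (fun ω => W ω * W' ω * χ β ω)
      ≤ (p * r ^ 2) ^ β.card * (1 / (1 - p)) ^ (B.card - β.card) := by
    intro β hβ
    have hβ' := mem_powerset.1 hβ
    have hπ : Ex (fun _ => p) (χ β) = p ^ β.card * (1 - p) ^ (B.card - β.card) :=
      Ex_pattern p B β hβ'
    have hπ0 : 0 < Ex (fun _ => p) (χ β) := by rw [hπ]; positivity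
    have hdisj : Disjoint (D \ B) (D' \ B) := by
      rw [Finset.disjoint_left]
      intro u hu hu'
      exact (mem_sdiff.1 hu).2 (mem_inter.2 ⟨(mem_sdiff.1 hu).1, (mem_sdiff.1 hu').1⟩)
    rw [hfac (fun ω => W ω * W' ω) (D ∪ D') β ((hD.mono subset_union_left).mul
      (hD'.mono subset_union_right)), Ex_mul_indep (hrepD W D β hD) (hrepD W' D' β hD') hdisj]
    have a1 := (hfac W D β hD).symm.trans_le ((hle W h0 β hβ').trans (hsp β))
    have a2 := (hfac W' D' β hD').symm.trans_le ((hle W' h0' β hβ').trans (hsp' β))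
    have b1 : 0 ≤ Ex (fun _ => p) (fun ω => W (rep β ω)) := Ex_nonneg hq0 hq1 fun ω => h0 _
    have b2 : 0 ≤ Ex (fun _ => p) (fun ω => W' (rep β ω)) := Ex_nonneg hq0 hq1 fun ω => h0' _
    set x := Ex (fun _ => p) (fun ω => W (rep β ω))
    set y := Ex (fun _ => p) (fun ω => W' (rep β ω))
    set π := Ex (fun _ => p) (χ β)
    have c1 : (x * π) * (y * π) ≤ (p * r) ^ β.card * (p * r) ^ β.card :=
      mul_le_mul a1 a2 (mul_nonneg b2 hπ0.le) (by positivity)
    have c2 : (p * r) ^ β.card * (p * r) ^ β.card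
        = ((p * r ^ 2) ^ β.card * (1 / (1 - p)) ^ (B.card - β.card)) * π := by
      rw [hπ, ← mul_pow]
      have : (1 / (1 - p)) ^ (B.card - β.card) * (1 - p) ^ (B.card - β.card) = 1 := by
        rw [← mul_pow, one_div_mul_cancel h1p.ne', one_pow]
      calc (p * r * (p * r)) ^ β.card = (p * r ^ 2) ^ β.card * p ^ β.card * 1 := by
            rw [← mul_pow, mul_one]; congr 1; ring
        _ = (p * r ^ 2) ^ β.card * p ^ β.card * ((1 / (1 - p)) ^ (B.card - β.card)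
            * (1 - p) ^ (B.card - β.card)) := by rw [this]
        _ = _ := by ring
    rw [c2] at c1
    refine le_of_mul_le_mul_right ?_ hπ0
    linarith
  calc Ex (fun _ => p) (fun ω => W ω * W' ω)
      = Ex (fun _ => p) (fun ω => ∑ β ∈ B.powerset, W ω * W' ω * χ β ω) :=
        Ex_congr fun ω => by rw [← mul_sum, hsum, mul_one]
    _ = ∑ β ∈ B.powerset, Ex (fun _ => p) (fun ω => W ω * W' ω * χ β ω) := Ex_sum _ _
    _ ≤ ∑ β ∈ B.powerset, (p * r ^ 2) ^ β.card * (1 / (1 - p)) ^ (B.card - β.card) :=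
        sum_le_sum hterm
    _ = (p * r ^ 2 + 1 / (1 - p)) ^ B.card := Finset.sum_pow_mul_eq_add_pow _ _ _
    _ ≤ (Real.exp (p * (r ^ 2 + 2))) ^ B.card := by
        refine pow_le_pow_left₀ (by positivity) ?_ _
        have e1 : 1 / (1 - p) ≤ 1 + 2 * p := by
          rw [div_le_iff₀ h1p]; nlinarith
        have e2 := Real.add_one_le_exp (p * (r ^ 2 + 2))
        nlinarith
    _ = _ := by rw [← Real.exp_nat_mul]; congr 1; ring

/-- Cauchy-Schwarz: `(E Z)^2 ≤ E Z^2 * P(Z ≠ 0)`. -/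
lemma Ex_cs {p : ℝ} (hp0 : 0 ≤ p) (hp1 : p ≤ 1) (Z : (ι → Bool) → ℝ) :
    (Ex (fun _ => p) Z) ^ 2 ≤ Ex (fun _ => p) (fun ω => Z ω * Z ω)
      * Ex (fun _ => p) (fun ω => ind (Z ω ≠ 0)) := by
  unfold Ex
  refine sum_sq_le_sum_mul_sum_of_sq_le_mul _ (fun ω _ => ?_) (fun ω _ => ?_) (fun ω _ => ?_)
  · exact mul_nonneg (wt_nonneg (fun _ => hp0) (fun _ => hp1) ω) (mul_self_nonneg _)
  · exact mul_nonneg (wt_nonneg (fun _ => hp0) (fun _ => hp1) ω) (ind_nonneg _)
  · by_cases h : Z ω = 0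
    · simp [h]
    · simp only [ind_pos (show Z ω ≠ 0 from h)]; exact le_of_eq (by ring)

/-- The group bound. -/
lemma group_bound {β κ : Type*} [DecidableEq κ] {p : ℝ} (hp0 : 0 < p) (hp1 : p ≤ 1 / 2)
    (G : Finset β) (hG : G.Nonempty) (J : β → Finset κ) (A : β → κ → Finset ι)
    (hA : ∀ b ∈ G, ∀ j ∈ J b, (A b j).Nonempty) (M r : ℝ)
    (hM : ∀ b ∈ G, ∏ j ∈ J b, (1 + 1 / (p * (A b j).card)) ≤ M)
    (hr : ∀ b ∈ G, 1 + ∑ j ∈ J b, 1 / (p * (A b j).card) ≤ r)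
    (near : β → β → Prop)
    (hnear : ∀ b ∈ G, (∑ b' ∈ G, ind (near b b')) * M ≤ G.card)
    (hfar : ∀ b ∈ G, ∀ b' ∈ G, ¬ near b b' →
      p * ((J b).biUnion (A b) ∩ (J b').biUnion (A b')).card * (r ^ 2 + 2) ≤ 1 / 2) :
    Ex (fun _ => p) (fun ω => ind (∀ b ∈ G, ∃ j ∈ J b, ¬ hit (A b j) ω)) ≤ 2 / 3 := by
  have hp1' : p ≤ 1 := by linarith
  have hq0 : ∀ _ : ι, (0 : ℝ) ≤ p := fun _ => hp0.le
  have hq1 : ∀ _ : ι, p ≤ 1 := fun _ => hp1'
  have key : ∀ b, ∃ W : (ι → Bool) → ℝ, b ∈ G → ((∀ ω, 0 ≤ W ω) ∧ Ex (fun _ => p) W = 1 ∧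
      (∀ ω, W ω ≤ M) ∧ (∀ ω, W ω ≠ 0 → ∀ j ∈ J b, hit (A b j) ω) ∧
      Dep W ((J b).biUnion (A b)) ∧
      ∀ S : Finset ι, Ex (fun _ => p) (fun ω => W ω * ind (cont S ω)) ≤ (p * r) ^ S.card) := by
    intro b
    by_cases hb : b ∈ G
    · obtain ⟨W, h0, h1, h2, h3, h4, h5⟩ := plant hp0 hp1' (J b) (A b) (hA b hb)
      refine ⟨W, fun _ => ⟨h0, h1, fun ω => (h2 ω).trans (hM b hb), h3, h4, fun S => (h5 S).trans ?_⟩⟩
      refine pow_le_pow_left₀ (mul_nonneg hp0.le (add_nonneg zero_le_one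
        (sum_nonneg fun j _ => by positivity))) (mul_le_mul_of_nonneg_left (hr b hb) hp0.le) _
    · exact ⟨fun _ => 0, fun h => absurd h hb⟩
  choose W hW using key
  obtain ⟨b0, hb0⟩ := hG
  have hr0 : 0 ≤ r := le_trans (add_nonneg zero_le_one (sum_nonneg fun j _ => by positivity))
    (hr b0 hb0)
  have hg : (0 : ℝ) < G.card := by exact_mod_cast card_pos.2 ⟨b0, hb0⟩
  let Z : (ι → Bool) → ℝ := fun ω => ∑ b ∈ G, W b ω
  have hZ1 : Ex (fun _ => p) Z = G.card := by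
    simp only [Z]
    rw [Ex_sum, sum_congr rfl fun b hb => (hW b hb).2.1]
    simp
  have hpair : ∀ b ∈ G, ∀ b' ∈ G, Ex (fun _ => p) (fun ω => W b ω * W b' ω)
      ≤ 2 + ind (near b b') * M := by
    intro b hb b' hb'
    by_cases hn : near b b'
    · rw [ind_pos hn, one_mul]
      have : Ex (fun _ => p) (fun ω => W b ω * W b' ω) ≤ Ex (fun _ => p) (fun ω => M * W b' ω) :=
        Ex_mono hq0 hq1 fun ω => mul_le_mul_of_nonneg_right ((hW b hb).2.2.1 ω) ((hW b' hb').1 ω)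
      rw [Ex_smul, (hW b' hb').2.1] at this
      linarith
    · rw [ind_neg hn, zero_mul, add_zero]
      refine (pair_bound hp0 hp1 hr0 (hW b hb).1 (hW b' hb').1 (hW b hb).2.2.2.2.1
        (hW b' hb').2.2.2.2.1 (hW b hb).2.2.2.2.2 (hW b' hb').2.2.2.2.2).trans ?_
      refine (Real.exp_le_exp.2 (hfar b hb b' hb' hn)).trans ?_
      have h1 := Real.exp_one_lt_d9
      have h2 : Real.exp (1 / 2) * Real.exp (1 / 2) = Real.exp 1 := by
        rw [← Real.exp_add]; norm_num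
      nlinarith [Real.exp_pos (1 / 2)]
  have hZ2 : Ex (fun _ => p) (fun ω => Z ω * Z ω) ≤ 3 * (G.card : ℝ) ^ 2 := by
    simp only [Z, sum_mul_sum]
    rw [Ex_sum]
    calc ∑ b ∈ G, Ex (fun _ => p) (fun ω => ∑ b' ∈ G, W b ω * W b' ω)
        ≤ ∑ b ∈ G, (3 * G.card : ℝ) := by
          refine sum_le_sum fun b hb => ?_
          rw [Ex_sum]
          refine (sum_le_sum (hpair b hb)).trans ?_
          rw [sum_add_distrib, ← sum_mul, sum_const, nsmul_eq_mul]
          linarith [hnear b hb]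
      _ = _ := by rw [sum_const, nsmul_eq_mul]; ring
  have hcs := Ex_cs hp0.le hp1' Z
  rw [hZ1] at hcs
  have hP0 : 0 ≤ Ex (fun _ => p) (fun ω => ind (Z ω ≠ 0)) := Ex_nonneg hq0 hq1 fun ω => ind_nonneg _
  have hP : 1 / 3 ≤ Ex (fun _ => p) (fun ω => ind (Z ω ≠ 0)) := by
    have : (G.card : ℝ) ^ 2 * 1 ≤ (G.card : ℝ) ^ 2 *
        (3 * Ex (fun _ => p) (fun ω => ind (Z ω ≠ 0))) := by nlinarith
    have := le_of_mul_le_mul_left this (by positivity)
    linarith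
  have hfin : Ex (fun _ => p) (fun ω => ind (∀ b ∈ G, ∃ j ∈ J b, ¬ hit (A b j) ω))
      ≤ Ex (fun _ => p) (fun ω => 1 - ind (Z ω ≠ 0)) := by
    refine Ex_mono hq0 hq1 fun ω => ?_
    rw [← ind_not]
    refine ind_mono fun h hne => ?_
    obtain ⟨b, hb, hne⟩ := exists_ne_zero_of_sum_ne_zero hne
    obtain ⟨j, hj, hh⟩ := h b hb
    exact hh ((hW b hb).2.2.2.1 ω hne j hj)
  rw [Ex_sub, Ex_const] at hfin
  linarith

/-- Independent groups. -/
lemma groups_bound {α β κ : Type*} [DecidableEq α] [DecidableEq κ] {p : ℝ} (hp0 : 0 < p)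
    (hp1 : p ≤ 1 / 2) (I : Finset α)
    (G : α → Finset β) (hG : ∀ a ∈ I, (G a).Nonempty) (J : α → β → Finset κ)
    (A : α → β → κ → Finset ι)
    (hA : ∀ a ∈ I, ∀ b ∈ G a, ∀ j ∈ J a b, (A a b j).Nonempty) (M r : ℝ)
    (hM : ∀ a ∈ I, ∀ b ∈ G a, ∏ j ∈ J a b, (1 + 1 / (p * (A a b j).card)) ≤ M)
    (hr : ∀ a ∈ I, ∀ b ∈ G a, 1 + ∑ j ∈ J a b, 1 / (p * (A a b j).card) ≤ r)
    (near : β → β → Prop)
    (hnear : ∀ a ∈ I, ∀ b ∈ G a, (∑ b' ∈ G a, ind (near b b')) * M ≤ (G a).card)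
    (hfar : ∀ a ∈ I, ∀ b ∈ G a, ∀ b' ∈ G a, ¬ near b b' →
      p * ((J a b).biUnion (A a b) ∩ (J a b').biUnion (A a b')).card * (r ^ 2 + 2) ≤ 1 / 2)
    (hind : ∀ a ∈ I, ∀ a' ∈ I, a ≠ a' → ∀ b ∈ G a, ∀ b' ∈ G a', ∀ j ∈ J a b, ∀ j' ∈ J a' b',
      Disjoint (A a b j) (A a' b' j')) :
    Ex (fun _ => p) (fun ω => ind (∀ a ∈ I, ∀ b ∈ G a, ∃ j ∈ J a b, ¬ hit (A a b j) ω))
      ≤ (2 / 3) ^ I.card := by
  have hq0 : ∀ _ : ι, (0 : ℝ) ≤ p := fun _ => hp0.le
  have hq1 : ∀ _ : ι, p ≤ 1 := fun _ => by linarith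
  rw [Ex_congr fun ω => ind_forall I _, Ex_prod_indep I
    (fun a ω => ind (∀ b ∈ G a, ∃ j ∈ J a b, ¬ hit (A a b j) ω))
    (fun a => (G a).biUnion fun b => (J a b).biUnion (A a b)), ← prod_const]
  · refine prod_le_prod (fun a _ => Ex_nonneg hq0 hq1 fun ω => ind_nonneg _) fun a ha => ?_
    exact group_bound hp0 hp1 (G a) (hG a ha) (J a) (A a) (hA a ha) M r (hM a ha) (hr a ha) near
      (hnear a ha) (hfar a ha)
  · intro a _ ω ω' h
    refine ind_congr (forall₂_congr fun b hb => exists_congr fun j => and_congr_right fun hj =>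
      not_congr (exists_congr fun u => and_congr_right fun hu => ?_))
    rw [h u (mem_biUnion.2 ⟨b, hb, mem_biUnion.2 ⟨j, hj, hu⟩⟩)]
  · intro a ha a' ha' hne
    simp only [disjoint_biUnion_left, disjoint_biUnion_right]
    intro b' hb' j' hj' b hb j hj
    exact hind a ha a' ha' hne b hb b' hb' j hj j' hj'

/-- Greedy independent set. -/
lemma exists_indep {α : Type*} [DecidableEq α] (P : Finset α) (cf : α → α → Prop)
    (hs : ∀ a a', cf a a' → cf a' a) (d : ℝ)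
    (hd : ∀ a ∈ P, ∑ a' ∈ P, ind (cf a a') ≤ d) :
    ∃ I ⊆ P, (∀ a ∈ I, ∀ a' ∈ I, a ≠ a' → ¬ cf a a') ∧ (P.card : ℝ) ≤ I.card * (d + 1) := by
  classical
  obtain ⟨F, hF⟩ : ∃ F : Finset (Finset α), ∀ I, I ∈ F ↔
      I ⊆ P ∧ ∀ a ∈ I, ∀ a' ∈ I, a ≠ a' → ¬ cf a a' :=
    ⟨P.powerset.filter fun I => ∀ a ∈ I, ∀ a' ∈ I, a ≠ a' → ¬ cf a a', fun I => by
      simp only [mem_filter, mem_powerset]⟩
  obtain ⟨I, hI, hmax⟩ := exists_max_image F card ⟨∅, by simp [hF]⟩
  rw [hF] at hI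
  refine ⟨I, hI.1, hI.2, ?_⟩
  have h1 : ∀ x ∈ P, 1 ≤ ∑ a ∈ I, (ind (cf a x) + ind (x = a)) := by
    intro x hx
    have hnn : ∀ a ∈ I, 0 ≤ ind (cf a x) + ind (x = a) :=
      fun a _ => add_nonneg (ind_nonneg _) (ind_nonneg _)
    by_cases hxI : x ∈ I
    · refine le_trans ?_ (single_le_sum hnn hxI)
      rw [ind_pos rfl]; linarith [ind_nonneg (cf x x)]
    · by_contra hlt
      have hno : ∀ a ∈ I, ¬ cf a x := by
        intro a ha hc
        refine hlt (le_trans ?_ (single_le_sum hnn ha))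
        rw [ind_pos hc]; linarith [ind_nonneg (x = a)]
      have : insert x I ∈ F := by
        rw [hF]
        refine ⟨insert_subset hx hI.1, fun a ha a' ha' hne => ?_⟩
        rcases mem_insert.1 ha with e | hb
        · rcases mem_insert.1 ha' with e' | hb'
          · exact absurd (e.trans e'.symm) hne
          · rw [e]; exact fun hc => hno a' hb' (hs _ _ hc)
        · rcases mem_insert.1 ha' with e' | hb'
          · rw [e']; exact hno a hb
          · exact hI.2 a hb a' hb' hne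
      have := hmax _ this
      rw [card_insert_of_notMem hxI] at this
      omega
  calc (P.card : ℝ) = ∑ x ∈ P, (1 : ℝ) := by simp
    _ ≤ ∑ x ∈ P, ∑ a ∈ I, (ind (cf a x) + ind (x = a)) := sum_le_sum h1
    _ = ∑ a ∈ I, ∑ x ∈ P, (ind (cf a x) + ind (x = a)) := sum_comm
    _ ≤ ∑ a ∈ I, (d + 1) := by
        refine sum_le_sum fun a ha => ?_
        rw [sum_add_distrib, sum_ind P (fun x => x = a)]
        have : ((P.filter fun x => x = a).card : ℝ) ≤ 1 := by
          have : (P.filter fun x => x = a).card ≤ 1 := by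
            rw [card_le_one]; intro u hu v hv
            rw [(mem_filter.1 hu).2, (mem_filter.1 hv).2]
          exact_mod_cast this
        linarith [hd a (hI.1 ha)]
    _ = _ := by rw [sum_const, nsmul_eq_mul]

end Vale.Agent.P230
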