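import Vale.Agent.P230.Count
import Vale.Agent.P230.Pair

/-! Geometry of the random cuts. -/

open MeasureTheory Finset Metric
open scoped ENNReal

namespace Vale.Agent.P230

variable {n : ℕ}

/-- ground set: lattice points in the ball of radius `2R` -/
abbrev Gr (n : ℕ) (R : ℝ) : Type := {v : Lat n // v ∈ LB (0 : E n) (2 * R)}

open Classical in
/-- lattice points whose cut robustly removes `y` -/
noncomputable def AS (a R : ℝ) (y : E n) : Finset (Gr n R) :=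
  univ.filter fun v => ‖y - emb v.1‖ ^ 2 ≤ ‖y‖ ^ 2 - (1 - a ^ 2) * R ^ 2 - 5 * √n * R

/-- the random body -/
def KB (a R : ℝ) (ω : Gr n R → Bool) : Set (E n) :=
  closedBall 0 R ∩ {z | ∀ v : Gr n R, ω v = true → ‖z‖ ^ 2 - (1 - a ^ 2) * R ^ 2 ≤ ‖z - emb v.1‖ ^ 2}

/-- selection probability -/
noncomputable def pp (n : ℕ) (a R : ℝ) : ℝ := 1 / (2 * (om n * (a * R + √n) ^ n))

lemma mem_AS {a R : ℝ} {y : E n} {v : Gr n R} : v ∈ AS a R y ↔
    ‖y - emb v.1‖ ^ 2 ≤ ‖y‖ ^ 2 - (1 - a ^ 2) * R ^ 2 - 5 * √n * R := by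
  simp [AS]

lemma pp_pos {a R : ℝ} (h : 0 ≤ a * R) : 0 < pp n a R := by
  have := one_le_om (n := n) h
  unfold pp; positivity

lemma pp_le {a R : ℝ} (h : 0 ≤ a * R) : pp n a R ≤ 1 / 2 := by
  have := one_le_om (n := n) h
  unfold pp
  exact one_div_le_one_div_of_le (by norm_num) (by linarith)

lemma card_le_of_sub {R : ℝ} (s : Finset (Gr n R)) (t : Finset (Lat n))
    (h : ∀ v ∈ s, v.1 ∈ t) : s.card ≤ t.card :=
  card_le_card_of_injOn (fun v => v.1) (fun v hv => h v hv) (fun _ _ _ _ e => Subtype.ext e)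

lemma card_ge_of_sub {R : ℝ} (s : Finset (Gr n R)) (t : Finset (Lat n))
    (h : ∀ v ∈ t, ∃ hv : v ∈ LB (0 : E n) (2 * R), (⟨v, hv⟩ : Gr n R) ∈ s) : t.card ≤ s.card := by
  classical
  refine le_trans (card_le_card (t := s.image fun v => v.1) fun v hv => ?_) card_image_le
  obtain ⟨hv', hs⟩ := h v hv
  exact mem_image.2 ⟨_, hs, rfl⟩

lemma AS_close {a R : ℝ} (ha : 0 ≤ a) (hR : 0 ≤ R) (hg : √n ≤ 3 * R) {y : E n}
    (hy : ‖y‖ ≤ R + √n) {v : Gr n R} (hv : v ∈ AS a R y) : ‖y - emb v.1‖ ≤ a * R := by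
  rw [mem_AS] at hv
  have hg0 : 0 ≤ √(n : ℝ) := Real.sqrt_nonneg _
  have h1 : ‖y‖ ^ 2 ≤ (R + √n) ^ 2 := pow_le_pow_left₀ (norm_nonneg _) hy 2
  refine abs_le_of_sq_le_sq' ?_ (mul_nonneg ha hR) |>.2
  nlinarith

lemma AS_disjoint {a R : ℝ} (ha : 0 ≤ a) (hR : 0 ≤ R) (hg : √n ≤ 3 * R) {y y' : E n}
    (hy : ‖y‖ ≤ R + √n) (hy' : ‖y'‖ ≤ R + √n) (h : 2 * (a * R) < ‖y - y'‖) :
    Disjoint (AS a R y) (AS a R y') := by
  rw [Finset.disjoint_left]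
  intro v hv hv'
  have h1 := AS_close ha hR hg hy hv
  have h2 := AS_close ha hR hg hy' hv'
  have : ‖y - y'‖ ≤ ‖y - emb v.1‖ + ‖y' - emb v.1‖ := by
    calc ‖y - y'‖ = ‖(y - emb v.1) - (y' - emb v.1)‖ := by congr 1; abel
      _ ≤ _ := norm_sub_le _ _
  linarith

lemma AS_overlap {a a' r0 R : ℝ} (ha : 0 ≤ a) (ha' : 0 ≤ a') (hr0 : 0 ≤ r0) (hR : 0 ≤ R)
    (hg : √n ≤ 3 * R) (haa : a ^ 2 - r0 ^ 2 / 4 ≤ a' ^ 2) {y y' : E n}
    (hy : ‖y‖ ≤ R + √n) (hy' : ‖y'‖ ≤ R + √n) (h : r0 * R ≤ ‖y - y'‖) :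
    ((AS a R y ∩ AS a R y').card : ℝ) ≤ om n * (a' * R + √n) ^ n := by
  refine le_trans (Nat.cast_le.2 (card_le_of_sub _ (LB ((1 / 2 : ℝ) • (y + y')) (a' * R))
    fun v hv => ?_)) (card_LB_le _ (mul_nonneg ha' hR))
  rw [mem_inter] at hv
  have h1 := AS_close ha hR hg hy hv.1
  have h2 := AS_close ha hR hg hy' hv.2
  rw [mem_LB]
  have hpar := parallelogram_law_with_norm ℝ (y - emb v.1) (y' - emb v.1)
  have e1 : y - emb v.1 - (y' - emb v.1) = y - y' := by abel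
  have e2 : y - emb v.1 + (y' - emb v.1) = (-2 : ℝ) • (emb v.1 - (1 / 2 : ℝ) • (y + y')) := by
    module
  rw [e1, e2, norm_smul] at hpar
  have e3 : ‖(-2 : ℝ)‖ = 2 := by simp
  rw [e3] at hpar
  refine abs_le_of_sq_le_sq' ?_ (mul_nonneg ha' hR) |>.2
  have b1 : ‖y - emb v.1‖ ^ 2 ≤ (a * R) ^ 2 := pow_le_pow_left₀ (norm_nonneg _) h1 2
  have b2 : ‖y' - emb v.1‖ ^ 2 ≤ (a * R) ^ 2 := pow_le_pow_left₀ (norm_nonneg _) h2 2
  have b3 : (r0 * R) ^ 2 ≤ ‖y - y'‖ ^ 2 := pow_le_pow_left₀ (mul_nonneg hr0 hR) h 2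
  have b4 : (a ^ 2 - r0 ^ 2 / 4) * R ^ 2 ≤ a' ^ 2 * R ^ 2 :=
    mul_le_mul_of_nonneg_right haa (sq_nonneg _)
  nlinarith

lemma AS_card_ge {a R r : ℝ} (hg : √n + a * R ≤ R) {y : E n}
    (hy : ‖y‖ ≤ R + √n) (hr : √n ≤ r) (hr' : r ≤ a * R)
    (hr2 : r ^ 2 ≤ ‖y‖ ^ 2 - (1 - a ^ 2) * R ^ 2 - 5 * √n * R) :
    om n * (r - √n) ^ n ≤ ((AS a R y).card : ℝ) := by
  refine (le_card_LB y hr).trans (Nat.cast_le.2 (card_ge_of_sub _ _ fun v hv => ?_))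
  rw [mem_LB] at hv
  refine ⟨?_, ?_⟩
  · rw [mem_LB, sub_zero]
    calc ‖emb v‖ = ‖(emb v - y) + y‖ := by congr 1; abel
      _ ≤ _ := (norm_add_le _ _).trans (by linarith)
  · rw [mem_AS, norm_sub_rev]
    exact (pow_le_pow_left₀ (norm_nonneg _) hv 2).trans hr2

lemma not_mem_KB {a R : ℝ} (hR : 0 < R) (hn : 0 < n) {ω : Gr n R → Bool} {y z : E n}
    (hz : ‖z - y‖ ≤ √n) (h : ‖y‖ ≤ R + √n → hit (AS a R y) ω) : z ∉ KB a R ω := by
  rintro ⟨h1, h2⟩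
  rw [mem_closedBall, dist_zero_right] at h1
  have hy : ‖y‖ ≤ R + √n := by
    calc ‖y‖ = ‖z - (z - y)‖ := by congr 1; abel
      _ ≤ _ := (norm_sub_le _ _).trans (by linarith)
  obtain ⟨v, hv, hω⟩ := h hy
  have h3 := h2 v hω
  rw [mem_AS] at hv
  have hv2 : ‖emb v.1‖ ≤ 2 * R := by simpa using mem_LB.1 v.2
  rw [norm_sub_sq_real] at h3 hv
  have h4 : inner ℝ z (emb v.1) = inner ℝ y (emb v.1) + inner ℝ (z - y) (emb v.1) := by
    rw [← inner_add_left]; congr 1; abel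
  have h5 := abs_real_inner_le_norm (z - y) (emb v.1)
  have hg : 0 < √(n : ℝ) := Real.sqrt_pos.2 (by exact_mod_cast hn)
  have h6 : ‖z - y‖ * ‖emb v.1‖ ≤ √n * (2 * R) :=
    mul_le_mul hz hv2 (norm_nonneg _) hg.le
  have h7 := neg_abs_le (inner ℝ (z - y) (emb v.1))
  have h8 : 0 < √n * R := mul_pos hg hR
  nlinarith

/-- cost of a position relative to a centre -/
noncomputable def fc (a R Θ : ℝ) (S : ℕ) (y : E n) : ℝ :=
  4 * ind (‖y‖ ≤ R + √n) + 4 / a ^ 2 * ∑ j ∈ range S, ind (‖y‖ ≤ R * (1 - j / n))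
    + Θ * ind (‖y‖ ≤ R * (1 - S / n))

lemma fc_nonneg {a R Θ : ℝ} (hΘ : 0 ≤ Θ) (S : ℕ) (y : E n) : 0 ≤ fc a R Θ S y := by
  unfold fc
  have h1 := ind_nonneg (‖y‖ ≤ R + √n)
  have h2 := ind_nonneg (‖y‖ ≤ R * (1 - S / n))
  have h3 : 0 ≤ ∑ j ∈ range S, ind (‖y‖ ≤ R * (1 - j / n)) := sum_nonneg fun _ _ => ind_nonneg _
  positivity

lemma le_sum_ind (S : ℕ) (d : ℝ) (hd : d ≤ S) : d ≤ ∑ j ∈ range S, ind ((j : ℝ) ≤ d) := by
  induction S generalizing d with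
  | zero => simpa using hd
  | succ S ih =>
    rw [sum_range_succ]
    by_cases h : (S : ℝ) ≤ d
    · rw [ind_pos h]
      have : ∑ j ∈ range S, ind ((j : ℝ) ≤ d) = S := by
        rw [sum_congr rfl fun j hj => ind_pos (le_trans
          (Nat.cast_le.2 (mem_range.1 hj).le) h)]
        simp
      rw [this]; push_cast at hd; linarith
    · rw [ind_neg h, add_zero]
      exact ih d (not_le.1 h).le

lemma exp_le_one_sub {x : ℝ} (h0 : 0 ≤ x) (h1 : x ≤ 1 / 2) : Real.exp (-(2 * x)) ≤ 1 - x := by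
  have h2 := Real.add_one_le_exp (2 * x)
  rw [Real.exp_neg, inv_le_comm₀ (Real.exp_pos _) (by linarith), inv_le_iff_one_le_mul₀ (by linarith)]
  nlinarith

lemma arith1 {a R g u w Y : ℝ} (ha : 0 < a) (ha1 : a ≤ 1 / 2) (hR : 0 < R) (hu0 : 0 ≤ u)
    (hw0 : 0 ≤ w) (hgu : g = u * (a ^ 2 * R)) (hx : w + 7 * u ≤ 1 / 2)
    (hY : R * (1 - a ^ 2 * w / 2) ≤ Y) :
    g + a * R ≤ R ∧ g ≤ a * R * (1 - (w + 5 * u)) ∧ a * R * (1 - (w + 5 * u)) ≤ a * R ∧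
      (a * R * (1 - (w + 5 * u))) ^ 2 ≤ Y ^ 2 - (1 - a ^ 2) * R ^ 2 - 5 * g * R ∧
      (1 - (w + 7 * u)) * (a * R + g) ≤ a * R * (1 - (w + 5 * u)) - g := by
  have haR : 0 < a * R := by positivity
  have haR2 : a * R ≤ R / 2 := by nlinarith
  have ha2 : a ^ 2 ≤ 1 / 4 := by nlinarith
  have hg0 : 0 ≤ g := by rw [hgu]; positivity
  have hgaR : g ≤ u * (a * R) := by
    rw [hgu]
    have : a ^ 2 * R ≤ a * R := by nlinarith
    exact mul_le_mul_of_nonneg_left this hu0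
  have h1 : u * (a * R) ≤ (1 / 2) * (a * R) := mul_le_mul_of_nonneg_right (by linarith) haR.le
  have h2 : a * R * (1 / 2) ≤ a * R * (1 - (w + 5 * u)) :=
    mul_le_mul_of_nonneg_left (by linarith) haR.le
  have h3 : a * R * (1 - (w + 5 * u)) ≤ a * R * 1 :=
    mul_le_mul_of_nonneg_left (by linarith) haR.le
  refine ⟨by linarith, by linarith, by linarith, ?_, ?_⟩
  · have haw : a ^ 2 * w ≤ 1 / 4 * (1 / 2) :=
      mul_le_mul ha2 (by linarith) hw0 (by norm_num)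
    have e1 : 0 ≤ R * (1 - a ^ 2 * w / 2) := mul_nonneg hR.le (by linarith)
    have e2 : (R * (1 - a ^ 2 * w / 2)) ^ 2 ≤ Y ^ 2 := pow_le_pow_left₀ e1 hY 2
    have e3 : R ^ 2 * (1 - a ^ 2 * w) ≤ (R * (1 - a ^ 2 * w / 2)) ^ 2 := by
      rw [mul_pow]
      refine mul_le_mul_of_nonneg_left ?_ (sq_nonneg _)
      nlinarith [sq_nonneg (a ^ 2 * w / 2)]
    have e4 : (1 - (w + 5 * u)) ^ 2 ≤ 1 - (w + 5 * u) := by
      have : (1 - (w + 5 * u)) * (1 - (w + 5 * u)) ≤ (1 - (w + 5 * u)) * 1 :=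
        mul_le_mul_of_nonneg_left (by linarith) (by linarith)
      linarith
    have e5 : (a * R * (1 - (w + 5 * u))) ^ 2 ≤ (a * R) ^ 2 * (1 - (w + 5 * u)) := by
      rw [mul_pow]; exact mul_le_mul_of_nonneg_left e4 (sq_nonneg _)
    have e6 : 5 * g * R = (a * R) ^ 2 * (5 * u) := by rw [hgu]; ring
    have e7 : (a * R) ^ 2 * (1 - (w + 5 * u))
        = R ^ 2 * (1 - a ^ 2 * w) - (1 - a ^ 2) * R ^ 2 - (a * R) ^ 2 * (5 * u) := by ring
    linarith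
  · have e1 : (1 - (w + 7 * u)) * g ≤ 1 * g := mul_le_mul_of_nonneg_right (by linarith) hg0
    have e2 : (1 - (w + 7 * u)) * (a * R + g)
        = a * R * (1 - (w + 5 * u)) - 2 * (u * (a * R)) + (1 - (w + 7 * u)) * g := by ring
    linarith

/-- lower bound for the measure of the removing set -/
lemma mu_ge {a R : ℝ} {S : ℕ} (hn : 0 < n) (ha : 0 < a) (ha1 : a ≤ 1 / 2) (hR : 0 < R)
    (hg : 7 * n * √n ≤ a ^ 2 * R) (hS : 2 * S / a ^ 2 + 1 ≤ n / 2) {y : E n}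
    (hy : ‖y‖ ≤ R + √n) {d : ℝ} (hd0 : 0 ≤ d) (hdS : d ≤ S) (hd : R * (1 - d / n) ≤ ‖y‖) :
    1 / 2 * Real.exp (-(4 * d / a ^ 2 + 2)) ≤ pp n a R * (AS a R y).card := by
  have hn' : (1 : ℝ) ≤ n := by exact_mod_cast hn
  have hg0 : 0 < √(n : ℝ) := Real.sqrt_pos.2 (by linarith)
  have ha2 : 0 < a ^ 2 := by positivity
  have haR : 0 < a * R := by positivity
  obtain ⟨u, hu⟩ : ∃ u, u = √n / (a ^ 2 * R) := ⟨_, rfl⟩
  obtain ⟨w, hw⟩ : ∃ w, w = 2 * d / (a ^ 2 * n) := ⟨_, rfl⟩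
  have hu0 : 0 ≤ u := by rw [hu]; positivity
  have hw0 : 0 ≤ w := by rw [hw]; positivity
  have hgu : √n = u * (a ^ 2 * R) := by rw [hu]; field_simp
  have hnu : 7 * n * u ≤ 1 := by
    rw [hu, ← mul_div_assoc, div_le_one (by positivity)]; exact hg
  have hnw : n * w = 2 * d / a ^ 2 := by rw [hw]; field_simp
  have hx : w + 7 * u ≤ 1 / 2 := by
    have h1 : 2 * d / a ^ 2 ≤ 2 * S / a ^ 2 := by gcongr
    have : n * (w + 7 * u) ≤ n * (1 / 2) := by linarith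
    exact le_of_mul_le_mul_left this (by linarith)
  have hdn : d / n = a ^ 2 * w / 2 := by rw [hw]; field_simp
  rw [hdn] at hd
  obtain ⟨a1, a2, a3, a4, h7⟩ := arith1 ha ha1 hR hu0 hw0 hgu hx hd
  have hcard := AS_card_ge a1 hy a2 a3 a4
  have h8 : ((1 - (w + 7 * u)) * (a * R + √n)) ^ n ≤ (a * R * (1 - (w + 5 * u)) - √n) ^ n :=
    pow_le_pow_left₀ (mul_nonneg (by linarith) (by positivity)) h7 n
  have h9 : Real.exp (-(4 * d / a ^ 2 + 2)) ≤ (1 - (w + 7 * u)) ^ n := by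
    refine le_trans ?_ (pow_le_pow_left₀ (Real.exp_pos _).le
      (exp_le_one_sub (by positivity) hx) n)
    rw [← Real.exp_nat_mul, Real.exp_le_exp]
    have : 4 * d / a ^ 2 = 2 * (n * w) := by rw [hnw]; ring
    linarith
  have hom := @om_pos n
  have h10 : 0 < om n * (a * R + √n) ^ n := by positivity
  calc 1 / 2 * Real.exp (-(4 * d / a ^ 2 + 2)) ≤ 1 / 2 * (1 - (w + 7 * u)) ^ n := by linarith
    _ = pp n a R * (om n * ((1 - (w + 7 * u)) * (a * R + √n)) ^ n) := by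
        unfold pp; rw [mul_pow]; field_simp
    _ ≤ pp n a R * (AS a R y).card := by
        refine mul_le_mul_of_nonneg_left ?_ (pp_pos haR.le).le
        exact (mul_le_mul_of_nonneg_left h8 hom.le).trans hcard

lemma cost_bound {a R Θ : ℝ} {S : ℕ} (hn : 0 < n) (ha : 0 < a) (ha1 : a ≤ 1 / 2) (hR : 0 < R)
    (hg : 7 * n * √n ≤ a ^ 2 * R) (hS : 2 * S / a ^ 2 + 1 ≤ n / 2) {y : E n}
    (hy : ‖y‖ ≤ R + √n) (hc : fc a R Θ S y < Θ) :
    (AS a R y).Nonempty ∧ 1 + 1 / (pp n a R * (AS a R y).card) ≤ Real.exp (fc a R Θ S y) ∧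
      1 / (pp n a R * (AS a R y).card) ≤ Real.exp (4 * S / a ^ 2 + 4) := by
  have hn' : (0 : ℝ) < n := by exact_mod_cast hn
  have hsum0 : 0 ≤ ∑ j ∈ range S, ind (‖y‖ ≤ R * (1 - j / n)) :=
    sum_nonneg fun _ _ => ind_nonneg _
  have hcore : ¬ ‖y‖ ≤ R * (1 - S / n) := by
    intro h
    unfold fc at hc
    rw [ind_pos h, ind_pos hy] at hc
    have : 0 ≤ 4 / a ^ 2 * ∑ j ∈ range S, ind (‖y‖ ≤ R * (1 - j / n)) := by positivity
    linarith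
  set d0 := n * (1 - ‖y‖ / R) with hd0
  have hiff : ∀ t : ℝ, (‖y‖ ≤ R * (1 - t / n)) ↔ t ≤ d0 := by
    intro t
    rw [hd0, ← div_le_iff₀' hR, ← div_le_iff₀' hn']
    constructor <;> intro h <;> linarith
  have hd0S : d0 ≤ S := by
    rw [hiff] at hcore; exact (not_le.1 hcore).le
  set d := max d0 0 with hd
  have hdS : d ≤ S := max_le hd0S (Nat.cast_nonneg _)
  have hdy : R * (1 - d / n) ≤ ‖y‖ := by
    have h1 : R * (1 - d0 / n) = ‖y‖ := by rw [hd0]; field_simp; ring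
    rw [← h1]
    have : d0 / n ≤ d / n := div_le_div_of_nonneg_right (le_max_left _ _) hn'.le
    exact mul_le_mul_of_nonneg_left (by linarith) hR.le
  have hmu := mu_ge hn ha ha1 hR hg hS hy (d := d) (le_max_right _ _) hdS hdy
  have hdsum : d ≤ ∑ j ∈ range S, ind (‖y‖ ≤ R * (1 - j / n)) := by
    refine max_le ?_ hsum0
    rw [sum_congr rfl fun (j : ℕ) _ => ind_congr (hiff j)]
    exact le_sum_ind S d0 hd0S
  have hpos : 0 < pp n a R * (AS a R y).card := lt_of_lt_of_le (by positivity) hmu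
  have hinv : 1 / (pp n a R * (AS a R y).card) ≤ 2 * Real.exp (4 * d / a ^ 2 + 2) := by
    refine (one_div_le_one_div_of_le (by positivity) hmu).trans (le_of_eq ?_)
    rw [Real.exp_neg]; field_simp
  have hd0' : 0 ≤ d := le_max_right _ _
  have he2 : 3 ≤ Real.exp 2 := by linarith [Real.add_one_le_exp 2]
  have he1 : 1 ≤ Real.exp (4 * d / a ^ 2 + 2) := Real.one_le_exp (by positivity)
  have hmain : 1 + 1 / (pp n a R * (AS a R y).card) ≤ Real.exp (4 * d / a ^ 2 + 4) := by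
    rw [show 4 * d / a ^ 2 + 4 = (4 * d / a ^ 2 + 2) + 2 by ring, Real.exp_add]
    nlinarith
  refine ⟨?_, hmain.trans (Real.exp_le_exp.2 ?_), ?_⟩
  · rw [← card_pos]
    by_contra h
    have : (AS a R y).card = 0 := by omega
    rw [this] at hpos; simp at hpos
  · unfold fc
    rw [ind_neg hcore, ind_pos hy]
    have : 4 * d / a ^ 2 ≤ 4 / a ^ 2 * ∑ j ∈ range S, ind (‖y‖ ≤ R * (1 - j / n)) := by
      rw [show 4 * d / a ^ 2 = 4 / a ^ 2 * d by ring]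
      exact mul_le_mul_of_nonneg_left hdsum (by positivity)
    linarith
  · have : Real.exp (4 * d / a ^ 2 + 4) ≤ Real.exp (4 * S / a ^ 2 + 4) := by
      gcongr
    linarith

end Vale.Agent.P230
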