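import Vale.Agent.P230.DDefs

/-! Concentration of the decoded gain inside one group. -/

open Finset

namespace Vale.Agent.P230

lemma gr_coin_eq (Q : ℕ) (t : ℝ) :
    av (fun i : Fin Q => ind (((i : ℕ) : ℝ) + 1 ≤ Q * t))
      = (((range Q).filter fun i : ℕ => (i : ℝ) + 1 ≤ Q * t).card : ℝ) / Q := by
  classical
  unfold av
  rw [Fin.sum_univ_eq_sum_range (fun i : ℕ => ind ((i : ℝ) + 1 ≤ Q * t)) Q, sum_ind,
    Fintype.card_fin]

lemma gr_coin_le {Q : ℕ} (hQ : 0 < Q) {t : ℝ} (ht : 0 ≤ t) :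
    av (fun i : Fin Q => ind (((i : ℕ) : ℝ) + 1 ≤ Q * t)) ≤ t := by
  have hQ' : (0 : ℝ) < Q := by exact_mod_cast hQ
  rw [gr_coin_eq, div_le_iff₀ hQ']
  have h1 : ((range Q).filter fun i : ℕ => (i : ℝ) + 1 ≤ Q * t) ⊆ range ⌊Q * t⌋₊ := by
    intro i hi
    have h2 := (mem_filter.1 hi).2
    rw [mem_range, Nat.lt_iff_add_one_le, Nat.le_floor_iff (by positivity)]
    push_cast; exact h2
  have h2 := card_le_card h1
  rw [card_range] at h2
  have h3 : ((⌊Q * t⌋₊ : ℕ) : ℝ) ≤ Q * t := Nat.floor_le (by positivity)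
  have h4 : ((((range Q).filter fun i : ℕ => (i : ℝ) + 1 ≤ Q * t).card : ℕ) : ℝ)
      ≤ ((⌊Q * t⌋₊ : ℕ) : ℝ) := by exact_mod_cast h2
  linarith [mul_comm t Q]

lemma gr_coin_ge {Q : ℕ} (hQ : 0 < Q) {t : ℝ} (ht : 0 ≤ t) (ht1 : t ≤ 1) :
    t - 1 / Q ≤ av (fun i : Fin Q => ind (((i : ℕ) : ℝ) + 1 ≤ Q * t)) := by
  have hQ' : (0 : ℝ) < Q := by exact_mod_cast hQ
  rw [gr_coin_eq, le_div_iff₀ hQ']
  have h0 : ⌊Q * t⌋₊ ≤ Q := Nat.floor_le_of_le (by nlinarith)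
  have h1 : range ⌊Q * t⌋₊ ⊆ ((range Q).filter fun i : ℕ => (i : ℝ) + 1 ≤ Q * t) := by
    intro i hi
    have h2 := mem_range.1 hi
    refine mem_filter.2 ⟨mem_range.2 (h2.trans_le h0), ?_⟩
    rw [Nat.lt_iff_add_one_le, Nat.le_floor_iff (by positivity)] at h2
    push_cast at h2; exact h2
  have h2 := card_le_card h1
  rw [card_range] at h2
  have h3 : Q * t < ((⌊Q * t⌋₊ : ℕ) : ℝ) + 1 := Nat.lt_floor_add_one _
  have h4 : ((⌊Q * t⌋₊ : ℕ) : ℝ)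
      ≤ ((((range Q).filter fun i : ℕ => (i : ℝ) + 1 ≤ Q * t).card : ℕ) : ℝ) := by
    exact_mod_cast h2
  have h5 : (t - 1 / Q) * Q = Q * t - 1 := by field_simp
  linarith

lemma gr_exp_le {t : ℝ} (h0 : 0 ≤ t) (h1 : t ≤ 1) : Real.exp t ≤ 1 + 2 * t := by
  have := Real.abs_exp_sub_one_le (x := t) (by rw [abs_of_nonneg h0]; exact h1)
  rw [abs_of_nonneg h0] at this
  linarith [le_abs_self (Real.exp t - 1)]

lemma gr_exp_neg_le {t : ℝ} (h0 : 0 ≤ t) : Real.exp (-t) ≤ 1 / (1 + t) := by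
  rw [Real.exp_neg, one_div]
  exact inv_anti₀ (by linarith) (by linarith [Real.add_one_le_exp t])

lemma gr_one_sub_ge {u ε : ℝ} (h0 : 0 ≤ u) (h1 : u ≤ ε) (h2 : ε ≤ 1 / 2) :
    Real.exp (-((1 + 2 * ε) * u)) ≤ 1 - u := by
  have hε : 0 ≤ ε := h0.trans h1
  refine (gr_exp_neg_le (by positivity)).trans ?_
  rw [div_le_iff₀ (by positivity)]
  have h3 : (1 + 2 * ε) * u ≤ 2 * ε := by nlinarith
  nlinarith [mul_le_mul_of_nonneg_left h3 h0]

lemma gr_exp_neg_le' {s ε : ℝ} (h0 : 0 ≤ s) (h1 : s ≤ ε) :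
    Real.exp (-s) ≤ 1 - (1 - ε) * s := by
  refine (gr_exp_neg_le h0).trans ?_
  rw [div_le_iff₀ (by positivity)]
  nlinarith [mul_le_mul_of_nonneg_left h1 h0, mul_nonneg (mul_nonneg h0 h0) (h0.trans h1)]

lemma gr_harm (k : ℕ) :
    av (fun i : Fin (2 ^ k) => ((2 ^ k : ℕ) : ℝ) / (((i : ℕ) : ℝ) + 1)) ≤ 1 + k := by
  unfold av
  have hQ : (0 : ℝ) < ((2 ^ k : ℕ) : ℝ) := by positivity
  rw [Fin.sum_univ_eq_sum_range (fun i : ℕ => ((2 ^ k : ℕ) : ℝ) / ((i : ℝ) + 1)) (2 ^ k),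
    Fintype.card_fin, div_le_iff₀ hQ]
  have h1 := harmonic_le_one_add_log (2 ^ k)
  have h2 : ∑ i ∈ range (2 ^ k), ((2 ^ k : ℕ) : ℝ) / ((i : ℝ) + 1)
      = (harmonic (2 ^ k) : ℝ) * ((2 ^ k : ℕ) : ℝ) := by
    unfold harmonic
    push_cast
    rw [sum_mul]
    exact sum_congr rfl fun i _ => by rw [div_eq_mul_inv, mul_comm]
  rw [h2]
  refine mul_le_mul_of_nonneg_right (h1.trans ?_) hQ.le
  push_cast
  rw [Real.log_pow]
  have := Real.log_two_lt_d9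
  have hk : (0 : ℝ) ≤ k := Nat.cast_nonneg k
  nlinarith

section one
variable {T Jt : Type} [Fintype T] [Nonempty T] [Fintype Jt]

/-- probability that a coin of value `i` is accepted -/
noncomputable def grA (Q : ℕ) (c : ℝ) (g : T → ℝ) (i : Fin Q) : ℝ :=
  av fun τ => ind (((i : ℕ) : ℝ) + 1 ≤ Q * (c * g τ))

/-- dominating factor of a coin -/
noncomputable def grX (Q : ℕ) (c ε : ℝ) (i : Fin Q) : ℝ := min ε (c * (Q / (((i : ℕ) : ℝ) + 1)))

omit [Nonempty T] in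
lemma grA_nonneg (Q : ℕ) (c : ℝ) (g : T → ℝ) (i : Fin Q) : 0 ≤ grA Q c g i :=
  av_nonneg fun _ => ind_nonneg _

lemma grA_le_one (Q : ℕ) (c : ℝ) (g : T → ℝ) (i : Fin Q) : grA Q c g i ≤ 1 :=
  av_le_const fun _ => ind_le_one _

lemma grX_nonneg (Q : ℕ) {c ε : ℝ} (hc : 0 ≤ c) (hε : 0 ≤ ε) (i : Fin Q) : 0 ≤ grX Q c ε i :=
  le_min hε (by positivity)

omit [Nonempty T] in
lemma grA_le {Q : ℕ} {c ε q : ℝ} {g : T → ℝ} (hc : 0 ≤ c) (hq : 0 ≤ q) (hg : ∀ τ, 0 ≤ g τ)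
    (h1 : av (fun τ => ind (0 < g τ)) ≤ ε * q) (h2 : av g ≤ q) (i : Fin Q) :
    grA Q c g i ≤ grX Q c ε i * q := by
  have hi : (0 : ℝ) < ((i : ℕ) : ℝ) + 1 := by positivity
  unfold grX
  rw [min_mul_of_nonneg _ _ hq]
  refine le_min (le_trans (av_mono fun τ => ind_mono fun h => ?_) h1) ?_
  · refine lt_of_le_of_ne (hg τ) fun e => ?_
    rw [← e] at h; simp only [mul_zero] at h; linarith
  · have h3 := av_markov (f := fun τ => Q * (c * g τ))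
      (fun τ => mul_nonneg (Nat.cast_nonneg _) (mul_nonneg hc (hg τ))) hi
    refine h3.trans ?_
    rw [av_smul, av_smul]
    have h4 : (Q : ℝ) * (c * av g) / (((i : ℕ) : ℝ) + 1)
        = c * (Q / (((i : ℕ) : ℝ) + 1)) * av g := by ring
    rw [h4]
    exact mul_le_mul_of_nonneg_left h2 (by positivity)

omit [Nonempty T] in
lemma grA_av_le {Q : ℕ} (hQ : 0 < Q) {c : ℝ} {g : T → ℝ} (hc : 0 ≤ c) (hg : ∀ τ, 0 ≤ g τ) :
    av (grA Q c g) ≤ c * av g := by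
  unfold grA
  rw [av_comm, ← av_smul]
  exact av_mono fun τ => gr_coin_le hQ (mul_nonneg hc (hg τ))

omit [Nonempty T] in
lemma grA_av_ge {Q : ℕ} (hQ : 0 < Q) {c : ℝ} {g : T → ℝ} (hc : 0 ≤ c) (hg : ∀ τ, 0 ≤ g τ)
    (h1 : ∀ τ, c * g τ ≤ 1) :
    c * av g - av (fun τ => ind (0 < g τ)) * (1 / Q) ≤ av (grA Q c g) := by
  unfold grA
  rw [av_comm, ← av_smul, ← av_mul_const, ← av_sub]
  refine av_mono fun τ => ?_
  by_cases h : 0 < g τ
  · rw [ind_pos h, one_mul]; exact gr_coin_ge hQ (mul_nonneg hc (hg τ)) (h1 τ)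
  · rw [ind_neg h, le_antisymm (not_lt.1 h) (hg τ)]
    simp only [mul_zero, zero_mul, sub_zero]
    exact av_nonneg fun _ => ind_nonneg _

omit [Nonempty T] in
lemma gr_s_le {Q : ℕ} {c ε : ℝ} {q : Jt → ℝ} {g : Jt → T → ℝ} (hc : 0 ≤ c) (hε : 0 ≤ ε)
    (hq : ∀ j, 0 ≤ q j) (hq1 : ∑ j, q j ≤ 1) (hg : ∀ j τ, 0 ≤ g j τ)
    (h1 : ∀ j, av (fun τ => ind (0 < g j τ)) ≤ ε * q j) (h2 : ∀ j, av (g j) ≤ q j) (i : Fin Q) :
    ∑ j, grA Q c (g j) i ≤ ε := by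
  calc ∑ j, grA Q c (g j) i ≤ ∑ j, ε * q j := sum_le_sum fun j _ =>
        (grA_le hc (hq j) (hg j) (h1 j) (h2 j) i).trans
          (mul_le_mul_of_nonneg_right (min_le_left _ _) (hq j))
    _ ≤ ε := by rw [← mul_sum]; exact mul_le_of_le_one_right hε hq1

lemma gr_first {Q : ℕ} (hQ : 0 < Q) {c ε ε₂ : ℝ} {q : Jt → ℝ} {g : Jt → T → ℝ} (hc : 0 ≤ c)
    (hε : 0 ≤ ε) (hε1 : ε ≤ 1)
    (hq : ∀ j, 0 ≤ q j) (hq1 : ∑ j, q j ≤ 1) (hg : ∀ j τ, 0 ≤ g j τ) (hg1 : ∀ j τ, c * g j τ ≤ 1)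
    (h1 : ∀ j, av (fun τ => ind (0 < g j τ)) ≤ ε * q j) (h2 : ∀ j, av (g j) ≤ q j)
    (h3 : c * (1 - ε₂) ≤ c * ∑ j, av (g j)) :
    av (fun i : Fin Q => ∏ j, (1 - grA Q c (g j) i))
      ≤ Real.exp (-((1 - ε) * (c * (1 - ε₂) - ε * (1 / Q)))) := by
  have : Nonempty (Fin Q) := ⟨⟨0, hQ⟩⟩
  have s1 : ∀ i : Fin Q, ∏ j, (1 - grA Q c (g j) i) ≤ 1 - (1 - ε) * ∑ j, grA Q c (g j) i := by
    intro i
    refine le_trans ?_ (gr_exp_neg_le' (sum_nonneg fun j _ => grA_nonneg _ _ _ _)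
      (gr_s_le hc hε hq hq1 hg h1 h2 i))
    rw [← sum_neg_distrib, Real.exp_sum]
    exact prod_le_prod (fun j _ => by linarith [grA_le_one Q c (g j) i])
      fun j _ => by linarith [Real.add_one_le_exp (-grA Q c (g j) i)]
  refine (av_mono s1).trans ?_
  rw [av_sub, av_const, av_smul, av_sum]
  have s2 : c * (1 - ε₂) - ε * (1 / Q) ≤ ∑ j, av (grA Q c (g j)) := by
    refine le_trans ?_ (sum_le_sum fun j _ => grA_av_ge hQ hc (hg j) (hg1 j))
    rw [sum_sub_distrib, ← mul_sum, ← sum_mul]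
    have s3 : ∑ j, av (fun τ => ind (0 < g j τ)) ≤ ε :=
      (sum_le_sum fun j _ => h1 j).trans (by rw [← mul_sum]; exact mul_le_of_le_one_right hε hq1)
    have s4 := mul_le_mul_of_nonneg_right s3 (show (0 : ℝ) ≤ 1 / Q by positivity)
    linarith
  have s5 := mul_le_mul_of_nonneg_left s2 (show 0 ≤ 1 - ε by linarith)
  linarith [Real.add_one_le_exp (-((1 - ε) * (c * (1 - ε₂) - ε * (1 / Q))))]

omit [Nonempty T] in
lemma gr_second {Q : ℕ} (hQ : 0 < Q) {c ε : ℝ} {q : Jt → ℝ} {g : Jt → T → ℝ} (hc : 0 ≤ c)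
    (hε : 0 ≤ ε) (hε1 : ε ≤ 1 / 2)
    (hq : ∀ j, 0 ≤ q j) (hq1 : ∑ j, q j ≤ 1) (hg : ∀ j τ, 0 ≤ g j τ)
    (h1 : ∀ j, av (fun τ => ind (0 < g j τ)) ≤ ε * q j) (h2 : ∀ j, av (g j) ≤ q j) :
    av (fun i : Fin Q => Real.exp (2 * ∑ j, grA Q c (g j) i)) ≤ Real.exp (4 * c) := by
  have : Nonempty (Fin Q) := ⟨⟨0, hQ⟩⟩
  have s1 : ∀ i : Fin Q, Real.exp (2 * ∑ j, grA Q c (g j) i) ≤ 1 + 4 * ∑ j, grA Q c (g j) i := by
    intro i
    have a1 : 0 ≤ ∑ j, grA Q c (g j) i := sum_nonneg fun j _ => grA_nonneg _ _ _ _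
    have a2 := gr_s_le (Q := Q) hc hε hq hq1 hg h1 h2 i
    have := gr_exp_le (t := 2 * ∑ j, grA Q c (g j) i) (by linarith) (by linarith)
    linarith
  refine (av_mono s1).trans ?_
  rw [av_add, av_const, av_smul, av_sum]
  have s2 : ∑ j, av (grA Q c (g j)) ≤ c := by
    refine (sum_le_sum fun j _ => (grA_av_le hQ hc (hg j)).trans
      (mul_le_mul_of_nonneg_left (h2 j) hc)).trans ?_
    rw [← mul_sum]; exact mul_le_of_le_one_right hc hq1
  linarith [Real.add_one_le_exp (4 * c)]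

lemma gr_fourth (k : ℕ) {c ε : ℝ} (hc : 0 ≤ c) (hε : 0 ≤ ε) (hε1 : ε ≤ 1) :
    av (fun i : Fin (2 ^ k) => Real.exp (grX (2 ^ k) c ε i)) ≤ Real.exp (2 * (1 + k) * c) := by
  have : Nonempty (Fin (2 ^ k)) := ⟨⟨0, by positivity⟩⟩
  have s1 : ∀ i : Fin (2 ^ k), Real.exp (grX (2 ^ k) c ε i)
      ≤ 1 + 2 * c * (((2 ^ k : ℕ) : ℝ) / (((i : ℕ) : ℝ) + 1)) := by
    intro i
    have a1 := gr_exp_le (grX_nonneg (2 ^ k) hc hε i) ((min_le_left _ _).trans hε1)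
    have a2 : grX (2 ^ k) c ε i ≤ c * (((2 ^ k : ℕ) : ℝ) / (((i : ℕ) : ℝ) + 1)) := min_le_right _ _
    linarith
  refine (av_mono s1).trans ?_
  rw [av_add, av_const, av_smul]
  have s2 := mul_le_mul_of_nonneg_left (gr_harm k) (show 0 ≤ 2 * c by linarith)
  linarith [Real.add_one_le_exp (2 * (1 + k) * c)]

end one

lemma gr_fail {Zt Jt : Type} [Fintype Zt] [DecidableEq Zt] [Fintype Jt] [Nonempty Jt] {Q : ℕ}
    (hQ : 0 < Q) {c : Zt → ℝ} {G : Zt → Jt → ℝ} {ε θ : ℝ} (hε : 0 ≤ ε) (hε1 : ε ≤ 1 / 2)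
    (hc : ∀ z, 0 ≤ c z) (hG : ∀ z j, 0 ≤ G z j) (hu : ∀ z j, c z * G z j ≤ ε)
    (h : ∀ sel : Zt → Jt, ∑ z, c z * G z (sel z) ≤ θ) :
    Real.exp (-((1 + 2 * ε) * θ)) ≤ av (fun υ : Zt → Fin Q =>
      ind (∀ y : Zt × Jt, ¬ (((υ y.1 : ℕ) : ℝ) + 1 ≤ Q * (c y.1 * G y.1 y.2)))) := by
  have : Nonempty (Fin Q) := ⟨⟨0, hQ⟩⟩
  choose sel hsel using fun z => exists_max_image univ (G z) univ_nonempty
  have s1 : ∀ υ : Zt → Fin Q,
      ∏ z, (1 - ind (((υ z : ℕ) : ℝ) + 1 ≤ Q * (c z * G z (sel z))))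
      ≤ ind (∀ y : Zt × Jt, ¬ (((υ y.1 : ℕ) : ℝ) + 1 ≤ Q * (c y.1 * G y.1 y.2))) := by
    intro υ
    simp only [← ind_not]
    rw [← ind_forall']
    refine ind_mono fun hh y hy => hh y.1 (hy.trans ?_)
    exact mul_le_mul_of_nonneg_left
      (mul_le_mul_of_nonneg_left ((hsel y.1).2 y.2 (mem_univ _)) (hc _)) (Nat.cast_nonneg _)
  refine le_trans ?_ (av_mono s1)
  rw [av_pi_prod (fun z (i : Fin Q) => 1 - ind (((i : ℕ) : ℝ) + 1 ≤ Q * (c z * G z (sel z))))]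
  calc Real.exp (-((1 + 2 * ε) * θ))
      ≤ Real.exp (∑ z, -((1 + 2 * ε) * (c z * G z (sel z)))) := by
        rw [sum_neg_distrib, ← mul_sum]
        exact Real.exp_le_exp.2 (neg_le_neg
          (mul_le_mul_of_nonneg_left (h sel) (by linarith)))
    _ ≤ _ := by
        rw [Real.exp_sum]
        refine prod_le_prod (fun z _ => (Real.exp_pos _).le) fun z _ => ?_
        have a0 := mul_nonneg (hc z) (hG z (sel z))
        refine (gr_one_sub_ge a0 (hu z _) hε1).trans ?_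
        rw [av_sub, av_const]
        linarith [gr_coin_le hQ a0]

lemma gr_qsum (h : RKP) {Jt : Type} [Fintype Jt] {r J : ℕ} {η : ℝ} (hη : 0 < η)
    {jp : Jt → Fin r → ℤ} (hinj : Function.Injective jp) (ht : ∀ j, TypD η J (jp j)) :
    ∑ j, ∏ c, qq η (jp j c) ≤ 1 := by
  classical
  rw [← sum_image (s := univ) (g := jp) (f := fun e => ∏ c, qq η (e c))
    (fun _ _ _ _ e => hinj e)]
  calc _ ≤ ∑ e ∈ Fintype.piFinset fun _ : Fin r => Win J, ∏ c, qq η (e c) := by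
        refine sum_le_sum_of_subset_of_nonneg ?_
          fun e _ _ => prod_nonneg fun c _ => qq_nonneg hη.le _
        intro e he
        obtain ⟨j, _, rfl⟩ := mem_image.1 he
        exact Fintype.mem_piFinset.2 (ht j).1
    _ = ∏ _c : Fin r, ∑ i ∈ Win J, qq η i := (Finset.prod_univ_sum _ _).symm
    _ ≤ 1 := prod_le_one (fun _ _ => sum_nonneg fun i _ => qq_nonneg hη.le _)
        fun _ _ => h.1 η J hη

lemma gr_zc_inj {p J r : ℕ} (hJ : 2 * J ≤ p) {j j' : Fin r → ℤ} (h : ∀ c, j c ∈ Win J)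
    (h' : ∀ c, j' c ∈ Win J) (e : zc p j = zc p j') : j = j' := by
  funext c
  have e1 : ((j c : ℤ) : ZMod p) = (j' c : ℤ) := congrFun e c
  have e2 := (ZMod.intCast_eq_intCast_iff_dvd_sub _ _ _).1 e1
  have a1 := mem_Ico.1 (h c)
  have a2 := mem_Ico.1 (h' c)
  have a3 : (2 * J : ℤ) ≤ p := by exact_mod_cast hJ
  have a4 : j' c - j c = 0 := Int.eq_zero_of_abs_lt_dvd e2 (by rw [abs_lt]; constructor <;> omega)
  omega

lemma gr_third {p μ r : ℕ} {X : ℝ} (hμ : 1 ≤ μ) (hX0 : 0 ≤ X) (hX : X ≤ p) (hp : 9 * μ + 1 ≤ p)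
    (hr : 42000 * μ * Real.log p ≤ r) :
    Real.exp (-(r : ℝ) / 2000) * ∑ l ∈ range (9 * μ + 1), (p * X) ^ l ≤ Real.exp (-(2 * μ)) := by
  have hp10 : (10 : ℝ) ≤ p := by exact_mod_cast (show 10 ≤ p by omega)
  have hp0 : (0 : ℝ) < p := by linarith
  have hlog : 1 ≤ Real.log p := by
    rw [Real.le_log_iff_exp_le hp0]; linarith [Real.exp_one_lt_d9]
  have s1 : ∑ l ∈ range (9 * μ + 1), ((p : ℝ) * X) ^ l ≤ (p : ℝ) ^ (19 * μ) := by
    calc _ ≤ ∑ _l ∈ range (9 * μ + 1), ((p : ℝ) * p) ^ (9 * μ) := by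
          refine sum_le_sum fun l hl => ?_
          refine (pow_le_pow_left₀ (by positivity) (mul_le_mul_of_nonneg_left hX hp0.le) l).trans ?_
          exact pow_le_pow_right₀ (by nlinarith) (Nat.lt_succ_iff.1 (mem_range.1 hl))
      _ = ((9 * μ + 1 : ℕ) : ℝ) * (p : ℝ) ^ (18 * μ) := by
          rw [sum_const, card_range, nsmul_eq_mul, ← sq, ← pow_mul]
          congr 2; ring
      _ ≤ (p : ℝ) * (p : ℝ) ^ (18 * μ) :=
          mul_le_mul_of_nonneg_right (by exact_mod_cast hp) (by positivity)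
      _ ≤ _ := by
          rw [← pow_succ']
          exact pow_le_pow_right₀ (by linarith) (by omega)
  refine (mul_le_mul_of_nonneg_left s1 (Real.exp_pos _).le).trans ?_
  rw [← Real.exp_log (show (0 : ℝ) < (p : ℝ) ^ (19 * μ) by positivity), ← Real.exp_add,
    Real.log_pow]
  refine Real.exp_le_exp.2 ?_
  push_cast
  have := mul_le_mul_of_nonneg_left hlog (Nat.cast_nonneg μ : (0 : ℝ) ≤ μ)
  linarith

lemma gr_hole (h : RKP) {p : ℕ} [Fact p.Prime] {κ Sg Zt Jt : Type} [Fintype κ] [DecidableEq κ]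
    [Fintype Sg] [DecidableEq Sg] [Fintype Zt] [Fintype Jt] {r J Q n : ℕ} {η ε X E : ℝ}
    {zv : Zt → κ → ZMod p} {jp : Jt → Fin r → ℤ} {c : Zt → ℝ}
    {g : Zt → Jt → (Sg → ZMod p) → ℝ} (hη : 0 < η) (hη1 : η ≤ 1 / 100) (hJ : 2 * J ≤ p)
    (hzv : Function.Injective zv) (hjp : Function.Injective jp) (ht : ∀ j, TypD η J (jp j))
    (hε : 0 ≤ ε) (hc : ∀ z, 0 ≤ c z) (hg : ∀ z j τ, 0 ≤ g z j τ)
    (h1 : ∀ z j, av (fun τ => ind (0 < g z j τ)) ≤ ε * ∏ c, qq η (jp j c))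
    (h2 : ∀ z j, av (g z j) ≤ ∏ c, qq η (jp j c)) (hX : 0 ≤ X)
    (hE : Real.exp (-(r : ℝ) / 2000) * ∑ l ∈ range (n + 1), (p * X) ^ l ≤ E)
    (υ : Zt → Fin Q) :
    av (fun φ : κ ⊕ Fin r → Sg → ZMod p => av fun x => ind (∀ y : Zt × Jt,
        ¬ (((υ y.1 : ℕ) : ℝ) + 1 ≤ Q * (c y.1 * g y.1 y.2
          (lin φ x (Sum.elim (zv y.1) (zc p (jp y.2))))))))
      ≤ ∏ z, ∏ j, (1 - grA Q (c z) (g z j) (υ z))
        + (∏ z, Real.exp (2 * ∑ j, grA Q (c z) (g z j) (υ z))) * (1 / 2 ^ n) + E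
        + (∏ z, Real.exp (grX Q (c z) ε (υ z))) * Real.exp (-X) := by
  classical
  have hE0 : 0 ≤ E := le_trans (by positivity) hE
  have t1 : 0 ≤ ∏ z, ∏ j, (1 - grA Q (c z) (g z j) (υ z)) :=
    prod_nonneg fun z _ => prod_nonneg fun j _ => by linarith [grA_le_one Q (c z) (g z j) (υ z)]
  have t2 : 0 ≤ (∏ z, Real.exp (2 * ∑ j, grA Q (c z) (g z j) (υ z))) * (1 / 2 ^ n) := by
    positivity
  have t4 : 0 ≤ (∏ z, Real.exp (grX Q (c z) ε (υ z))) * Real.exp (-X) := by positivity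
  by_cases hx : ∑ z, grX Q (c z) ε (υ z) ≤ X
  · let vec : Zt × Jt → κ ⊕ Fin r → ZMod p := fun y => Sum.elim (zv y.1) (zc p (jp y.2))
    have hinj : Function.Injective vec := by
      intro y y' e
      have e1 : zv y.1 = zv y'.1 := funext fun i => congrFun e (Sum.inl i)
      have e2 : zc p (jp y.2) = zc p (jp y'.2) := funext fun i => congrFun e (Sum.inr i)
      exact Prod.ext (hzv e1) (hjp (gr_zc_inj hJ (ht _).1 (ht _).1 e2))
    let A : Zt × Jt → Finset (Sg → ZMod p) := fun y =>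
      univ.filter fun τ => ((υ y.1 : ℕ) : ℝ) + 1 ≤ Q * (c y.1 * g y.1 y.2 τ)
    let a : Zt × Jt → ℝ := fun y => grA Q (c y.1) (g y.1 y.2) (υ y.1)
    have ha : ∀ y, a y = ((A y).card : ℝ) / Fintype.card (Sg → ZMod p) := by
      intro y
      rw [← av_ind_mem]
      exact av_congr fun τ => ind_congr (by simp [A])
    have b1 := hole_bound hinj A n a ha
    have b2 := dirty_bound h vec hη hη1 hJ (fun y => jp y.2) Sum.inr (fun y c => rfl)
      (fun y => ht y.2) a (fun y => grA_nonneg _ _ _ _) hX (fun j' => ?_) n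
    · have e1 : ∏ y, (1 - a y) = ∏ z, ∏ j, (1 - grA Q (c z) (g z j) (υ z)) :=
        Fintype.prod_prod_type _
      have e2 : Real.exp (2 * ∑ y, a y) / 2 ^ n
          = (∏ z, Real.exp (2 * ∑ j, grA Q (c z) (g z j) (υ z))) * (1 / 2 ^ n) := by
        rw [← Real.exp_sum, ← mul_sum, Fintype.sum_prod_type, mul_one_div]
      rw [e1, e2] at b1
      refine le_trans (le_of_eq ?_) (b1.trans (by linarith))
      exact av_congr fun φ => av_congr fun x => ind_congr (by simp [A, vec])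
    · have hq : 0 ≤ ∏ c, qq η (j' c) := prod_nonneg fun c _ => qq_nonneg hη.le _
      rw [Fintype.sum_prod_type]
      refine le_trans (sum_le_sum fun z _ => ?_)
        ((sum_mul _ _ _).symm.trans_le (mul_le_mul_of_nonneg_right hx hq))
      have hx0 := grX_nonneg Q (hc z) hε (υ z)
      by_cases e : ∃ j, jp j = j'
      · obtain ⟨j, rfl⟩ := e
        rw [sum_eq_single j]
        · rw [ind_pos rfl, mul_one]
          exact grA_le (hc z) hq (hg z j) (h1 z j) (h2 z j) _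
        · intro j2 _ hne
          rw [ind_neg fun e => hne (hjp e), mul_zero]
        · intro hn; exact absurd (mem_univ _) hn
      · rw [sum_eq_zero fun j _ => by rw [ind_neg fun e' => e ⟨j, e'⟩, mul_zero]]
        positivity
  · have t5 : 1 ≤ (∏ z, Real.exp (grX Q (c z) ε (υ z))) * Real.exp (-X) := by
      rw [← Real.exp_sum, ← Real.exp_add]
      exact Real.one_le_exp (by linarith [not_le.1 hx])
    refine le_trans (av_le_const fun φ => av_le_const fun x => ind_le_one _) (by linarith)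

lemma gr_exp6 (μ : ℕ) : Real.exp (4 * μ) * (1 / 2 ^ (9 * μ)) ≤ Real.exp (-(2 * μ)) := by
  have h1 : Real.exp (6 * μ) ≤ 2 ^ (9 * μ) := by
    rw [mul_comm (6 : ℝ), Real.exp_nat_mul, pow_mul]
    refine pow_le_pow_left₀ (Real.exp_pos _).le ?_ μ
    have h2 : Real.exp 6 = Real.exp 1 ^ 6 := by rw [← Real.exp_nat_mul]; norm_num
    rw [h2]
    calc Real.exp 1 ^ 6 ≤ (2.72 : ℝ) ^ 6 :=
          pow_le_pow_left₀ (Real.exp_pos _).le (by linarith [Real.exp_one_lt_d9]) 6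
      _ ≤ _ := by norm_num
  rw [mul_one_div, div_le_iff₀ (by positivity)]
  refine le_trans (le_of_eq ?_) (mul_le_mul_of_nonneg_left h1 (Real.exp_pos _).le)
  rw [← Real.exp_add]; congr 1; ring

lemma gr_final {ε ε₂ μ : ℝ} (hε : 0 ≤ ε) (hε₂ : 0 ≤ ε₂) (hμ : 0 ≤ μ) :
    Real.exp ((1 - 2 * ε - ε₂) * μ) * (Real.exp (1 - (1 - ε - ε₂) * μ) + Real.exp (-(2 * μ))
      + Real.exp (-(2 * μ)) + Real.exp (-(2 * μ))) ≤ Real.exp (3 - ε * μ) := by
  have a1 : Real.exp ((1 - 2 * ε - ε₂) * μ) * Real.exp (1 - (1 - ε - ε₂) * μ)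
      = Real.exp 1 * Real.exp (-(ε * μ)) := by
    rw [← Real.exp_add, ← Real.exp_add]; congr 1; ring
  have a2 : Real.exp ((1 - 2 * ε - ε₂) * μ) * Real.exp (-(2 * μ)) ≤ Real.exp (-(ε * μ)) := by
    rw [← Real.exp_add]
    refine Real.exp_le_exp.2 ?_
    nlinarith [mul_nonneg hε hμ, mul_nonneg hε₂ hμ]
  have a3 : Real.exp (3 - ε * μ) = Real.exp 1 * Real.exp 2 * Real.exp (-(ε * μ)) := by
    rw [← Real.exp_add, ← Real.exp_add]; congr 1; ring
  have a4 : Real.exp 1 + 3 ≤ Real.exp 1 * Real.exp 2 := by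
    nlinarith [Real.add_one_le_exp (1 : ℝ), Real.add_one_le_exp (2 : ℝ)]
  have a5 := mul_le_mul_of_nonneg_right a4 (Real.exp_pos (-(ε * μ))).le
  rw [a3]
  linarith

theorem group (h : RKP) : GroupP := by
  intro p _ κ Sg Zt Jt _ _ _ _ _ _ r J μ k η ε ε₂ ν N zv jp w g hη hη1 hJ hzv hjp ht hε hε1 hε₂
    hε₂1 hcard hw hm hwν hg hgN hμνN h1 h2 h3 hμ hX hp hr
  classical
  set m := ∑ z, w z with hmdef
  have hμ0 : (0 : ℝ) ≤ μ := Nat.cast_nonneg μ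
  have hQ : 0 < 2 ^ k := by positivity
  have : Nonempty (Fin (2 ^ k)) := ⟨⟨0, hQ⟩⟩
  obtain ⟨c, hc⟩ : ∃ c : Zt → ℝ, ∀ z, c z = μ / m * w z := ⟨_, fun _ => rfl⟩
  have hc0 : ∀ z, 0 ≤ c z := fun z => by rw [hc]; exact mul_nonneg (by positivity) (hw z)
  have hcs : ∑ z, c z = μ := by
    simp only [hc]; rw [← mul_sum, ← hmdef]; field_simp
  have hcν : ∀ z, c z ≤ μ * ν := fun z => by
    rw [hc, div_mul_eq_mul_div, div_le_iff₀ hm, mul_assoc]
    exact mul_le_mul_of_nonneg_left (hwν z) hμ0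
  have hu : ∀ z j τ, c z * g z j τ ≤ ε := fun z j τ =>
    (mul_le_mul (hcν z) (hgN z j τ) (hg z j τ) ((hc0 z).trans (hcν z))).trans hμνN
  have hJt : Nonempty Jt := by
    by_contra hn
    rw [not_nonempty_iff] at hn
    obtain ⟨z, _, hz⟩ := exists_lt_of_sum_lt (s := univ) (f := fun _ => (0 : ℝ)) (g := w)
      (by rw [sum_const_zero]; exact hm)
    have := h3 z hz
    rw [univ_eq_empty, sum_empty] at this
    linarith
  have hq1 := gr_qsum h hη hjp ht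
  have hq0 : ∀ j, 0 ≤ ∏ c, qq η (jp j c) := fun j => prod_nonneg fun c _ => qq_nonneg hη.le _
  have hX0 : (0 : ℝ) ≤ 2 * μ * (k + 2) := by positivity
  have hE := gr_third (X := 2 * μ * (k + 2)) hμ hX0 (by exact_mod_cast hX) hp hr
  have s2 := gr_hole h (Q := 2 ^ k) hη hη1 hJ hzv hjp ht hε.le hc0 hg h1 h2 hX0 hE
  have s1 : ∀ (φ : κ ⊕ Fin r → Sg → ZMod p) (x : Sg → ZMod p), ind (∀ sel : Zt → Jt,
        ∑ z, w z * g z (sel z) (lin φ x (Sum.elim (zv z) (zc p (jp (sel z)))))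
          < (1 - 4 * ε - ε₂) * m)
      ≤ Real.exp ((1 - 2 * ε - ε₂) * μ) * av (fun υ : Zt → Fin (2 ^ k) => ind (∀ y : Zt × Jt,
        ¬ (((υ y.1 : ℕ) : ℝ) + 1 ≤ ((2 ^ k : ℕ) : ℝ) * (c y.1 * g y.1 y.2
          (lin φ x (Sum.elim (zv y.1) (zc p (jp y.2)))))))) := by
    intro φ x
    by_cases hf : ∀ sel : Zt → Jt,
        ∑ z, w z * g z (sel z) (lin φ x (Sum.elim (zv z) (zc p (jp (sel z)))))
          < (1 - 4 * ε - ε₂) * m
    · rw [ind_pos hf]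
      have b1 := gr_fail (G := fun z j => g z j (lin φ x (Sum.elim (zv z) (zc p (jp j)))))
        (θ := (1 - 4 * ε - ε₂) * μ) hQ hε.le hε1 hc0 (fun z j => hg _ _ _) (fun z j => hu _ _ _)
        (fun sel => by
          simp only [hc, mul_assoc]
          rw [← mul_sum]
          refine (mul_le_mul_of_nonneg_left (hf sel).le (by positivity)).trans (le_of_eq ?_)
          field_simp)
      refine le_trans ?_ (mul_le_mul_of_nonneg_left b1 (Real.exp_pos _).le)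
      rw [← Real.exp_add]
      refine Real.one_le_exp ?_
      nlinarith [mul_nonneg (mul_nonneg hε.le hε.le) hμ0, mul_nonneg (mul_nonneg hε.le hε₂) hμ0]
    · rw [ind_neg hf]
      exact mul_nonneg (Real.exp_pos _).le (av_nonneg fun _ => ind_nonneg _)
  refine (av_mono fun φ => av_mono fun x => s1 φ x).trans ?_
  simp only [av_smul]
  refine le_trans (mul_le_mul_of_nonneg_left ?_ (Real.exp_pos _).le)
    (gr_final hε.le hε₂ hμ0)
  rw [av_congr fun φ => av_comm _, av_comm]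
  refine (av_mono s2).trans ?_
  rw [av_add, av_add, av_add, av_const, av_mul_const, av_mul_const,
    av_pi_prod (fun z i => ∏ j, (1 - grA (2 ^ k) (c z) (g z j) i)),
    av_pi_prod (fun z i => Real.exp (2 * ∑ j, grA (2 ^ k) (c z) (g z j) i)),
    av_pi_prod (fun z i => Real.exp (grX (2 ^ k) (c z) ε i))]
  refine add_le_add (add_le_add (add_le_add ?_ ?_) le_rfl) ?_
  · refine (prod_le_prod (fun z _ => av_nonneg fun i => prod_nonneg fun j _ => by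
      linarith [grA_le_one (2 ^ k) (c z) (g z j) i]) fun z _ =>
      gr_first (ε₂ := ε₂) hQ (hc0 z) hε.le (by linarith) hq0 hq1 (hg z)
        (fun j τ => (hu z j τ).trans (by linarith)) (h1 z) (h2 z) ?_).trans ?_
    · rcases (hw z).eq_or_lt with e | e
      · rw [hc, ← e]; simp
      · exact mul_le_mul_of_nonneg_left (h3 z e) (hc0 z)
    · rw [← Real.exp_sum, sum_neg_distrib, ← mul_sum, sum_sub_distrib, ← sum_mul, hcs, sum_const,
        card_univ, nsmul_eq_mul]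
      refine Real.exp_le_exp.2 ?_
      have a1 : (Fintype.card Zt : ℝ) * (ε * (1 / ((2 ^ k : ℕ) : ℝ))) ≤ ε := by
        have a2 : (Fintype.card Zt : ℝ) ≤ ((2 ^ k : ℕ) : ℝ) := by exact_mod_cast hcard
        have a3 : (0 : ℝ) < ((2 ^ k : ℕ) : ℝ) := by exact_mod_cast hQ
        refine (mul_le_mul_of_nonneg_right a2 (by positivity)).trans (le_of_eq ?_)
        field_simp
      have a4 := mul_le_mul_of_nonneg_left a1 (show 0 ≤ 1 - ε by linarith)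
      nlinarith [mul_nonneg (mul_nonneg hε.le hε₂) hμ0, mul_nonneg hε.le hε.le]
  · refine le_trans (mul_le_mul_of_nonneg_right ?_ (by positivity)) (gr_exp6 μ)
    refine (prod_le_prod (fun z _ => av_nonneg fun i => (Real.exp_pos _).le) fun z _ =>
      gr_second hQ (hc0 z) hε.le hε1 hq0 hq1 (hg z) (h1 z) (h2 z)).trans ?_
    rw [← Real.exp_sum, ← mul_sum, hcs]
  · refine le_trans (mul_le_mul_of_nonneg_right (prod_le_prod
      (fun z _ => av_nonneg fun i => (Real.exp_pos _).le) fun z _ =>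
      gr_fourth k (hc0 z) hε.le (by linarith)) (Real.exp_pos _).le) (le_of_eq ?_)
    rw [← Real.exp_sum, ← mul_sum, hcs, ← Real.exp_add]
    congr 1; ring

end Vale.Agent.P230
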