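import Vale.Agent.P230.Tree

/-! Interface statement for the horizontal stage. -/

open Finset

namespace Vale.Agent.P230

/-- the horizontal stage -/
def HorP : Prop :=
  ∀ (κ H1 H2 O : Type) [Fintype κ] [DecidableEq κ] [Fintype H1] [DecidableEq H1] [Fintype H2]
    [DecidableEq H2] [Fintype O] (B : Matrix κ κ ℤ) (R : Finset (κ → ℤ)) (h r J c cap p : ℕ)
    (η Θ : ℝ) (S : O → (κ ⊕ Fin r → ℤ) → Finset (H1 ⊕ H2 → ℤ)),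
    Reps B R → (∀ o ι, ∀ x ∈ S o ι, ∀ c, 2 * |x c| < p) →
    (∀ ρ ∈ R, ∃ (Z : Finset (κ → ℤ)) (m : (κ → ℤ) → ℝ), TL h Z ∧ Θ ≤ ∑ z ∈ Z, m z ∧
      ∀ z ∈ Z, 0 ≤ m z ∧ m z ≤ cap ∧ ∃ G : Finset (Fin r → ℤ), (∀ j ∈ G, TypD η J j) ∧
        9 / 10 ≤ ∑ j ∈ G, ∏ c, qq η (j c) ∧ ∀ o, ∀ j ∈ G,
          (p : ℝ) ^ Fintype.card H2 * (m z * ∏ c, qq η (j c))
            ≤ (S o (Sum.elim (ρ - B.mulVec z) j)).card) →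
    p.Prime → 0 < η → η ≤ 1 / 100 → 2 * J ≤ p → 10 ≤ c → c ≤ cap → 4 * h * c ≤ cap →
    4 * (c : ℝ) ≤ Θ → 10 * cap + 1 ≤ p → 64000 * cap * Real.log p ≤ r →
    2 ^ h * (2 * J) ^ r ≤ p ^ Fintype.card H2 → 8 * Fintype.card H2 * Real.log p ≤ Θ →
    (R.card : ℝ) * Fintype.card O < Real.exp (c / 4) →
    ∃ B' : Matrix ((κ ⊕ Fin r) ⊕ (H1 ⊕ H2)) ((κ ⊕ Fin r) ⊕ (H1 ⊕ H2)) ℤ,
      B'.det = B.det * (p : ℤ) ^ Fintype.card H2 ∧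
      ∀ (o : O) (t : (κ ⊕ Fin r) ⊕ (H1 ⊕ H2) → ℤ), ∃ z : (κ ⊕ Fin r) ⊕ (H1 ⊕ H2) → ℤ,
        (t - B'.mulVec z) ∘ Sum.inr ∈ S o ((t - B'.mulVec z) ∘ Sum.inl)

end Vale.Agent.P230
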