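import Vale.Agent.P230.HDefs

/-! The horizontal stage. -/

open Finset

namespace Vale.Agent.P230

lemma hor_cast_inj {p : ℕ} {a b : ℤ} (ha : 2 * |a| < p) (hb : 2 * |b| < p)
    (h : (a : ZMod p) = b) : a = b := by
  have h1 := (ZMod.intCast_eq_intCast_iff_dvd_sub a b p).1 h
  have h2 : |b - a| < p := by
    have := abs_sub b a
    omega
  have := Int.eq_zero_of_abs_lt_dvd h1 h2
  omega

lemma hor_lin {p : ℕ} [Fact p.Prime] {κ L Sg : Type} [Fintype κ] [Fintype L] (φ : κ → Sg → ZMod p)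
    (ω : L → Sg → ZMod p) (x : Sg → ZMod p) (a : κ → ZMod p) (b : L → ZMod p) :
    lin (Sum.elim φ ω) x (Sum.elim a b) = lin ω (lin φ x a) b := by
  simp only [lin, Fintype.sum_sum_type, Sum.elim_inl, Sum.elim_inr, add_assoc]

lemma hor_av {κ L T : Type} [Fintype κ] [DecidableEq κ] [Fintype L] [DecidableEq L] [Fintype T]
    (F : (κ ⊕ L → T) → ℝ) :
    av F = av fun ω : L → T => av fun φ : κ → T => F (Sum.elim φ ω) := by
  rw [← av_equiv (Equiv.sumArrowEquivProdArrow κ L T).symm F, av_prod, av_comm]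
  rfl

lemma hor_card_win (J : ℕ) : (Win J).card = 2 * J := by
  simp only [Win, Int.card_Ico]; omega

lemma hor_one (h2 : BaseP) {p : ℕ} [hp : Fact p.Prime] {κ H1 H2 : Type} [Fintype κ]
    [DecidableEq κ] [Fintype H1] [DecidableEq H1] [Fintype H2] [DecidableEq H2]
    {h r J c cap : ℕ} {η Θ : ℝ} (Z : Finset (κ → ℤ)) (m : (κ → ℤ) → ℝ)
    (G : (κ → ℤ) → Finset (Fin r → ℤ)) (S : (κ → ℤ) → (Fin r → ℤ) → Finset (H1 ⊕ H2 → ℤ))
    (hbox : ∀ z j, ∀ x ∈ S z j, ∀ c, 2 * |x c| < p) (hZ : TL h Z) (hΘ : Θ ≤ ∑ z ∈ Z, m z)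
    (hm : ∀ z ∈ Z, 0 ≤ m z ∧ m z ≤ cap) (hG1 : ∀ z ∈ Z, ∀ j ∈ G z, TypD η J j)
    (hG2 : ∀ z ∈ Z, 9 / 10 ≤ ∑ j ∈ G z, ∏ c, qq η (j c))
    (hG3 : ∀ z ∈ Z, ∀ j ∈ G z,
      (p : ℝ) ^ Fintype.card H2 * (m z * ∏ c, qq η (j c)) ≤ (S z j).card)
    (hη0 : 0 < η) (hη1 : η ≤ 1 / 100) (hJ : 2 * J ≤ p) (hc : 10 ≤ c) (hcap : c ≤ cap)
    (hh : 4 * h * c ≤ cap) (hcΘ : 4 * (c : ℝ) ≤ Θ) (hcp : 10 * cap + 1 ≤ p)
    (hr : 64000 * cap * Real.log p ≤ r) (hpk : 2 ^ h * (2 * J) ^ r ≤ p ^ Fintype.card H2)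
    (hlog : 8 * Fintype.card H2 * Real.log p ≤ Θ) :
    av (fun ω : Fin r ⊕ H1 → H2 → ZMod p => av fun φ : κ → H2 → ZMod p =>
      ind (∃ x, ∀ z ∈ Z, ∀ j ∈ G z, ∀ y ∈ S z j,
        lin ω (lin φ x (zc p z)) (Sum.elim (zc p j) (zc p (y ∘ Sum.inl))) ≠ zc p (y ∘ Sum.inr)))
      ≤ Real.exp (-c / 4) := by
  classical
  have hq : ∀ j : Fin r → ℤ, 0 ≤ ∏ c, qq η (j c) := fun j =>
    prod_nonneg fun _ _ => qq_nonneg hη0.le _
  have hex : ∀ z ∈ Z, ∀ j ∈ G z, ∃ T ⊆ S z j,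
      T.card = ⌊(p : ℝ) ^ Fintype.card H2 * (m z * ∏ c, qq η (j c))⌋₊ := fun z hz j hj =>
    exists_subset_card_eq (Nat.floor_le_of_le (hG3 z hz j hj))
  choose! S' hS1 hS2 using hex
  let red : (H1 ⊕ H2 → ℤ) → (H1 → ZMod p) × (H2 → ZMod p) := fun y =>
    (zc p (y ∘ Sum.inl), zc p (y ∘ Sum.inr))
  let Sb : (κ → ℤ) → (Fin r → ℤ) → Finset ((H1 → ZMod p) × (H2 → ZMod p)) := fun z j =>
    if j ∈ G z then (S' z j).image red else ∅
  have hcard : ∀ z ∈ Z, ∀ j ∈ G z,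
      (Sb z j).card = ⌊(p : ℝ) ^ Fintype.card H2 * (m z * ∏ c, qq η (j c))⌋₊ := by
    intro z hz j hj
    simp only [Sb, if_pos hj]
    rw [card_image_of_injOn, hS2 z hz j hj]
    intro x hx y hy e
    funext i
    refine hor_cast_inj (hbox z j x (hS1 z hz j hj hx) i) (hbox z j y (hS1 z hz j hj hy) i) ?_
    cases i with
    | inl i => exact congrFun (congrArg Prod.fst e) i
    | inr i => exact congrFun (congrArg Prod.snd e) i
  let TJ : Finset (Fin r → ℤ) := (Fintype.piFinset fun _ => Win J).filter (TypD η J)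
  have hGT : ∀ z ∈ Z, G z ⊆ TJ := fun z hz j hj =>
    mem_filter.2 ⟨Fintype.mem_piFinset.2 (hG1 z hz j hj).1, hG1 z hz j hj⟩
  have hTc : TJ.card ≤ (2 * J) ^ r := by
    refine (card_filter_le _ _).trans ?_
    simp [Fintype.card_piFinset, hor_card_win]
  let f : (κ → ℤ) → (Fin r ⊕ H1 → H2 → ZMod p) → (H2 → ZMod p) → ℝ := fun z ω x =>
    ind (∀ j ∈ TJ, ∀ y ∈ Sb z j, lin ω x (Sum.elim (zc p j) y.1) ≠ y.2)
  have hc0 : (0 : ℝ) < c := by exact_mod_cast (show 0 < c by omega)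
  have hp0 : (0 : ℝ) < p := by exact_mod_cast hp.out.pos
  have key := mtree f (fun _ _ _ => ind_nonneg _) (fun _ _ _ => ind_le_one _) m (c := c)
    (cap := cap) hc0 (by exact_mod_cast hcap) (h := h) (by exact_mod_cast hh) hZ hm
    (hcΘ.trans hΘ) ?_
  · refine le_trans (av_mono fun ω => av_mono fun φ => ind_mono ?_) key
    rintro ⟨x, hx⟩
    have h1 := single_le_av (f := fun x => ∏ z ∈ Z, f z ω (lin φ x (zc p z)))
      (fun _ => prod_nonneg fun _ _ => ind_nonneg _) x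
    have h3 : ∏ z ∈ Z, f z ω (lin φ x (zc p z)) = 1 := by
      refine prod_eq_one fun z hz => ind_pos fun j _ y hy => ?_
      by_cases hj : j ∈ G z
      · simp only [Sb, if_pos hj] at hy
        obtain ⟨y', hy', rfl⟩ := mem_image.1 hy
        exact hx z hz j hj y' (hS1 z hz j hj hy')
      · simp [Sb, if_neg hj] at hy
    rw [h3, Fintype.card_fun, ZMod.card] at h1
    have h4 : Real.exp (-(∑ z ∈ Z, m z) / 8) * ((p ^ Fintype.card H2 : ℕ) : ℝ) ≤ 1 := by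
      push_cast
      rw [← Real.exp_log hp0, ← Real.exp_nat_mul, ← Real.exp_add, Real.exp_le_one_iff]
      linarith
    have h5 : (0 : ℝ) < ((p ^ Fintype.card H2 : ℕ) : ℝ) := by push_cast; positivity
    refine le_of_mul_le_mul_right (h4.trans ?_) h5
    rw [mul_comm]; exact h1
  · intro Z' hZ' a1 a2
    have hb := h2 p κ H1 H2 {z // z ∈ Z'} {j // j ∈ TJ} r J cap η (fun z => zc p z.1)
      (fun j => j.1) (fun z => m z.1) (fun z j => Sb z.1 j.1) hη0 hη1 hJ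
      (fun x y e => Subtype.ext ((hZ.subset hZ').injOn hp.out.two_le x.2 y.2 e))
      Subtype.val_injective (fun j => (mem_filter.1 j.2).2) (fun z => (hm z.1 (hZ' z.2)).1)
      (by
        rw [sum_coe_sort Z' m]
        have : (10 : ℝ) ≤ c := by exact_mod_cast hc
        linarith)
      (by rw [sum_coe_sort Z' m]; exact a2) ?_ ?_ hcp hr
    · rw [sum_coe_sort Z' m, hor_av] at hb
      refine le_trans (le_of_eq ?_) hb
      refine av_congr fun ω => av_congr fun φ => av_congr fun x => ?_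
      rw [← ind_forall]
      refine ind_congr ?_
      simp only [hor_lin, Subtype.forall]
    · intro z j
      have h0 := mul_nonneg (pow_nonneg hp0.le (Fintype.card H2))
        (mul_nonneg (hm z.1 (hZ' z.2)).1 (hq j.1))
      by_cases hj : j.1 ∈ G z.1
      · rw [hcard z.1 (hZ' z.2) j.1 hj]; exact Nat.floor_le h0
      · simpa [Sb, if_neg hj] using h0
    · rw [sum_coe_sort Z' m,
        sum_coe_sort Z' (fun z => ∑ j : {j // j ∈ TJ}, ((Sb z j.1).card : ℝ))]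
      have h1 : ∀ z ∈ Z', (p : ℝ) ^ Fintype.card H2 * (9 / 10 * m z) - (2 * J) ^ r ≤
          ∑ j : {j // j ∈ TJ}, ((Sb z j.1).card : ℝ) := by
        intro z hz
        have hz' := hZ' hz
        rw [sum_coe_sort TJ (fun j => ((Sb z j).card : ℝ))]
        refine le_trans ?_ (sum_le_sum_of_subset_of_nonneg (hGT z hz')
          fun _ _ _ => Nat.cast_nonneg _)
        have h3 : ∑ j ∈ G z, ((p : ℝ) ^ Fintype.card H2 * (m z * ∏ c, qq η (j c)) - 1) ≤
            ∑ j ∈ G z, ((Sb z j).card : ℝ) := sum_le_sum fun j hj => by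
          rw [hcard z hz' j hj]; exact (Nat.sub_one_lt_floor _).le
        refine le_trans ?_ h3
        rw [sum_sub_distrib, ← mul_sum, ← mul_sum, sum_const, nsmul_eq_mul, mul_one]
        have h4 : ((G z).card : ℝ) ≤ (2 * J) ^ r := by
          exact_mod_cast (card_le_card (hGT z hz')).trans hTc
        have h5 := mul_le_mul_of_nonneg_left (hG2 z hz') (hm z hz').1
        have h6 := mul_le_mul_of_nonneg_left h5 (pow_nonneg hp0.le (Fintype.card H2))
        linarith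
      refine le_trans ?_ (sum_le_sum h1)
      rw [sum_sub_distrib, ← mul_sum, ← mul_sum, sum_const, nsmul_eq_mul]
      have h7 : (Z'.card : ℝ) * (2 * J) ^ r ≤ (p : ℝ) ^ Fintype.card H2 := by
        have := (Nat.mul_le_mul_right ((2 * J) ^ r) (hZ.subset hZ').card_le).trans hpk
        exact_mod_cast this
      linarith

theorem hor (h1 : ExtP) (h2 : BaseP) : HorP := by
  classical
  intro κ H1 H2 O _ _ _ _ _ _ _ B R h r J c cap p η Θ S hR hbox hP hp hη0 hη1 hJ hc hcap hh hcΘ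
    hcp hr hpk hlog hcard
  haveI : Fact p.Prime := ⟨hp⟩
  choose! Z m hZ hΘ hz using hP
  have hz' := fun ρ hρ z hzz => (hz ρ hρ z hzz).2.2
  choose! G hG1 hG2 hG3 using hz'
  obtain ⟨⟨ω, φ⟩, hgood⟩ := exists_good
    (Ω := (Fin r ⊕ H1 → H2 → ZMod p) × (κ → H2 → ZMod p)) (R ×ˢ (univ : Finset O))
    (fun k w => ∃ x, ∀ z ∈ Z k.1, ∀ j ∈ G k.1 z, ∀ y ∈ S k.2 (Sum.elim (k.1 - B.mulVec z) j),
      lin w.1 (lin w.2 x (zc p z)) (Sum.elim (zc p j) (zc p (y ∘ Sum.inl))) ≠ zc p (y ∘ Sum.inr))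
    (by
      refine lt_of_le_of_lt (sum_le_card_nsmul _ _ (Real.exp (-c / 4)) fun k hk => ?_) ?_
      · have hρ := (mem_product.1 hk).1
        rw [av_prod]
        exact hor_one h2 (Z k.1) (m k.1) (G k.1)
          (fun z j => S k.2 (Sum.elim (k.1 - B.mulVec z) j)) (fun z j => hbox _ _) (hZ _ hρ)
          (hΘ _ hρ) (fun z hzz => ⟨(hz _ hρ z hzz).1, (hz _ hρ z hzz).2.1⟩) (hG1 _ hρ) (hG2 _ hρ)
          (fun z hzz => hG3 _ hρ z hzz k.2) hη0 hη1 hJ hc hcap hh hcΘ hcp hr hpk hlog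
      · rw [card_product, card_univ, nsmul_eq_mul, neg_div, Real.exp_neg, ← div_eq_mul_inv,
          div_lt_one (Real.exp_pos _)]
        push_cast
        exact hcard)
  let Bf : Matrix (κ ⊕ Fin r) (κ ⊕ Fin r) ℤ := Matrix.fromBlocks B 0 0 1
  have hBf : ∀ z j, Bf.mulVec (Sum.elim z j) = Sum.elim (B.mulVec z) j := by
    intro z j
    simp [Bf, Matrix.fromBlocks_mulVec]
  have hRf : Reps Bf (R.image fun ρ => Sum.elim ρ 0) := by
    intro t
    obtain ⟨ρ, hρ, z, e⟩ := hR (t ∘ Sum.inl)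
    refine ⟨_, mem_image_of_mem _ hρ, Sum.elim z (t ∘ Sum.inr), ?_⟩
    rw [hBf]
    funext i
    cases i with
    | inl i => exact congrFun e i
    | inr i => simp
  let M : (κ ⊕ Fin r) ⊕ H1 → H2 → ℤ := fun i c =>
    Sum.elim (Sum.elim (fun i => -((φ i c).val : ℤ)) (fun i => ((ω (Sum.inl i) c).val : ℤ)))
      (fun i => ((ω (Sum.inr i) c).val : ℤ)) i
  obtain ⟨B', hdet, hmul, hrep⟩ := h1 (κ ⊕ Fin r) H1 H2 Bf p M hp.pos
  obtain ⟨R', hR', -, hform⟩ := hrep _ hRf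
  refine ⟨B', by rw [hdet]; simp [Bf, Matrix.det_fromBlocks_zero₂₁], fun o t => ?_⟩
  obtain ⟨ρ', hρ', z0, rfl⟩ := hR' t
  obtain ⟨ρf, hρf, t₂, rfl⟩ := hform ρ' hρ'
  obtain ⟨ρ, hρ, rfl⟩ := mem_image.1 hρf
  have hg := hgood (ρ, o) (mem_product.2 ⟨hρ, mem_univ _⟩)
  push Not at hg
  obtain ⟨z, -, j, -, y, hy, e⟩ := hg (zc p t₂)
  have hdiv : ∀ c, ∃ z₂ : ℤ, t₂ c - ∑ i, Sum.elim (Sum.elim z (-j)) (-(y ∘ Sum.inl)) i * M i c -
      y (Sum.inr c) = p * z₂ := by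
    intro c
    refine (ZMod.intCast_zmod_eq_zero_iff_dvd _ p).1 ?_
    have e1 := congrFun e c
    simp only [lin, zc, Fintype.sum_sum_type, Sum.elim_inl, Sum.elim_inr, Pi.add_apply,
      Finset.sum_apply, Pi.smul_apply, smul_eq_mul, Function.comp_apply] at e1
    simp only [M, Fintype.sum_sum_type, Sum.elim_inl, Sum.elim_inr, Pi.neg_apply,
      Function.comp_apply]
    push_cast
    simp only [ZMod.natCast_val, ZMod.cast_id', id_eq, mul_neg, neg_mul, sum_neg_distrib]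
    linear_combination e1
  choose z₂ hz₂ using hdiv
  refine ⟨z0 + Sum.elim (Sum.elim z (-j)) (Sum.elim (-(y ∘ Sum.inl)) z₂), ?_⟩
  rw [Matrix.mulVec_add, add_comm _ (B'.mulVec z0), add_sub_add_left_eq_sub, hmul, hBf]
  convert hy using 2
  · funext i
    cases i <;> simp
  · funext i
    cases i with
    | inl i => simp
    | inr i =>
      have := hz₂ i
      simp only [Function.comp_apply, Pi.sub_apply, Sum.elim_inr]
      linarith

end Vale.Agent.P230
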