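import Vale.Agent.P230.UDefs

open MeasureTheory Finset Metric ProbabilityTheory
open scoped ENNReal

namespace Vale.Agent.P230

variable {n : ℕ} {K : Set (E n)}

theorem ib_pos (hK : IsConvexBody K) : volume K ≠ 0 :=
  (Measure.measure_pos_of_nonempty_interior _ hK.2.2).ne'

theorem ib_fin (hK : IsConvexBody K) : volume K ≠ ⊤ := hK.1.measure_lt_top.ne

theorem ib_vol (hK : IsConvexBody K) : 0 < (volume K).toReal :=
  ENNReal.toReal_pos (ib_pos hK) (ib_fin hK)

theorem ib_prob (hK : IsConvexBody K) : IsProbabilityMeasure (cond volume K) :=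
  cond_isProbabilityMeasure_of_finite (ib_pos hK) (ib_fin hK)

theorem ib_pr (hK : IsConvexBody K) (A : Set (E n)) : pr K A = (cond volume K).real A := by
  rw [measureReal_def, cond_apply hK.1.measurableSet, ENNReal.toReal_mul, ENNReal.toReal_inv, pr,
    div_eq_inv_mul]

theorem ib_mono (hK : IsConvexBody K) {A B : Set (E n)} (h : A ⊆ B) : pr K A ≤ pr K B := by
  have := ib_prob hK
  rw [ib_pr hK, ib_pr hK]
  exact measureReal_mono h

theorem ib_nonneg (A : Set (E n)) : 0 ≤ pr K A := by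
  unfold pr
  positivity

theorem ib_le_one (hK : IsConvexBody K) (A : Set (E n)) : pr K A ≤ 1 := by
  have := ib_prob hK
  rw [ib_pr hK]
  exact measureReal_le_one

theorem ib_compl (hK : IsConvexBody K) {A : Set (E n)} (hA : MeasurableSet A) :
    pr K Aᶜ = 1 - pr K A := by
  have := ib_prob hK
  rw [ib_pr hK, ib_pr hK, probReal_compl_eq_one_sub hA]

theorem ib_int (K : Set (E n)) (f : E n → ℝ) :
    ∫ x, f x ∂(cond volume K) = (∫ x in K, f x) / (volume K).toReal := by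
  rw [ProbabilityTheory.cond, integral_smul_measure, ENNReal.toReal_inv, smul_eq_mul,
    div_eq_inv_mul]

theorem ib_integrable (hK : IsConvexBody K) {f : E n → ℝ} (hf : Continuous f) :
    Integrable f (cond volume K) :=
  Integrable.smul_measure (hf.continuousOn.integrableOn_compact hK.1)
    (ENNReal.inv_ne_top.mpr (ib_pos hK))

theorem ib_mean (hK : Iso K) (θ : E n) : ∫ x, inner ℝ θ x ∂(cond volume K) = 0 := by
  rw [ib_int, hK.2.1, zero_div]

theorem ib_sq (hK : Iso K) (θ : E n) : ∫ x, (inner ℝ θ x) ^ 2 ∂(cond volume K) = ‖θ‖ ^ 2 := by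
  rw [ib_int, hK.2.2, mul_div_assoc, div_self (ib_vol hK.1).ne', mul_one]

theorem ib_normsq (hK : Iso K) : ∫ x, ‖x‖ ^ 2 ∂(cond volume K) = n := by
  have e : ∀ x : E n, ‖x‖ ^ 2 = ∑ i, (inner ℝ (EuclideanSpace.single i (1 : ℝ)) x) ^ 2 := by
    intro x
    rw [EuclideanSpace.real_norm_sq_eq]
    refine Finset.sum_congr rfl fun i _ => ?_
    rw [EuclideanSpace.inner_single_left]
    simp
  simp only [e]
  rw [integral_finsetSum _ fun i _ => ib_integrable hK.1 (by fun_prop)]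
  simp only [ib_sq hK]
  simp

theorem ib_cheb (hK : Iso K) (θ : E n) (hθ : ‖θ‖ = 1) (t : ℝ) (ht : 0 < t) :
    pr K {x | t ≤ |inner ℝ θ x|} ≤ 1 / t ^ 2 := by
  have h1 := mul_meas_ge_le_integral_of_nonneg (μ := cond volume K)
    (f := fun x : E n => (inner ℝ θ x) ^ 2) (Filter.Eventually.of_forall fun x => sq_nonneg _)
    (ib_integrable hK.1 (by fun_prop)) (t ^ 2)
  rw [ib_sq hK, hθ, one_pow, ← ib_pr hK.1] at h1
  rw [le_div_iff₀ (by positivity), mul_comm]
  refine le_trans (mul_le_mul_of_nonneg_left (ib_mono hK.1 fun x hx => ?_) (sq_nonneg t)) h1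
  have h2 : t ≤ |inner ℝ θ x| := hx
  show t ^ 2 ≤ (inner ℝ θ x) ^ 2
  rw [← sq_abs (inner ℝ θ x)]
  exact pow_le_pow_left₀ ht.le h2 2

theorem ib_three (hn : 2 ≤ n) (hK : Iso K) : pr K {x | 4 * √n ≤ ‖x‖} ≤ 1 / 16 := by
  have hn0 : (0 : ℝ) < n := by exact_mod_cast (by omega : 0 < n)
  have h1 := mul_meas_ge_le_integral_of_nonneg (μ := cond volume K)
    (f := fun x : E n => ‖x‖ ^ 2) (Filter.Eventually.of_forall fun x => sq_nonneg _)
    (ib_integrable hK.1 (by fun_prop)) (16 * n)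
  rw [ib_normsq hK, ← ib_pr hK.1] at h1
  have h2 : pr K {x | 4 * √n ≤ ‖x‖} ≤ pr K {x | 16 * (n : ℝ) ≤ ‖x‖ ^ 2} := by
    refine ib_mono hK.1 fun x hx => ?_
    have h3 : 4 * √n ≤ ‖x‖ := hx
    have h4 := pow_le_pow_left₀ (by positivity) h3 2
    rw [mul_pow, Real.sq_sqrt hn0.le] at h4
    show 16 * (n : ℝ) ≤ ‖x‖ ^ 2
    linarith
  nlinarith

theorem ib_one (hn : 2 ≤ n) (hK : Iso K) : K ⊆ closedBall 0 (10 * n) := by
  intro x0 hx0
  rw [mem_closedBall_zero_iff]
  by_contra hlt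
  rw [not_le] at hlt
  have hn2 : (2 : ℝ) ≤ n := by exact_mod_cast hn
  have hR : 0 < ‖x0‖ := by linarith
  set θ : E n := ‖x0‖⁻¹ • x0 with hθ
  have hθ1 : ‖θ‖ = 1 := norm_smul_inv_norm (norm_pos_iff.mp hR)
  have hθx : inner ℝ θ x0 = ‖x0‖ := by
    rw [hθ, real_inner_smul_left, real_inner_self_eq_norm_sq]
    field_simp
  set a : ℝ := 1 / (2 * n) with ha
  have ha0 : 0 < a := by positivity
  have han : a * n = 1 / 2 := by rw [ha]; field_simp
  have ha1 : a ≤ 1 / 4 := by nlinarith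
  set B : Set (E n) := {x | 2 ≤ |inner ℝ θ x|} with hB
  have hBm : MeasurableSet B := (isClosed_le continuous_const (by fun_prop)).measurableSet
  have h1 : 3 / 4 ≤ pr K Bᶜ := by
    rw [ib_compl hK.1 hBm]
    have := ib_cheb hK θ hθ1 2 two_pos
    linarith
  have h2 := ib_cheb hK θ hθ1 3 three_pos
  have hsub : AffineMap.homothety x0 (1 - a) '' (K ∩ Bᶜ) ⊆ K ∩ {x | 3 ≤ |inner ℝ θ x|} := by
    rintro _ ⟨k, ⟨hk, hkB⟩, rfl⟩
    have e : AffineMap.homothety x0 (1 - a) k = a • x0 + (1 - a) • k := by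
      rw [AffineMap.homothety_apply, vsub_eq_sub, vadd_eq_add]
      module
    rw [e]
    refine ⟨hK.1.2.1 hx0 hk ha0.le (by linarith) (by ring), ?_⟩
    have h3 : |inner ℝ θ k| < 2 := not_le.mp hkB
    have h4 := (abs_lt.mp h3).1
    show 3 ≤ |inner ℝ θ (a • x0 + (1 - a) • k)|
    rw [inner_add_right, real_inner_smul_right, real_inner_smul_right, hθx]
    refine le_trans ?_ (le_abs_self _)
    nlinarith
  have h3 := ENNReal.toReal_mono
    ((measure_mono Set.inter_subset_left).trans_lt hK.1.1.measure_lt_top).ne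
    (measure_mono (μ := volume) hsub)
  rw [Measure.addHaar_image_homothety, finrank_euclideanSpace_fin, ENNReal.toReal_mul,
    ENNReal.toReal_ofReal (abs_nonneg _)] at h3
  have h4 : 1 / 2 ≤ |(1 - a) ^ n| := by
    have := one_add_mul_le_pow (a := -a) (by linarith) n
    refine le_trans ?_ (le_abs_self _)
    rw [sub_eq_add_neg]
    linarith
  have hV := ib_vol hK.1
  unfold pr at h1 h2
  rw [le_div_iff₀ hV] at h1
  rw [div_le_iff₀ hV] at h2
  nlinarith

theorem ib_two (hn : 2 ≤ n) (hK : Iso K) : closedBall 0 (1 / (100 * n)) ⊆ K := by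
  intro y hy
  rw [mem_closedBall_zero_iff] at hy
  by_contra hyK
  have hp := ib_prob hK.1
  have hn2 : (2 : ℝ) ≤ n := by exact_mod_cast hn
  obtain ⟨f, u, h1, h2⟩ := geometric_hahn_banach_point_closed hK.1.2.1 hK.1.1.isClosed hyK
  obtain ⟨w, rfl⟩ := (InnerProductSpace.toDual ℝ (E n)).surjective f
  simp only [InnerProductSpace.toDual_apply_apply] at h1 h2
  set ρ : ℝ := ‖w‖ * (1 / (100 * n)) with hρ
  set M : ℝ := ‖w‖ * (10 * n) with hM
  have h3 : ∀ x ∈ K, (inner ℝ w x) ^ 2 ≤ (M - ρ) * inner ℝ w x + ρ * M := by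
    intro x hx
    have a1 : inner ℝ w x ≤ M := (real_inner_le_norm w x).trans
      (mul_le_mul_of_nonneg_left (mem_closedBall_zero_iff.mp (ib_one hn hK hx)) (norm_nonneg _))
    have a2 : -ρ ≤ inner ℝ w y := by
      have := (abs_real_inner_le_norm w y).trans (mul_le_mul_of_nonneg_left hy (norm_nonneg _))
      exact (abs_le.mp this).1
    have a3 := h2 x hx
    nlinarith
  have h4 : ∫ x, (inner ℝ w x) ^ 2 ∂(cond volume K) ≤
      ∫ x, ((M - ρ) * inner ℝ w x + ρ * M) ∂(cond volume K) :=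
    integral_mono_ae (ib_integrable hK.1 (by fun_prop)) (ib_integrable hK.1 (by fun_prop))
      (ae_cond_of_forall_mem hK.1.1.measurableSet h3)
  rw [ib_sq hK, integral_add (ib_integrable hK.1 (by fun_prop)) (integrable_const _),
    integral_const_mul, ib_mean hK, integral_const] at h4
  have h5 : ρ * M = ‖w‖ ^ 2 / 10 := by
    rw [hρ, hM]
    field_simp
    ring
  simp only [probReal_univ, smul_eq_mul, one_mul, mul_zero, zero_add, h5] at h4
  have h6 : w = 0 := by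
    rw [← norm_eq_zero]
    nlinarith [norm_nonneg w]
  obtain ⟨b, hb⟩ := hK.1.2.2
  have h7 := h2 b (interior_subset hb)
  rw [h6, inner_zero_left] at h1 h7
  linarith

theorem ib_borell (hK : IsConvexBody K) (N : E n → ℝ) (hN : Continuous N)
    (hmid : ∀ x y, N x - N y ≤ 2 * N ((1 / 2 : ℝ) • (x + y))) (a : ℝ) (ha : 0 < a)
    (h1 : a ≤ pr K {x | N x ≤ 1}) (j : ℕ) :
    pr K {x | 2 ^ (j + 1) - 1 < N x} ≤ a * ((1 - a) / a) ^ (2 ^ j) := by
  have hm1 : MeasurableSet {x | N x ≤ 1} := (isClosed_le hN continuous_const).measurableSet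
  have hm2 : ∀ u : ℝ, MeasurableSet {x | u < N x} := fun u =>
    (isOpen_lt continuous_const hN).measurableSet
  induction j with
  | zero =>
    have e : {x | (2 : ℝ) ^ (0 + 1) - 1 < N x} = {x | N x ≤ 1}ᶜ := by
      ext x
      norm_num
    rw [e, ib_compl hK hm1, pow_zero, pow_one, mul_div_cancel₀ _ ha.ne']
    linarith
  | succ j ih =>
    have h2 := pr_mid hK (hm2 (2 ^ (j + 1 + 1) - 1)) hm1 (hm2 (2 ^ (j + 1) - 1)) (by
      intro x _ hx y _ hy
      have a1 : 2 ^ (j + 1 + 1) - 1 < N x := hx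
      have a2 : N y ≤ 1 := hy
      have a3 := hmid x y
      show 2 ^ (j + 1) - 1 < N _
      rw [pow_succ] at a1
      linarith)
    have h3 := pow_le_pow_left₀ (ib_nonneg _) ih 2
    have h4 := mul_le_mul_of_nonneg_left h1 (ib_nonneg (K := K) {x | 2 ^ (j + 1 + 1) - 1 < N x})
    rw [mul_pow, ← pow_mul, ← pow_succ] at h3
    refine le_of_mul_le_mul_right ?_ ha
    nlinarith

theorem ib_five (hK : Iso K) (θ : E n) (hθ : ‖θ‖ = 1) (t : ℝ) :
    pr K {x | t ≤ |inner ℝ θ x|} ≤ 3 * Real.exp (-t / 10) := by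
  by_cases ht : t < 4
  · have h1 := Real.add_one_le_exp (-t / 10)
    have h2 := ib_le_one hK.1 {x | t ≤ |inner ℝ θ x|}
    linarith
  rw [not_lt] at ht
  obtain ⟨j, hj1, hj2⟩ := exists_nat_pow_near (x := t / 4) (y := 2) (by linarith) one_lt_two
  have h1 : 3 / 4 ≤ pr K {x | |inner ℝ θ x| / 2 ≤ 1} := by
    have hBm : MeasurableSet {x : E n | 2 ≤ |inner ℝ θ x|} :=
      (isClosed_le continuous_const (by fun_prop)).measurableSet
    have a1 := ib_compl hK.1 hBm
    have a2 := ib_cheb hK θ hθ 2 two_pos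
    have a3 : pr K {x : E n | 2 ≤ |inner ℝ θ x|}ᶜ ≤ pr K {x | |inner ℝ θ x| / 2 ≤ 1} := by
      refine ib_mono hK.1 fun x hx => ?_
      have : |inner ℝ θ x| < 2 := not_le.mp hx
      show |inner ℝ θ x| / 2 ≤ 1
      linarith
    linarith
  have h2 := ib_borell hK.1 (fun x => |inner ℝ θ x| / 2) (by fun_prop) (by
    intro x y
    rw [real_inner_smul_right, inner_add_right, abs_mul, abs_of_pos (by norm_num : (0 : ℝ) < 1 / 2)]
    have := abs_sub_abs_le_abs_add (inner ℝ θ x) (inner ℝ θ y)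
    linarith) (3 / 4) (by norm_num) h1 j
  have h3 : pr K {x | t ≤ |inner ℝ θ x|} ≤ pr K {x | 2 ^ (j + 1) - 1 < |inner ℝ θ x| / 2} := by
    refine ib_mono hK.1 fun x hx => ?_
    have a1 : t ≤ |inner ℝ θ x| := hx
    show 2 ^ (j + 1) - 1 < |inner ℝ θ x| / 2
    rw [pow_succ]
    linarith
  have h4 : ((1 - 3 / 4) / (3 / 4) : ℝ) ≤ Real.exp (-1) := by
    rw [Real.exp_neg, le_inv_comm₀ (by norm_num) (Real.exp_pos 1)]
    have := Real.exp_one_lt_d9
    norm_num at this ⊢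
    linarith
  have h5 := pow_le_pow_left₀ (by norm_num) h4 (2 ^ j)
  rw [← Real.exp_nat_mul] at h5
  have h6 : Real.exp (((2 ^ j : ℕ) : ℝ) * -1) ≤ Real.exp (-t / 10) := by
    refine Real.exp_le_exp.mpr ?_
    push_cast
    rw [pow_succ] at hj2
    linarith
  have h7 := Real.exp_pos (-t / 10)
  linarith

theorem ib_dyadic (s : ℝ) (hs : 0 ≤ s) (J : ℕ) (h : s ≤ 2 ^ (J + 1) - 1) :
    s ^ 2 ≤ 1 + ∑ j ∈ Finset.range J, if 2 ^ (j + 1) - 1 < s then (4 : ℝ) ^ (j + 2) else 0 := by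
  induction J with
  | zero =>
    rw [Finset.sum_range_zero]
    norm_num only at h
    nlinarith
  | succ J ih =>
    rw [Finset.sum_range_succ]
    split_ifs with hJ
    · have h1 : 0 ≤ ∑ j ∈ Finset.range J, if 2 ^ (j + 1) - 1 < s then (4 : ℝ) ^ (j + 2) else 0 :=
        Finset.sum_nonneg fun j _ => by split_ifs <;> positivity
      have h2 : s ^ 2 ≤ (2 ^ (J + 1 + 1)) ^ 2 := pow_le_pow_left₀ hs (by linarith) 2
      have h3 : ((2 : ℝ) ^ (J + 1 + 1)) ^ 2 = 4 ^ (J + 2) := by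
        rw [← pow_mul, mul_comm, pow_mul]
        norm_num
      linarith
    · rw [add_zero]
      exact ih (not_lt.mp hJ)

theorem ib_term (j : ℕ) :
    (4 : ℝ) ^ (j + 2) * (3 / 5 * ((1 - 3 / 5) / (3 / 5)) ^ (2 ^ j)) ≤ 1600 * (1 / 2) ^ j := by
  have h1 : ((1 - 3 / 5) / (3 / 5) : ℝ) ≤ Real.exp (-(1 / 3)) := by
    have := Real.add_one_le_exp (-(1 / 3) : ℝ)
    linarith
  have h2 := pow_le_pow_left₀ (by norm_num) h1 (2 ^ j)
  rw [← Real.exp_nat_mul, mul_neg, Real.exp_neg] at h2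
  have h3 := Real.pow_div_factorial_le_exp (((2 ^ j : ℕ) : ℝ) * (1 / 3)) (by positivity) 3
  have h4 : (((2 ^ j : ℕ) : ℝ) * (1 / 3)) ^ 3 / ((Nat.factorial 3 : ℕ) : ℝ) =
      (2 ^ j) ^ 3 / 162 := by
    push_cast
    norm_num [Nat.factorial]
    ring
  rw [h4] at h3
  have h5 : (Real.exp (((2 ^ j : ℕ) : ℝ) * (1 / 3)))⁻¹ ≤ ((2 ^ j) ^ 3 / 162)⁻¹ :=
    inv_anti₀ (by positivity) h3
  have h6 : (4 : ℝ) ^ (j + 2) = 16 * (2 ^ j) ^ 2 := by
    rw [← pow_mul, mul_comm j 2, pow_mul]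
    ring
  have h7 : (0 : ℝ) < 2 ^ j := by positivity
  calc (4 : ℝ) ^ (j + 2) * (3 / 5 * ((1 - 3 / 5) / (3 / 5)) ^ (2 ^ j))
      ≤ 4 ^ (j + 2) * (3 / 5 * ((2 ^ j) ^ 3 / 162)⁻¹) := by
        gcongr
        exact h2.trans h5
    _ = 7776 / 5 * (2 ^ j)⁻¹ := by
        rw [h6]
        field_simp
        ring
    _ ≤ 1600 * (1 / 2) ^ j := by
        rw [one_div, inv_pow]
        gcongr
        norm_num

theorem ib_four (hn : 2 ≤ n) (hK : Iso K) : pr K {x | ‖x‖ ≤ √n / 100} ≤ 3 / 5 := by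
  by_contra hlt
  rw [not_le] at hlt
  have hp := ib_prob hK.1
  have hn0 : (0 : ℝ) < n := by exact_mod_cast (by omega : 0 < n)
  set r : ℝ := √n / 100 with hr
  have hr0 : 0 < r := by positivity
  have hr2 : r ^ 2 = n / 10000 := by
    rw [hr, div_pow, Real.sq_sqrt hn0.le]
    norm_num
  have h1 : 3 / 5 ≤ pr K {x | ‖x‖ / r ≤ 1} := by
    refine hlt.le.trans (ib_mono hK.1 fun x hx => ?_)
    exact (div_le_one hr0).mpr hx
  have h2 := ib_borell hK.1 (fun x => ‖x‖ / r) (by fun_prop) (by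
    intro x y
    rw [norm_smul, Real.norm_of_nonneg (by norm_num : (0 : ℝ) ≤ 1 / 2), ← sub_div,
      ← mul_div_assoc]
    refine div_le_div_of_nonneg_right ?_ hr0.le
    have := norm_sub_le (x + y) y
    rw [add_sub_cancel_right] at this
    linarith) (3 / 5) (by norm_num) h1
  obtain ⟨J, hJ⟩ := pow_unbounded_of_one_lt (10 * n / r + 1) (one_lt_two (α := ℝ))
  have hm : ∀ j : ℕ, MeasurableSet {x : E n | 2 ^ (j + 1) - 1 < ‖x‖ / r} := fun j =>
    (isOpen_lt continuous_const (by fun_prop)).measurableSet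
  have hI : ∀ j : ℕ, Integrable ({x : E n | 2 ^ (j + 1) - 1 < ‖x‖ / r}.indicator
      fun _ => (4 : ℝ) ^ (j + 2)) (cond volume K) := fun j => (integrable_const _).indicator (hm j)
  have h3 : ∀ x ∈ K, (‖x‖ / r) ^ 2 ≤ 1 + ∑ j ∈ Finset.range J,
      {x : E n | 2 ^ (j + 1) - 1 < ‖x‖ / r}.indicator (fun _ => (4 : ℝ) ^ (j + 2)) x := by
    intro x hx
    have a1 : ‖x‖ / r ≤ 10 * n / r :=
      div_le_div_of_nonneg_right (mem_closedBall_zero_iff.mp (ib_one hn hK hx)) hr0.le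
    have a2 : (0 : ℝ) < 2 ^ J := by positivity
    refine (ib_dyadic (‖x‖ / r) (by positivity) J (by rw [pow_succ]; linarith)).trans
      (le_of_eq ?_)
    simp only [Set.indicator_apply, Set.mem_ofPred_eq]
  have h4 := integral_mono_ae (μ := cond volume K) (ib_integrable hK.1 (by fun_prop))
    ((integrable_const (1 : ℝ)).add (integrable_finsetSum _ fun j _ => hI j))
    (ae_cond_of_forall_mem hK.1.1.measurableSet h3)
  simp only [Pi.add_apply, div_pow] at h4
  rw [integral_div, ib_normsq hK,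
    integral_add (integrable_const _) (integrable_finsetSum _ fun j _ => hI j),
    integral_finsetSum _ fun j _ => hI j, integral_const, hr2] at h4
  have h5 : ∑ j ∈ Finset.range J, ∫ x, {x : E n | 2 ^ (j + 1) - 1 < ‖x‖ / r}.indicator
      (fun _ => (4 : ℝ) ^ (j + 2)) x ∂(cond volume K) ≤
      ∑ j ∈ Finset.range J, 1600 * (1 / 2 : ℝ) ^ j := by
    refine Finset.sum_le_sum fun j _ => ?_
    rw [integral_indicator_const _ (hm j), ← ib_pr hK.1, smul_eq_mul, mul_comm]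
    exact (mul_le_mul_of_nonneg_left (h2 j) (by positivity)).trans (ib_term j)
  rw [← Finset.mul_sum] at h5
  have h6 := sum_geometric_two_le J
  have h7 : (n : ℝ) / (n / 10000) = 10000 := by field_simp
  rw [h7, probReal_univ, smul_eq_mul] at h4
  linarith

theorem isoBounds : IsoBoundsP := fun _ _ hn hK =>
  ⟨ib_one hn hK, ib_two hn hK, ib_three hn hK, ib_four hn hK, fun θ hθ t _ => ib_five hK θ hθ t⟩

end Vale.Agent.P230
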