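import Vale.Agent.P230.UDefs

/-! Every convex body has an isotropic position. -/

open MeasureTheory Finset Metric
open scoped ENNReal

namespace Vale.Agent.P230

theorem ip_change {n : ℕ} {K : Set (E n)} (hK : MeasurableSet K) (x0 : E n)
    (L : E n ≃L[ℝ] E n) (f : E n → ℝ) :
    ∫ y in (fun x => L (x - x0)) '' K, f y =
      |(L : E n →L[ℝ] E n).det| * ∫ x in K, f (L (x - x0)) := by
  have h := integral_image_eq_integral_abs_det_fderiv_smul (volume : Measure (E n)) hK
    (f := fun x => L (x - x0)) (f' := fun _ => (L : E n →L[ℝ] E n)) (fun x _ => by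
      have h1 : HasFDerivAt (fun x : E n => x - x0) (ContinuousLinearMap.id ℝ (E n)) x :=
        (hasFDerivAt_id x).sub_const x0
      have h2 := ((L : E n →L[ℝ] E n).hasFDerivAt (x := x - x0)).comp x h1
      rw [ContinuousLinearMap.comp_id] at h2
      exact h2.hasFDerivWithinAt)
    (fun x _ y _ e => sub_left_injective (L.injective e)) f
  rw [h, ← integral_const_mul]
  rfl

theorem ip_body {n : ℕ} {K : Set (E n)} (hK : IsConvexBody K) (x0 : E n)
    (L : E n ≃L[ℝ] E n) : IsConvexBody ((fun x => L (x - x0)) '' K) := by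
  refine ⟨hK.1.image (by fun_prop), ?_, ?_⟩
  · rintro _ ⟨x, hx, rfl⟩ _ ⟨y, hy, rfl⟩ a b ha hb hab
    refine ⟨a • x + b • y, hK.2.1 hx hy ha hb hab, ?_⟩
    simp only
    rw [← map_smul, ← map_smul, ← map_add]
    congr 1
    rw [smul_sub, smul_sub, sub_add_sub_comm, ← add_smul, hab, one_smul]
  · obtain ⟨x, hx⟩ := hK.2.2
    let T : E n ≃ₜ E n := (Homeomorph.subRight x0).trans L.toHomeomorph
    have e : (fun x => L (x - x0)) '' K = T '' K := rfl
    rw [e, ← T.image_interior]
    exact ⟨T x, x, hx, rfl⟩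

theorem ip_vol_pos {n : ℕ} {K : Set (E n)} (hK : IsConvexBody K) : 0 < (volume K).toReal :=
  ENNReal.toReal_pos (Measure.measure_pos_of_nonempty_interior _ hK.2.2).ne'
    hK.1.measure_lt_top.ne

theorem ip_int {n : ℕ} {K : Set (E n)} (hK : IsConvexBody K) {F : Type} [NormedAddCommGroup F]
    {f : E n → F} (hf : Continuous f) : IntegrableOn f K volume :=
  hf.continuousOn.integrableOn_compact hK.1

theorem ip_centroid {n : ℕ} {K : Set (E n)} (hK : IsConvexBody K) :
    ∃ x0 : E n, ∀ θ : E n, ∫ x in K, inner ℝ θ (x - x0) = 0 := by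
  refine ⟨(volume K).toReal⁻¹ • ∫ x in K, x, fun θ => ?_⟩
  have h1 : IntegrableOn (fun x : E n => x) K volume := ip_int hK continuous_id
  simp only [inner_sub_right]
  rw [integral_sub (ip_int hK (by fun_prop)) (ip_int hK (by fun_prop)), integral_inner h1,
    setIntegral_const, inner_smul_right, smul_eq_mul, Measure.real, ← mul_assoc,
    mul_inv_cancel₀ (ip_vol_pos hK).ne', one_mul, sub_self]

theorem ip_pos {n : ℕ} {K : Set (E n)} (hK : IsConvexBody K) (x0 : E n) {θ : E n} (hθ : θ ≠ 0) :
    0 < ∫ x in K, inner ℝ θ (x - x0) * inner ℝ θ (x - x0) := by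
  rw [setIntegral_pos_iff_support_of_nonneg_ae
    (Filter.Eventually.of_forall fun x => mul_self_nonneg _) (ip_int hK (by fun_prop))]
  have hop : IsOpen {x : E n | inner ℝ θ (x - x0) ≠ 0} :=
    isOpen_ne_fun (by fun_prop) continuous_const
  have hne : ({x : E n | inner ℝ θ (x - x0) ≠ 0} ∩ interior K).Nonempty := by
    obtain ⟨x, hx⟩ := hK.2.2
    by_cases h0 : inner ℝ θ (x - x0) = 0
    · obtain ⟨r, hr, hb⟩ := Metric.isOpen_iff.1 isOpen_interior x hx
      have hn : 0 < ‖θ‖ := norm_pos_iff.2 hθ
      refine ⟨x + (r / 2 / ‖θ‖) • θ, ?_, hb ?_⟩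
      · simp only [Set.mem_ofPred_eq]
        rw [add_sub_right_comm, inner_add_right, h0, zero_add, inner_smul_right,
          real_inner_self_eq_norm_sq]
        positivity
      · rw [mem_ball, dist_self_add_left, norm_smul, Real.norm_of_nonneg (by positivity),
          div_mul_cancel₀ _ hn.ne']
        linarith
    · exact ⟨x, h0, hx⟩
  refine lt_of_lt_of_le ((hop.inter isOpen_interior).measure_pos volume hne) (measure_mono ?_)
  rintro x ⟨h1, h2⟩
  exact ⟨mul_ne_zero h1 h1, interior_subset h2⟩

/-- the covariance form -/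
noncomputable def ipForm {n : ℕ} {K : Set (E n)} (hK : IsConvexBody K) (x0 : E n) :
    LinearMap.BilinForm ℝ (E n) :=
  LinearMap.mk₂ ℝ (fun θ φ => ∫ x in K, inner ℝ θ (x - x0) * inner ℝ φ (x - x0))
    (fun a b c => by
      rw [← integral_add (ip_int hK (by fun_prop)) (ip_int hK (by fun_prop))]
      simp only [inner_add_left, add_mul])
    (fun c a b => by
      rw [smul_eq_mul, ← integral_const_mul]
      simp only [real_inner_smul_left, mul_assoc])
    (fun a b c => by
      rw [← integral_add (ip_int hK (by fun_prop)) (ip_int hK (by fun_prop))]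
      simp only [inner_add_left, mul_add])
    (fun c a b => by
      rw [smul_eq_mul, ← integral_const_mul]
      simp only [real_inner_smul_left, mul_left_comm])

theorem ipForm_apply {n : ℕ} {K : Set (E n)} (hK : IsConvexBody K) (x0 θ φ : E n) :
    ipForm hK x0 θ φ = ∫ x in K, inner ℝ θ (x - x0) * inner ℝ φ (x - x0) := rfl

theorem ip_basis {n : ℕ} {K : Set (E n)} (hK : IsConvexBody K) (x0 : E n) :
    ∃ w : Module.Basis (Fin n) ℝ (E n), ∀ i j,
      ipForm hK x0 (w i) (w j) = if i = j then (volume K).toReal else 0 := by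
  have hs : LinearMap.IsSymm (ipForm hK x0) := ⟨fun a b => by
    simp only [ipForm_apply, RingHom.id_apply, mul_comm]⟩
  obtain ⟨v, hv⟩ := LinearMap.BilinForm.exists_orthogonal_basis hs
  have hd : Module.finrank ℝ (E n) = n := by simp
  let u : Module.Basis (Fin n) ℝ (E n) := v.reindex (finCongr hd)
  have hu : ∀ i j, i ≠ j → ipForm hK x0 (u i) (u j) = 0 := by
    intro i j hij
    simp only [u, Module.Basis.reindex_apply]
    exact hv (fun e => hij ((finCongr hd).symm.injective e))
  have hp : ∀ i, 0 < ipForm hK x0 (u i) (u i) := fun i => ip_pos hK x0 (u.ne_zero i)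
  have hV := ip_vol_pos hK
  let c : Fin n → ℝ := fun i => √((volume K).toReal / ipForm hK x0 (u i) (u i))
  have hc : ∀ i, 0 < c i := fun i => Real.sqrt_pos.2 (div_pos hV (hp i))
  refine ⟨u.unitsSMul (fun i => Units.mk0 (c i) (hc i).ne'), fun i j => ?_⟩
  simp only [Module.Basis.unitsSMul_apply, Units.smul_mk0, map_smul, LinearMap.smul_apply,
    smul_eq_mul]
  split_ifs with hij
  · subst hij
    rw [← mul_assoc, Real.mul_self_sqrt (div_pos hV (hp i)).le, div_mul_cancel₀ _ (hp i).ne']
  · rw [hu i j hij, mul_zero, mul_zero]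

theorem isoPos : IsoPosP := by
  intro n K hK
  obtain ⟨x0, hx0⟩ := ip_centroid hK
  obtain ⟨w, hw⟩ := ip_basis hK x0
  let L0 : E n →ₗ[ℝ] E n :=
    { toFun := fun x => WithLp.toLp 2 (fun i => inner ℝ (w i) x)
      map_add' := fun a b => by ext i; simp [inner_add_right]
      map_smul' := fun c a => by ext i; simp [inner_smul_right] }
  have hL0 : ∀ θ x : E n, inner ℝ θ (L0 x) = inner ℝ (∑ i, θ i • w i) x := by
    intro θ x
    rw [sum_inner, PiLp.inner_apply]
    refine Finset.sum_congr rfl fun i _ => ?_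
    rw [real_inner_smul_left]
    simp [L0, mul_comm]
  have hinj : Function.Injective L0 := by
    rw [injective_iff_map_eq_zero]
    intro x hx
    have h1 : ∀ i, inner ℝ (w i) x = 0 := fun i => congrArg (fun y : E n => y i) hx
    have h2 : inner ℝ x x = 0 := by
      nth_rewrite 1 [← w.sum_repr x]
      rw [sum_inner]
      exact Finset.sum_eq_zero fun i _ => by rw [real_inner_smul_left, h1, mul_zero]
    exact inner_self_eq_zero.1 h2
  let L : E n ≃ₗ[ℝ] E n := LinearEquiv.ofInjectiveEndo L0 hinj
  have hL : ∀ x, L.toContinuousLinearEquiv x = L0 x := fun x => rfl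
  have hm : MeasurableSet K := hK.1.measurableSet
  refine ⟨x0, L, ip_body hK x0 L.toContinuousLinearEquiv, fun θ => ?_, fun θ => ?_⟩
  · have h := ip_change hm x0 L.toContinuousLinearEquiv (fun y => inner ℝ θ y)
    simp only [hL, hL0, hx0, mul_zero] at h
    exact h
  · have h := ip_change hm x0 L.toContinuousLinearEquiv (fun y => (inner ℝ θ y) ^ 2)
    have h1 := ip_change hm x0 L.toContinuousLinearEquiv (fun _ => 1)
    simp only [setIntegral_const, smul_eq_mul, mul_one, Measure.real] at h1
    simp only [hL, hL0, sq] at h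
    rw [← ipForm_apply hK] at h
    have h2 : ipForm hK x0 (∑ i, θ i • w i) (∑ i, θ i • w i) = ‖θ‖ ^ 2 * (volume K).toReal := by
      simp only [map_sum, map_smul, LinearMap.sum_apply, LinearMap.smul_apply, hw, smul_eq_mul,
        mul_ite, mul_zero, Finset.sum_ite_eq', Finset.mem_univ, if_true]
      rw [EuclideanSpace.real_norm_sq_eq, Finset.sum_mul]
      exact Finset.sum_congr rfl fun i _ => by ring
    rw [h2] at h
    simp only [sq] at h ⊢
    refine h.trans ?_
    refine Eq.trans ?_ (congrArg (fun t => ‖θ‖ * ‖θ‖ * t) h1.symm)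
    ring

end Vale.Agent.P230
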