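import Vale.Agent.P230.Reduce

/-! Choice of parameters and the lower bound. -/

open MeasureTheory Finset Metric Filter
open scoped ENNReal Pointwise

namespace Vale.Agent.P230

variable {n : ℕ}

lemma far_ratio {a δ R : ℝ} (ha : 0 < a) (hδ : 0 ≤ δ) (hδa : δ ≤ a) (hR : 0 < R)
    (hg : √n ≤ a * R) :
    pp n a R * (om n * ((a - δ) * R + √n) ^ n) ≤ 1 / 2 * Real.exp (-(n * (δ / (2 * a)))) := by
  have hom := @om_pos n
  have hg0 : 0 ≤ √(n : ℝ) := Real.sqrt_nonneg _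
  have haR : 0 < a * R := by positivity
  have h1 : (a - δ) * R + √n ≤ Real.exp (-(δ / (2 * a))) * (a * R + √n) := by
    have e1 : (a - δ) * R + √n ≤ (1 - δ / (2 * a)) * (a * R + √n) := by
      have e2 : δ / (2 * a) * (a * R + √n) ≤ δ / (2 * a) * (2 * (a * R)) :=
        mul_le_mul_of_nonneg_left (by linarith) (by positivity)
      have e3 : δ / (2 * a) * (2 * (a * R)) = δ * R := by field_simp
      linarith
    refine e1.trans (mul_le_mul_of_nonneg_right ?_ (by positivity))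
    linarith [Real.add_one_le_exp (-(δ / (2 * a)))]
  have h2 := pow_le_pow_left₀ (add_nonneg (mul_nonneg (by linarith) hR.le) hg0) h1 n
  rw [mul_pow, ← Real.exp_nat_mul] at h2
  refine (mul_le_mul_of_nonneg_left (mul_le_mul_of_nonneg_left h2 hom.le)
    (pp_pos haR.le).le).trans (le_of_eq ?_)
  unfold pp
  rw [mul_neg]
  field_simp

lemma far_arith {t Θ P S A : ℝ} (ht : 400 ≤ t) (hA : 4 ≤ A) (hΘ0 : 0 ≤ Θ) (hΘ : Θ ≤ Real.exp t)
    (hS : S ≤ 2 * t) (hP0 : 0 ≤ P) (hP : P ≤ 1 / 2 * Real.exp (-(t ^ 2 * A / 16))) :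
    (Θ / 4) ^ 2 * P * ((1 + Θ / 4 * Real.exp (4 * S * A + 4)) ^ 2 + 2) ≤ 1 / 2 := by
  have htA : 4 * t ≤ t * A := by nlinarith
  have h1 : Θ / 4 ≤ Real.exp t := by linarith
  have h2 : Real.exp (4 * S * A + 4) ≤ Real.exp (9 * (t * A)) := by
    rw [Real.exp_le_exp]
    have : S * A ≤ 2 * t * A := mul_le_mul_of_nonneg_right hS (by linarith)
    linarith
  have h3 : Θ / 4 * Real.exp (4 * S * A + 4) ≤ Real.exp (10 * (t * A)) := by
    refine (mul_le_mul h1 h2 (Real.exp_pos _).le (Real.exp_pos _).le).trans ?_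
    rw [← Real.exp_add, Real.exp_le_exp]; linarith
  have h4 : 1 ≤ Real.exp (10 * (t * A)) := Real.one_le_exp (by linarith)
  have h5 : (1 + Θ / 4 * Real.exp (4 * S * A + 4)) ^ 2 + 2
      ≤ Real.exp (2 * t) * Real.exp (10 * (t * A)) ^ 2 := by
    have e1 : (1 + Θ / 4 * Real.exp (4 * S * A + 4)) ^ 2 ≤ (2 * Real.exp (10 * (t * A))) ^ 2 :=
      pow_le_pow_left₀ (by positivity) (by linarith) 2
    have e2 : 6 ≤ Real.exp (2 * t) := by linarith [Real.add_one_le_exp (2 * t)]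
    have e3 : 1 ≤ Real.exp (10 * (t * A)) ^ 2 := one_le_pow₀ h4
    have e4 := mul_le_mul_of_nonneg_right e2 (sq_nonneg (Real.exp (10 * (t * A))))
    nlinarith
  have h6 : (Θ / 4) ^ 2 ≤ Real.exp t ^ 2 := pow_le_pow_left₀ (by positivity) h1 2
  refine (mul_le_mul (mul_le_mul h6 hP hP0 (by positivity)) h5 (by positivity)
    (by positivity)).trans ?_
  have h7 : Real.exp t ^ 2 * (1 / 2 * Real.exp (-(t ^ 2 * A / 16)))
      * (Real.exp (2 * t) * Real.exp (10 * (t * A)) ^ 2)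
      = 1 / 2 * Real.exp (4 * t + 20 * (t * A) - t * (t * A) / 16) := by
    rw [← Real.exp_nat_mul, ← Real.exp_nat_mul,
      show 4 * t + 20 * (t * A) - t * (t * A) / 16 = ((2 : ℕ) * t + -(t ^ 2 * A / 16))
        + (2 * t + (2 : ℕ) * (10 * (t * A))) by push_cast; ring,
      Real.exp_add, Real.exp_add, Real.exp_add]
    ring
  rw [h7]
  have h8 : Real.exp (4 * t + 20 * (t * A) - t * (t * A) / 16) ≤ 1 := by
    rw [Real.exp_le_one_iff]
    have : 400 * (t * A) ≤ t * (t * A) := mul_le_mul_of_nonneg_right ht (by linarith)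
    linarith
  linarith

lemma union_arith {R : ℝ} {T : ℕ} (hn : 0 < n) (hR : R = (n : ℝ) ^ 2) (hT : (T : ℝ) ≤ 5 ^ n)
    (h2 : 30 * (n : ℝ) ^ 3 ≤ 2 ^ n) :
    ((6 * R + 1) ^ n + 1) ^ T * (2 / 3) ^ (10 ^ n) < 1 / 3 := by
  have hn' : (1 : ℝ) ≤ n := by exact_mod_cast hn
  have hR1 : 1 ≤ R := by rw [hR]; exact one_le_pow₀ hn'
  have e1 : (6 * R + 1) ^ n + 1 ≤ Real.exp (n * (8 * R)) := by
    have a1 := pow_add_pow_le (x := 6 * R + 1) (y := 1) (by positivity) zero_le_one hn.ne'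
    rw [one_pow] at a1
    refine a1.trans ?_
    rw [Real.exp_nat_mul]
    exact pow_le_pow_left₀ (by positivity) (by linarith [Real.add_one_le_exp (8 * R)]) n
  have e2 : (2 / 3 : ℝ) ≤ Real.exp (-(1 / 3)) := by linarith [Real.add_one_le_exp (-(1 / 3))]
  refine lt_of_le_of_lt (mul_le_mul (pow_le_pow_left₀ (by positivity) e1 T)
    (pow_le_pow_left₀ (by norm_num) e2 _) (by positivity) (by positivity)) ?_
  rw [← Real.exp_nat_mul, ← Real.exp_nat_mul, ← Real.exp_add]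
  have e3 : (T : ℝ) * (n * (8 * R)) + ((10 ^ n : ℕ) : ℝ) * (-(1 / 3)) ≤ -2 := by
    have a1 : ((10 ^ n : ℕ) : ℝ) = 5 ^ n * 2 ^ n := by push_cast; rw [← mul_pow]; norm_num
    have a2 : (T : ℝ) * (n * (8 * R)) ≤ 5 ^ n * (8 * n ^ 3) := by
      rw [hR, show (n : ℝ) * (8 * n ^ 2) = 8 * n ^ 3 by ring]
      exact mul_le_mul_of_nonneg_right hT (by positivity)
    have a3 : (5 : ℝ) ^ n * (30 * n ^ 3) ≤ 5 ^ n * 2 ^ n :=
      mul_le_mul_of_nonneg_left h2 (by positivity)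
    have a4 : (1 : ℝ) ≤ 5 ^ n * n ^ 3 :=
      one_le_mul_of_one_le_of_one_le (one_le_pow₀ (by norm_num)) (one_le_pow₀ hn')
    rw [a1]
    linarith
  refine lt_of_le_of_lt (Real.exp_le_exp.2 e3) ?_
  rw [Real.exp_neg, inv_lt_comm₀ (Real.exp_pos _) (by norm_num)]
  have := Real.add_one_lt_exp (x := 2) (by norm_num)
  linarith

lemma L_arith {R : ℝ} {T : ℕ} (hn : 0 < n) (hR : 0 < R) (hg : √n ≤ 1 / 10000 * R)
    (hT : (T : ℝ) ≤ 5 ^ n) :
    ((10 ^ n : ℕ) : ℝ) * (2 * ((T : ℝ) ^ 2 * (om n * (4 * (1 / 10000 * R) + √n) ^ n) + 1))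
      ≤ om n * (R - √n) ^ n := by
  have hom := @om_pos n
  have hg0 : 0 ≤ √(n : ℝ) := Real.sqrt_nonneg _
  have h1 := one_le_om (n := n) (r := 4 * (1 / 10000 * R)) (by positivity)
  have h2 : om n * (4 * (1 / 10000 * R) + √n) ^ n ≤ om n * (R / 2000) ^ n :=
    mul_le_mul_of_nonneg_left (pow_le_pow_left₀ (by positivity) (by linarith) n) hom.le
  have h3 : (T : ℝ) ^ 2 ≤ 25 ^ n := by
    refine (pow_le_pow_left₀ (Nat.cast_nonneg _) hT 2).trans (le_of_eq ?_)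
    rw [← pow_mul, mul_comm, pow_mul]; norm_num
  have h4 : (1 : ℝ) ≤ 25 ^ n := one_le_pow₀ (by norm_num)
  have h5 : (4 : ℝ) ≤ 4 ^ n := le_self_pow₀ (by norm_num) hn.ne'
  obtain ⟨N, hN⟩ : ∃ N, N = om n * (R / 2000) ^ n := ⟨_, rfl⟩
  rw [← hN] at h2
  have h6 : (T : ℝ) ^ 2 * (om n * (4 * (1 / 10000 * R) + √n) ^ n) ≤ 25 ^ n * N :=
    mul_le_mul h3 h2 (by linarith) (by positivity)
  have h7 : 1 ≤ 25 ^ n * N := one_le_mul_of_one_le_of_one_le h4 (h1.trans h2)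
  have h8 : 4 * (25 ^ n * N) ≤ 4 ^ n * (25 ^ n * N) := mul_le_mul_of_nonneg_right h5 (by linarith)
  calc ((10 ^ n : ℕ) : ℝ) * (2 * ((T : ℝ) ^ 2 * (om n * (4 * (1 / 10000 * R) + √n) ^ n) + 1))
      ≤ ((10 ^ n : ℕ) : ℝ) * (4 ^ n * (25 ^ n * N)) :=
        mul_le_mul_of_nonneg_left (by linarith) (Nat.cast_nonneg _)
    _ = om n * (R / 2) ^ n := by
        rw [hN, show R / 2 = 10 * (4 * (25 * (R / 2000))) by ring, mul_pow, mul_pow, mul_pow]
        push_cast; ring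
    _ ≤ _ := mul_le_mul_of_nonneg_left (pow_le_pow_left₀ (by positivity) (by linarith) n) hom.le

lemma near_arith {t : ℝ} {T : ℕ} (hn : 0 < n) (ht : 4 * 10 ^ 12 ≤ t) (hg : √n = t ^ 2)
    (hT : (T : ℝ) ≤ 5 ^ n) :
    (T : ℝ) ^ 2 * (om n * (1 / t * t ^ 8 + √n) ^ n) * Real.exp (n * Real.log t / 2) * 2
      ≤ om n * (1 / 10000 * t ^ 8 - √n) ^ n := by
  have hom := @om_pos n
  have ht1 : 1 ≤ t := by linarith
  have ht0 : 0 < t := by linarith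
  have h3 : (T : ℝ) ^ 2 ≤ 25 ^ n := by
    refine (pow_le_pow_left₀ (Nat.cast_nonneg _) hT 2).trans (le_of_eq ?_)
    rw [← pow_mul, mul_comm, pow_mul]; norm_num
  have h4 : Real.exp (n * Real.log t / 2) = √t ^ n := by
    rw [mul_div_assoc, Real.exp_nat_mul, ← Real.log_sqrt ht0.le,
      Real.exp_log (Real.sqrt_pos.2 ht0)]
  have h5 : (2 : ℝ) ≤ 2 ^ n := le_self_pow₀ (by norm_num) hn.ne'
  have h6 : t ^ 2 ≤ t ^ 7 := pow_le_pow_right₀ ht1 (by norm_num)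
  have h7 : 1 / t * t ^ 8 = t ^ 7 := by field_simp
  have hs : 2 * 10 ^ 6 ≤ √t := Real.le_sqrt_of_sq_le (by linarith)
  have hst : √t * √t = t := Real.mul_self_sqrt ht0.le
  have h8 : 25 * (2 * t ^ 7) * √t * 2 ≤ 1 / 10000 * t ^ 8 - t ^ 2 := by
    have e1 : 2 * 10 ^ 6 * √t ≤ t := by nlinarith
    have e2 : t ^ 7 * (2 * 10 ^ 6 * √t) ≤ t ^ 7 * t := mul_le_mul_of_nonneg_left e1 (by positivity)
    have e3 : t ^ 7 * (4 * 10 ^ 12) ≤ t ^ 7 * t := mul_le_mul_of_nonneg_left ht (by positivity)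
    have e4 : t ^ 7 * t = t ^ 8 := by ring
    have e5 : 0 ≤ t ^ 7 := by positivity
    linarith
  rw [h4, hg, h7]
  calc (T : ℝ) ^ 2 * (om n * (t ^ 7 + t ^ 2) ^ n) * √t ^ n * 2
      ≤ 25 ^ n * (om n * (2 * t ^ 7) ^ n) * √t ^ n * 2 ^ n := by
        gcongr
        linarith
    _ = om n * (25 * (2 * t ^ 7) * √t * 2) ^ n := by
        simp only [mul_pow]; ring
    _ ≤ _ := mul_le_mul_of_nonneg_left (pow_le_pow_left₀ (by positivity) h8 n) hom.le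

lemma lower_aux {t : ℝ} (hn : 0 < n) (ht : 4 * 10 ^ 12 ≤ t) (hnt : (n : ℝ) = t ^ 4)
    (h1 : 17 * (n : ℝ) ^ 2 ≤ (5 / 4) ^ n) (h2 : 30 * (n : ℝ) ^ 3 ≤ 2 ^ n) :
    ∃ K : Set (E n), IsConvexBody K ∧
      ENNReal.ofReal (1 / (1536 * 10 ^ 9) * n * Real.log n) ≤ thetaT K := by
  have ht1 : 1 ≤ t := by linarith
  have ht0 : 0 < t := by linarith
  have hn' : (1 : ℝ) ≤ n := by exact_mod_cast hn
  have hg : √n = t ^ 2 := by
    rw [hnt, show t ^ 4 = (t ^ 2) ^ 2 by ring, Real.sqrt_sq (by positivity)]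
  have hlog : Real.log n = 4 * Real.log t := by rw [hnt, Real.log_pow]; norm_num
  have hlog0 : 0 < Real.log t := Real.log_pos (by linarith)
  have hlogt : Real.log t ≤ t := by linarith [Real.log_le_sub_one_of_pos ht0]
  obtain ⟨Θ, hΘ⟩ : ∃ Θ, Θ = n * Real.log t / 2 := ⟨_, rfl⟩
  have hΘ0 : 0 < Θ := by rw [hΘ]; positivity
  obtain ⟨D, hD⟩ : ∃ D, D = 1 / (1536 * 10 ^ 9) * n * Real.log n := ⟨_, rfl⟩
  have hDΘ : D = Θ / (1920 * 10 ^ 8) := by rw [hD, hΘ, hlog]; ring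
  have hD0 : 0 < D := by rw [hDΘ]; positivity
  have ht2 : 4 * 10 ^ 12 * t ≤ t ^ 2 := by nlinarith
  have ht3 : t ^ 2 ≤ t ^ 4 := pow_le_pow_right₀ ht1 (by norm_num)
  have hΘ5 : Θ ≤ t ^ 5 / 2 := by
    rw [hΘ, hnt]
    have := mul_le_mul_of_nonneg_left hlogt (by positivity : 0 ≤ t ^ 4)
    linarith
  have hΘe : Θ ≤ Real.exp t := by
    have e1 := Real.pow_div_factorial_le_exp t ht0.le 6
    have e2 : t ^ 5 * 360 ≤ t ^ 5 * t := mul_le_mul_of_nonneg_left (by linarith) (by positivity)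
    have e3 : ((6 : ℕ).factorial : ℝ) = 720 := by norm_num [Nat.factorial]
    rw [e3] at e1
    linarith
  have hΘn : Θ ≤ (n : ℝ) ^ 2 := by
    have : t ^ 5 ≤ t ^ 8 := pow_le_pow_right₀ ht1 (by norm_num)
    have e : (n : ℝ) ^ 2 = t ^ 8 := by rw [hnt]; ring
    have : 0 ≤ t ^ 5 := by positivity
    linarith
  have hS1 : t ≤ (⌈t⌉₊ : ℝ) := Nat.le_ceil t
  have hS2 : (⌈t⌉₊ : ℝ) ≤ 2 * t := by linarith [Nat.ceil_lt_add_one ht0.le]
  have hT1 : 16 * D * 4 ^ n ≤ (⌈16 * D * 4 ^ n⌉₊ : ℝ) := Nat.le_ceil _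
  have hT2 : (⌈16 * D * 4 ^ n⌉₊ : ℝ) ≤ 5 ^ n := by
    have e1 := Nat.ceil_lt_add_one (show 0 ≤ 16 * D * 4 ^ n by positivity)
    have e2 : D ≤ (n : ℝ) ^ 2 := by rw [hDΘ]; linarith
    have e3 : D * 4 ^ n ≤ (n : ℝ) ^ 2 * 4 ^ n := mul_le_mul_of_nonneg_right e2 (by positivity)
    have e4 : 1 ≤ (n : ℝ) ^ 2 * 4 ^ n :=
      one_le_mul_of_one_le_of_one_le (one_le_pow₀ hn') (one_le_pow₀ (by norm_num))
    have e5 := mul_le_mul_of_nonneg_right h1 (by positivity : (0 : ℝ) ≤ 4 ^ n)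
    rw [← mul_pow] at e5
    norm_num at e5
    linarith
  have hR0 : 0 < t ^ 8 := by positivity
  have hgR : 7 * n * √n ≤ (1 / 10000) ^ 2 * t ^ 8 := by
    rw [hg, hnt]
    have : t ^ 6 * (7 * 10 ^ 8) ≤ t ^ 6 * t ^ 2 :=
      mul_le_mul_of_nonneg_left (by linarith) (by positivity)
    linarith
  have hgaR : √n ≤ 1 / 10000 * t ^ 8 := by
    have hg0 : 0 ≤ √(n : ℝ) := Real.sqrt_nonneg _
    have e2 : √n ≤ 7 * n * √n := by nlinarith
    linarith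
  have hS : 2 * (⌈t⌉₊ : ℝ) / (1 / 10000) ^ 2 + 1 ≤ n / 2 := by
    rw [hnt]; norm_num; linarith
  have hSn : ⌈t⌉₊ ≤ n := by
    have : (⌈t⌉₊ : ℝ) ≤ n := by rw [hnt]; linarith
    exact_mod_cast this
  have hδ : (1 / t) ^ 2 / (8 * (1 / 10000)) ≤ 1 / 10000 := by
    rw [div_pow, one_pow, div_div, div_le_iff₀ (by positivity)]; linarith
  obtain ⟨ω, hvol, hω⟩ := exists_body (n := n) (a := 1 / 10000)
    (a' := 1 / 10000 - (1 / t) ^ 2 / (8 * (1 / 10000))) (r0 := 1 / t) (R := t ^ 8) (Θ := Θ)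
    (S := ⌈t⌉₊) (L := 10 ^ n) (T := ⌈16 * D * 4 ^ n⌉₊) hn (by norm_num) (by norm_num) hR0 hgR hS
    hΘ0 (by linarith) (by positivity)
    (by
      generalize (1 / t) ^ 2 = x
      have e : (1 / 10000 - x / (8 * (1 / 10000))) ^ 2
          = (1 / 10000) ^ 2 - x / 4 + (x / (8 * (1 / 10000))) ^ 2 := by ring
      rw [e]
      exact le_add_of_nonneg_right (sq_nonneg _))
    (by rw [hΘ]; exact near_arith hn ht hg hT2)
    (by
      have e1 := far_ratio (n := n) (by norm_num) (by positivity) hδ hR0 hgaR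
      have e2 : (n : ℝ) * ((1 / t) ^ 2 / (8 * (1 / 10000)) / (2 * (1 / 10000)))
          = t ^ 2 * 10 ^ 8 / 16 := by rw [hnt]; field_simp; ring
      rw [e2] at e1
      have hom := @om_pos n
      have e3 := far_arith (A := 10 ^ 8) (by linarith) (by norm_num) hΘ0.le hΘe hS2
        (mul_nonneg (pp_pos (by positivity)).le (mul_nonneg hom.le (pow_nonneg
          (add_nonneg (mul_nonneg (by linarith) hR0.le) (Real.sqrt_nonneg _)) n))) e1
      rw [show 4 * (⌈t⌉₊ : ℝ) / (1 / 10000) ^ 2 = 4 * (⌈t⌉₊ : ℝ) * 10 ^ 8 by ring]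
      linarith)
    (L_arith hn hR0 hgaR hT2)
    (union_arith hn (by rw [hnt]; ring) hT2 h2)
  refine ⟨_, isConvexBody_KB (a := 1 / 10000) (by norm_num) (by norm_num) hR0 ω, ?_⟩
  rw [← hD]
  refine reduce hn (by norm_num) (by norm_num) hR0 hgR hSn hΘ0 ?_ hD0 hT1
    (by rw [hDΘ]; apply le_of_eq; ring) ω hvol hω
  rw [Real.exp_neg, ← div_eq_mul_inv, div_le_one (Real.exp_pos _)]
  exact hΘe.trans (Real.exp_le_exp.2 hS1)

/-- The lower bound `Θ_T(n) ≥ c n log n`. -/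
theorem lower_bound : ∃ n0 : ℕ, ∀ n ≥ n0, ∃ K : Set (E n), IsConvexBody K ∧
    ENNReal.ofReal (1 / (1536 * 10 ^ 9) * n * Real.log n) ≤ thetaT K := by
  have h1 := (tendsto_pow_const_div_const_pow_of_one_lt 2
    (show (1 : ℝ) < 5 / 4 by norm_num)).eventually (gt_mem_nhds (show (0 : ℝ) < 1 / 17 by norm_num))
  have h2 := (tendsto_pow_const_div_const_pow_of_one_lt 3
    (show (1 : ℝ) < 2 by norm_num)).eventually (gt_mem_nhds (show (0 : ℝ) < 1 / 30 by norm_num))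
  have h3 := (tendsto_natCast_atTop_atTop (R := ℝ)).eventually
    (eventually_ge_atTop ((4 * 10 ^ 12 : ℝ) ^ 4))
  obtain ⟨n0, hn0⟩ := eventually_atTop.1 (h1.and (h2.and (h3.and (eventually_gt_atTop 0))))
  refine ⟨n0, fun n hn => ?_⟩
  obtain ⟨a1, a2, a3, a4⟩ := hn0 n hn
  rw [div_lt_iff₀ (by positivity)] at a1 a2
  refine lower_aux (t := √(√n)) a4 ?_ ?_ (by linarith) (by linarith)
  · refine Real.le_sqrt_of_sq_le (Real.le_sqrt_of_sq_le ?_)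
    rw [← pow_mul]; exact a3
  · rw [show √(√(n : ℝ)) ^ 4 = (√(√(n : ℝ)) ^ 2) ^ 2 by ring, Real.sq_sqrt (Real.sqrt_nonneg _),
      Real.sq_sqrt (Nat.cast_nonneg _)]

theorem ThetaT_lower : ∃ c : ℝ, 0 < c ∧ ∃ n0 : ℕ, ∀ n ≥ n0,
    ENNReal.ofReal (c * n * Real.log n) ≤ ThetaT n := by
  obtain ⟨n0, h⟩ := lower_bound
  refine ⟨1 / (1536 * 10 ^ 9), by norm_num, n0, fun n hn => ?_⟩
  obtain ⟨K, hK, h⟩ := h n hn
  exact h.trans (le_iSup₂_of_le (f := fun (K : Set (E n)) (_ : IsConvexBody K) => thetaT K)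
    K hK le_rfl)

end Vale.Agent.P230
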