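import Vale.Agent.P230.MargA

/-! Gaussian lower bound for most points of a low-dimensional marginal. -/

open MeasureTheory Finset Metric ProbabilityTheory
open scoped ENNReal

namespace Vale.Agent.P230

theorem mg_pr_mono {n : ℕ} {K A B : Set (E n)} (hK : IsConvexBody K) (h : A ⊆ B) :
    pr K A ≤ pr K B :=
  div_le_div_of_nonneg_right (ENNReal.toReal_mono
    ((measure_mono Set.inter_subset_left).trans_lt hK.1.measure_lt_top).ne
    (measure_mono (Set.inter_subset_inter_right _ h))) ENNReal.toReal_nonneg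

theorem mg_gd {v ζ s : ℝ} (hv : 1 ≤ v) (hζ : 1 / (v ^ 100) ^ 6 ≤ ζ) (hs : s ^ 2 ≤ v) :
    Real.exp (-601 * v) ≤ 2 * ζ * gd s := by
  have h1 : Real.exp (-600 * v) ≤ ζ := by
    refine le_trans ?_ hζ
    rw [neg_mul, Real.exp_neg, one_div, ← pow_mul]
    refine inv_anti₀ (by positivity) ?_
    rw [show (600 : ℝ) * v = (600 : ℕ) * v by norm_num, Real.exp_nat_mul]
    exact pow_le_pow_left₀ (by positivity) (by linarith [Real.add_one_le_exp v]) _
  have h2 : Real.exp (-v / 2) / 3 ≤ gd s := by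
    refine div_le_div₀ (by positivity) (Real.exp_le_exp.2 (by linarith)) (by positivity) ?_
    exact Real.sqrt_le_iff.2 ⟨by norm_num, by linarith [Real.pi_lt_four]⟩
  have h3 : Real.exp (-v / 2) ≤ 2 / 3 := by
    rw [neg_div, Real.exp_neg, inv_le_comm₀ (by positivity) (by norm_num)]
    linarith [Real.add_one_le_exp (v / 2)]
  have h4 : Real.exp (-601 * v) = Real.exp (-600 * v) * (Real.exp (-v / 2) * Real.exp (-v / 2)) := by
    rw [← Real.exp_add, ← Real.exp_add]; ring_nf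
  have h5 := Real.exp_pos (-v / 2)
  have h6 := Real.exp_pos (-600 * v)
  rw [h4, mul_comm 2, mul_assoc]
  exact mul_le_mul h1 (by nlinarith) (by positivity) (by linarith)

theorem mg_tail {v q P : ℝ} (hv : 1000 ≤ v) (hq : 1 / 10 ≤ q) (hP : Real.exp (-601 * v ^ 2) ≤ P) :
    12 * Real.exp (-v ^ 10 / 10) / (q * P) ^ 2 ≤ 1200 / v ^ 2 := by
  have h0 := Real.exp_pos (-601 * v ^ 2)
  have h1 : (1 / 10 * Real.exp (-601 * v ^ 2)) ^ 2 ≤ (q * P) ^ 2 := by gcongr
  refine (div_le_div_of_nonneg_left (by positivity) (by positivity) h1).trans ?_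
  rw [div_le_div_iff₀ (by positivity) (by positivity), mul_pow, ← Real.exp_nat_mul]
  have h2 : v ^ 2 ≤ Real.exp (v ^ 2) := by linarith [Real.add_one_le_exp (v ^ 2)]
  have h3 : Real.exp (-v ^ 10 / 10) * Real.exp (v ^ 2) ≤ Real.exp ((2 : ℕ) * (-601 * v ^ 2)) := by
    rw [← Real.exp_add, Real.exp_le_exp]
    have h4 : (1000 : ℝ) ^ 8 ≤ v ^ 8 := by gcongr
    have h5 : v ^ 10 = v ^ 8 * v ^ 2 := by ring
    push_cast
    nlinarith [sq_nonneg v]
  nlinarith [Real.exp_pos (-v ^ 10 / 10)]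

theorem mg_main {v k ζ : ℝ} (hv : 1000 ≤ v) (hk0 : 0 ≤ k) (hk : k ≤ v) (hζ : ζ ≤ 1 / (v ^ 100) ^ 4) :
    (k + 1) * (v + 1) * (1 / v ^ 4 + ζ + 100 * v ^ 10 / v ^ 50) ≤ 408 / v ^ 2 := by
  have h0 : 0 < v := by linarith
  have h1 : ζ ≤ 1 / v ^ 4 := hζ.trans (by
    rw [← pow_mul]
    exact one_div_le_one_div_of_le (by positivity) (pow_le_pow_right₀ (by linarith) (by norm_num)))
  have h2 : 100 * v ^ 10 / v ^ 50 ≤ 100 * (1 / v ^ 4) := by
    rw [show 100 * v ^ 10 / v ^ 50 = 100 * (1 / v ^ 40) by field_simp]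
    gcongr
    · linarith
    · norm_num
  calc _ ≤ (k + 1) * (v + 1) * (102 * (1 / v ^ 4)) := by gcongr; linarith
    _ ≤ (2 * v) * (2 * v) * (102 * (1 / v ^ 4)) := by gcongr <;> linarith
    _ = _ := by field_simp; norm_num

open Classical in
theorem mg_T {n : ℕ} {κ : Type} [Fintype κ] (g : κ → E n) {v ρ : ℝ} (hv1 : 1000000 ≤ v)
    (hvn : v ≤ n) (hk : (Fintype.card κ : ℝ) ≤ v) (hρ1 : 1 / 100 ≤ ρ) (hρ2 : ρ ≤ 4)
    (hg : ∀ i j, |inner ℝ (g i) (g j) - if i = j then (n : ℝ) else 0| ≤ 2 * (n / (4 * v))) :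
    ∃ (N : ℕ) (T : E n ≃ₗ[ℝ] (κ ⊕ Fin N → ℝ)),
      (∀ x i, T x (Sum.inl i) = inner ℝ (g i) x / (ρ * √n)) ∧
      (∀ y, (∀ c, |T y c| ≤ 1 / (n : ℝ) ^ 3) → ‖y‖ ≤ 1 / (100 * n)) ∧
      ∀ x, ‖x‖ ≤ 10 * n → ∀ c, |T x c| ≤ (n : ℝ) ^ 2 := by
  have hvp : 0 < v := by linarith
  have hnp : (0 : ℝ) < n := by linarith
  have hη : Fintype.card κ * (2 * (n / (4 * v))) ≤ (n : ℝ) / 2 := by
    refine (mul_le_mul_of_nonneg_right hk (by positivity)).trans (le_of_eq ?_)
    field_simp; norm_num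
  have hρ0 : 0 < ρ := by linarith
  have hr : (ρ * √n) ^ 2 = ρ ^ 2 * n := by rw [mul_pow, Real.sq_sqrt hnp.le]
  have hr0 : 0 < ρ * √n := by positivity
  obtain ⟨N, T, hT1, hT2, hT3⟩ := mg_lin (fun i => (ρ * √n)⁻¹ • g i) (a := 32) (by norm_num)
    fun c => by
      have h5 := mg_low g hg c
      have h6 : 0 ≤ ∑ i, c i ^ 2 := Finset.sum_nonneg fun _ _ => sq_nonneg _
      simp only [smul_comm (c _), ← Finset.smul_sum]
      rw [norm_smul, mul_pow, norm_inv, Real.norm_of_nonneg hr0.le, inv_pow, hr, ← mul_assoc,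
        ← div_eq_mul_inv, div_mul_eq_mul_div, le_div_iff₀ (by positivity)]
      have h7 : ρ ^ 2 * n ≤ 16 * n := by gcongr; nlinarith
      nlinarith
  refine ⟨N, T, fun x i => ?_, fun y hy => ?_, fun x hx' c => ?_⟩
  · rw [hT1, real_inner_smul_left, inv_mul_eq_div]
  · refine (pow_le_pow_iff_left₀ (norm_nonneg _) (by positivity) two_ne_zero).1
      ((hT3 y _ hy).trans ?_)
    have h5 : 32 * (Fintype.card κ : ℝ) + n ≤ 33 * n := by linarith
    refine (mul_le_mul_of_nonneg_right h5 (by positivity)).trans ?_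
    rw [show 33 * (n : ℝ) * (1 / n ^ 3) ^ 2 = 33 / n ^ 5 by field_simp, div_pow,
      div_le_div_iff₀ (by positivity) (by positivity)]
    have h6 : (1000 : ℝ) ^ 3 ≤ n ^ 3 := by gcongr; linarith
    nlinarith [sq_nonneg (n : ℝ)]
  · rcases c with i | j
    · rw [hT1]
      refine (abs_real_inner_le_norm _ _).trans ?_
      have h5 := (abs_le.1 (hg i i)).2
      rw [if_pos rfl, real_inner_self_eq_norm_sq] at h5
      have h6 : 2 * (n / (4 * v)) ≤ (n : ℝ) := by
        rw [← mul_div_assoc, div_le_iff₀ (by positivity)]; nlinarith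
      have h7 : ‖(ρ * √n)⁻¹ • g i‖ ≤ 200 := by
        refine (pow_le_pow_iff_left₀ (norm_nonneg _) (by positivity) two_ne_zero).1 ?_
        rw [norm_smul, mul_pow, norm_inv, Real.norm_of_nonneg hr0.le, inv_pow, hr,
          inv_mul_le_iff₀ (by positivity)]
        have h8 : (1 / 100) ^ 2 * (n : ℝ) ≤ ρ ^ 2 * n := by gcongr
        linarith
      refine (mul_le_mul h7 hx' (norm_nonneg _) (by norm_num)).trans (by nlinarith)
    · exact (hT2 x j).trans (hx'.trans (by nlinarith))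

theorem marg (h1 : IsoBoundsP) (h2 : SMP) (h3 : ThinP) : MTP := by
  classical
  obtain ⟨n0, h3⟩ := h3
  obtain ⟨C, hC, hG⟩ := mg_gram
  refine ⟨max n0 ((⌈32 * C⌉₊ + 1000000) ^ 100), fun n hn K hK v hv0 hv κ _ hk ζ hζ1 hζ2 S w hw hS => ?_⟩
  obtain ⟨ρ, hρ1, hρ2, hA⟩ := h3 n (le_of_max_le_left hn) K hK v hv0 hv
  have hv1 : 32 * C + 1000000 ≤ v := by
    have h : ((⌈32 * C⌉₊ + 1000000 : ℕ) : ℝ) ^ 100 ≤ v ^ 100 := by
      rw [hv]; exact_mod_cast le_of_max_le_right hn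
    have := (pow_le_pow_iff_left₀ (by positivity) hv0 (by norm_num)).1 h
    push_cast at this
    linarith [Nat.le_ceil (32 * C)]
  have hvp : 0 < v := by linarith
  have hvn : v ≤ n := hv ▸ le_self_pow₀ (by linarith) (by norm_num)
  have hn2 : 2 ≤ n := by exact_mod_cast (by linarith : (2 : ℝ) ≤ n)
  have hnp : (0 : ℝ) < n := by linarith
  have hsq : √(n : ℝ) = v ^ 50 := by
    rw [← hv, show v ^ 100 = (v ^ 50) ^ 2 by ring, Real.sqrt_sq (by positivity)]
  have hζ0 : 0 < ζ := lt_of_lt_of_le (by positivity) hζ1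
  set A : Set (E n) := {x | ρ * √n ≤ ‖x‖ ∧ ‖x‖ ≤ ρ * (1 + 1 / v ^ 4) * √n} with hAdef
  have hAm : MeasurableSet A :=
    (measurableSet_le measurable_const measurable_norm).inter
      (measurableSet_le measurable_norm measurable_const)
  have hmain := mg_main (by linarith : 1000 ≤ v) (Nat.cast_nonneg _) hk (hv ▸ hζ2)
  haveI : IsProbabilityMeasure (gmat n κ) := by unfold gmat; infer_instance
  obtain ⟨g, hg, hsum⟩ := mg_avg (gmat n κ) S w hw
    (fun s => {g | pr K (A ∩ {x | ∀ i, |inner ℝ (g i) x / (ρ * √n) - s i| ≤ ζ})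
        < pr K A * (∏ i, 2 * ζ * gd (s i)) / 2}) _ (δ := 1 / (2 * v)) (by positivity)
    (fun s hs => by
      have hP : Real.exp (-601 * v ^ 2) ≤ ∏ i, 2 * ζ * gd (s i) := by
        refine le_trans ?_ (Finset.prod_le_prod (f := fun _ => Real.exp (-601 * v))
          (fun _ _ => by positivity) fun i _ => mg_gd (by linarith) (hv ▸ hζ1) (hS s hs i))
        rw [prod_const, card_univ, ← Real.exp_nat_mul, Real.exp_le_exp]
        nlinarith
      have h := h2 n K hn2 hK κ A ρ (1 / v ^ 4) ζ (v ^ 10) (√v) s hAm hρ1 (by positivity) hζ0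
        (by positivity) (fun x hx => hx) (fun i => Real.abs_le_sqrt (hS s hs i)) (by linarith)
      rw [Real.sq_sqrt hv0, hsq] at h
      rw [hsq]
      refine (h (hmain.trans ?_)).trans (ENNReal.ofReal_le_ofReal ?_)
      · rw [div_le_div_iff₀ (by positivity) (by positivity)]; nlinarith
      · have h5 := mg_tail (by linarith : 1000 ≤ v) hA hP
        have h6 : 1000 * (408 / v ^ 2) + 1200 / v ^ 2 ≤ 1 / (2 * v) := by
          rw [show 1000 * (408 / v ^ 2) + 1200 / v ^ 2 = 409200 / v ^ 2 by ring,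
            div_le_div_iff₀ (by positivity) (by positivity)]
          nlinarith
        linarith)
    ((hG n κ (n / (4 * v)) (by positivity)).trans (ENNReal.ofReal_le_ofReal (by
      have h5 : (Fintype.card κ : ℝ) ^ 2 ≤ v ^ 2 := by gcongr
      refine (mul_le_mul_of_nonneg_right h5 (by positivity)).trans ?_
      rw [show v ^ 2 * (C * n / (n / (4 * v)) ^ 2) = 16 * C * v ^ 4 / n by field_simp; norm_num,
        div_le_div_iff₀ hnp (by norm_num), ← hv]
      have h6 : v ^ 5 ≤ v ^ 100 := pow_le_pow_right₀ (by linarith) (by norm_num)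
      have h7 : 0 ≤ v ^ 4 := by positivity
      nlinarith)))
  rw [Set.mem_setOf_eq, not_not] at hg
  obtain ⟨N, T, hT1, hT2, hT3⟩ := mg_T g (by linarith) hvn hk hρ1 hρ2 hg
  obtain ⟨hb1, hb2, -⟩ := h1 n K hn2 hK
  refine ⟨N, T, fun y hy => hb2 (mem_closedBall_zero_iff.2 (hT2 y hy)),
    fun x hx => hT3 x (mem_closedBall_zero_iff.1 (hb1 hx)),
    le_trans (Finset.sum_le_sum fun s _ => ?_) (hsum.trans (le_of_eq (by field_simp)))⟩
  refine mul_le_mul_of_nonneg_left (ind_mono fun h => ?_) (hw s)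
  have hP : 0 ≤ ∏ i, 2 * ζ * gd (s i) := Finset.prod_nonneg fun i _ => by unfold gd; positivity
  simp only [hT1] at h
  exact lt_of_le_of_lt (mg_pr_mono hK.1 Set.inter_subset_right)
    (h.trans_le (by linarith [mul_le_mul_of_nonneg_right hA hP]))

end Vale.Agent.P230
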