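import Vale.Agent.P230.UDefs

/-! Auxiliary results for the marginal theorem: Gram matrix of a Gaussian matrix, averaging and
the linear algebra step. -/

open MeasureTheory Finset Metric ProbabilityTheory
open scoped ENNReal

namespace Vale.Agent.P230

theorem mg_conc : ∃ C : ℝ, 0 ≤ C ∧ ∀ (n : ℕ) (t : ℝ), 0 < t →
    stdGaussian (E n) {x | t ≤ |‖x‖ ^ 2 - n|} ≤ ENNReal.ofReal (C * n / t ^ 2) := by
  have h2 : MemLp (fun x : ℝ => x ^ 2) 2 (gaussianReal 0 1) := by
    refine (memLp_two_iff_integrable_sq (by fun_prop)).2 ?_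
    have := (memLp_id_gaussianReal (μ := 0) (v := 1) 4).integrable_norm_pow (p := 4) (by norm_num)
    refine this.congr (Filter.Eventually.of_forall fun x => ?_)
    simp only [id, Real.norm_eq_abs]
    rw [← pow_mul, ← abs_pow, abs_of_nonneg (by positivity)]
  have h1 : ∫ x, x ^ 2 ∂gaussianReal 0 1 = 1 := by
    have := variance_of_integral_eq_zero (μ := gaussianReal 0 1) (X := id) aemeasurable_id (by simp)
    rw [variance_id_gaussianReal] at this
    simpa using this.symm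
  refine ⟨Var[fun x : ℝ => x ^ 2; gaussianReal 0 1], variance_nonneg _ _, fun n t ht => ?_⟩
  have hm : MemLp (∑ i : Fin n, fun ω : Fin n → ℝ => ω i ^ 2) 2
      (Measure.pi fun _ => gaussianReal 0 1) :=
    memLp_finsetSum' _ fun i _ => h2.comp_measurePreserving (measurePreserving_eval _ i)
  have h3 := meas_ge_le_variance_div_sq hm ht
  rw [variance_sum_pi (X := fun _ (x : ℝ) => x ^ 2) fun _ => h2] at h3
  simp only [Finset.sum_apply] at h3
  rw [integral_finsetSum _ fun i _ => integrable_comp_eval (f := fun x : ℝ => x ^ 2)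
    (μ := fun _ : Fin n => gaussianReal 0 1) (i := i) (h2.integrable (by norm_num))] at h3
  simp only [integral_comp_eval (μ := fun _ : Fin n => gaussianReal 0 1) h2.1, h1, sum_const,
    card_univ, Fintype.card_fin, nsmul_eq_mul, mul_one] at h3
  rw [← map_pi_eq_stdGaussian, Measure.map_apply (by fun_prop)
    (measurableSet_le (by fun_prop) (by fun_prop)), mul_comm]
  refine le_of_eq_of_le (congrArg _ ?_) h3
  ext x
  simp [EuclideanSpace.real_norm_sq_eq]

theorem mg_law (n : ℕ) {κ : Type} [Fintype κ] (c : κ → ℝ) (hc : ∑ i, c i ^ 2 = 1) :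
    (gmat n κ).map (fun g => ∑ i, c i • g i) = stdGaussian (E n) := by
  haveI : IsProbabilityMeasure (gmat n κ) := by unfold gmat; infer_instance
  apply Measure.ext_of_charFun
  ext t
  rw [charFun_apply, integral_map (Measurable.aemeasurable (by fun_prop))
    (Measurable.aestronglyMeasurable (by fun_prop)), gmat]
  simp_rw [sum_inner, Complex.ofReal_sum, Finset.sum_mul, Complex.exp_sum,
    integral_fintype_prod_eq_prod
      (f := fun i (x : E n) => Complex.exp ((inner ℝ (c i • x) t : ℝ) * Complex.I)),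
    real_inner_smul_left, ← real_inner_smul_right, ← charFun_apply, charFun_stdGaussian,
    ← Complex.exp_sum, norm_smul, Real.norm_eq_abs]
  refine congrArg _ ?_
  rw [← Finset.sum_div, Finset.sum_neg_distrib]
  norm_cast
  simp only [mul_pow, sq_abs, ← Finset.sum_mul, hc, one_mul]

open Classical in
theorem mg_gram : ∃ C : ℝ, 0 ≤ C ∧ ∀ (n : ℕ) (κ : Type) [Fintype κ] (t : ℝ), 0 < t →
    gmat n κ {g | ¬ ∀ i j, |inner ℝ (g i) (g j) - if i = j then (n : ℝ) else 0| ≤ 2 * t} ≤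
      ENNReal.ofReal ((Fintype.card κ : ℝ) ^ 2 * (C * n / t ^ 2)) := by
  obtain ⟨C, hC, h⟩ := mg_conc
  refine ⟨C, hC, fun n κ _ t ht => ?_⟩
  let c : κ × κ → κ → ℝ := fun p =>
    if p.1 = p.2 then Pi.single p.1 1 else (√2)⁻¹ • (Pi.single p.1 1 + Pi.single p.2 1)
  have h2 : (√2 : ℝ)⁻¹ ^ 2 = 1 / 2 := by rw [inv_pow, Real.sq_sqrt (by norm_num), one_div]
  have hc : ∀ p, ∑ i, c p i ^ 2 = 1 := by
    rintro ⟨i, j⟩
    by_cases e : i = j
    · simp [c, e, Pi.single_apply]
    · simp only [c, if_neg e, Pi.smul_apply, smul_eq_mul, mul_pow, ← Finset.mul_sum, h2,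
        Pi.add_apply, add_sq, Finset.sum_add_distrib]
      simp [Pi.single_apply, e, Ne.symm e]
      norm_num
  have hsub : {g : κ → E n | ¬ ∀ i j, |inner ℝ (g i) (g j) - if i = j then (n : ℝ) else 0| ≤ 2 * t}
      ⊆ ⋃ p, (fun g => ∑ i, c p i • g i) ⁻¹' {x | t ≤ |‖x‖ ^ 2 - n|} := by
    intro g hg
    by_contra hn
    simp only [Set.mem_iUnion, Set.mem_preimage, Set.mem_setOf_eq, not_exists, not_le] at hn
    have hd : ∀ i, |‖g i‖ ^ 2 - n| < t := fun i => by
      simpa [c, Pi.single_apply, ite_smul] using hn (i, i)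
    refine hg fun i j => ?_
    by_cases e : i = j
    · subst e
      rw [if_pos rfl, real_inner_self_eq_norm_sq]
      linarith [hd i]
    · have h3 := hn (i, j)
      have h4 : ∑ l, c (i, j) l • g l = (√2 : ℝ)⁻¹ • (g i + g j) := by
        simp only [c, if_neg e, Pi.smul_apply, smul_eq_mul, mul_smul, ← Finset.smul_sum,
          Pi.add_apply, add_smul, Finset.sum_add_distrib]
        simp [Pi.single_apply, ite_smul]
      rw [h4, norm_smul, mul_pow, Real.norm_eq_abs, sq_abs, h2, norm_add_sq_real, abs_lt] at h3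
      have h5 := abs_lt.1 (hd i)
      have h6 := abs_lt.1 (hd j)
      rw [if_neg e, abs_le]
      constructor <;> linarith [h3.1, h3.2, h5.1, h5.2, h6.1, h6.2]
  refine (measure_mono hsub).trans ((measure_iUnion_fintype_le _ _).trans ?_)
  refine (Finset.sum_le_sum (g := fun _ => ENNReal.ofReal (C * n / t ^ 2)) fun p _ => ?_).trans ?_
  · refine (Measure.le_map_apply (Measurable.aemeasurable (by fun_prop)) _).trans ?_
    rw [mg_law n _ (hc p)]
    exact h n t ht
  · rw [Finset.sum_const, card_univ, Fintype.card_prod, nsmul_eq_mul,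
      ENNReal.ofReal_mul (by positivity), ← Nat.cast_pow, ENNReal.ofReal_natCast, ← sq]

theorem mg_avg {Ω α : Type} [MeasurableSpace Ω] (μ : Measure Ω) [IsProbabilityMeasure μ]
    (S : Finset α) (w : α → ℝ) (hw : ∀ s, 0 ≤ w s) (B : α → Set Ω) (G : Set Ω) {δ : ℝ}
    (hδ : 0 ≤ δ) (hB : ∀ s ∈ S, μ (B s) ≤ ENNReal.ofReal δ) (hG : μ G ≤ ENNReal.ofReal (1 / 2)) :
    ∃ g, g ∉ G ∧ ∑ s ∈ S, w s * ind (g ∈ B s) ≤ 2 * δ * ∑ s ∈ S, w s := by
  let f : Ω → ℝ := fun g => ∑ s ∈ S, (toMeasurable μ (B s)).indicator (fun _ => w s) g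
  have hi : ∀ s ∈ S, Integrable ((toMeasurable μ (B s)).indicator fun _ => w s) μ := fun s _ =>
    (integrable_const _).indicator (measurableSet_toMeasurable _ _)
  have hf : Integrable f μ := integrable_finsetSum _ hi
  have hf0 : ∀ g, 0 ≤ f g := fun g =>
    Finset.sum_nonneg fun s _ => Set.indicator_nonneg (fun _ _ => hw s) _
  have h1 : 1 / 2 ≤ μ.real Gᶜ := by
    have h2 := measureReal_union_le (μ := μ) G Gᶜ
    have h3 : μ.real G ≤ 1 / 2 := ENNReal.toReal_le_of_le_ofReal (by norm_num) hG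
    rw [Set.union_compl_self, probReal_univ] at h2
    linarith
  obtain ⟨g, hg, hle⟩ := exists_le_setAverage (μ := μ) (s := Gᶜ) (f := f)
    (fun e => by rw [Measure.real, e] at h1; norm_num at h1) (measure_ne_top _ _) hf.integrableOn
  refine ⟨g, hg, ?_⟩
  have h4 : ∫ g, f g ∂μ ≤ δ * ∑ s ∈ S, w s := by
    rw [integral_finsetSum _ hi, Finset.mul_sum]
    refine Finset.sum_le_sum fun s hs => ?_
    rw [integral_indicator_const _ (measurableSet_toMeasurable _ _), smul_eq_mul, Measure.real,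
      measure_toMeasurable]
    exact mul_le_mul_of_nonneg_right (ENNReal.toReal_le_of_le_ofReal hδ (hB s hs)) (hw s)
  have h5 := setIntegral_le_integral (s := Gᶜ) hf (Filter.Eventually.of_forall hf0)
  have h6 : 0 ≤ ∫ g in Gᶜ, f g ∂μ := integral_nonneg hf0
  rw [setAverage_eq, smul_eq_mul] at hle
  have h7 : (μ.real Gᶜ)⁻¹ ≤ 2 := by
    rw [inv_le_comm₀ (by linarith) (by norm_num)]; linarith
  refine le_trans (Finset.sum_le_sum fun s _ => ?_) (hle.trans (by nlinarith))
  by_cases h : g ∈ B s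
  · rw [ind_pos h, Set.indicator_of_mem (subset_toMeasurable _ _ h), mul_one]
  · rw [ind_neg h, mul_zero]; exact Set.indicator_nonneg (fun _ _ => hw s) _

open Classical in
theorem mg_low {n : ℕ} {κ : Type} [Fintype κ] (g : κ → E n) {m η : ℝ}
    (h : ∀ i j, |inner ℝ (g i) (g j) - if i = j then m else 0| ≤ η) (c : κ → ℝ) :
    (m - Fintype.card κ * η) * ∑ i, c i ^ 2 ≤ ‖∑ i, c i • g i‖ ^ 2 := by
  have e : (m - Fintype.card κ * η) * ∑ i, c i ^ 2 = ∑ i, ∑ j,
      (c i * c j * (if i = j then m else 0) - (η / 2 * c i ^ 2 + η / 2 * c j ^ 2)) := by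
    simp only [Finset.sum_sub_distrib, Finset.sum_add_distrib, mul_ite, mul_zero,
      Finset.sum_ite_eq, mem_univ, if_true, sum_const, card_univ, nsmul_eq_mul, ← Finset.mul_sum,
      ← Finset.sum_mul, ← sq]
    ring
  rw [e, ← real_inner_self_eq_norm_sq, sum_inner]
  refine Finset.sum_le_sum fun i _ => ?_
  rw [inner_sum]
  refine Finset.sum_le_sum fun j _ => ?_
  rw [real_inner_smul_left, real_inner_smul_right]
  obtain ⟨h1, h2⟩ := abs_le.1 (h i j)
  nlinarith [mul_nonneg (sq_nonneg (c i + c j)) (sub_nonneg.2 h1),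
    mul_nonneg (sq_nonneg (c i - c j)) (sub_nonneg.2 h2)]

theorem mg_lin {n : ℕ} {κ : Type} [Fintype κ] (u : κ → E n) {a : ℝ} (ha : 0 ≤ a)
    (h : ∀ c : κ → ℝ, ∑ i, c i ^ 2 ≤ a * ‖∑ i, c i • u i‖ ^ 2) :
    ∃ (N : ℕ) (T : E n ≃ₗ[ℝ] (κ ⊕ Fin N → ℝ)), (∀ x i, T x (Sum.inl i) = inner ℝ (u i) x) ∧
      (∀ x j, |T x (Sum.inr j)| ≤ ‖x‖) ∧
      ∀ y t, (∀ c, |T y c| ≤ t) → ‖y‖ ^ 2 ≤ (a * Fintype.card κ + n) * t ^ 2 := by
  let U := Submodule.span ℝ (Set.range u)
  let b := stdOrthonormalBasis ℝ Uᗮ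
  let T0 : E n →ₗ[ℝ] (κ ⊕ Fin (Module.finrank ℝ Uᗮ) → ℝ) :=
    LinearMap.pi (Sum.elim (fun i => innerₗ _ (u i)) fun j => innerₗ _ (b j : E n))
  have hli : LinearIndependent ℝ u := Fintype.linearIndependent_iff.2 fun c hc i => by
    have := h c
    rw [hc, norm_zero, zero_pow two_ne_zero, mul_zero] at this
    exact pow_eq_zero_iff two_ne_zero |>.1 (le_antisymm
      ((Finset.single_le_sum (fun i _ => sq_nonneg (c i)) (mem_univ i)).trans this) (sq_nonneg _))
  have hdim : Fintype.card κ + Module.finrank ℝ Uᗮ = n := by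
    rw [← finrank_span_eq_card hli, U.finrank_add_finrank_orthogonal]; simp
  have key : ∀ y t, (∀ c, |T0 y c| ≤ t) → ‖y‖ ^ 2 ≤ (a * Fintype.card κ + n) * t ^ 2 := by
    intro y t ht
    obtain ⟨y1, h1, y2, h2, e⟩ := U.exists_add_mem_mem_orthogonal y
    have h12 : inner ℝ y1 y2 = 0 := h2 y1 h1
    have hs : ∀ c, T0 y c ^ 2 ≤ t ^ 2 := fun c => sq_le_sq' (abs_le.1 (ht c)).1 (abs_le.1 (ht c)).2
    have h3 : ‖y2‖ ^ 2 ≤ n * t ^ 2 := by
      have := b.sum_sq_inner_right ⟨y2, h2⟩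
      rw [show ‖y2‖ = ‖(⟨y2, h2⟩ : Uᗮ)‖ from rfl, ← this]
      refine (Finset.sum_le_card_nsmul _ _ (t ^ 2) fun j _ => ?_).trans ?_
      · refine le_of_eq_of_le (congrArg (· ^ 2) ?_) (hs (Sum.inr j))
        change inner ℝ (b j : E n) y2 = inner ℝ (b j : E n) y
        rw [e, inner_add_right, real_inner_comm y1, (b j).2 y1 h1, zero_add]
      · rw [card_univ, Fintype.card_fin, nsmul_eq_mul]
        exact mul_le_mul_of_nonneg_right (Nat.cast_le.2 (by omega)) (sq_nonneg _)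
    obtain ⟨c, hc⟩ := (Submodule.mem_span_range_iff_exists_fun ℝ).1 h1
    have h4 : ‖y1‖ ^ 2 = ∑ i, c i * T0 y (Sum.inl i) := by
      rw [← real_inner_self_eq_norm_sq, ← add_zero (inner ℝ y1 y1), ← h12, ← inner_add_right, ← e,
        ← hc, sum_inner]
      exact Finset.sum_congr rfl fun i _ => real_inner_smul_left _ _ _
    have h5 := Finset.sum_mul_sq_le_sq_mul_sq univ c fun i => T0 y (Sum.inl i)
    have h6 : ∑ i, T0 y (Sum.inl i) ^ 2 ≤ Fintype.card κ * t ^ 2 := by
      simpa using Finset.sum_le_card_nsmul univ _ (t ^ 2) fun i _ => hs (Sum.inl i)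
    have h7 := h c
    rw [hc] at h7
    have h8 : (‖y1‖ ^ 2) ^ 2 ≤ a * ‖y1‖ ^ 2 * (Fintype.card κ * t ^ 2) := by
      refine le_trans (by rw [h4]) (h5.trans ?_)
      exact mul_le_mul h7 h6 (Finset.sum_nonneg fun _ _ => sq_nonneg _) (by positivity)
    have h9 : ‖y1‖ ^ 2 ≤ a * (Fintype.card κ * t ^ 2) := by
      by_contra hn
      have : 0 ≤ a * (Fintype.card κ * t ^ 2) := by positivity
      nlinarith
    rw [e, norm_add_sq_real, h12]
    nlinarith
  refine ⟨_, T0.linearEquivOfInjective ((injective_iff_map_eq_zero _).2 fun y hy => ?_)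
    (by simp [hdim]), fun _ _ => rfl, fun x j => ?_, key⟩
  · have := key y 0 (by simp [hy])
    rw [zero_pow two_ne_zero, mul_zero] at this
    exact norm_eq_zero.1 (pow_eq_zero_iff two_ne_zero |>.1 (le_antisymm this (sq_nonneg _)))
  · refine (abs_real_inner_le_norm (b j : E n) x).trans ?_
    rw [show ‖(b j : E n)‖ = 1 from b.orthonormal.1 j, one_mul]

end Vale.Agent.P230
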