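import Vale.Agent.P230.Bern

/-! The planting construction and the second moment bound. -/

open Finset

namespace Vale.Agent.P230

open Classical in
/-- real indicator of a proposition -/
noncomputable def ind (P : Prop) : ℝ := if P then 1 else 0

lemma ind_pos {P : Prop} (h : P) : ind P = 1 := by simp [ind, h]
lemma ind_neg {P : Prop} (h : ¬ P) : ind P = 0 := by simp [ind, h]
lemma ind_nonneg (P : Prop) : 0 ≤ ind P := by
  by_cases h : P
  · rw [ind_pos h]; norm_num
  · rw [ind_neg h]
lemma ind_le_one (P : Prop) : ind P ≤ 1 := by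
  by_cases h : P
  · rw [ind_pos h]
  · rw [ind_neg h]; norm_num
lemma ind_mono {P Q : Prop} (h : P → Q) : ind P ≤ ind Q := by
  by_cases hP : P
  · rw [ind_pos hP, ind_pos (h hP)]
  · rw [ind_neg hP]; exact ind_nonneg _
lemma ind_congr {P Q : Prop} (h : P ↔ Q) : ind P = ind Q :=
  le_antisymm (ind_mono h.1) (ind_mono h.2)
lemma ind_and (P Q : Prop) : ind (P ∧ Q) = ind P * ind Q := by
  by_cases hP : P <;> by_cases hQ : Q <;> simp [ind, hP, hQ]
lemma ind_not (P : Prop) : ind (¬ P) = 1 - ind P := by
  by_cases hP : P <;> simp [ind, hP]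
lemma sum_ind {κ : Type*} (s : Finset κ) (P : κ → Prop) [DecidablePred P] :
    ∑ k ∈ s, ind (P k) = ((s.filter P).card : ℝ) := by
  rw [Finset.card_filter]
  push_cast
  refine sum_congr rfl fun k _ => ?_
  by_cases h : P k <;> simp [ind, h]

variable {ι : Type*} [Fintype ι] [DecidableEq ι]

/-- the configuration meets `A` -/
def hit (A : Finset ι) (ω : ι → Bool) : Prop := ∃ u ∈ A, ω u = true

/-- the configuration contains `S` -/
def cont (S : Finset ι) (ω : ι → Bool) : Prop := ∀ u ∈ S, ω u = true

omit [Fintype ι] in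
lemma hit_of_update {A : Finset ι} {ω : ι → Bool} {u : ι}
    (h : hit A (Function.update ω u false)) : hit A ω := by
  obtain ⟨v, hv, h⟩ := h
  refine ⟨v, hv, ?_⟩
  by_cases hvu : v = u
  · subst hvu; simp at h
  · rwa [Function.update_of_ne hvu] at h

/-- one planting step -/
noncomputable def plantOp (p : ℝ) (A : Finset ι) (W : (ι → Bool) → ℝ) (ω : ι → Bool) : ℝ :=
  ind (hit A ω) * W ω + ∑ u ∈ A, (if ω u then (1 - p) *
    (ind (¬ hit A (Function.update ω u false)) * W (Function.update ω u false) / (p * A.card))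
    else 0)

lemma Ex_plantOp (p : ℝ) (A : Finset ι) (W φ : (ι → Bool) → ℝ) :
    Ex (fun _ => p) (fun ω => plantOp p A W ω * φ ω)
      = Ex (fun _ => p) (fun ω => ind (hit A ω) * W ω * φ ω)
        + ∑ u ∈ A, Ex (fun _ => p) (fun ω => p / (p * A.card) *
          (ind (¬ hit A ω) * W ω * φ (Function.update ω u true))) := by
  unfold plantOp
  simp only [add_mul, sum_mul]
  rw [Ex_add, Ex_sum]
  congr 1
  refine sum_congr rfl fun u hu => ?_
  have := Ex_flip (p := fun _ : ι => p) u
    (fun ω => ind (¬ hit A ω) * W ω / (p * A.card) * φ (Function.update ω u true))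
  refine Eq.trans (Ex_congr fun ω => ?_) (this.trans (Ex_congr fun ω => ?_))
  · by_cases hω : ω u = true
    · have h1 : Function.update (Function.update ω u false) u true = ω := by
        ext v; by_cases h : v = u
        · subst h; simp [hω]
        · simp [Function.update_of_ne h]
      simp only [hω, if_true, h1]; ring
    · simp [hω]
  · by_cases hω : ω u = true
    · have : hit A ω := ⟨u, hu, hω⟩
      simp [hω, ind_neg (not_not.2 this)]
    · simp only [hω]; simp only [Bool.false_eq_true, if_false]; ring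

lemma plant_step {p : ℝ} (hp0 : 0 < p) (hp1 : p ≤ 1) (A : Finset ι) (hA : A.Nonempty)
    (W : (ι → Bool) → ℝ) (M r : ℝ) (D : Finset ι) (Φ : (ι → Bool) → Prop)
    (hΦ : ∀ ω u, Φ (Function.update ω u false) → Φ ω)
    (h0 : ∀ ω, 0 ≤ W ω) (h1 : Ex (fun _ => p) W = 1) (hM : ∀ ω, W ω ≤ M)
    (hs : ∀ ω, W ω ≠ 0 → Φ ω) (hD : Dep W D) (hr : 0 ≤ r)
    (hsp : ∀ S : Finset ι, Ex (fun _ => p) (fun ω => W ω * ind (cont S ω)) ≤ (p * r) ^ S.card) :
    ∃ W' : (ι → Bool) → ℝ, (∀ ω, 0 ≤ W' ω) ∧ Ex (fun _ => p) W' = 1 ∧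
      (∀ ω, W' ω ≤ (1 + 1 / (p * A.card)) * M) ∧ (∀ ω, W' ω ≠ 0 → hit A ω ∧ Φ ω) ∧
      Dep W' (A ∪ D) ∧
      ∀ S : Finset ι, Ex (fun _ => p) (fun ω => W' ω * ind (cont S ω))
        ≤ (p * (r + 1 / (p * A.card))) ^ S.card := by
  have hc : (0 : ℝ) < A.card := by exact_mod_cast hA.card_pos
  have hμ : 0 < p * A.card := mul_pos hp0 hc
  have hq0 : ∀ _ : ι, (0 : ℝ) ≤ p := fun _ => hp0.le
  have hq1 : ∀ _ : ι, p ≤ 1 := fun _ => hp1
  have hM0 : 0 ≤ M := (h0 (fun _ => true)).trans (hM _)
  refine ⟨plantOp p A W, ?_, ?_, ?_, ?_, ?_, ?_⟩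
  · intro ω
    unfold plantOp
    refine add_nonneg (mul_nonneg (ind_nonneg _) (h0 _)) (sum_nonneg fun u _ => ?_)
    split_ifs
    · exact mul_nonneg (by linarith) (div_nonneg (mul_nonneg (ind_nonneg _) (h0 _)) hμ.le)
    · exact le_rfl
  · have := Ex_plantOp p A W (fun _ => 1)
    simp only [mul_one] at this
    rw [this, sum_const, Ex_smul, nsmul_eq_mul, ← mul_assoc,
      show (A.card : ℝ) * (p / (p * A.card)) = 1 by field_simp, one_mul, ← Ex_add, ← h1]
    exact Ex_congr fun ω => by rw [ind_not]; ring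
  · intro ω
    unfold plantOp
    have e1 : ind (hit A ω) * W ω ≤ M := by
      have := mul_le_mul_of_nonneg_right (ind_le_one (hit A ω)) (h0 ω)
      linarith [hM ω]
    have e2 : ∑ u ∈ A, (if ω u then (1 - p) *
        (ind (¬ hit A (Function.update ω u false)) * W (Function.update ω u false) / (p * A.card))
        else 0) ≤ ∑ u ∈ A, ind (ω u = true ∧ ¬ hit A (Function.update ω u false))
          * (M / (p * A.card)) := by
      refine sum_le_sum fun u _ => ?_
      by_cases hω : ω u = true
      · by_cases hh : hit A (Function.update ω u false)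
        · simp [hω, ind_neg (not_not.2 hh)]
        · rw [if_pos hω, ind_pos hh, ind_pos ⟨hω, hh⟩, one_mul, one_mul]
          have a1 : W (Function.update ω u false) / (p * A.card) ≤ M / (p * A.card) :=
            div_le_div_of_nonneg_right (hM _) hμ.le
          have a2 : 0 ≤ W (Function.update ω u false) / (p * A.card) := div_nonneg (h0 _) hμ.le
          nlinarith
      · rw [if_neg hω, ind_neg (fun h => hω h.1), zero_mul]
    have e3 : ∑ u ∈ A, ind (ω u = true ∧ ¬ hit A (Function.update ω u false)) ≤ 1 := by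
      classical
      rw [sum_ind]
      have : (A.filter fun u => ω u = true ∧ ¬ hit A (Function.update ω u false)).card ≤ 1 := by
        rw [Finset.card_le_one]
        intro u hu v hv
        rw [mem_filter] at hu hv
        by_contra huv
        exact hu.2.2 ⟨v, hv.1, by rw [Function.update_of_ne (Ne.symm huv)]; exact hv.2.1⟩
      exact_mod_cast this
    rw [← sum_mul] at e2
    have e4 : 0 ≤ M / (p * A.card) := div_nonneg hM0 hμ.le
    have e5 : (1 + 1 / (p * A.card)) * M = M + M / (p * A.card) := by ring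
    nlinarith
  · intro ω hω
    unfold plantOp at hω
    by_cases e1 : ind (hit A ω) * W ω = 0
    · rw [e1, zero_add] at hω
      obtain ⟨u, hu, hne⟩ := exists_ne_zero_of_sum_ne_zero hω
      have hωu : ω u = true := by
        by_contra h; exact hne (if_neg h)
      refine ⟨⟨u, hu, hωu⟩, hΦ ω u (hs _ fun h => hne ?_)⟩
      rw [if_pos hωu, h]; simp
    · refine ⟨by_contra fun h => e1 (by rw [ind_neg h, zero_mul]), hs _ fun h => e1 ?_⟩
      rw [h, mul_zero]
  · intro ω ω' hω
    have hh : ∀ ω ω' : ι → Bool, (∀ u ∈ A ∪ D, ω u = ω' u) → (hit A ω ↔ hit A ω') := by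
      intro ω ω' hω
      constructor
      · rintro ⟨u, hu, h⟩; exact ⟨u, hu, by rw [← hω u (mem_union_left _ hu)]; exact h⟩
      · rintro ⟨u, hu, h⟩; exact ⟨u, hu, by rw [hω u (mem_union_left _ hu)]; exact h⟩
    have hW : ∀ ω ω' : ι → Bool, (∀ u ∈ A ∪ D, ω u = ω' u) → W ω = W ω' :=
      fun ω ω' hω => hD ω ω' fun u hu => hω u (mem_union_right _ hu)
    unfold plantOp
    rw [ind_congr (hh ω ω' hω), hW ω ω' hω]
    congr 1
    refine sum_congr rfl fun u hu => ?_
    have hup : ∀ v ∈ A ∪ D, Function.update ω u false v = Function.update ω' u false v := by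
      intro v hv
      by_cases h : v = u
      · subst h; simp
      · rw [Function.update_of_ne h, Function.update_of_ne h, hω v hv]
    rw [hω u (mem_union_left _ hu), ind_congr (not_congr (hh _ _ hup)), hW _ _ hup]
  · intro S
    rw [Ex_plantOp]
    have hk : 0 ≤ p / (p * A.card) := div_nonneg hp0.le hμ.le
    -- bound each term
    have e1 : ∀ u ∈ A, Ex (fun _ => p) (fun ω => p / (p * A.card) *
          (ind (¬ hit A ω) * W ω * ind (cont S (Function.update ω u true))))
        ≤ p / (p * A.card) * Ex (fun _ => p) (fun ω => ind (¬ hit A ω) * W ω * ind (cont S ω))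
          + p / (p * A.card) * (ind (u ∈ S) * (p * r) ^ (S.card - 1)) := by
      intro u _
      rw [Ex_smul, ← mul_add]
      refine mul_le_mul_of_nonneg_left ?_ hk
      by_cases huS : u ∈ S
      · rw [ind_pos huS, one_mul, ← card_erase_of_mem huS]
        have a1 : 0 ≤ Ex (fun _ => p) (fun ω => ind (¬ hit A ω) * W ω * ind (cont S ω)) :=
          Ex_nonneg hq0 hq1 fun ω => mul_nonneg (mul_nonneg (ind_nonneg _) (h0 _)) (ind_nonneg _)
        have a2 : Ex (fun _ => p) (fun ω =>
            ind (¬ hit A ω) * W ω * ind (cont S (Function.update ω u true)))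
            ≤ Ex (fun _ => p) (fun ω => W ω * ind (cont (S.erase u) ω)) := by
          refine Ex_mono hq0 hq1 fun ω => ?_
          have b1 : ind (cont S (Function.update ω u true)) ≤ ind (cont (S.erase u) ω) := by
            refine ind_mono fun h v hv => ?_
            have := h v (mem_of_mem_erase hv)
            rwa [Function.update_of_ne (ne_of_mem_erase hv)] at this
          have b2 : ind (¬ hit A ω) * W ω ≤ W ω := by
            have := mul_le_mul_of_nonneg_right (ind_le_one (¬ hit A ω)) (h0 ω)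
            linarith
          exact mul_le_mul b2 b1 (ind_nonneg _) (h0 _)
        linarith [hsp (S.erase u)]
      · rw [ind_neg huS, zero_mul, add_zero]
        refine le_of_eq (Ex_congr fun ω => ?_)
        congr 1
        refine ind_congr ⟨fun h v hv => ?_, fun h v hv => ?_⟩
        · have := h v hv
          rwa [Function.update_of_ne (fun e : v = u => huS (e ▸ hv))] at this
        · rw [Function.update_of_ne (fun e : v = u => huS (e ▸ hv))]; exact h v hv
    have e2 := sum_le_sum e1
    rw [sum_add_distrib, sum_const, nsmul_eq_mul, ← mul_assoc,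
      show (A.card : ℝ) * (p / (p * A.card)) = 1 by field_simp, one_mul, ← mul_sum, ← sum_mul]
      at e2
    have e3 : ∑ u ∈ A, ind (u ∈ S) ≤ S.card := by
      rw [sum_ind]
      exact_mod_cast card_le_card fun u hu => (mem_filter.1 hu).2
    have e4 : Ex (fun _ => p) (fun ω => ind (hit A ω) * W ω * ind (cont S ω))
        + Ex (fun _ => p) (fun ω => ind (¬ hit A ω) * W ω * ind (cont S ω))
        = Ex (fun _ => p) (fun ω => W ω * ind (cont S ω)) := by
      rw [← Ex_add]; exact Ex_congr fun ω => by rw [ind_not]; ring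
    have hpr : 0 ≤ p * r := mul_nonneg hp0.le hr
    have e5 : (p * r) ^ S.card + S.card * (p * r) ^ (S.card - 1) * (p / (p * A.card))
        ≤ (p * (r + 1 / (p * A.card))) ^ S.card := by
      rw [show p * (r + 1 / (p * A.card)) = p * r + p / (p * A.card) by ring]
      exact pow_add_mul_le_add_pow hpr (by linarith) _
    have e6 : p / (p * A.card) * ((∑ u ∈ A, ind (u ∈ S)) * (p * r) ^ (S.card - 1))
        ≤ S.card * (p * r) ^ (S.card - 1) * (p / (p * A.card)) := by
      rw [mul_comm]
      exact mul_le_mul_of_nonneg_right (mul_le_mul_of_nonneg_right e3 (pow_nonneg hpr _)) hk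
    linarith [hsp S]

/-- The planted density for a family of sets. -/
lemma plant {κ : Type*} [DecidableEq κ] {p : ℝ} (hp0 : 0 < p) (hp1 : p ≤ 1) (J : Finset κ)
    (A : κ → Finset ι) (hA : ∀ j ∈ J, (A j).Nonempty) :
    ∃ W : (ι → Bool) → ℝ, (∀ ω, 0 ≤ W ω) ∧ Ex (fun _ => p) W = 1 ∧
      (∀ ω, W ω ≤ ∏ j ∈ J, (1 + 1 / (p * (A j).card))) ∧
      (∀ ω, W ω ≠ 0 → ∀ j ∈ J, hit (A j) ω) ∧
      Dep W (J.biUnion A) ∧
      ∀ S : Finset ι, Ex (fun _ => p) (fun ω => W ω * ind (cont S ω))
        ≤ (p * (1 + ∑ j ∈ J, 1 / (p * (A j).card))) ^ S.card := by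
  induction J using Finset.induction_on with
  | empty =>
    refine ⟨fun _ => 1, fun _ => zero_le_one, Ex_const _ _, fun _ => by simp, fun _ _ j hj => by
      simp at hj, fun _ _ _ => rfl, fun S => ?_⟩
    simp only [one_mul, sum_empty, add_zero, mul_one]
    have e : ∀ ω : ι → Bool, ind (cont S ω) = ∏ u ∈ S, ind (ω u = true) := by
      intro ω
      by_cases h : cont S ω
      · rw [ind_pos h, prod_eq_one fun u hu => ind_pos (h u hu)]
      · rw [ind_neg h]
        unfold cont at h
        push Not at h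
        obtain ⟨u, hu, h⟩ := h
        exact (prod_eq_zero hu (ind_neg h)).symm
    rw [Ex_congr e, Ex_prod_indep S (fun u ω => ind (ω u = true)) (fun u => {u})]
    · rw [← prod_const]
      refine le_of_eq (prod_congr rfl fun u _ => ?_)
      have := Ex_flip (p := fun _ : ι => p) u (fun _ => 1)
      have h2 : Ex (fun _ : ι => p) (fun ω => if ω u = true then (1 - p) * 1 else 0)
          = (1 - p) * Ex (fun _ : ι => p) (fun ω => ind (ω u = true)) := by
        rw [← Ex_smul]; exact Ex_congr fun ω => by by_cases h : ω u = true <;> simp [ind, h]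
      have h3 : Ex (fun _ : ι => p) (fun ω => if ω u = true then 0 else p * 1)
          = p * (1 - Ex (fun _ : ι => p) (fun ω => ind (ω u = true))) := by
        conv_rhs => rw [← Ex_const (fun _ : ι => p) 1]
        rw [← Ex_sub, ← Ex_smul]
        exact Ex_congr fun ω => by by_cases h : ω u = true <;> simp [ind, h]
      rw [h2, h3] at this
      linarith
    · intro u _ ω ω' h
      simp only [h u (mem_singleton_self u)]
    · intro u _ v _ huv
      exact disjoint_singleton.2 huv
  | insert a J ha ih =>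
    obtain ⟨W, h0, h1, hM, hs, hD, hsp⟩ := ih fun j hj => hA j (mem_insert_of_mem hj)
    have hr : 0 ≤ 1 + ∑ j ∈ J, 1 / (p * (A j).card) :=
      add_nonneg zero_le_one (sum_nonneg fun j _ => by positivity)
    obtain ⟨W', g0, g1, gM, gs, gD, gsp⟩ := plant_step hp0 hp1 (A a) (hA a (mem_insert_self _ _))
      W _ _ _ (fun ω => ∀ j ∈ J, hit (A j) ω) (fun ω u h j hj => hit_of_update (h j hj))
      h0 h1 hM hs hD hr hsp
    refine ⟨W', g0, g1, fun ω => by rw [prod_insert ha]; exact gM ω, fun ω h j hj => ?_,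
      by rw [biUnion_insert]; exact gD, fun S => ?_⟩
    · rcases mem_insert.1 hj with rfl | hj
      · exact (gs ω h).1
      · exact (gs ω h).2 j hj
    · rw [sum_insert ha]
      convert gsp S using 3
      ring

end Vale.Agent.P230
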