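import Vale.Agent.P230.UDefs

/-! One-dimensional Gaussian Riemann sums and the Chernoff estimates. -/

open MeasureTheory Finset

namespace Vale.Agent.P230

lemma rk_sumWin (F : ℝ → ℝ) (J : ℕ) :
    ∑ i ∈ Win J, F |(i : ℝ)| = ∑ k ∈ range J, F k + ∑ k ∈ range J, F (k + 1) := by
  induction J with
  | zero => simp [Win]
  | succ J ih =>
    have e : Win (J + 1) = insert (J : ℤ) (insert (-((J : ℤ) + 1)) (Win J)) := by
      ext i
      simp only [Win, mem_Ico, mem_insert]
      push_cast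
      omega
    have h1 : (-((J : ℤ) + 1)) ∉ Win J := by
      simp only [Win, mem_Ico]; omega
    have h2 : (J : ℤ) ∉ insert (-((J : ℤ) + 1)) (Win J) := by
      simp only [Win, mem_Ico, mem_insert]; omega
    rw [e, sum_insert h2, sum_insert h1, ih, sum_range_succ, sum_range_succ]
    have a1 : |(((J : ℤ)) : ℝ)| = (J : ℝ) := by
      push_cast; exact abs_of_nonneg (by positivity)
    have a2 : |((-((J : ℤ) + 1) : ℤ) : ℝ)| = (J : ℝ) + 1 := by
      push_cast; rw [abs_neg]; exact abs_of_nonneg (by positivity)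
    rw [a1, a2]; ring

section Tail

variable {h : ℝ → ℝ}

lemma rk_step (hint : Integrable h) (ha : AntitoneOn h (Set.Ici 0)) {x η : ℝ} (hx : 0 ≤ x)
    (hη : 0 ≤ η) :
    η * h (x + η) ≤ (∫ t in Set.Ioi x, h t) - (∫ t in Set.Ioi (x + η), h t) ∧
      (∫ t in Set.Ioi x, h t) - (∫ t in Set.Ioi (x + η), h t) ≤ η * h x := by
  have hle : x ≤ x + η := by linarith
  rw [intervalIntegral.integral_Ioi_sub_Ioi hint.integrableOn hle]
  constructor
  · have := intervalIntegral.integral_mono_on (μ := volume) (f := fun _ => h (x + η)) (g := h) hle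
      intervalIntegrable_const hint.intervalIntegrable (fun t ht =>
        ha (Set.mem_Ici.2 (hx.trans ht.1)) (Set.mem_Ici.2 (hx.trans hle)) ht.2)
    simpa using this
  · have := intervalIntegral.integral_mono_on (μ := volume) (g := fun _ => h x) (f := h) hle
      hint.intervalIntegrable intervalIntegrable_const (fun t ht =>
        ha (Set.mem_Ici.2 hx) (Set.mem_Ici.2 (hx.trans ht.1)) ht.1)
    simpa using this

lemma rk_tail_anti (hint : Integrable h) (h0 : ∀ x, 0 ≤ h x) {x y : ℝ} (hxy : x ≤ y) :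
    (∫ t in Set.Ioi y, h t) ≤ ∫ t in Set.Ioi x, h t :=
  setIntegral_mono_set hint.integrableOn (Filter.Eventually.of_forall h0)
    (Set.Ioi_subset_Ioi hxy).eventuallyLE

lemma rk_tail_nonneg (h0 : ∀ x, 0 ≤ h x) (x : ℝ) : 0 ≤ ∫ t in Set.Ioi x, h t :=
  integral_nonneg h0

lemma rk_range (hint : Integrable h) (ha : AntitoneOn h (Set.Ici 0)) {η c : ℝ} (hη : 0 ≤ η)
    (hc : 0 ≤ c) (J : ℕ) :
    ∑ k ∈ range J, η * h (η * (k + c + 1)) ≤
        (∫ t in Set.Ioi (η * c), h t) - (∫ t in Set.Ioi (η * (J + c)), h t) ∧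
      (∫ t in Set.Ioi (η * c), h t) - (∫ t in Set.Ioi (η * (J + c)), h t) ≤
        ∑ k ∈ range J, η * h (η * (k + c)) := by
  induction J with
  | zero => simp
  | succ J ih =>
    have hs := rk_step hint ha (x := η * (J + c)) (by positivity) hη
    have e : η * (J + c) + η = η * (J + c + 1) := by ring
    have e2 : η * (((J + 1 : ℕ) : ℝ) + c) = η * (J + c + 1) := by push_cast; ring
    rw [e] at hs
    rw [sum_range_succ, sum_range_succ, e2]
    constructor
    · linarith [ih.1, hs.1]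
    · linarith [ih.2, hs.2]

lemma rk_upper (hint : Integrable h) (h0 : ∀ x, 0 ≤ h x) (ha : AntitoneOn h (Set.Ici 0))
    {η : ℝ} (hη : 0 ≤ η) (J : ℕ) :
    ∑ i ∈ Win J, η * h (η * (|(i : ℝ)| + 2)) ≤ 2 * ∫ t in Set.Ioi 0, h t := by
  rw [rk_sumWin (fun x => η * h (η * (x + 2))) J]
  have h1 := (rk_range hint ha hη (c := 1) (by norm_num) J).1
  have h2 := (rk_range hint ha hη (c := 2) (by norm_num) J).1
  have e1 : ∀ k : ℕ, (k : ℝ) + 1 + 1 = k + 2 := fun k => by ring
  have e2 : ∀ k : ℕ, (k : ℝ) + 2 + 1 = k + 1 + 2 := fun k => by ring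
  simp only [e1] at h1
  simp only [e2] at h2
  have t1 := rk_tail_anti hint h0 (x := 0) (y := η * 1) (by positivity)
  have t2 := rk_tail_anti hint h0 (x := 0) (y := η * 2) (by positivity)
  have t3 := rk_tail_nonneg h0 (η * (J + 1))
  have t4 := rk_tail_nonneg h0 (η * (J + 2))
  linarith

lemma rk_lower (hint : Integrable h) (h0 : ∀ x, 0 ≤ h x) (ha : AntitoneOn h (Set.Ici 0))
    {η : ℝ} (hη : 0 ≤ η) (J : ℕ) :
    2 * (∫ t in Set.Ioi 0, h t) - 2 * (∫ t in Set.Ioi (η * J), h t) - 5 * η * h 0 ≤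
      ∑ i ∈ Win J, η * h (η * (|(i : ℝ)| + 2)) := by
  rw [rk_sumWin (fun x => η * h (η * (x + 2))) J]
  have h1 := (rk_range hint ha hη (c := 2) (by norm_num) J).2
  have h2 := (rk_range hint ha hη (c := 3) (by norm_num) J).2
  have e2 : ∀ k : ℕ, (k : ℝ) + 3 = k + 1 + 2 := fun k => by ring
  simp only [e2] at h2
  have t1 := (rk_step hint ha (x := 0) (η := η * 2) le_rfl (by positivity)).2
  have t2 := (rk_step hint ha (x := 0) (η := η * 3) le_rfl (by positivity)).2
  rw [zero_add] at t1 t2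
  have t3 := rk_tail_anti hint h0 (x := η * J) (y := η * (J + 2)) (by nlinarith)
  have t4 := rk_tail_anti hint h0 (x := η * J) (y := η * (J + 1 + 2)) (by nlinarith)
  linarith

end Tail

lemma rk_gd_pos (x : ℝ) : 0 < gd x := by
  unfold gd
  have := Real.pi_pos
  positivity

lemma rk_gd_eq : gd = fun x => (√(2 * Real.pi))⁻¹ * Real.exp (-(1 / 2) * x ^ 2) := by
  funext x
  unfold gd
  rw [div_eq_inv_mul]
  congr 2
  ring

lemma rk_gd_int : Integrable gd := by
  rw [rk_gd_eq]
  exact (integrable_exp_neg_mul_sq (by norm_num)).const_mul _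

lemma rk_gd_anti : AntitoneOn gd (Set.Ici 0) := by
  intro x hx y _ hxy
  unfold gd
  have := Real.pi_pos
  refine div_le_div_of_nonneg_right (Real.exp_le_exp.2 ?_) (by positivity)
  have hx' : 0 ≤ x := hx
  nlinarith

lemma rk_gd_half : ∫ t in Set.Ioi 0, gd t = 1 / 2 := by
  rw [rk_gd_eq, integral_const_mul, integral_gaussian_Ioi]
  have := Real.pi_pos
  have e : Real.pi / (1 / 2) = 2 * Real.pi := by ring
  rw [e]
  have : √(2 * Real.pi) ≠ 0 := by positivity
  field_simp

lemma rk_gd2_eq : (fun x => gd x ^ 2) = fun x => (2 * Real.pi)⁻¹ * Real.exp (-1 * x ^ 2) := by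
  funext x
  unfold gd
  have := Real.pi_pos
  rw [div_pow, Real.sq_sqrt (by positivity), div_eq_inv_mul, ← Real.exp_nat_mul]
  congr 2
  push_cast
  ring

lemma rk_gd2_int : Integrable (fun x => gd x ^ 2) := by
  rw [rk_gd2_eq]
  exact (integrable_exp_neg_mul_sq (by norm_num)).const_mul _

lemma rk_gd2_anti : AntitoneOn (fun x => gd x ^ 2) (Set.Ici 0) := fun _ hx _ hy hxy =>
  pow_le_pow_left₀ (rk_gd_pos _).le (rk_gd_anti hx hy hxy) 2

lemma rk_gd2_half : 2 * ∫ t in Set.Ioi 0, gd t ^ 2 ≤ 285 / 1000 := by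
  have e := congrArg (fun f : ℝ → ℝ => ∫ t in Set.Ioi 0, f t) rk_gd2_eq
  rw [e, integral_const_mul, integral_gaussian_Ioi, div_one]
  have hp := Real.pi_pos
  have h1 : (1.7544 : ℝ) ≤ √Real.pi := Real.le_sqrt_of_sq_le (by linarith [Real.pi_gt_d2])
  have h2 : √Real.pi * √Real.pi = Real.pi := Real.mul_self_sqrt hp.le
  have h3 : 2 * ((2 * Real.pi)⁻¹ * (√Real.pi / 2)) = √Real.pi / (2 * Real.pi) := by
    field_simp
  rw [h3, div_le_iff₀ (by positivity)]
  nlinarith

lemma rk_gd_tail {a : ℝ} (ha : 0 ≤ a) :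
    2 * ∫ t in Set.Ioi a, gd t ≤ Real.exp (-a ^ 2 / 2) := by
  have e := (measurePreserving_add_right (volume : Measure ℝ) a).setIntegral_preimage_emb
    (measurableEmbedding_addRight a) gd (Set.Ioi a)
  have e2 : (fun x => x + a) ⁻¹' Set.Ioi a = Set.Ioi 0 := by
    ext x; simp
  rw [e2] at e
  rw [← e]
  have h1 : ∫ x in Set.Ioi 0, gd (x + a) ≤ ∫ x in Set.Ioi 0, Real.exp (-a ^ 2 / 2) * gd x := by
    refine setIntegral_mono_on (rk_gd_int.comp_add_right a).integrableOn
      (rk_gd_int.const_mul _).integrableOn measurableSet_Ioi (fun x hx => ?_)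
    have hx' : 0 < x := hx
    unfold gd
    rw [← mul_div_assoc, ← Real.exp_add]
    have := Real.pi_pos
    refine div_le_div_of_nonneg_right (Real.exp_le_exp.2 ?_) (by positivity)
    nlinarith [mul_nonneg ha hx'.le]
  rw [integral_const_mul, rk_gd_half] at h1
  linarith

lemma rk_sqrt_lo : (5 / 2 : ℝ) ≤ √(2 * Real.pi) :=
  Real.le_sqrt_of_sq_le (by linarith [Real.pi_gt_d2])

lemma rk_sqrt_hi : √(2 * Real.pi) ≤ 251 / 100 :=
  Real.sqrt_le_iff.2 ⟨by norm_num, by linarith [Real.pi_lt_d2]⟩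

lemma rk_gd_zero : gd 0 ≤ 2 / 5 := by
  unfold gd
  have := rk_sqrt_lo
  rw [div_le_iff₀ (by linarith)]
  simp only [ne_eq, OfNat.ofNat_ne_zero, not_false_eq_true, zero_pow, neg_zero, zero_div,
    Real.exp_zero]
  linarith

lemma rk_qq_nonneg {η : ℝ} (hη : 0 < η) (i : ℤ) : 0 ≤ qq η i :=
  mul_nonneg hη.le (rk_gd_pos _).le

lemma rk_one (η : ℝ) (J : ℕ) (hη : 0 < η) : ∑ i ∈ Win J, qq η i ≤ 1 := by
  have := rk_upper rk_gd_int (fun x => (rk_gd_pos x).le) rk_gd_anti hη.le J
  rw [rk_gd_half] at this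
  unfold qq
  linarith

lemma rk_two (η : ℝ) (J : ℕ) (hη : 0 < η) :
    1 - Real.exp (-(η * J) ^ 2 / 2) - 3 * η ≤ ∑ i ∈ Win J, qq η i := by
  have := rk_lower rk_gd_int (fun x => (rk_gd_pos x).le) rk_gd_anti hη.le J
  rw [rk_gd_half] at this
  have h2 := rk_gd_tail (a := η * J) (by positivity)
  have h3 := rk_gd_zero
  unfold qq
  nlinarith

lemma rk_sq (η : ℝ) (J : ℕ) (hη : 0 < η) : ∑ i ∈ Win J, qq η i ^ 2 ≤ η * (285 / 1000) := by
  have := rk_upper rk_gd2_int (fun x => sq_nonneg _) rk_gd2_anti hη.le J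
  have h2 := this.trans rk_gd2_half
  calc ∑ i ∈ Win J, qq η i ^ 2 = η * ∑ i ∈ Win J, η * gd (η * (|(i : ℝ)| + 2)) ^ 2 := by
        rw [mul_sum]
        refine sum_congr rfl fun i _ => ?_
        unfold qq; ring
    _ ≤ η * (285 / 1000) := mul_le_mul_of_nonneg_left h2 hη.le

lemma rk_card_Win (J : ℕ) : (Win J).card = 2 * J := by
  simp only [Win, Int.card_Ico]; omega

lemma rk_mass (η : ℝ) (hη : 0 < η) (hη1 : η ≤ 1 / 100) :
    337 / 1000 ≤ ∑ i ∈ Win ⌊1 / (2 * η)⌋₊, qq η i := by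
  set J0 := ⌊1 / (2 * η)⌋₊ with hJ0
  have h1 : (J0 : ℝ) ≤ 1 / (2 * η) := Nat.floor_le (by positivity)
  have h2 : 1 / (2 * η) < J0 + 1 := Nat.lt_floor_add_one _
  have h1' : η * J0 ≤ 1 / 2 := by
    rw [le_div_iff₀ (by positivity)] at h1; linarith
  have h2' : 1 < (J0 + 1) * (2 * η) := by rwa [div_lt_iff₀ (by positivity)] at h2
  have hg : 3445 / 10000 ≤ gd (52 / 100) := by
    unfold gd
    have := rk_sqrt_lo
    have h3 := rk_sqrt_hi
    have h4 := Real.add_one_le_exp (-(52 / 100 : ℝ) ^ 2 / 2)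
    rw [le_div_iff₀ (by linarith)]
    nlinarith
  have hterm : ∀ i ∈ Win J0, η * (3445 / 10000) ≤ qq η i := by
    intro i hi
    unfold qq
    refine mul_le_mul_of_nonneg_left (hg.trans (rk_gd_anti ?_ ?_ ?_)) hη.le
    · exact Set.mem_Ici.2 (by positivity)
    · exact Set.mem_Ici.2 (by norm_num)
    · have hi' : |(i : ℝ)| ≤ J0 := by
        simp only [Win, mem_Ico] at hi
        have : |i| ≤ (J0 : ℤ) := abs_le.2 ⟨hi.1, hi.2.le⟩
        exact_mod_cast this
      nlinarith
  have := card_nsmul_le_sum _ _ _ hterm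
  rw [rk_card_Win, nsmul_eq_mul] at this
  push_cast at this
  nlinarith

lemma rk_Win_mono {a b : ℕ} (h : a ≤ b) : Win a ⊆ Win b := by
  intro i hi
  simp only [Win, mem_Ico] at hi ⊢
  omega

lemma rk_three (η : ℝ) (J r : ℕ) (hη : 0 < η) (hη1 : η ≤ 1 / 100) (hJ : 1 ≤ η * J) :
    ∑ j ∈ Fintype.piFinset fun _ : Fin r => Win J, (∏ c, qq η (j c)) * ind (¬ TypD η J j)
      ≤ Real.exp (-(r : ℝ) / 2000) := by
  set J0 := ⌊1 / (2 * η)⌋₊ with hJ0
  have hJ0J : J0 ≤ J := by
    have h1 : (J0 : ℝ) ≤ 1 / (2 * η) := Nat.floor_le (by positivity)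
    have h2 : 1 / (2 * η) ≤ (J : ℝ) := by
      rw [div_le_iff₀ (by positivity)]; nlinarith
    exact_mod_cast h1.trans h2
  set f : ℤ → ℝ := fun i => qq η i * Real.exp ((31 / 100 - ind (i ∈ Win J0)) / 20) with hf
  have step1 : ∀ j ∈ Fintype.piFinset fun _ : Fin r => Win J,
      (∏ c, qq η (j c)) * ind (¬ TypD η J j) ≤ ∏ c, f (j c) := by
    intro j hj
    simp only [hf]
    rw [prod_mul_distrib, ← Real.exp_sum]
    refine mul_le_mul_of_nonneg_left ?_ (prod_nonneg fun c _ => rk_qq_nonneg hη _)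
    by_cases hT : TypD η J j
    · rw [ind_neg (not_not.2 hT)]; exact (Real.exp_pos _).le
    · rw [ind_pos hT]
      refine Real.one_le_exp ?_
      have hlt : ∑ c, ind (j c ∈ Win J0) < 31 / 100 * (r : ℝ) := by
        by_contra hc
        exact hT ⟨Fintype.mem_piFinset.1 hj, not_lt.1 hc⟩
      rw [← sum_div, sum_sub_distrib]
      simp only [sum_const, card_univ, Fintype.card_fin, nsmul_eq_mul]
      linarith
  have step2 : ∑ i ∈ Win J, f i ≤ Real.exp (-1 / 2000) := by
    have hx : Real.exp (-1 / 20) ≤ 20 / 21 := by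
      have := Real.add_one_le_exp (1 / 20 : ℝ)
      have e : Real.exp (-1 / 20) * Real.exp (1 / 20) = 1 := by
        rw [← Real.exp_add]; norm_num
      have := Real.exp_pos (-1 / 20 : ℝ)
      nlinarith
    have hfi : ∀ i ∈ Win J, f i ≤
        Real.exp (31 / 2000) * (qq η i - 1 / 21 * (qq η i * ind (i ∈ Win J0))) := by
      intro i _
      simp only [hf]
      have hq := rk_qq_nonneg hη i
      by_cases hi : i ∈ Win J0
      · rw [ind_pos hi]
        have e : Real.exp ((31 / 100 - 1) / 20) = Real.exp (31 / 2000) * Real.exp (-1 / 20) := by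
          rw [← Real.exp_add]; norm_num
        rw [e]
        have := mul_le_mul_of_nonneg_left hx (mul_nonneg hq (Real.exp_pos (31 / 2000)).le)
        nlinarith
      · rw [ind_neg hi]
        norm_num
        rw [mul_comm]
    have hs : ∑ i ∈ Win J, qq η i * ind (i ∈ Win J0) = ∑ i ∈ Win J0, qq η i := by
      rw [← sum_subset (rk_Win_mono hJ0J) (fun i _ hi => by rw [ind_neg hi, mul_zero])]
      exact sum_congr rfl fun i hi => by rw [ind_pos hi, mul_one]
    have h1 := sum_le_sum hfi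
    rw [← mul_sum, sum_sub_distrib, ← mul_sum, hs] at h1
    have h2 := rk_one η J hη
    have h3 := rk_mass η hη hη1
    have h4 := Real.add_one_le_exp (-(337 / 21000) : ℝ)
    have h5 : Real.exp (31 / 2000) * Real.exp (-(337 / 21000)) ≤ Real.exp (-1 / 2000) := by
      rw [← Real.exp_add]; exact Real.exp_le_exp.2 (by norm_num)
    refine h1.trans (le_trans ?_ h5)
    refine mul_le_mul_of_nonneg_left ?_ (Real.exp_pos _).le
    linarith
  calc _ ≤ ∑ j ∈ Fintype.piFinset fun _ : Fin r => Win J, ∏ c, f (j c) := sum_le_sum step1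
    _ = ∏ _c : Fin r, ∑ i ∈ Win J, f i := (prod_univ_sum (fun _ => Win J) fun _ i => f i).symm
    _ ≤ ∏ _c : Fin r, Real.exp (-1 / 2000) := by
        refine prod_le_prod (fun c _ => sum_nonneg fun i _ => ?_) fun c _ => step2
        exact mul_nonneg (rk_qq_nonneg hη _) (Real.exp_pos _).le
    _ = Real.exp (-(r : ℝ) / 2000) := by
        rw [← Real.exp_sum]
        simp only [sum_const, card_univ, Fintype.card_fin, nsmul_eq_mul]
        congr 1; ring

lemma rk_inj {J p : ℕ} (hJ : 2 * J ≤ p) {a b : ℤ} (ha : a ∈ Win J) (hb : b ∈ Win J)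
    (h : (a : ZMod p) = b) : a = b := by
  simp only [Win, mem_Ico] at ha hb
  have hd := (ZMod.intCast_eq_intCast_iff_dvd_sub a b p).1 h
  have := Int.eq_zero_of_abs_lt_dvd hd (by rw [abs_lt]; constructor <;> omega)
  omega

/-- one coordinate is determined by the others -/
lemma rk_elim {J p l : ℕ} (hp : p.Prime) (hJ : 2 * J ≤ p) (m : Fin l → ZMod p) (τ : ZMod p)
    (w : Fin l → ℤ → ℝ) (hw : ∀ k a, 0 ≤ w k a) (i i' : Fin l) (hne : i ≠ i') (hm : m i' ≠ 0)
    (h1 : ∀ a, w i' a = 1) (hs : ∀ k, k ≠ i → k ≠ i' → ∑ a ∈ Win J, w k a ≤ 1) :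
    ∑ y ∈ Fintype.piFinset fun _ : Fin l => Win J,
      (∏ k, w k (y k)) * ind (τ = ∑ k, m k * (y k : ZMod p)) ≤ ∑ a ∈ Win J, w i a := by
  classical
  have : Fact p.Prime := ⟨hp⟩
  set S := (Fintype.piFinset fun _ : Fin l => Win J).filter
    (fun y => τ = ∑ k, m k * (y k : ZMod p)) with hS
  set T : Fin l → Finset ℤ := Function.update (fun _ => Win J) i' {0} with hT
  have e1 : ∑ y ∈ Fintype.piFinset fun _ : Fin l => Win J,
      (∏ k, w k (y k)) * ind (τ = ∑ k, m k * (y k : ZMod p)) =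
      ∑ y ∈ S, ∏ k, w k (Function.update y i' 0 k) := by
    rw [hS, sum_filter]
    refine sum_congr rfl fun y _ => ?_
    split_ifs with h
    · rw [ind_pos h, mul_one]
      refine prod_congr rfl fun k _ => ?_
      by_cases hk : k = i'
      · subst hk; rw [h1, h1]
      · rw [Function.update_of_ne hk]
    · rw [ind_neg h, mul_zero]
  have hinj : Set.InjOn (fun y : Fin l → ℤ => Function.update y i' 0) S := by
    intro y hy z hz hyz
    have hy' := mem_filter.1 (mem_coe.1 hy)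
    have hz' := mem_filter.1 (mem_coe.1 hz)
    have hk : ∀ k, k ≠ i' → y k = z k := fun k hk => by
      have := congrFun hyz k
      simpa [Function.update_of_ne hk] using this
    have hsum := hy'.2.symm.trans hz'.2
    rw [← add_sum_erase _ _ (mem_univ i'), ← add_sum_erase _ _ (mem_univ i')] at hsum
    have hrest : ∑ k ∈ univ.erase i', m k * (y k : ZMod p) =
        ∑ k ∈ univ.erase i', m k * (z k : ZMod p) :=
      sum_congr rfl fun k hk' => by rw [hk k (ne_of_mem_erase hk')]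
    rw [hrest, add_left_inj] at hsum
    have h2 := mul_left_cancel₀ hm hsum
    have h3 := rk_inj hJ (Fintype.mem_piFinset.1 hy'.1 i') (Fintype.mem_piFinset.1 hz'.1 i') h2
    funext k
    by_cases hk' : k = i'
    · subst hk'; exact h3
    · exact hk k hk'
  have e2 : ∑ y ∈ S, ∏ k, w k (Function.update y i' 0 k) =
      ∑ z ∈ S.image (fun y : Fin l → ℤ => Function.update y i' 0), ∏ k, w k (z k) :=
    (sum_image (f := fun z : Fin l → ℤ => ∏ k, w k (z k)) hinj).symm
  have hsub : S.image (fun y : Fin l → ℤ => Function.update y i' 0) ⊆ Fintype.piFinset T := by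
    intro z hz
    obtain ⟨y, hy, rfl⟩ := mem_image.1 hz
    refine Fintype.mem_piFinset.2 fun k => ?_
    by_cases hk : k = i'
    · subst hk; simp [hT]
    · rw [hT, Function.update_of_ne hk, Function.update_of_ne hk]
      exact Fintype.mem_piFinset.1 (mem_filter.1 hy).1 k
  rw [e1, e2]
  refine (sum_le_sum_of_subset_of_nonneg hsub fun z _ _ =>
    prod_nonneg fun k _ => hw k _).trans ?_
  rw [← prod_univ_sum T w, ← mul_prod_erase _ _ (mem_univ i)]
  have e3 : T i = Win J := by rw [hT, Function.update_of_ne hne]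
  rw [e3]
  refine mul_le_of_le_one_right (sum_nonneg fun a _ => hw i a) ?_
  refine prod_le_one (fun k _ => sum_nonneg fun a _ => hw k a) fun k hk => ?_
  by_cases hk' : k = i'
  · subst hk'; simp [hT, h1]
  · rw [hT, Function.update_of_ne hk']
    exact hs k (ne_of_mem_erase hk) hk'

lemma rk_point {η : ℝ} (hη : 0 < η) {J p l : ℕ} (hp : p.Prime) (hJ : 2 * J ≤ p)
    (m : Fin l → ZMod p) (τ : ZMod p) (i i' : Fin l) (hne : i ≠ i') (hm : m i ≠ 0)
    (hm' : m i' ≠ 0) :
    ∑ y ∈ Fintype.piFinset fun _ : Fin l => Win J,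
      (∏ k, qq η (y k)) * ind (τ = ∑ k, m k * (y k : ZMod p)) ≤ η * (285 / 1000) := by
  classical
  set W : Fin l → Fin l → Fin l → ℤ → ℝ := fun a b k x =>
    if k = a then qq η x ^ 2 else if k = b then 1 else qq η x with hW
  have hWb : ∀ a b : Fin l, a ≠ b → m b ≠ 0 →
      ∑ y ∈ Fintype.piFinset fun _ : Fin l => Win J,
        (∏ k, W a b k (y k)) * ind (τ = ∑ k, m k * (y k : ZMod p)) ≤ η * (285 / 1000) := by
    intro a b hab hb
    refine (rk_elim hp hJ m τ (W a b) (fun k x => ?_) a b hab hb (fun x => ?_)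
      (fun k h1 h2 => ?_)).trans ?_
    · simp only [hW]
      split_ifs
      · positivity
      · norm_num
      · exact rk_qq_nonneg hη x
    · simp only [hW, if_neg hab.symm, if_true]
    · simp only [hW, if_neg h1, if_neg h2]
      exact rk_one η J hη
    · simp only [hW, if_true]
      exact rk_sq η J hη
  have hsplit : ∀ (g : Fin l → ℝ), ∏ k, g k = g i * g i' * ∏ k ∈ (univ.erase i).erase i', g k := by
    intro g
    rw [← mul_prod_erase _ _ (mem_univ i),
      ← mul_prod_erase (univ.erase i) g (a := i') (mem_erase.2 ⟨hne.symm, mem_univ _⟩), mul_assoc]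
  have hpt : ∀ y : Fin l → ℤ, ∏ k, qq η (y k) ≤
      ((∏ k, W i i' k (y k)) + ∏ k, W i' i k (y k)) / 2 := by
    intro y
    rw [hsplit, hsplit (fun k => W i i' k (y k)), hsplit (fun k => W i' i k (y k))]
    have r1 : ∏ k ∈ (univ.erase i).erase i', W i i' k (y k) =
        ∏ k ∈ (univ.erase i).erase i', qq η (y k) := prod_congr rfl fun k hk => by
      have h1 := ne_of_mem_erase hk
      have h2 := ne_of_mem_erase (mem_of_mem_erase hk)
      simp only [hW, if_neg h1, if_neg h2]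
    have r2 : ∏ k ∈ (univ.erase i).erase i', W i' i k (y k) =
        ∏ k ∈ (univ.erase i).erase i', qq η (y k) := prod_congr rfl fun k hk => by
      have h1 := ne_of_mem_erase hk
      have h2 := ne_of_mem_erase (mem_of_mem_erase hk)
      simp only [hW, if_neg h1, if_neg h2]
    rw [r1, r2]
    simp only [hW, if_true, if_neg hne, if_neg hne.symm]
    have hR : 0 ≤ ∏ k ∈ (univ.erase i).erase i', qq η (y k) :=
      prod_nonneg fun k _ => rk_qq_nonneg hη _
    nlinarith [mul_nonneg hR (sq_nonneg (qq η (y i) - qq η (y i')))]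
  have h1 := hWb i i' hne hm'
  have h2 := hWb i' i hne.symm hm
  calc _ ≤ ∑ y ∈ Fintype.piFinset fun _ : Fin l => Win J,
        (((∏ k, W i i' k (y k)) + ∏ k, W i' i k (y k)) / 2) *
          ind (τ = ∑ k, m k * (y k : ZMod p)) :=
        sum_le_sum fun y _ => mul_le_mul_of_nonneg_right (hpt y) (ind_nonneg _)
    _ = ((∑ y ∈ Fintype.piFinset fun _ : Fin l => Win J,
          (∏ k, W i i' k (y k)) * ind (τ = ∑ k, m k * (y k : ZMod p))) +
        ∑ y ∈ Fintype.piFinset fun _ : Fin l => Win J,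
          (∏ k, W i' i k (y k)) * ind (τ = ∑ k, m k * (y k : ZMod p))) / 2 := by
        rw [← sum_add_distrib, sum_div]
        exact sum_congr rfl fun y _ => by ring
    _ ≤ η * (285 / 1000) := by linarith

lemma rk_ind_exists {α : Type*} (s : Finset α) (P : α → Prop) :
    ind (∃ a ∈ s, P a) ≤ ∑ a ∈ s, ind (P a) := by
  by_cases h : ∃ a ∈ s, P a
  · rw [ind_pos h]
    obtain ⟨a, ha, hP⟩ := h
    have := single_le_sum (f := fun a => ind (P a)) (fun a _ => ind_nonneg _) ha
    rwa [ind_pos hP] at this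
  · rw [ind_neg h]; exact sum_nonneg fun a _ => ind_nonneg _

lemma rk_four (η : ℝ) (J r p l : ℕ) (m : Fin l → ZMod p) (hη : 0 < η) (hp : p.Prime)
    (hJ : 2 * J ≤ p) (hm : ∃ i i', i ≠ i' ∧ m i ≠ 0 ∧ m i' ≠ 0) :
    ∑ e ∈ Fintype.piFinset fun _ : Fin l => Fintype.piFinset fun _ : Fin r => Win J,
      (∏ i, ∏ c, qq η (e i c)) *
        ind (∃ j : Fin r → ℤ, TypD η J j ∧ ∀ c, (j c : ZMod p) = ∑ i, m i * (e i c : ZMod p))
      ≤ Real.exp (-(r : ℝ) / 2000) := by
  classical
  obtain ⟨i, i', hne, hi, hi'⟩ := hm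
  set J0 := ⌊1 / (2 * η)⌋₊ with hJ0
  set X : (Fin l → ℤ) → ℝ := fun y =>
    ind (∃ a ∈ Win J0, (a : ZMod p) = ∑ k, m k * (y k : ZMod p)) with hX
  set f : (Fin l → ℤ) → ℝ := fun y =>
    (∏ k, qq η (y k)) * Real.exp ((X y - 31 / 100) / 20) with hf
  have step1 : ∀ e : Fin l → Fin r → ℤ, (∏ i, ∏ c, qq η (e i c)) *
        ind (∃ j : Fin r → ℤ, TypD η J j ∧ ∀ c, (j c : ZMod p) = ∑ i, m i * (e i c : ZMod p))
        ≤ ∏ c, f (fun k => e k c) := by
    intro e
    simp only [hf]
    rw [prod_mul_distrib, ← Real.exp_sum, prod_comm]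
    refine mul_le_mul_of_nonneg_left ?_
      (prod_nonneg fun c _ => prod_nonneg fun k _ => rk_qq_nonneg hη _)
    by_cases hT : ∃ j : Fin r → ℤ, TypD η J j ∧
        ∀ c, (j c : ZMod p) = ∑ i, m i * (e i c : ZMod p)
    · rw [ind_pos hT]
      obtain ⟨j, hj, hjc⟩ := hT
      refine Real.one_le_exp ?_
      have hle : ∑ c, ind (j c ∈ Win J0) ≤ ∑ c, X (fun k => e k c) :=
        sum_le_sum fun c _ => ind_mono fun h => ⟨j c, h, hjc c⟩
      have := hj.2.trans hle
      rw [← sum_div, sum_sub_distrib]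
      simp only [sum_const, card_univ, Fintype.card_fin, nsmul_eq_mul]
      linarith
    · rw [ind_neg hT]; exact (Real.exp_pos _).le
  have hq1 : ∑ y ∈ Fintype.piFinset fun _ : Fin l => Win J, ∏ k, qq η (y k) ≤ 1 := by
    rw [← prod_univ_sum (fun _ => Win J) fun _ a => qq η a]
    exact prod_le_one (fun k _ => sum_nonneg fun a _ => rk_qq_nonneg hη a)
      fun k _ => rk_one η J hη
  have hP : ∑ y ∈ Fintype.piFinset fun _ : Fin l => Win J, (∏ k, qq η (y k)) * X y
      ≤ 285 / 1000 := by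
    have h1 : (J0 : ℝ) ≤ 1 / (2 * η) := Nat.floor_le (by positivity)
    have h1' : 2 * (J0 : ℝ) * η ≤ 1 := by
      rw [le_div_iff₀ (by positivity)] at h1; linarith
    calc _ ≤ ∑ y ∈ Fintype.piFinset fun _ : Fin l => Win J, ∑ a ∈ Win J0,
          (∏ k, qq η (y k)) * ind ((a : ZMod p) = ∑ k, m k * (y k : ZMod p)) := by
          refine sum_le_sum fun y _ => ?_
          rw [← mul_sum]
          exact mul_le_mul_of_nonneg_left (rk_ind_exists _ _)
            (prod_nonneg fun k _ => rk_qq_nonneg hη _)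
      _ = ∑ a ∈ Win J0, ∑ y ∈ Fintype.piFinset fun _ : Fin l => Win J,
          (∏ k, qq η (y k)) * ind ((a : ZMod p) = ∑ k, m k * (y k : ZMod p)) := sum_comm
      _ ≤ ∑ _a ∈ Win J0, η * (285 / 1000) :=
          sum_le_sum fun a _ => rk_point hη hp hJ m _ i i' hne hi hi'
      _ ≤ 285 / 1000 := by
          rw [sum_const, rk_card_Win, nsmul_eq_mul]
          push_cast
          nlinarith
  have step2 : ∑ y ∈ Fintype.piFinset fun _ : Fin l => Win J, f y ≤ Real.exp (-1 / 2000) := by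
    have hx : Real.exp (1 / 20) ≤ 1 + 525 / 10000 := by
      have := Real.abs_exp_sub_one_sub_id_le (x := 1 / 20) (by norm_num [abs_of_pos])
      have := (abs_le.1 this).2
      linarith
    have hfi : ∀ y ∈ Fintype.piFinset fun _ : Fin l => Win J, f y ≤
        Real.exp (-31 / 2000) * ((∏ k, qq η (y k)) + 525 / 10000 * ((∏ k, qq η (y k)) * X y)) := by
      intro y _
      simp only [hf, hX]
      have hq : 0 ≤ ∏ k, qq η (y k) := prod_nonneg fun k _ => rk_qq_nonneg hη _
      by_cases hy : ∃ a ∈ Win J0, (a : ZMod p) = ∑ k, m k * (y k : ZMod p)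
      · rw [ind_pos hy]
        have e : Real.exp ((1 - 31 / 100) / 20) = Real.exp (-31 / 2000) * Real.exp (1 / 20) := by
          rw [← Real.exp_add]; norm_num
        rw [e]
        have := mul_le_mul_of_nonneg_left hx (mul_nonneg hq (Real.exp_pos (-31 / 2000)).le)
        nlinarith
      · rw [ind_neg hy]
        have e : ((0 : ℝ) - 31 / 100) / 20 = -31 / 2000 := by norm_num
        rw [e, mul_zero, mul_zero, add_zero, mul_comm]
    have h1 := sum_le_sum hfi
    rw [← mul_sum, sum_add_distrib, ← mul_sum] at h1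
    have h4 := Real.add_one_le_exp (525 / 10000 * (285 / 1000) : ℝ)
    have h5 : Real.exp (-31 / 2000) * Real.exp (525 / 10000 * (285 / 1000))
        ≤ Real.exp (-1 / 2000) := by
      rw [← Real.exp_add]; exact Real.exp_le_exp.2 (by norm_num)
    refine h1.trans (le_trans ?_ h5)
    refine mul_le_mul_of_nonneg_left ?_ (Real.exp_pos _).le
    linarith
  calc _ ≤ ∑ e ∈ Fintype.piFinset fun _ : Fin l => Fintype.piFinset fun _ : Fin r => Win J,
        ∏ c, f (fun k => e k c) := sum_le_sum fun e _ => step1 e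
    _ = ∑ g ∈ Fintype.piFinset fun _ : Fin r => Fintype.piFinset fun _ : Fin l => Win J,
        ∏ c, f (g c) := by
        refine sum_nbij' (fun e c k => e k c) (fun g k c => g c k) ?_ ?_ ?_ ?_ ?_
        · intro e he
          simp only [Fintype.mem_piFinset] at he ⊢
          exact fun c k => he k c
        · intro g hg
          simp only [Fintype.mem_piFinset] at hg ⊢
          exact fun k c => hg c k
        · intro e _; rfl
        · intro g _; rfl
        · intro e _; rfl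
    _ = ∏ _c : Fin r, ∑ y ∈ Fintype.piFinset fun _ : Fin l => Win J, f y :=
        (prod_univ_sum (fun _ => Fintype.piFinset fun _ : Fin l => Win J) fun _ y => f y).symm
    _ ≤ ∏ _c : Fin r, Real.exp (-1 / 2000) := by
        refine prod_le_prod (fun c _ => sum_nonneg fun y _ => ?_) fun c _ => step2
        exact mul_nonneg (prod_nonneg fun k _ => rk_qq_nonneg hη _) (Real.exp_pos _).le
    _ = Real.exp (-(r : ℝ) / 2000) := by
        rw [← Real.exp_sum]
        simp only [sum_const, card_univ, Fintype.card_fin, nsmul_eq_mul]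
        congr 1; ring

theorem rk : RKP :=
  ⟨rk_one, rk_two, rk_three, fun η J r p l m hη _ hp hJ hm => rk_four η J r p l m hη hp hJ hm⟩

end Vale.Agent.P230
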