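import Vale.Agent.P230.Body

/-! From a covering of space to a finite configuration. -/

open MeasureTheory Finset Metric Filter
open scoped ENNReal Pointwise

namespace Vale.Agent.P230

variable {n : ℕ}

lemma sum_ind_ball (Q : Finset (Lat n)) (y : E n) {r : ℝ} (hr : 0 ≤ r) :
    ∑ z ∈ Q, ind (‖emb z - y‖ ≤ r) ≤ om n * (r + √n) ^ n := by
  classical
  rw [sum_ind]
  exact le_trans (Nat.cast_le.2 (card_le_card fun z hz => mem_LB.2 (mem_filter.1 hz).2))
    (card_LB_le y hr)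

lemma shell_le {R t : ℝ} (hn : 0 < n) (hR : 0 < R) (hg : n * √n ≤ R / 2) (ht : t ≤ n)
    {k : ℝ} (hk0 : 0 ≤ k) (hk : k ≤ 2) :
    (R * (1 - t / n) + k * √n) ^ n ≤ 3 * Real.exp (-t) * R ^ n := by
  have hn' : (0 : ℝ) < n := by exact_mod_cast hn
  have hg0 : 0 ≤ √(n : ℝ) := Real.sqrt_nonneg _
  have h1 : t / n ≤ 1 := (div_le_one hn').2 ht
  have h2 : R * (1 - t / n) + k * √n = R * (1 + (k * √n / R - t / n)) := by field_simp; ring
  have h3 : 0 ≤ k * √n / R := by positivity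
  rw [h2, mul_pow, mul_comm]
  refine mul_le_mul_of_nonneg_right ?_ (by positivity)
  have h4 : (1 + (k * √n / R - t / n)) ^ n ≤ Real.exp (k * √n / R - t / n) ^ n :=
    pow_le_pow_left₀ (by linarith) (by linarith [Real.add_one_le_exp (k * √n / R - t / n)]) n
  refine h4.trans ?_
  rw [← Real.exp_nat_mul]
  have h5 : n * (k * √n / R - t / n) ≤ 1 + -t := by
    have e1 : n * (k * √n / R - t / n) = k * (n * √n) / R - t := by field_simp
    have e2 : k * (n * √n) / R ≤ 1 := by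
      rw [div_le_one hR]
      have := mul_le_mul hk hg (by positivity) (by norm_num)
      linarith
    linarith
  refine (Real.exp_le_exp.2 h5).trans ?_
  rw [Real.exp_add]
  exact mul_le_mul_of_nonneg_right (by linarith [Real.exp_one_lt_d9]) (Real.exp_pos _).le

lemma sum_exp_le (S : ℕ) : ∑ j ∈ range S, Real.exp (-(j : ℝ)) ≤ 2 := by
  have h1 : ∀ j : ℕ, Real.exp (-(j : ℝ)) ≤ (1 / 2) ^ j := by
    intro j
    rw [show -(j : ℝ) = j * (-1) by ring, Real.exp_nat_mul]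
    refine pow_le_pow_left₀ (Real.exp_pos _).le ?_ j
    rw [Real.exp_neg, one_div]
    exact inv_anti₀ (by norm_num) (by linarith [Real.add_one_le_exp 1])
  refine (sum_le_sum fun j _ => h1 j).trans ?_
  have := Summable.sum_le_tsum (range S) (fun j _ => by positivity) summable_geometric_two
  rwa [tsum_geometric_two] at this

lemma sum_fc {a R Θ : ℝ} {S : ℕ} (hn : 0 < n) (ha : 0 < a) (ha1 : a ≤ 1 / 2) (hR : 0 < R)
    (hg : 7 * n * √n ≤ a ^ 2 * R) (hSn : S ≤ n) (hΘ : 0 ≤ Θ) (hΘS : Θ * Real.exp (-S) ≤ 1)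
    (Q : Finset (Lat n)) (y : E n) :
    ∑ z ∈ Q, fc a R Θ S (emb z - y) ≤ 30 / a ^ 2 * (om n * R ^ n) := by
  have hn' : (0 : ℝ) < n := by exact_mod_cast hn
  have hg0 : 0 ≤ √(n : ℝ) := Real.sqrt_nonneg _
  have ha2 : a ^ 2 ≤ 1 / 4 := by nlinarith
  have hg' : n * √n ≤ R / 2 := by
    have : a ^ 2 * R ≤ 1 / 4 * R := mul_le_mul_of_nonneg_right ha2 hR.le
    have : 0 ≤ n * √(n : ℝ) := by positivity
    linarith
  have hom := @om_pos n
  have hV : 0 < om n * R ^ n := by positivity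
  have key : ∀ t : ℝ, t ≤ n → ∑ z ∈ Q, ind (‖emb z - y‖ ≤ R * (1 - t / n))
      ≤ 3 * Real.exp (-t) * (om n * R ^ n) := by
    intro t ht
    have h1 : t / n ≤ 1 := (div_le_one hn').2 ht
    refine (sum_ind_ball Q y (mul_nonneg hR.le (by linarith))).trans ?_
    have := mul_le_mul_of_nonneg_left (shell_le hn hR hg' ht zero_le_one (by norm_num)) hom.le
    rw [one_mul] at this
    linarith
  have h1 : ∑ z ∈ Q, ind (‖emb z - y‖ ≤ R + √n) ≤ 3 * (om n * R ^ n) := by
    refine (sum_ind_ball Q y (by positivity)).trans ?_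
    have := mul_le_mul_of_nonneg_left (shell_le (t := 0) hn hR hg' hn'.le zero_le_two le_rfl) hom.le
    simp only [zero_div, sub_zero, mul_one, neg_zero, Real.exp_zero] at this
    rw [show R + √n + √n = R + 2 * √n by ring]
    linarith
  have h2 : ∑ j ∈ range S, ∑ z ∈ Q, ind (‖emb z - y‖ ≤ R * (1 - j / n))
      ≤ 6 * (om n * R ^ n) := by
    refine (sum_le_sum fun (j : ℕ) hj => key j
      (Nat.cast_le.2 ((mem_range.1 hj).le.trans hSn))).trans ?_
    rw [← sum_mul, ← mul_sum]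
    exact mul_le_mul_of_nonneg_right (by linarith [sum_exp_le S]) hV.le
  have h3 : Θ * ∑ z ∈ Q, ind (‖emb z - y‖ ≤ R * (1 - S / n)) ≤ 3 * (om n * R ^ n) := by
    refine (mul_le_mul_of_nonneg_left (key S (Nat.cast_le.2 hSn)) hΘ).trans ?_
    have := mul_le_mul_of_nonneg_right hΘS hV.le
    linarith
  unfold fc
  rw [sum_add_distrib, sum_add_distrib, ← mul_sum, ← mul_sum, ← mul_sum, sum_comm]
  have h4 : 4 ≤ 1 / a ^ 2 := by rw [le_div_iff₀ (by positivity)]; linarith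
  have h5 := mul_le_mul_of_nonneg_left h2 (by positivity : 0 ≤ 4 / a ^ 2)
  have h6 := mul_le_mul_of_nonneg_right h4 hV.le
  have e1 : 4 / a ^ 2 * (6 * (om n * R ^ n)) = 24 * (1 / a ^ 2 * (om n * R ^ n)) := by ring
  have e2 : 30 / a ^ 2 * (om n * R ^ n) = 30 * (1 / a ^ 2 * (om n * R ^ n)) := by ring
  linarith

lemma isBounded_cube2 (ρ : ℝ) : Bornology.IsBounded (cube n ρ) := by
  refine (isBounded_closedBall (x := (0 : E n)) (r := √(n * ρ ^ 2))).subset fun x hx => ?_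
  rw [mem_closedBall, dist_zero_right, EuclideanSpace.norm_eq]
  refine Real.sqrt_le_sqrt ?_
  calc ∑ i, ‖x i‖ ^ 2 ≤ ∑ _i : Fin n, ρ ^ 2 :=
        sum_le_sum fun i _ => pow_le_pow_left₀ (norm_nonneg _) (hx i) 2
    _ = _ := by simp

lemma exists_window {X : Set (E n)} {I : ℝ} (hI : 0 < I)
    (h : upperDensity X < ENNReal.ofReal I) (c : ℝ) :
    ∃ Q : ℕ, ((X ∩ cube n (Q + c)).ncard : ℝ) ≤ 2 * I * (2 * Q + 1) ^ n := by
  have h1 := eventually_lt_of_limsup_lt h
  have ht : Tendsto (fun Q : ℕ => (Q : ℝ) + c) atTop atTop :=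
    tendsto_atTop_add_const_right _ _ tendsto_natCast_atTop_atTop
  have h2 := ht.eventually h1
  have h3 := ht.eventually (eventually_gt_atTop 0)
  have h4 : Tendsto (fun Q : ℕ => (1 + (2 * c - 1) / (2 * (Q : ℝ) + 1)) ^ n) atTop
      (nhds ((1 + 0) ^ n)) := by
    refine Tendsto.pow (Tendsto.const_add _ (Tendsto.div_atTop tendsto_const_nhds ?_)) n
    exact tendsto_atTop_add_const_right _ _
      (Tendsto.const_mul_atTop two_pos tendsto_natCast_atTop_atTop)
  have h5 := h4.eventually (gt_mem_nhds (show ((1 : ℝ) + 0) ^ n < 2 by simp))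
  obtain ⟨Q, hQ2, hQ3, hQ5⟩ := (h2.and (h3.and h5)).exists
  refine ⟨Q, ?_⟩
  have hpos : (0 : ℝ) < (2 * (Q + c)) ^ n := by positivity
  rw [ENNReal.div_lt_iff (Or.inl (by simpa using hpos)) (Or.inl ENNReal.ofReal_ne_top),
    ← ENNReal.ofReal_mul hI.le, ← ENNReal.ofReal_natCast,
    ENNReal.ofReal_lt_ofReal_iff (by positivity)] at hQ2
  have hq : (0 : ℝ) < 2 * Q + 1 := by positivity
  have e : (2 * ((Q : ℝ) + c)) ^ n = (1 + (2 * c - 1) / (2 * (Q : ℝ) + 1)) ^ n * (2 * Q + 1) ^ n := by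
    rw [← mul_pow]; congr 1; field_simp; ring
  have h6 := mul_le_mul_of_nonneg_right hQ5.le (by positivity : (0 : ℝ) ≤ (2 * Q + 1) ^ n)
  have h7 := mul_le_mul_of_nonneg_left h6 hI.le
  rw [e] at hQ2
  linarith

lemma reduce {a R Θ D : ℝ} {S T : ℕ} (hn : 0 < n) (ha : 0 < a) (ha1 : a ≤ 1 / 2) (hR : 0 < R)
    (hg : 7 * n * √n ≤ a ^ 2 * R) (hSn : S ≤ n) (hΘ : 0 < Θ) (hΘS : Θ * Real.exp (-S) ≤ 1)
    (hD : 0 < D) (hT : 16 * D * 4 ^ n ≤ T) (hΘD : 64 * D * (30 / a ^ 2) ≤ Θ)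
    (ω : Gr n R → Bool) (hvol : ENNReal.ofReal (om n * R ^ n / 4) ≤ volume (KB a R ω))
    (hω : ∀ C : Finset (Lat n), C ⊆ LB (0 : E n) (3 * R) → C.card ≤ T →
        ∑ u ∈ LB (0 : E n) R, ∑ b ∈ LB (0 : E n) (a * R), cost a R Θ S C (u + b)
          ≤ (LB (0 : E n) R).card * (LB (0 : E n) (a * R)).card * (Θ / 4) →
        ¬ AllCov a R C ω) :
    ENNReal.ofReal D ≤ thetaT (KB a R ω) := by
  classical
  unfold thetaT
  refine le_iInf fun X => le_iInf fun hX => le_iInf fun hcov => ?_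
  by_contra hlt
  rw [not_le] at hlt
  have hn' : (1 : ℝ) ≤ n := by exact_mod_cast hn
  have hg0 : 0 ≤ √(n : ℝ) := Real.sqrt_nonneg _
  have haR : 0 < a * R := by positivity
  have hgaR : √n ≤ a * R := by
    have h1 : a ^ 2 * R ≤ a * R := by nlinarith
    have h2 : √n ≤ 7 * n * √n := by nlinarith
    linarith
  have haRR : a * R ≤ R / 2 := by nlinarith
  have hom := @om_pos n
  have hV : 0 < om n * R ^ n := by positivity
  obtain ⟨V, hVdef⟩ : ∃ V, V = om n * R ^ n := ⟨_, rfl⟩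
  have hF := fun Q y => sum_fc (n := n) hn ha ha1 hR hg hSn hΘ.le hΘS Q y
  have h4V : om n * (3 * R + √n) ^ n ≤ 4 ^ n * V := by
    have : (3 * R + √n) ^ n ≤ (4 * R) ^ n := pow_le_pow_left₀ (by positivity) (by linarith) n
    rw [mul_pow] at this
    have := mul_le_mul_of_nonneg_left this hom.le
    rw [hVdef]; linarith
  rw [← hVdef] at hV hF hvol
  have hud : upperDensity X < ENNReal.ofReal (4 * D / V) := by
    by_contra h
    rw [not_lt] at h
    have := mul_le_mul' hvol h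
    rw [← ENNReal.ofReal_mul (by positivity), show V / 4 * (4 * D / V) = D by field_simp] at this
    exact absurd hlt (not_lt.2 this)
  obtain ⟨Q, hQ⟩ := exists_window (by positivity) hud (3 * R)
  have hfin : (X ∩ cube n (Q + 3 * R)).Finite := hX _ (isBounded_cube2 _)
  obtain ⟨Y, hY, hYc⟩ : ∃ Y : Finset (Lat n), (∀ c ∈ X ∩ cube n (Q + 3 * R), fl c ∈ Y) ∧
      (Y.card : ℝ) ≤ (X ∩ cube n (Q + 3 * R)).ncard := by
    refine ⟨hfin.toFinset.image fl, fun c hc => mem_image_of_mem _ (hfin.mem_toFinset.2 hc), ?_⟩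
    rw [Set.ncard_eq_toFinset_card _ hfin]
    exact_mod_cast card_image_le
  obtain ⟨Z, hZ, hZc⟩ : ∃ Z : Finset (Lat n), (∀ z ∈ Z, ∀ i, |(z i : ℝ)| ≤ Q) ∧
      (Z.card : ℝ) = (2 * Q + 1) ^ n := by
    refine ⟨Fintype.piFinset fun _ => Finset.Icc (-(Q : ℤ)) Q, fun z hz i => ?_, ?_⟩
    · have := Finset.mem_Icc.1 (Fintype.mem_piFinset.1 hz i)
      have h2 : |z i| ≤ (Q : ℤ) := abs_le.2 this
      exact_mod_cast h2
    · rw [Fintype.card_piFinset]
      simp only [Int.card_Icc, prod_const, card_univ, Fintype.card_fin]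
      have : ((Q : ℤ) + 1 - -(Q : ℤ)).toNat = 2 * Q + 1 := by omega
      rw [this]; push_cast; ring
  have hZne : Z.Nonempty := by
    rw [← card_pos]
    have : (0 : ℝ) < Z.card := by rw [hZc]; positivity
    exact_mod_cast this
  have hYZ : (Y.card : ℝ) ≤ 8 * D / V * Z.card := by
    rw [hZc]; refine hYc.trans (hQ.trans (le_of_eq ?_)); ring
  obtain ⟨P, hP⟩ : ∃ P, P = LB (0 : E n) R := ⟨_, rfl⟩
  obtain ⟨G, hG⟩ : ∃ G, G = LB (0 : E n) (a * R) := ⟨_, rfl⟩
  have hPc : (0 : ℝ) < P.card := by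
    have : (0 : Lat n) ∈ P := by rw [hP, mem_LB, emb_zero]; simpa using hR.le
    exact_mod_cast card_pos.2 ⟨0, this⟩
  have hGc : (0 : ℝ) < G.card := by
    have : (0 : Lat n) ∈ G := by rw [hG, mem_LB, emb_zero]; simpa using haR.le
    exact_mod_cast card_pos.2 ⟨0, this⟩
  rw [← hP, ← hG] at hω
  let C : Lat n → Finset (Lat n) :=
    fun z => (Y.filter fun c => ‖emb z - emb c‖ ≤ 3 * R).image fun c => c - z
  have hT0 : (0 : ℝ) < T := lt_of_lt_of_le (by positivity) hT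
  have s1 : ∑ z ∈ Z, ((C z).card : ℝ) ≤ T / 2 * Z.card := by
    calc ∑ z ∈ Z, ((C z).card : ℝ) ≤ ∑ z ∈ Z, ∑ c ∈ Y, ind (‖emb z - emb c‖ ≤ 3 * R) := by
          refine sum_le_sum fun z _ => ?_
          rw [sum_ind]
          exact_mod_cast card_image_le
      _ ≤ ∑ c ∈ Y, 4 ^ n * V := by
          rw [sum_comm]
          exact sum_le_sum fun c _ => (sum_ind_ball Z _ (by positivity)).trans h4V
      _ ≤ 8 * D / V * Z.card * (4 ^ n * V) := by
          rw [sum_const, nsmul_eq_mul]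
          exact mul_le_mul_of_nonneg_right hYZ (by positivity)
      _ = 8 * D * 4 ^ n * Z.card := by field_simp
      _ ≤ _ := mul_le_mul_of_nonneg_right (by linarith) (Nat.cast_nonneg _)
  have s2 : ∀ x, ∑ z ∈ Z, cost a R Θ S (C z) x ≤ Θ / 8 * Z.card := by
    intro x
    calc ∑ z ∈ Z, cost a R Θ S (C z) x
        ≤ ∑ z ∈ Z, ∑ c ∈ Y, fc a R Θ S (emb z - (emb c - emb x)) := by
          refine sum_le_sum fun z _ => ?_
          unfold cost
          rw [sum_image fun c _ c' _ e => sub_left_injective e]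
          refine le_trans (le_of_eq (sum_congr rfl fun c _ => ?_))
            (sum_le_sum_of_subset_of_nonneg (filter_subset _ _) fun c _ _ => fc_nonneg hΘ.le _ _)
          rw [emb_sub]; congr 1; abel
      _ ≤ ∑ c ∈ Y, 30 / a ^ 2 * V := by
          rw [sum_comm]
          exact sum_le_sum fun c _ => hF Z _
      _ ≤ 8 * D / V * Z.card * (30 / a ^ 2 * V) := by
          rw [sum_const, nsmul_eq_mul]
          exact mul_le_mul_of_nonneg_right hYZ (by positivity)
      _ = 8 * D * (30 / a ^ 2) * Z.card := by field_simp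
      _ ≤ _ := mul_le_mul_of_nonneg_right (by linarith) (Nat.cast_nonneg _)
  have s3 : ∑ z ∈ Z, ∑ u ∈ P, ∑ b ∈ G, cost a R Θ S (C z) (u + b)
      ≤ P.card * G.card * (Θ / 8) * Z.card := by
    rw [sum_comm]
    calc ∑ u ∈ P, ∑ z ∈ Z, ∑ b ∈ G, cost a R Θ S (C z) (u + b)
        ≤ ∑ u ∈ P, ∑ b ∈ G, Θ / 8 * Z.card := by
          refine sum_le_sum fun u _ => ?_
          rw [sum_comm]
          exact sum_le_sum fun b _ => s2 _
      _ = _ := by simp only [sum_const, nsmul_eq_mul]; ring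
  have hN : (0 : ℝ) < P.card * G.card * (Θ / 8) := by positivity
  obtain ⟨N, hNdef⟩ : ∃ N, N = (P.card : ℝ) * G.card * (Θ / 8) := ⟨_, rfl⟩
  rw [← hNdef] at hN s3
  obtain ⟨z, hz, hzle⟩ := exists_le_of_sum_le (f := fun z => N * ((C z).card : ℝ)
      + T / 2 * ∑ u ∈ P, ∑ b ∈ G, cost a R Θ S (C z) (u + b)) (g := fun _ => N * T) hZne (by
    rw [sum_add_distrib, ← mul_sum, ← mul_sum, sum_const, nsmul_eq_mul]
    have e1 := mul_le_mul_of_nonneg_left s1 hN.le
    have e2 := mul_le_mul_of_nonneg_left s3 (by positivity : (0 : ℝ) ≤ T / 2)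
    linarith)
  have hc0 : 0 ≤ ∑ u ∈ P, ∑ b ∈ G, cost a R Θ S (C z) (u + b) :=
    sum_nonneg fun u _ => sum_nonneg fun b _ => sum_nonneg fun c _ => fc_nonneg hΘ.le _ _
  refine hω (C z) (fun c hc => ?_) ?_ ?_ ?_
  · obtain ⟨c', hc', rfl⟩ := mem_image.1 hc
    rw [mem_LB, sub_zero, emb_sub, norm_sub_rev]
    exact (mem_filter.1 hc').2
  · have e1 : N * ((C z).card : ℝ) ≤ N * T := by
      have : 0 ≤ T / 2 * ∑ u ∈ P, ∑ b ∈ G, cost a R Θ S (C z) (u + b) := by positivity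
      linarith
    exact_mod_cast le_of_mul_le_mul_left e1 hN
  · have e1 : T / 2 * ∑ u ∈ P, ∑ b ∈ G, cost a R Θ S (C z) (u + b) ≤ T / 2 * (2 * N) := by
      have : 0 ≤ N * ((C z).card : ℝ) := by positivity
      linarith
    have := le_of_mul_le_mul_left e1 (by positivity)
    rw [hNdef] at this
    linarith
  · intro u hu b hb
    have hmem : emb (u + b) + emb z ∈ KB a R ω + X := by rw [hcov]; trivial
    obtain ⟨k, hk, c0, hc0X, hkc⟩ := Set.mem_add.1 hmem
    have hu' : ‖emb u‖ ≤ R := by simpa using mem_LB.1 hu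
    have hb' : ‖emb b‖ ≤ a * R := by simpa using mem_LB.1 hb
    have hub : ‖emb (u + b)‖ ≤ R + a * R := by
      rw [emb_add]; exact (norm_add_le _ _).trans (add_le_add hu' hb')
    have hk' : ‖k‖ ≤ R := by simpa using hk.1
    have hy : ‖k - (emb (u + b) - emb (fl c0 - z))‖ ≤ √n := by
      have := norm_sub_fl c0
      rw [norm_sub_rev] at this
      refine le_trans (le_of_eq ?_) this
      congr 1
      rw [emb_sub, eq_sub_of_add_eq hkc]; abel
    have hno : ¬ (‖emb (u + b) - emb (fl c0 - z)‖ ≤ R + √n →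
        hit (AS a R (emb (u + b) - emb (fl c0 - z))) ω) := fun h => not_mem_KB hR hn hy h hk
    rw [Classical.not_imp] at hno
    refine ⟨fl c0 - z, mem_image_of_mem _ (mem_filter.2 ⟨hY c0 ⟨hc0X, fun i => ?_⟩, ?_⟩), hno⟩
    · have e1 : ‖c0 - emb z‖ ≤ 3 * R := by
        calc ‖c0 - emb z‖ = ‖emb (u + b) - k‖ := by
              congr 1; rw [eq_sub_of_add_eq' hkc]; abel
          _ ≤ _ := (norm_sub_le _ _).trans (by linarith)
      have e2 := (abs_le_norm (c0 - emb z) i).trans e1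
      simp only [PiLp.sub_apply, emb_apply] at e2
      have e3 := hZ z hz i
      have e4 := abs_add_le (c0 i - z i) (z i)
      rw [sub_add_cancel] at e4
      linarith
    · calc ‖emb z - emb (fl c0)‖ = ‖(emb (u + b) - emb (fl c0 - z)) - emb (u + b)‖ := by
            congr 1; rw [emb_sub]; abel
        _ ≤ _ := (norm_sub_le _ _).trans (by linarith [hno.1])

end Vale.Agent.P230
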