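import Vale.Agent.P230.RogersPer

open MeasureTheory Filter
open scoped Pointwise ENNReal

namespace Vale.Agent.P230

theorem volumeReal_cube (n : ℕ) {R : ℝ} (hR : 0 ≤ R) :
    volume.real (cube n R) = (2 * R) ^ n := by
  rw [Measure.real, volume_cube' n hR, ENNReal.toReal_ofReal (by positivity)]

theorem volumeReal_smul {n : ℕ} {r : ℝ} (hr : 0 ≤ r) (S : Set (E n)) :
    volume.real (r • S) = r ^ n * volume.real S := by
  rw [Measure.real, Measure.addHaar_smul_of_nonneg volume hr, ENNReal.toReal_mul,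
    ENNReal.toReal_ofReal (by positivity), finrank_euclideanSpace, Fintype.card_fin, Measure.real]

theorem one_add_inv_pow_le_three {n : ℕ} (hn : 1 ≤ n) : (1 + (n : ℝ)⁻¹) ^ n ≤ 3 := by
  have hn' : (0 : ℝ) < n := by exact_mod_cast hn
  have h1 : 1 + (n : ℝ)⁻¹ ≤ Real.exp (n : ℝ)⁻¹ := by
    have := Real.add_one_le_exp (n : ℝ)⁻¹
    linarith
  calc (1 + (n : ℝ)⁻¹) ^ n ≤ (Real.exp (n : ℝ)⁻¹) ^ n := pow_le_pow_left₀ (by positivity) h1 n
    _ = Real.exp 1 := by
        rw [← Real.exp_nat_mul, mul_inv_cancel₀ hn'.ne']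
    _ ≤ 3 := by
        have := Real.exp_one_lt_d9
        linarith

/-- The covering of a large cube by few translates of a body with a large symmetric part. -/
theorem core_cover {n : ℕ} (hn : 1 ≤ n) {K S : Set (E n)} (hKm : MeasurableSet K)
    (hKb : Bornology.IsBounded K) (hKc : Convex ℝ K) (hv : 0 < volume.real K)
    (hSm : MeasurableSet S) (hSK : S ⊆ K) (hSc : Convex ℝ S) (hSs : ∀ s ∈ S, -s ∈ S)
    (hS : volume.real K ≤ 2 ^ n * volume.real S) :
    ∃ (L : ℝ) (X0 : Finset (E n)), 0 < L ∧ (∀ q ∈ cube n (L / 2), ∃ x ∈ X0, q - x ∈ K) ∧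
      X0.card * volume.real K ≤ (6 * n * Real.log (8 * n) + 4) * L ^ n := by
  classical
  have hn' : (1 : ℝ) ≤ n := by exact_mod_cast hn
  have hn0 : (0 : ℝ) < n := by linarith
  obtain ⟨d, hd, hKd⟩ := exists_subset_cube hKb
  set v := volume.real K with hvdef
  have hSne : S.Nonempty := by
    rcases S.eq_empty_or_nonempty with h | h
    · rw [h, measureReal_empty, mul_zero] at hS
      linarith
    · exact h
  have h0S : (0 : E n) ∈ S := by
    obtain ⟨s, hs⟩ := hSne
    have := hSc hs (hSs s hs) (a := 1 / 2) (b := 1 / 2) (by norm_num) (by norm_num) (by norm_num)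
    simpa using this
  have hscale : ∀ {C : Set (E n)}, Convex ℝ C → (0 : E n) ∈ C → ∀ {r : ℝ}, 0 ≤ r → r ≤ 1 →
      ∀ c ∈ C, r • c ∈ C := by
    intro C hC h0 r hr0 hr1 c hc
    have := hC hc h0 (a := r) (b := 1 - r) hr0 (by linarith) (by ring)
    simpa using this
  set δ : ℝ := 1 / (2 * n) with hδ
  have hδ0 : 0 < δ := by positivity
  have hδ1 : δ ≤ 1 / 2 := by
    rw [hδ]
    exact one_div_le_one_div_of_le (by norm_num) (by linarith)
  set L : ℝ := 4 * d * n with hL
  have hL0 : 0 < L := by positivity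
  have hLn : 0 < L ^ n := by positivity
  set T : Set (E n) := (1 - δ) • K with hT
  set D : Set (E n) := (δ / 2) • S with hD
  have hTm : MeasurableSet T := hKm.const_smul₀ _
  have hDm : MeasurableSet D := hSm.const_smul₀ _
  have hTK : T ⊆ K := by
    rintro _ ⟨k, hk, rfl⟩
    exact hscale hKc (hSK h0S) (by linarith) (by linarith) k hk
  have hDK : D ⊆ K := by
    rintro _ ⟨s, hs, rfl⟩
    exact hSK (hscale hSc h0S (by linarith) (by linarith) s hs)
  have hcf : ∀ R : ℝ, 0 ≤ R → volume (cube n R) ≠ ∞ := by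
    intro R hR
    rw [volume_cube' n hR]
    exact ENNReal.ofReal_ne_top
  have hKf : volume K ≠ ∞ := ne_top_of_le_ne_top (hcf d hd.le) (measure_mono hKd)
  have hTf : volume T ≠ ∞ := ne_top_of_le_ne_top hKf (measure_mono hTK)
  have hPpos : 0 < (2 * (L / 2 + 2 * d)) ^ n := by positivity
  have hP0 : volume (cube n (L / 2 + 2 * d)) ≠ 0 := by
    rw [volume_cube' n (by positivity)]
    exact (ENNReal.ofReal_pos.2 hPpos).ne'
  have hPle : (2 * (L / 2 + 2 * d)) ^ n ≤ 3 * L ^ n := by
    have h1 : 2 * (L / 2 + 2 * d) = (1 + (n : ℝ)⁻¹) * L := by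
      rw [hL]
      field_simp
      ring
    rw [h1, mul_pow]
    exact mul_le_mul_of_nonneg_right (one_add_inv_pow_le_three hn) hLn.le
  have hQle : (2 * (L / 2 + d)) ^ n ≤ 3 * L ^ n :=
    le_trans (pow_le_pow_left₀ (by positivity) (by linarith) n) hPle
  have hvL : v ≤ L ^ n := by
    have h1 : v ≤ (2 * d) ^ n := by
      rw [← volumeReal_cube n hd.le]
      exact measureReal_mono hKd (hcf d hd.le)
    refine h1.trans (pow_le_pow_left₀ (by positivity) ?_ n)
    rw [hL]
    nlinarith
  have hTv : v / 2 ≤ volume.real T := by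
    rw [hT, volumeReal_smul (by linarith)]
    have h1 : 1 + (n : ℝ) * (-δ) ≤ (1 + -δ) ^ n := one_add_mul_le_pow (by linarith) n
    have h2 : (n : ℝ) * δ = 1 / 2 := by
      rw [hδ]
      field_simp
    have h3 : 1 / 2 ≤ (1 - δ) ^ n := by
      rw [sub_eq_add_neg]
      linarith
    nlinarith
  have hlog : 0 ≤ Real.log (8 * n) := Real.log_nonneg (by linarith)
  set N : ℕ := ⌈6 * L ^ n / v * (n * Real.log (8 * n))⌉₊ with hN
  obtain ⟨X, hXc, hX⟩ := exists_greedy (measurableSet_cube' n (L / 2 + d)) hTm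
    (measurableSet_cube' n (L / 2 + 2 * d))
    (by
      intro u hu t ht i
      have h1 := hu i
      have h2 := hKd (hTK ht) i
      rw [PiLp.sub_apply]
      have := abs_sub (u i) (t i)
      linarith)
    (hcf _ (by positivity)) hTf hP0 (hcf _ (by positivity)) N
  set W : Set (E n) := cube n (L / 2 + d) \ ⋃ x ∈ X, tr x T with hW
  have hWf : volume W ≠ ∞ :=
    ne_top_of_le_ne_top (hcf (L / 2 + d) (by positivity)) (measure_mono Set.sdiff_subset)
  have hWle : volume.real W ≤ 3 * L ^ n * ((8 * n : ℝ) ^ n)⁻¹ := by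
    refine hX.trans ?_
    rw [volumeReal_cube n (by positivity), volumeReal_cube n (by positivity)]
    refine mul_le_mul hQle ?_ (Real.exp_pos _).le (by positivity)
    have h1 : ((8 * n : ℝ) ^ n)⁻¹ = Real.exp (-(n * Real.log (8 * n))) := by
      rw [Real.exp_neg, Real.exp_nat_mul, Real.exp_log (by positivity)]
    rw [h1]
    refine Real.exp_le_exp.2 (neg_le_neg ?_)
    have h2 : 6 * L ^ n / v * (n * Real.log (8 * n)) ≤ N := Nat.le_ceil _
    have h3 : v / (6 * L ^ n) ≤ volume.real T / (2 * (L / 2 + 2 * d)) ^ n := by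
      rw [div_le_div_iff₀ (by positivity) hPpos]
      nlinarith
    calc (n : ℝ) * Real.log (8 * n)
        = (6 * L ^ n / v * (n * Real.log (8 * n))) * (v / (6 * L ^ n)) := by
          field_simp
      _ ≤ N * (volume.real T / (2 * (L / 2 + 2 * d)) ^ n) :=
          mul_le_mul h2 h3 (by positivity) (Nat.cast_nonneg _)
  have hDge : v * ((8 * n : ℝ) ^ n)⁻¹ ≤ volume.real D := by
    rw [hD, volumeReal_smul (by linarith)]
    have h1 : ((8 * n : ℝ) ^ n)⁻¹ * 2 ^ n = (δ / 2) ^ n := by
      rw [← inv_pow, ← mul_pow, hδ]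
      congr 1
      field_simp
      norm_num
    rw [← h1]
    have h2 : 0 < ((8 * n : ℝ) ^ n)⁻¹ := by positivity
    nlinarith
  set m : ℕ := ⌊3 * L ^ n / v⌋₊ with hm
  obtain ⟨Y, hYc, hY⟩ := exists_packing hDm m
    {q | q ∈ cube n (L / 2) ∧ ∀ x ∈ X, q - x ∉ K} W hWf
    (by
      rintro a ⟨ha, ha'⟩ u hu
      have hu' : u - a ∈ D := hu
      refine ⟨fun i => ?_, ?_⟩
      · have h1 := ha i
        have h2 := hKd (hDK hu') i
        rw [PiLp.sub_apply] at h2
        have h3 : |u i| ≤ |u i - a i| + |a i| := by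
          have := abs_add_le (u i - a i) (a i)
          simpa using this
        linarith
      · simp only [Set.mem_iUnion, not_exists]
        intro x hx hux
        have hux' : u - x ∈ T := hux
        obtain ⟨k, hk, hk'⟩ := hux'
        obtain ⟨s, hs, hs'⟩ := hu'
        apply ha' x hx
        have h1 : (1 / 2 : ℝ) • (-s) ∈ K :=
          hSK (hscale hSc h0S (by norm_num) (by norm_num) _ (hSs s hs))
        have h2 := hKc hk h1 (a := 1 - δ) (b := δ) (by linarith) hδ0.le (by ring)
        have h3 : a - x = (u - x) - (u - a) := by abel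
        have hk'' : (1 - δ) • k = u - x := hk'
        have hs'' : (δ / 2) • s = u - a := hs'
        rw [h3, ← hk'', ← hs'']
        have h4 : (1 - δ) • k - (δ / 2) • s = (1 - δ) • k + δ • (1 / 2 : ℝ) • (-s) := by
          rw [smul_smul, smul_neg, sub_eq_add_neg]
          congr 3
          ring
        rw [h4]
        exact h2)
    (by
      have h1 : 3 * L ^ n / v < m + 1 := Nat.lt_floor_add_one _
      rw [div_lt_iff₀ hv] at h1
      have h2 : 0 < ((8 * n : ℝ) ^ n)⁻¹ := by positivity
      calc volume.real W ≤ 3 * L ^ n * ((8 * n : ℝ) ^ n)⁻¹ := hWle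
        _ < (m + 1) * v * ((8 * n : ℝ) ^ n)⁻¹ := mul_lt_mul_of_pos_right h1 h2
        _ = (m + 1) * (v * ((8 * n : ℝ) ^ n)⁻¹) := by ring
        _ ≤ (m + 1) * volume.real D := mul_le_mul_of_nonneg_left hDge (by positivity))
  refine ⟨L, X ∪ Y, hL0, fun q hq => ?_, ?_⟩
  · by_cases h : ∀ x ∈ X, q - x ∉ K
    · obtain ⟨y, hy, _, ⟨s, hs, rfl⟩, _, ⟨s', hs', rfl⟩, he⟩ := hY q ⟨hq, h⟩
      refine ⟨y, Finset.mem_union_right _ hy, ?_⟩
      have h1 := hSc hs (hSs s' hs') (a := 1 / 2) (b := 1 / 2) (by norm_num) (by norm_num)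
        (by norm_num)
      have h2 := hscale hSc h0S hδ0.le (by linarith) _ h1
      have h3 : δ • ((1 / 2 : ℝ) • s + (1 / 2 : ℝ) • (-s')) = (δ / 2) • s - (δ / 2) • s' := by
        rw [smul_add, smul_smul, smul_smul, smul_neg, sub_eq_add_neg]
        congr 2
        · ring
        · congr 1
          ring
      rw [he]
      exact hSK (h3 ▸ h2)
    · push Not at h
      obtain ⟨x, hx, hx'⟩ := h
      exact ⟨x, Finset.mem_union_left _ hx, hx'⟩
  · have h1 : ((X ∪ Y).card : ℝ) ≤ N + m := by
      have := Finset.card_union_le X Y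
      have h2 : (X ∪ Y).card ≤ N + m := by omega
      exact_mod_cast h2
    have h2 : (N : ℝ) < 6 * L ^ n / v * (n * Real.log (8 * n)) + 1 :=
      Nat.ceil_lt_add_one (by positivity)
    have h3 : (m : ℝ) ≤ 3 * L ^ n / v := Nat.floor_le (by positivity)
    have h4 : ((X ∪ Y).card : ℝ)
        ≤ 6 * L ^ n / v * (n * Real.log (8 * n)) + 1 + 3 * L ^ n / v := by linarith
    calc ((X ∪ Y).card : ℝ) * v
        ≤ (6 * L ^ n / v * (n * Real.log (8 * n)) + 1 + 3 * L ^ n / v) * v :=
          mul_le_mul_of_nonneg_right h4 hv.le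
      _ = 6 * L ^ n * (n * Real.log (8 * n)) + v + 3 * L ^ n := by
          field_simp
      _ ≤ (6 * n * Real.log (8 * n) + 4) * L ^ n := by nlinarith

theorem thetaT_le_rogers {n : ℕ} (hn : 1 ≤ n) {K : Set (E n)} (hK : IsConvexBody K) :
    thetaT K ≤ ENNReal.ofReal (6 * n * Real.log (8 * n) + 4) := by
  classical
  obtain ⟨hKc, hKv, hKi⟩ := hK
  have hKm : MeasurableSet K := hKc.isClosed.measurableSet
  have hKf : volume K ≠ ∞ := hKc.measure_lt_top.ne
  have hK0 : volume K ≠ 0 := (Measure.measure_pos_of_nonempty_interior volume hKi).ne'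
  have hv : 0 < volume.real K := ENNReal.toReal_pos hK0 hKf
  have hP : volume ((2 : ℝ) • K) = ENNReal.ofReal (2 ^ n) * volume K := by
    rw [Measure.addHaar_smul_of_nonneg volume (by norm_num), finrank_euclideanSpace,
      Fintype.card_fin]
  have hneg : volume (-K) = volume K := Measure.measure_neg volume K
  obtain ⟨w, hw⟩ := exists_inter_ge (U := K) (T := -K) (P := (2 : ℝ) • K) hKm hKm.neg
    (hKm.const_smul₀ _)
    (by
      intro u hu t ht
      refine ⟨_, hKv hu (Set.mem_neg.1 ht) (a := 1 / 2) (b := 1 / 2) (by norm_num) (by norm_num)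
        (by norm_num), ?_⟩
      simp only [smul_add, smul_smul]
      norm_num [sub_eq_add_neg])
    hKf (by rw [hneg]; exact hKf)
    (by
      rw [hP]
      exact mul_ne_zero (ENNReal.ofReal_pos.2 (by positivity)).ne' hK0)
    (by
      rw [hP]
      exact ENNReal.mul_ne_top ENNReal.ofReal_ne_top hKf)
  set z : E n := (1 / 2 : ℝ) • w with hz
  have hzz : z + z = w := by
    rw [hz, ← add_smul]
    norm_num
  have hIm : MeasurableSet (K ∩ tr w (-K)) := hKm.inter (measurableSet_tr w hKm.neg)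
  have hIf : volume (K ∩ tr w (-K)) ≠ ∞ :=
    ne_top_of_le_ne_top hKf (measure_mono Set.inter_subset_left)
  have hmemK : ∀ y, y ∈ tr (-z) K ↔ y + z ∈ K := by
    intro y
    simp [tr]
  have hmemS : ∀ y, y ∈ tr (-z) (K ∩ tr w (-K)) ↔ y + z ∈ K ∧ -y + z ∈ K := by
    intro y
    have : -y + z = -(y + z - w) := by
      rw [← hzz]
      abel
    rw [this]
    simp only [tr, Set.mem_ofPred_eq, Set.mem_inter_iff, sub_neg_eq_add, Set.mem_neg]
  have hconv : ∀ {x y : E n}, x + z ∈ K → y + z ∈ K → ∀ {a b : ℝ}, 0 ≤ a → 0 ≤ b → a + b = 1 →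
      (a • x + b • y) + z ∈ K := by
    intro x y hx hy a b ha hb hab
    have h1 := hKv hx hy ha hb hab
    have h2 : a • (x + z) + b • (y + z) = (a • x + b • y) + (a + b) • z := by
      simp only [smul_add, add_smul]
      abel
    rwa [h2, hab, one_smul] at h1
  have hvK : volume.real (tr (-z) K) = volume.real K := by
    simp only [Measure.real, volume_tr (-z) hKm]
  obtain ⟨L, X0, hL, hcov, hcard⟩ := core_cover hn (K := tr (-z) K)
    (S := tr (-z) (K ∩ tr w (-K))) (measurableSet_tr _ hKm)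
    (by
      have : tr (-z) K = (fun y => y - z) '' K := by
        ext y
        rw [hmemK]
        constructor
        · intro h
          exact ⟨_, h, by simp⟩
        · rintro ⟨k, hk, rfl⟩
          simpa using hk
      rw [this]
      exact (hKc.image (continuous_id.sub continuous_const)).isBounded)
    (by
      intro x hx y hy a b ha hb hab
      rw [hmemK] at hx hy ⊢
      exact hconv hx hy ha hb hab)
    (by rw [hvK]; exact hv) (measurableSet_tr _ hIm)
    (fun y hy => (hmemK y).2 ((hmemS y).1 hy).1)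
    (by
      intro x hx y hy a b ha hb hab
      rw [hmemS] at hx hy ⊢
      refine ⟨hconv hx.1 hy.1 ha hb hab, ?_⟩
      have := hconv hx.2 hy.2 ha hb hab
      rwa [smul_neg, smul_neg, ← neg_add] at this)
    (by
      intro s hs
      rw [hmemS] at hs ⊢
      rw [neg_neg]
      exact ⟨hs.2, hs.1⟩)
    (by
      rw [hvK]
      have h1 : volume.real (tr (-z) (K ∩ tr w (-K))) = volume.real (K ∩ tr w (-K)) := by
        simp only [Measure.real, volume_tr (-z) hIm]
      rw [h1]
      rw [hneg, hP] at hw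
      have h2 := ENNReal.toReal_mono
        (ENNReal.mul_ne_top hIf (ENNReal.mul_ne_top ENNReal.ofReal_ne_top hKf)) hw
      rw [ENNReal.toReal_mul, ENNReal.toReal_mul, ENNReal.toReal_mul,
        ENNReal.toReal_ofReal (by positivity)] at h2
      have h3 : volume.real K * volume.real K
          ≤ (2 ^ n * volume.real (K ∩ tr w (-K))) * volume.real K := by
        simp only [Measure.real]
        linarith
      exact le_of_mul_le_mul_right h3 hv)
  rw [hvK] at hcard
  have h1 := thetaT_le_of_cover K (X0.image (fun x => x - z)) hL (by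
    intro q hq
    obtain ⟨x, hx, hx'⟩ := hcov q hq
    refine ⟨x - z, Finset.mem_image_of_mem _ hx, ?_⟩
    rw [hmemK] at hx'
    have : q - (x - z) = q - x + z := by abel
    rwa [this])
  refine h1.trans ?_
  rw [← ENNReal.ofReal_toReal hKf, ← ENNReal.ofReal_mul ENNReal.toReal_nonneg]
  refine ENNReal.ofReal_le_ofReal ?_
  have h2 : ((X0.image (fun x => x - z)).card : ℝ) ≤ X0.card :=
    Nat.cast_le.2 Finset.card_image_le
  have hLn : 0 < L ^ n := by positivity
  rw [← mul_div_assoc, div_le_iff₀ hLn]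
  have h3 : (volume K).toReal = volume.real K := rfl
  rw [h3]
  nlinarith

/-- Rogers' upper bound for the worst-case translative covering density. -/
theorem rogers : ∃ C : ℝ, 0 < C ∧ ∃ n0 : ℕ, ∀ n ≥ n0,
    ThetaT n ≤ ENNReal.ofReal (C * n * Real.log n) := by
  refine ⟨13, by norm_num, 8, fun n hn => ?_⟩
  refine iSup₂_le fun K hK => (thetaT_le_rogers (by omega) hK).trans ?_
  refine ENNReal.ofReal_le_ofReal ?_
  have hn' : (8 : ℝ) ≤ n := by exact_mod_cast hn
  have h1 : Real.log 8 ≤ Real.log n := Real.log_le_log (by norm_num) hn'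
  have h2 : Real.log (8 * n) = Real.log 8 + Real.log n :=
    Real.log_mul (by norm_num) (by linarith)
  have h3 : 1 ≤ Real.log n := by
    rw [Real.le_log_iff_exp_le (by linarith)]
    have := Real.exp_one_lt_d9
    linarith
  rw [h2]
  nlinarith

end Vale.Agent.P230
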