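import Vale.Agent.P230.Defs

open MeasureTheory Filter
open scoped Pointwise ENNReal

namespace Vale.Agent.P230

/-- The translate `x + T`, written as a set-builder. -/
def tr {n : ℕ} (x : E n) (T : Set (E n)) : Set (E n) := {u | u - x ∈ T}

theorem measurableSet_tr {n : ℕ} (x : E n) {T : Set (E n)} (hT : MeasurableSet T) :
    MeasurableSet (tr x T) :=
  (measurable_id.sub_const x) hT

theorem volume_tr {n : ℕ} (x : E n) {T : Set (E n)} (hT : MeasurableSet T) :
    volume (tr x T) = volume T :=
  (measurePreserving_sub_right volume x).measure_preimage hT.nullMeasurableSet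

/-- Averaging: some translate of `T` meets `U` in at least the average amount. -/
theorem exists_inter_ge {n : ℕ} {U T P : Set (E n)} (hU : MeasurableSet U)
    (hT : MeasurableSet T) (hP : MeasurableSet P) (hUT : ∀ u ∈ U, ∀ t ∈ T, u - t ∈ P)
    (hUf : volume U ≠ ∞) (hTf : volume T ≠ ∞) (hP0 : volume P ≠ 0) (hPf : volume P ≠ ∞) :
    ∃ x, volume U * volume T ≤ volume (U ∩ tr x T) * volume P := by
  set S : Set (E n × E n) := {p | p.2 ∈ U ∧ p.2 - p.1 ∈ T} with hS
  have hSm : MeasurableSet S :=
    (measurable_snd hU).inter ((measurable_snd.sub measurable_fst) hT)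
  have h1 : (volume.prod volume) S = ∫⁻ x, volume (U ∩ tr x T) := by
    rw [Measure.prod_apply hSm]
    rfl
  have h2 : (volume.prod volume) S = volume U * volume T := by
    rw [Measure.prod_apply_symm hSm]
    have : (fun u : E n => volume ((fun x => (x, u)) ⁻¹' S)) = U.indicator (fun _ => volume T) := by
      funext u
      by_cases hu : u ∈ U
      · rw [Set.indicator_of_mem hu]
        have : ((fun x => (x, u)) ⁻¹' S) = (fun x => u - x) ⁻¹' T := by
          ext x
          simp [hS, hu]
        rw [this]
        exact (Measure.measurePreserving_sub_left volume u).measure_preimage hT.nullMeasurableSet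
      · rw [Set.indicator_of_notMem hu]
        have : ((fun x => (x, u)) ⁻¹' S) = ∅ := by
          ext x
          simp [hS, hu]
        rw [this, measure_empty]
    rw [this, lintegral_indicator hU, setLIntegral_const, mul_comm]
  have h3 : ∫⁻ x in P, volume (U ∩ tr x T) = volume U * volume T := by
    rw [← h2, h1, ← lintegral_indicator hP]
    congr 1
    funext x
    by_cases hx : x ∈ P
    · rw [Set.indicator_of_mem hx]
    · rw [Set.indicator_of_notMem hx]
      have : U ∩ tr x T = ∅ := by
        ext u
        simp only [Set.mem_inter_iff, Set.mem_empty_iff_false, iff_false, not_and]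
        intro hu ht
        apply hx
        have := hUT u hu _ ht
        simpa using this
      rw [this, measure_empty]
  obtain ⟨x, -, hx⟩ := exists_setLAverage_le (f := fun x => volume (U ∩ tr x T)) hP0
    hP.nullMeasurableSet (by rw [h3]; exact ENNReal.mul_ne_top hUf hTf)
  refine ⟨x, ?_⟩
  rw [setLAverage_eq, h3] at hx
  exact (ENNReal.div_le_iff hP0 hPf).1 hx

/-- Real-valued form of the averaging step. -/
theorem exists_diff_le {n : ℕ} {U T P : Set (E n)} (hU : MeasurableSet U)
    (hT : MeasurableSet T) (hP : MeasurableSet P) (hUT : ∀ u ∈ U, ∀ t ∈ T, u - t ∈ P)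
    (hUf : volume U ≠ ∞) (hTf : volume T ≠ ∞) (hP0 : volume P ≠ 0) (hPf : volume P ≠ ∞) :
    ∃ x, volume.real (U \ tr x T) ≤ volume.real U * (1 - volume.real T / volume.real P) := by
  obtain ⟨x, hx⟩ := exists_inter_ge hU hT hP hUT hUf hTf hP0 hPf
  refine ⟨x, ?_⟩
  have hf : volume (U ∩ tr x T) ≠ ∞ := ne_top_of_le_ne_top hUf (measure_mono Set.inter_subset_left)
  have h1 : volume.real U * volume.real T ≤ volume.real (U ∩ tr x T) * volume.real P := by
    simp only [Measure.real, ← ENNReal.toReal_mul]
    exact ENNReal.toReal_mono (ENNReal.mul_ne_top hf hPf) hx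
  have h2 : volume.real (U ∩ tr x T) + volume.real (U \ tr x T) = volume.real U :=
    measureReal_inter_add_sdiff (measurableSet_tr x hT) hUf
  have hp : 0 < volume.real P := ENNReal.toReal_pos hP0 hPf
  have h3 : volume.real U * volume.real T / volume.real P ≤ volume.real (U ∩ tr x T) :=
    (div_le_iff₀ hp).2 h1
  have h4 : volume.real U * (1 - volume.real T / volume.real P)
      = volume.real U - volume.real U * volume.real T / volume.real P := by ring
  rw [h4]
  linarith

/-- Greedy covering: `N` translates of `T` leave an exponentially small part of `Q` uncovered. -/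
theorem exists_greedy {n : ℕ} {Q T P : Set (E n)} (hQ : MeasurableSet Q)
    (hT : MeasurableSet T) (hP : MeasurableSet P) (hQT : ∀ u ∈ Q, ∀ t ∈ T, u - t ∈ P)
    (hQf : volume Q ≠ ∞) (hTf : volume T ≠ ∞) (hP0 : volume P ≠ 0) (hPf : volume P ≠ ∞)
    (N : ℕ) :
    ∃ X : Finset (E n), X.card ≤ N ∧
      volume.real (Q \ ⋃ x ∈ X, tr x T)
        ≤ volume.real Q * Real.exp (-(N * (volume.real T / volume.real P))) := by
  classical
  induction N with
  | zero => exact ⟨∅, by simp, by simp⟩
  | succ N ih =>
    obtain ⟨X, hXc, hX⟩ := ih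
    have hUm : MeasurableSet (Q \ ⋃ x ∈ X, tr x T) :=
      hQ.diff (Finset.measurableSet_biUnion _ fun x _ => measurableSet_tr x hT)
    have hUf : volume (Q \ ⋃ x ∈ X, tr x T) ≠ ∞ :=
      ne_top_of_le_ne_top hQf (measure_mono Set.sdiff_subset)
    obtain ⟨y, hy⟩ := exists_diff_le hUm hT hP (fun u hu t ht => hQT u hu.1 t ht) hUf hTf hP0 hPf
    refine ⟨insert y X, (Finset.card_insert_le _ _).trans (by omega), ?_⟩
    have he : (Q \ ⋃ x ∈ insert y X, tr x T) = (Q \ ⋃ x ∈ X, tr x T) \ tr y T := by
      rw [Finset.set_biUnion_insert, Set.union_comm, Set.sdiff_sdiff]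
    rw [he]
    refine hy.trans ?_
    have h1 : 1 - volume.real T / volume.real P ≤ Real.exp (-(volume.real T / volume.real P)) := by
      have := Real.add_one_le_exp (-(volume.real T / volume.real P))
      linarith
    calc volume.real (Q \ ⋃ x ∈ X, tr x T) * (1 - volume.real T / volume.real P)
        ≤ volume.real (Q \ ⋃ x ∈ X, tr x T) * Real.exp (-(volume.real T / volume.real P)) :=
          mul_le_mul_of_nonneg_left h1 measureReal_nonneg
      _ ≤ (volume.real Q * Real.exp (-(N * (volume.real T / volume.real P))))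
            * Real.exp (-(volume.real T / volume.real P)) :=
          mul_le_mul_of_nonneg_right hX (Real.exp_pos _).le
      _ = _ := by
          rw [mul_assoc, ← Real.exp_add]
          congr 2
          push_cast
          ring

/-- Packing argument: if every translate `a + D`, `a ∈ A`, lies in `W`, then `A` is covered by at
most `vol W / vol D` translates of `D - D`. -/
theorem exists_packing {n : ℕ} {D : Set (E n)} (hD : MeasurableSet D) (m : ℕ) :
    ∀ (A W : Set (E n)), volume W ≠ ∞ → (∀ a ∈ A, tr a D ⊆ W) →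
      volume.real W < (m + 1) * volume.real D →
      ∃ Y : Finset (E n), Y.card ≤ m ∧
        ∀ a ∈ A, ∃ y ∈ Y, ∃ d ∈ D, ∃ d' ∈ D, a - y = d - d' := by
  classical
  induction m with
  | zero =>
    intro A W hW hA hlt
    refine ⟨∅, by simp, fun a ha => ?_⟩
    exfalso
    have h1 : volume.real (tr a D) ≤ volume.real W := measureReal_mono (hA a ha) hW
    have h2 : volume.real (tr a D) = volume.real D := by
      simp only [Measure.real, volume_tr a hD]
    simp at hlt
    linarith
  | succ m ih =>
    intro A W hW hA hlt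
    rcases A.eq_empty_or_nonempty with rfl | ⟨a, ha⟩
    · exact ⟨∅, by simp, by simp⟩
    have h2 : volume.real (tr a D) = volume.real D := by
      simp only [Measure.real, volume_tr a hD]
    have h3 : volume.real (W ∩ tr a D) + volume.real (W \ tr a D) = volume.real W :=
      measureReal_inter_add_sdiff (measurableSet_tr a hD) hW
    rw [Set.inter_eq_self_of_subset_right (hA a ha), h2] at h3
    obtain ⟨Y, hYc, hY⟩ := ih {b ∈ A | ¬ ∃ d ∈ D, ∃ d' ∈ D, b - a = d - d'} (W \ tr a D)
      (ne_top_of_le_ne_top hW (measure_mono Set.sdiff_subset))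
      (by
        rintro b ⟨hb, hb'⟩ u hu
        refine ⟨hA b hb hu, fun hu' => hb' ⟨u - a, hu', u - b, hu, by abel⟩⟩)
      (by push_cast at hlt; linarith)
    refine ⟨insert a Y, (Finset.card_insert_le _ _).trans (by omega), fun b hb => ?_⟩
    by_cases h : ∃ d ∈ D, ∃ d' ∈ D, b - a = d - d'
    · exact ⟨a, Finset.mem_insert_self _ _, h⟩
    · obtain ⟨y, hy, h'⟩ := hY b ⟨hb, h⟩
      exact ⟨y, Finset.mem_insert_of_mem hy, h'⟩

theorem cube_eq_preimage (n : ℕ) (R : ℝ) :
    cube n R = (WithLp.ofLp : E n → (Fin n → ℝ)) ⁻¹' (Set.pi Set.univ fun _ => Set.Icc (-R) R) := by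
  ext x
  simp only [cube, abs_le, Set.mem_ofPred_eq, Set.mem_preimage, Set.mem_pi, Set.mem_univ,
    Set.mem_Icc, forall_true_left]

theorem measurableSet_cube' (n : ℕ) (R : ℝ) : MeasurableSet (cube n R) := by
  rw [cube_eq_preimage]
  exact (PiLp.volume_preserving_ofLp (Fin n)).measurable
    (MeasurableSet.univ_pi fun _ => measurableSet_Icc)

theorem volume_cube' (n : ℕ) {R : ℝ} (hR : 0 ≤ R) :
    volume (cube n R) = ENNReal.ofReal ((2 * R) ^ n) := by
  rw [cube_eq_preimage, (PiLp.volume_preserving_ofLp (Fin n)).measure_preimage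
    (MeasurableSet.univ_pi fun _ => measurableSet_Icc).nullMeasurableSet, volume_pi_pi]
  simp only [Real.volume_Icc, Finset.prod_const, Finset.card_univ, Fintype.card_fin]
  rw [← ENNReal.ofReal_pow (by linarith)]
  congr 2
  ring

end Vale.Agent.P230
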