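import Vale.Agent.P230.RogersAvg

open MeasureTheory Filter
open scoped Pointwise ENNReal

namespace Vale.Agent.P230

/-- The point `L m` of the lattice `L ℤ^n`. -/
noncomputable def latPt {n : ℕ} (L : ℝ) (m : Fin n → ℤ) : E n :=
  WithLp.toLp 2 (fun i => L * (m i : ℝ))

/-- The periodic set `X0 + L ℤ^n`. -/
def perSet {n : ℕ} (X0 : Finset (E n)) (L : ℝ) : Set (E n) :=
  {x | ∃ x0 ∈ X0, ∃ m : Fin n → ℤ, x = x0 + latPt L m}

theorem card_Icc_ceil_floor_le {a b : ℝ} (hab : a ≤ b) :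
    ((Finset.Icc ⌈a⌉ ⌊b⌋).card : ℝ) ≤ b - a + 1 := by
  rw [Int.card_Icc]
  have h1 := Int.le_ceil a
  have h2 := Int.floor_le b
  rcases le_total (⌊b⌋ + 1 - ⌈a⌉) 0 with h | h
  · rw [Int.toNat_of_nonpos h]
    simp only [Nat.cast_zero]
    linarith
  · have h3 : (((⌊b⌋ + 1 - ⌈a⌉).toNat : ℤ) : ℝ) = ((⌊b⌋ + 1 - ⌈a⌉ : ℤ) : ℝ) := by
      rw [Int.toNat_of_nonneg h]
    rw [Int.cast_natCast] at h3
    rw [h3]
    push_cast
    linarith

theorem perSet_count {n : ℕ} (X0 : Finset (E n)) {L : ℝ} (hL : 0 < L) {R : ℝ} (hR : 0 ≤ R) :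
    ∃ F : Finset (E n), perSet X0 L ∩ cube n R ⊆ F ∧
      (F.card : ℝ) ≤ X0.card * (2 * R / L + 1) ^ n := by
  classical
  refine ⟨X0.biUnion fun x0 => (Fintype.piFinset fun i =>
    Finset.Icc ⌈(-R - x0 i) / L⌉ ⌊(R - x0 i) / L⌋).image (fun m => x0 + latPt L m), ?_, ?_⟩
  · rintro x ⟨⟨x0, hx0, m, rfl⟩, hx⟩
    simp only [Finset.coe_biUnion, Set.mem_iUnion, Finset.mem_coe, Finset.mem_image,
      Fintype.mem_piFinset, Finset.mem_Icc]
    refine ⟨x0, hx0, m, fun i => ?_, rfl⟩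
    have h := hx i
    simp only [latPt, PiLp.add_apply, abs_le] at h
    constructor
    · rw [Int.ceil_le, div_le_iff₀ hL]
      linarith [h.1]
    · rw [Int.le_floor, le_div_iff₀ hL]
      linarith [h.2]
  · have h1 := Finset.card_biUnion_le (s := X0) (t := fun x0 => (Fintype.piFinset fun i =>
      Finset.Icc ⌈(-R - x0 i) / L⌉ ⌊(R - x0 i) / L⌋).image (fun m => x0 + latPt L m))
    refine le_trans (Nat.cast_le.2 h1) ?_
    push_cast
    rw [← nsmul_eq_mul]
    refine Finset.sum_le_card_nsmul _ _ _ fun x0 _ => ?_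
    refine le_trans (Nat.cast_le.2 Finset.card_image_le) ?_
    rw [Fintype.card_piFinset]
    push_cast
    calc ∏ i, ((Finset.Icc ⌈(-R - x0 i) / L⌉ ⌊(R - x0 i) / L⌋).card : ℝ)
        ≤ ∏ _i : Fin n, (2 * R / L + 1) := by
          refine Finset.prod_le_prod (fun i _ => Nat.cast_nonneg _) fun i _ => ?_
          have hab : (-R - x0 i) / L ≤ (R - x0 i) / L :=
            div_le_div_of_nonneg_right (by linarith) hL.le
          refine (card_Icc_ceil_floor_le hab).trans (le_of_eq ?_)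
          ring
      _ = (2 * R / L + 1) ^ n := by simp

theorem exists_subset_cube {n : ℕ} {S : Set (E n)} (hS : Bornology.IsBounded S) :
    ∃ R : ℝ, 0 < R ∧ S ⊆ cube n R := by
  obtain ⟨R, hR, h⟩ := hS.exists_pos_norm_le
  refine ⟨R, hR, fun x hx i => ?_⟩
  have := PiLp.norm_apply_le x i
  rw [Real.norm_eq_abs] at this
  exact this.trans (h x hx)

theorem locFin_perSet {n : ℕ} (X0 : Finset (E n)) {L : ℝ} (hL : 0 < L) :
    LocFin (perSet X0 L) := by
  intro S hS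
  obtain ⟨R, hR, h⟩ := exists_subset_cube hS
  obtain ⟨F, hF, -⟩ := perSet_count X0 hL hR.le
  exact F.finite_toSet.subset ((Set.inter_subset_inter_right _ h).trans hF)

theorem upperDensity_perSet {n : ℕ} (X0 : Finset (E n)) {L : ℝ} (hL : 0 < L) :
    upperDensity (perSet X0 L) ≤ ENNReal.ofReal (X0.card / L ^ n) := by
  have ht : Tendsto (fun R : ℝ => ENNReal.ofReal (X0.card * (L⁻¹ + 2⁻¹ * R⁻¹) ^ n)) atTop
      (nhds (ENNReal.ofReal (X0.card / L ^ n))) := by
    refine ENNReal.tendsto_ofReal ?_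
    have h1 : Tendsto (fun R : ℝ => (X0.card : ℝ) * (L⁻¹ + 2⁻¹ * R⁻¹) ^ n) atTop
        (nhds (X0.card * (L⁻¹ + 2⁻¹ * 0) ^ n)) :=
      ((tendsto_const_nhds.add (tendsto_inv_atTop_zero.const_mul _)).pow n).const_mul _
    have h2 : (X0.card : ℝ) * (L⁻¹ + 2⁻¹ * 0) ^ n = X0.card / L ^ n := by
      rw [mul_zero, add_zero, inv_pow, div_eq_mul_inv]
    rwa [h2] at h1
  rw [← ht.limsup_eq]
  refine limsup_le_limsup ?_
  filter_upwards [eventually_gt_atTop 0] with R hR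
  obtain ⟨F, hF, hc⟩ := perSet_count X0 hL hR.le
  have h1 : (perSet X0 L ∩ cube n R).ncard ≤ F.card := by
    rw [← Set.ncard_coe_finset]
    exact Set.ncard_le_ncard hF F.finite_toSet
  have hp : 0 < (2 * R) ^ n := by positivity
  rw [← ENNReal.ofReal_natCast, ← ENNReal.ofReal_div_of_pos hp]
  refine ENNReal.ofReal_le_ofReal ?_
  rw [div_le_iff₀ hp, mul_assoc, ← mul_pow]
  have h2 : (L⁻¹ + 2⁻¹ * R⁻¹) * (2 * R) = 2 * R / L + 1 := by
    field_simp
  rw [h2]
  exact le_trans (Nat.cast_le.2 h1) hc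

theorem thetaT_le_of_cover {n : ℕ} (K : Set (E n)) (X0 : Finset (E n)) {L : ℝ} (hL : 0 < L)
    (hcov : ∀ q ∈ cube n (L / 2), ∃ x ∈ X0, q - x ∈ K) :
    thetaT K ≤ volume K * ENNReal.ofReal (X0.card / L ^ n) := by
  have hc : K + perSet X0 L = Set.univ := by
    refine Set.eq_univ_of_forall fun u => ?_
    have hq : u - latPt L (fun i => round (u i / L)) ∈ cube n (L / 2) := by
      intro i
      have h1 := abs_sub_round (u i / L)
      have h2 : (u - latPt L (fun i => round (u i / L))) i = L * (u i / L - round (u i / L)) := by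
        simp only [latPt, PiLp.sub_apply]
        field_simp
      rw [h2, abs_mul, abs_of_pos hL]
      nlinarith
    obtain ⟨x, hx, hK⟩ := hcov _ hq
    exact ⟨_, hK, x + latPt L (fun i => round (u i / L)), ⟨x, hx, _, rfl⟩, by beta_reduce; abel⟩
  refine le_trans ?_ (mul_le_mul_right (upperDensity_perSet X0 hL) _)
  exact iInf_le_of_le (perSet X0 L) (iInf_le_of_le (locFin_perSet X0 hL) (iInf_le_of_le hc le_rfl))

end Vale.Agent.P230
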