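import Vale.Agent.P230.SMRow

/-! Second moment bound for Gaussian projections. -/

open MeasureTheory Finset Metric ProbabilityTheory
open scoped ENNReal NNReal

namespace Vale.Agent.P230

section Abs

variable {Ω X : Type*} [MeasurableSpace Ω] [MeasurableSpace X] (P : Measure Ω)
  [IsProbabilityMeasure P] (ν : Measure X) [IsFiniteMeasure ν]

theorem sm_first (R : Set (Ω × X)) (hR : MeasurableSet R) :
    ∫⁻ ω, ν (Prod.mk ω ⁻¹' R) ∂P = ∫⁻ x, P ((fun ω => (ω, x)) ⁻¹' R) ∂ν := by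
  rw [← Measure.prod_apply hR, Measure.prod_apply_symm hR]

theorem sm_second (R : Set (Ω × X)) (hR : MeasurableSet R) :
    ∫⁻ ω, ν (Prod.mk ω ⁻¹' R) ^ 2 ∂P = ∫⁻ p : X × X,
      P ((fun ω => (ω, p.1)) ⁻¹' R ∩ (fun ω => (ω, p.2)) ⁻¹' R) ∂(ν.prod ν) := by
  have hm : MeasurableSet ((fun q : Ω × (X × X) => (q.1, q.2.1)) ⁻¹' R
      ∩ (fun q : Ω × (X × X) => (q.1, q.2.2)) ⁻¹' R) :=
    (hR.preimage (by fun_prop)).inter (hR.preimage (by fun_prop))
  have h := sm_first P (ν.prod ν) _ hm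
  refine Eq.trans ?_ h
  refine lintegral_congr fun ω => ?_
  rw [sq, ← Measure.prod_prod]
  rfl

theorem sm_abs (R : Set (Ω × X)) (hR : MeasurableSet R) (S : Set X) (hS : ∀ᵐ x ∂ν, x ∈ S)
    (Bd : Set (X × X)) (hB : MeasurableSet Bd) (a b ε m : ℝ) (hm : 0 < m) (ha : 0 ≤ a)
    (hb : 0 ≤ b) (hε : 0 ≤ ε)
    (h1 : ∀ x ∈ S, ENNReal.ofReal a ≤ P ((fun ω => (ω, x)) ⁻¹' R))
    (h2 : ∀ x ∈ S, ∀ x' ∈ S, (x, x') ∉ Bd →
      P ((fun ω => (ω, x)) ⁻¹' R ∩ (fun ω => (ω, x')) ⁻¹' R) ≤ ENNReal.ofReal b)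
    (h3 : ∀ x ∈ S, ν (Prod.mk x ⁻¹' Bd) ≤ ENNReal.ofReal ε) :
    m ^ 2 / 4 * P.real {ω | ν.real (Prod.mk ω ⁻¹' R) < m / 2}
      ≤ b * ν.real Set.univ ^ 2 + ε * ν.real Set.univ - 2 * m * (a * ν.real Set.univ)
        + m ^ 2 := by
  have hZm : Measurable fun ω => ν (Prod.mk ω ⁻¹' R) := measurable_measure_prodMk_left hR
  set Z : Ω → ℝ := fun ω => ν.real (Prod.mk ω ⁻¹' R) with hZ
  have hZm' : Measurable Z := hZm.ennreal_toReal
  have hZ0 : ∀ ω, 0 ≤ Z ω := fun ω => measureReal_nonneg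
  have hZ1 : ∀ ω, Z ω ≤ ν.real Set.univ := fun ω => measureReal_mono (Set.subset_univ _)
  have i1 : Integrable Z P := Integrable.of_bound hZm'.aestronglyMeasurable (ν.real Set.univ)
    (ae_of_all _ fun ω => by rw [Real.norm_eq_abs, abs_of_nonneg (hZ0 ω)]; exact hZ1 ω)
  have i2 : Integrable (fun ω => Z ω ^ 2) P :=
    Integrable.of_bound (hZm'.pow_const 2).aestronglyMeasurable (ν.real Set.univ ^ 2)
      (ae_of_all _ fun ω => by
        rw [Real.norm_eq_abs, abs_of_nonneg (sq_nonneg _)]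
        exact pow_le_pow_left₀ (hZ0 ω) (hZ1 ω) 2)
  have hU : ν Set.univ = ENNReal.ofReal (ν.real Set.univ) :=
    (ofReal_measureReal (measure_ne_top _ _)).symm
  have hU0 : 0 ≤ ν.real Set.univ := measureReal_nonneg
  have e1 : a * ν.real Set.univ ≤ ∫ ω, Z ω ∂P := by
    have k1 : ENNReal.ofReal (a * ν.real Set.univ) ≤ ∫⁻ ω, ν (Prod.mk ω ⁻¹' R) ∂P := by
      rw [sm_first P ν R hR, ENNReal.ofReal_mul ha, ← hU, ← lintegral_const]
      exact lintegral_mono_ae (hS.mono fun x hx => h1 x hx)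
    have k2 : ENNReal.ofReal (∫ ω, Z ω ∂P) = ∫⁻ ω, ν (Prod.mk ω ⁻¹' R) ∂P := by
      rw [ofReal_integral_eq_lintegral_ofReal i1 (ae_of_all _ hZ0)]
      exact lintegral_congr fun ω => ofReal_measureReal (measure_ne_top _ _)
    rw [← k2] at k1
    exact (ENNReal.ofReal_le_ofReal_iff (integral_nonneg hZ0)).1 k1
  have e2 : ∫ ω, Z ω ^ 2 ∂P ≤ b * ν.real Set.univ ^ 2 + ε * ν.real Set.univ := by
    have k2 : ENNReal.ofReal (∫ ω, Z ω ^ 2 ∂P) = ∫⁻ ω, ν (Prod.mk ω ⁻¹' R) ^ 2 ∂P := by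
      rw [ofReal_integral_eq_lintegral_ofReal i2 (ae_of_all _ fun ω => sq_nonneg _)]
      refine lintegral_congr fun ω => ?_
      rw [ENNReal.ofReal_pow (hZ0 ω), ofReal_measureReal (measure_ne_top _ _)]
    have hS1 : ∀ᵐ p ∂(ν.prod ν), p.1 ∈ S := Measure.quasiMeasurePreserving_fst.ae hS
    have hS2 : ∀ᵐ p ∂(ν.prod ν), p.2 ∈ S := Measure.quasiMeasurePreserving_snd.ae hS
    have k3 : (ν.prod ν) Bd ≤ ENNReal.ofReal (ε * ν.real Set.univ) := by
      rw [Measure.prod_apply hB, ENNReal.ofReal_mul hε, ← hU, ← lintegral_const]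
      exact lintegral_mono_ae (hS.mono fun x hx => h3 x hx)
    have k1 : ∫⁻ ω, ν (Prod.mk ω ⁻¹' R) ^ 2 ∂P
        ≤ ENNReal.ofReal (b * ν.real Set.univ ^ 2 + ε * ν.real Set.univ) := by
      rw [sm_second P ν R hR]
      calc ∫⁻ p : X × X, P ((fun ω => (ω, p.1)) ⁻¹' R ∩ (fun ω => (ω, p.2)) ⁻¹' R) ∂(ν.prod ν)
          ≤ ∫⁻ p : X × X, (ENNReal.ofReal b + Bd.indicator 1 p) ∂(ν.prod ν) := by
            refine lintegral_mono_ae ?_
            filter_upwards [hS1, hS2] with p hp1 hp2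
            by_cases hp : p ∈ Bd
            · rw [Set.indicator_of_mem hp]
              exact prob_le_one.trans le_add_self
            · exact (h2 p.1 hp1 p.2 hp2 hp).trans le_self_add
        _ = ENNReal.ofReal (b * ν.real Set.univ ^ 2) + (ν.prod ν) Bd := by
            rw [lintegral_add_left measurable_const, lintegral_indicator_one hB, lintegral_const,
              ← Set.univ_prod_univ, Measure.prod_prod, hU, ← sq, ← ENNReal.ofReal_pow hU0,
              ← ENNReal.ofReal_mul hb]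
        _ ≤ ENNReal.ofReal (b * ν.real Set.univ ^ 2 + ε * ν.real Set.univ) := by
            rw [ENNReal.ofReal_add (by positivity) (by positivity)]
            exact add_le_add le_rfl k3
    rw [← k2] at k1
    exact (ENNReal.ofReal_le_ofReal_iff (by positivity)).1 k1
  have i3 : Integrable (fun ω => Z ω ^ 2 - 2 * m * Z ω) P := i2.sub (i1.const_mul _)
  have i4 : Integrable (fun ω => Z ω ^ 2 - 2 * m * Z ω + m ^ 2) P := i3.add (integrable_const _)
  have c1 := mul_meas_ge_le_integral_of_nonneg (μ := P)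
    (f := fun ω => Z ω ^ 2 - 2 * m * Z ω + m ^ 2)
    (ae_of_all _ fun ω => by
      show 0 ≤ Z ω ^ 2 - 2 * m * Z ω + m ^ 2
      nlinarith [sq_nonneg (Z ω - m)]) i4 (m ^ 2 / 4)
  rw [integral_add i3 (integrable_const _), integral_sub i2 (i1.const_mul _), integral_const_mul,
    integral_const, probReal_univ, one_smul] at c1
  have c2 : P.real {ω | Z ω < m / 2}
      ≤ P.real {ω | m ^ 2 / 4 ≤ Z ω ^ 2 - 2 * m * Z ω + m ^ 2} := by
    refine measureReal_mono fun ω hω => ?_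
    simp only [Set.mem_ofPred_eq] at hω ⊢
    nlinarith
  have c3 := mul_le_mul_of_nonneg_left c2 (by positivity : 0 ≤ m ^ 2 / 4)
  have c4 := mul_le_mul_of_nonneg_left e1 (by positivity : 0 ≤ 2 * m)
  linarith

theorem sm_markov (R : Set (Ω × X)) (hR : MeasurableSet R) (c : ℝ) (hc : 0 < c)
    (hν : ν Set.univ ≤ 1) (h1 : ∀ x, P ((fun ω => (ω, x)) ⁻¹' R) ≤ ENNReal.ofReal c) :
    P {ω | 4 * c ≤ ν.real (Prod.mk ω ⁻¹' R)} ≤ ENNReal.ofReal (1 / 4) := by
  have hZm : Measurable fun ω => ν (Prod.mk ω ⁻¹' R) := measurable_measure_prodMk_left hR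
  have k1 : ∫⁻ ω, ν (Prod.mk ω ⁻¹' R) ∂P ≤ ENNReal.ofReal c := by
    rw [sm_first P ν R hR]
    calc ∫⁻ x, P ((fun ω => (ω, x)) ⁻¹' R) ∂ν ≤ ∫⁻ _, ENNReal.ofReal c ∂ν := lintegral_mono h1
      _ ≤ ENNReal.ofReal c := by
          rw [lintegral_const]
          exact mul_le_of_le_one_right' hν
  have k2 := mul_meas_ge_le_lintegral₀ (μ := P) hZm.aemeasurable (ENNReal.ofReal (4 * c))
  have e : {ω | 4 * c ≤ ν.real (Prod.mk ω ⁻¹' R)}
      = {ω | ENNReal.ofReal (4 * c) ≤ ν (Prod.mk ω ⁻¹' R)} := by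
    ext ω
    simp only [Set.mem_ofPred_eq]
    rw [ENNReal.ofReal_le_iff_le_toReal (measure_ne_top _ _)]
    rfl
  rw [e]
  have k3 : ENNReal.ofReal (4 * c) * P {ω | ENNReal.ofReal (4 * c) ≤ ν (Prod.mk ω ⁻¹' R)}
      ≤ ENNReal.ofReal (4 * c) * ENNReal.ofReal (1 / 4) := by
    refine (k2.trans k1).trans (le_of_eq ?_)
    rw [← ENNReal.ofReal_mul (by positivity)]
    congr 1
    ring
  exact (ENNReal.mul_le_mul_iff_right (by simp [hc]) ENNReal.ofReal_ne_top).1 k3

end Abs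

/-- normalised restriction of the volume -/
noncomputable def smNu {n : ℕ} (K A : Set (E n)) : Measure (E n) :=
  (volume K)⁻¹ • volume.restrict (K ∩ A)

theorem sm_vol_pos {n : ℕ} {K : Set (E n)} (hK : IsConvexBody K) : volume K ≠ 0 :=
  (Measure.measure_pos_of_nonempty_interior volume hK.2.2).ne'

theorem smNu_apply {n : ℕ} (K A : Set (E n)) {B : Set (E n)} (hB : MeasurableSet B) :
    smNu K A B = (volume K)⁻¹ * volume (K ∩ (A ∩ B)) := by
  unfold smNu
  rw [Measure.smul_apply, Measure.restrict_apply hB, smul_eq_mul, Set.inter_comm B,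
    Set.inter_assoc]

theorem smNu_real {n : ℕ} (K A : Set (E n)) {B : Set (E n)} (hB : MeasurableSet B) :
    (smNu K A).real B = pr K (A ∩ B) := by
  unfold pr
  rw [measureReal_def, smNu_apply K A hB, ENNReal.toReal_mul, ENNReal.toReal_inv, div_eq_inv_mul]

theorem smNu_le_one {n : ℕ} {K : Set (E n)} (hK : IsConvexBody K) (A : Set (E n)) :
    smNu K A Set.univ ≤ 1 := by
  rw [smNu_apply K A MeasurableSet.univ,
    ← ENNReal.inv_mul_cancel (sm_vol_pos hK) hK.1.measure_lt_top.ne]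
  exact mul_le_mul' le_rfl (measure_mono Set.inter_subset_left)

theorem smNu_fin {n : ℕ} {K : Set (E n)} (hK : IsConvexBody K) (A : Set (E n)) :
    IsFiniteMeasure (smNu K A) :=
  ⟨(smNu_le_one hK A).trans_lt ENNReal.one_lt_top⟩

theorem sm_pr_mono {n : ℕ} {K : Set (E n)} (hK : IsConvexBody K) {A B : Set (E n)}
    (h : A ⊆ B) : pr K A ≤ pr K B := by
  unfold pr
  refine div_le_div_of_nonneg_right (ENNReal.toReal_mono ?_ (measure_mono ?_)) ENNReal.toReal_nonneg
  · exact ((measure_mono Set.inter_subset_left).trans_lt hK.1.measure_lt_top).ne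
  · exact Set.inter_subset_inter_right _ h

theorem sm_gmat_prob (n : ℕ) (κ : Type) [Fintype κ] : IsProbabilityMeasure (gmat n κ) := by
  unfold gmat
  infer_instance

/-- the relation between matrices and points -/
def smR (n : ℕ) {κ : Type} (c ζ : ℝ) (s : κ → ℝ) : Set ((κ → E n) × E n) :=
  {q | ∀ i, |inner ℝ (q.1 i) q.2 / c - s i| ≤ ζ}

theorem smR_meas (n : ℕ) {κ : Type} [Fintype κ] (c ζ : ℝ) (s : κ → ℝ) :
    MeasurableSet (smR n c ζ s) := by
  unfold smR
  rw [Set.ofPred_forall]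
  exact MeasurableSet.iInter fun i => measurableSet_le (by fun_prop) measurable_const

theorem smR_sec (n : ℕ) {κ : Type} (c ζ : ℝ) (s : κ → ℝ) (x : E n) :
    (fun g => (g, x)) ⁻¹' smR n c ζ s
      = Set.pi Set.univ fun i => {h : E n | |inner ℝ h (c⁻¹ • x) - s i| ≤ ζ} := by
  ext g
  simp only [smR, Set.mem_preimage, Set.mem_ofPred_eq, Set.mem_pi, Set.mem_univ, true_imp_iff,
    real_inner_smul_right, div_eq_inv_mul]

theorem smUp : SMUpP := by
  intro n K hn hK κ _ σ ζ hζ hσ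
  have := sm_gmat_prob n κ
  have := smNu_fin hK Set.univ
  have hg := sm_gd_pos 1
  have hd : 0 < σ - ζ := by linarith
  have h := sm_markov (gmat n κ) (smNu K Set.univ) (smR n (√n) ζ fun _ : κ => σ)
    (smR_meas n _ _ _) ((2 * ζ * gd 1 / (σ - ζ)) ^ Fintype.card κ) (by positivity)
    (smNu_le_one hK _) (fun x => by
      rw [smR_sec, gmat, Measure.pi_pi, ENNReal.ofReal_pow (by positivity), ← Finset.card_univ,
        ← Finset.prod_const]
      exact Finset.prod_le_prod' fun i _ => sm_up_le _ σ ζ hζ hσ)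
  refine le_trans (le_of_eq ?_) h
  congr 1
  ext g
  simp only [Set.mem_ofPred_eq]
  rw [smNu_real K _ ((smR_meas n _ _ _).preimage measurable_prodMk_left), Set.univ_inter]
  rfl

theorem sm_final (e k m ε p : ℝ) (hm : 0 < m) (he : 0 ≤ e) (hk : 0 ≤ k)
    (hE : (k + 1) * e ≤ 1 / 100)
    (h : m ^ 2 / 4 * p ≤ m ^ 2 * Real.exp (k * (3 * e)) + ε - 2 * m * (m * Real.exp (k * -e))
      + m ^ 2) : p ≤ 1000 * ((k + 1) * e) + 4 * ε / m ^ 2 := by
  have hke : 0 ≤ k * e := mul_nonneg hk he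
  have h1 : k * e ≤ (k + 1) * e := by nlinarith
  have h2 : 1 - k * e ≤ Real.exp (k * -e) := by
    have := Real.add_one_le_exp (k * -e)
    linarith
  have h3 : Real.exp (k * (3 * e)) ≤ 1 + 6 * (k * e) := by
    have := Real.abs_exp_sub_one_le (x := k * (3 * e)) (by rw [abs_of_nonneg (by positivity)]; linarith)
    rw [abs_of_nonneg (by positivity : 0 ≤ k * (3 * e))] at this
    have := (abs_le.1 this).2
    linarith
  have hm2 : 0 < m ^ 2 := by positivity
  have h4 := mul_le_mul_of_nonneg_left h2 hm2.le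
  have h5 := mul_le_mul_of_nonneg_left h3 hm2.le
  have h6 : m ^ 2 * p ≤ m ^ 2 * (1000 * ((k + 1) * e)) + 4 * ε := by
    have := mul_le_mul_of_nonneg_left h1 hm2.le
    have := mul_nonneg hm2.le hke
    nlinarith
  have e1 : 1000 * ((k + 1) * e) + 4 * ε / m ^ 2
      = (m ^ 2 * (1000 * ((k + 1) * e)) + 4 * ε) / m ^ 2 := by
    field_simp
  rw [e1, le_div_iff₀ hm2]
  linarith

theorem sm (h : IsoBoundsP) : SMP := by
  intro n K hn hK κ _ A σ θ ζ τ X s hA hσ hθ hζ hτ hAn hs hpr hE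
  have hKc := hK.1
  have := sm_gmat_prob n κ
  have := smNu_fin hKc A
  have hn0 : (0 : ℝ) < n := by exact_mod_cast (by omega : 0 < n)
  have hsq : 0 < √(n : ℝ) := Real.sqrt_pos.2 hn0
  set c : ℝ := σ * √n with hc
  have hc0 : 0 < c := by positivity
  set a : ℝ := 100 * τ / √n with ha
  have ha0 : 0 ≤ a := by positivity
  set e : ℝ := (X ^ 2 + 1) * (θ + ζ + a) with he
  have he0 : 0 ≤ e := by positivity
  have hk0 : (0 : ℝ) ≤ Fintype.card κ := Nat.cast_nonneg _
  have hE' : ((Fintype.card κ : ℝ) + 1) * e ≤ 1 / 100 := by rw [he, ← mul_assoc]; exact hE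
  have he1 : θ + ζ + a ≤ 1 / 100 := by
    have b1 : θ + ζ + a ≤ e := le_mul_of_one_le_left (by positivity) (by nlinarith [sq_nonneg X])
    have b2 : e ≤ ((Fintype.card κ : ℝ) + 1) * e := le_mul_of_one_le_left he0 (by linarith)
    linarith
  set Q : ℝ := ∏ i, 2 * ζ * gd (s i) with hQ
  have hQ0 : 0 < Q := Finset.prod_pos fun i _ => by have := sm_gd_pos (s i); positivity
  have hnorm : ∀ x ∈ K ∩ A, 1 ≤ ‖c⁻¹ • x‖ ∧ ‖c⁻¹ • x‖ ≤ 1 + θ := by
    intro x hx
    obtain ⟨b1, b2⟩ := hAn x hx.2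
    rw [norm_smul, Real.norm_eq_abs, abs_of_pos (inv_pos.2 hc0), ← div_eq_inv_mul,
      le_div_iff₀ hc0, div_le_iff₀ hc0]
    constructor
    · linarith
    · rw [hc]; linarith
  have hτc : τ ≤ a * c := by
    have : a * c = 100 * σ * τ := by rw [ha, hc]; field_simp
    rw [this]
    nlinarith
  have hBd : MeasurableSet {p : E n × E n | τ * ‖p.1‖ ≤ |inner ℝ p.1 p.2|} :=
    measurableSet_le (by fun_prop) (by fun_prop)
  have hKA : MeasurableSet (K ∩ A) := hKc.1.measurableSet.inter hA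
  have key := sm_abs (gmat n κ) (smNu K A) (smR n c ζ s) (smR_meas n _ _ _) (K ∩ A)
    (Measure.ae_smul_measure (ae_restrict_mem hKA) _) _ hBd
    (Q * Real.exp (Fintype.card κ * -e)) (Q ^ 2 * Real.exp (Fintype.card κ * (3 * e)))
    (3 * Real.exp (-τ / 10)) (pr K A * Q) (by positivity) (by positivity) (by positivity)
    (by positivity)
    (fun x hx => by
      rw [smR_sec, gmat, Measure.pi_pi, Real.exp_nat_mul, ← Finset.card_univ, ← Finset.prod_const,
        hQ, ← Finset.prod_mul_distrib, ENNReal.ofReal_prod_of_nonneg (fun i _ => by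
          have := sm_gd_pos (s i); positivity)]
      exact Finset.prod_le_prod' fun i _ => sm_one_ge _ θ ζ a X (s i) hθ hζ.le (by linarith) ha0
        (hs i) (hnorm x hx).1 (hnorm x hx).2)
    (fun x hx x' hx' hb => by
      rw [smR_sec, smR_sec, ← Set.pi_inter_distrib, gmat, Measure.pi_pi, Real.exp_nat_mul,
        ← Finset.card_univ, ← Finset.prod_const, hQ, ← Finset.prod_pow, ← Finset.prod_mul_distrib,
        ENNReal.ofReal_prod_of_nonneg (fun i _ => by positivity)]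
      refine Finset.prod_le_prod' fun i _ => sm_two_le _ _ θ ζ a X (s i) hθ hζ.le ha0
        (by linarith) (hs i) (hnorm x hx).1 (hnorm x hx).2 (hnorm x' hx').1 (hnorm x' hx').2 ?_
      simp only [Set.mem_ofPred_eq, not_le] at hb
      rw [real_inner_smul_left, real_inner_smul_right, abs_mul, abs_mul, norm_smul,
        Real.norm_eq_abs, abs_of_pos (inv_pos.2 hc0)]
      have b1 : |inner ℝ x x'| ≤ a * c * ‖x‖ :=
        hb.le.trans (mul_le_mul_of_nonneg_right hτc (norm_nonneg _))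
      calc c⁻¹ * (c⁻¹ * |inner ℝ x x'|) ≤ c⁻¹ * (c⁻¹ * (a * c * ‖x‖)) := by gcongr
        _ = a * (c⁻¹ * ‖x‖) := by field_simp)
    (fun x hx => by
      have hx0 : 0 < ‖x‖ := hc0.trans_le (hAn x hx.2).1
      have b1 := (h n K hn hK).2.2.2.2 (‖x‖⁻¹ • x) (by
        rw [norm_smul, norm_inv, norm_norm, inv_mul_cancel₀ hx0.ne']) τ hτ
      rw [← ofReal_measureReal (measure_ne_top _ _),
        smNu_real K A (hBd.preimage measurable_prodMk_left)]
      refine ENNReal.ofReal_le_ofReal (le_trans (sm_pr_mono hKc ?_) b1)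
      rintro y ⟨-, hy⟩
      simp only [Set.mem_preimage, Set.mem_ofPred_eq] at hy ⊢
      rw [real_inner_smul_left, abs_mul, abs_of_pos (inv_pos.2 hx0), ← div_eq_inv_mul,
        le_div_iff₀ hx0]
      exact hy)
  have hU : (smNu K A).real Set.univ = pr K A := by
    rw [smNu_real K A MeasurableSet.univ, Set.inter_univ]
  have hU1 : pr K A ≤ 1 := by
    rw [← hU, measureReal_def]
    exact ENNReal.toReal_le_of_le_ofReal zero_le_one (by simpa using smNu_le_one hKc A)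
  rw [hU] at key
  have e1 : {g : κ → E n | pr K (A ∩ {x | ∀ i, |inner ℝ (g i) x / c - s i| ≤ ζ}) < pr K A * Q / 2}
      = {g | (smNu K A).real (Prod.mk g ⁻¹' smR n c ζ s) < pr K A * Q / 2} := by
    ext g
    simp only [Set.mem_ofPred_eq]
    rw [smNu_real K _ ((smR_meas n _ _ _).preimage measurable_prodMk_left)]
    rfl
  rw [e1, ← ofReal_measureReal (measure_ne_top _ _)]
  apply ENNReal.ofReal_le_ofReal
  have hex := Real.exp_pos (-τ / 10)
  have fin := sm_final e (Fintype.card κ) (pr K A * Q) (3 * Real.exp (-τ / 10)) _ (by positivity)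
    he0 hk0 hE' (le_trans key (by
      have := mul_le_mul_of_nonneg_left hU1 (by positivity : 0 ≤ 3 * Real.exp (-τ / 10))
      nlinarith))
  refine fin.trans (le_of_eq ?_)
  rw [he]
  ring

end Vale.Agent.P230
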