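import Vale.Agent.P230.UDefs

/-! One-row Gaussian estimates for the second moment bound. -/

open MeasureTheory Finset Metric ProbabilityTheory
open scoped ENNReal NNReal

namespace Vale.Agent.P230

theorem sm_gd_pos (x : ℝ) : 0 < gd x := by
  unfold gd
  have := Real.pi_pos
  positivity

theorem sm_law {n : ℕ} (u : E n) :
    (stdGaussian (E n)).map (fun h => inner ℝ h u) = gaussianReal 0 (‖u‖ ^ 2).toNNReal := by
  have h1 := IsGaussian.map_eq_gaussianReal (μ := stdGaussian (E n)) (innerSL ℝ u)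
  rw [integral_strongDual_stdGaussian, variance_dual_stdGaussian, innerSL_apply_norm] at h1
  rw [← h1]
  congr 1
  ext h
  simp [real_inner_comm]

theorem sm_indep {n : ℕ} (u w : E n) (h : inner ℝ u w = (0 : ℝ)) :
    IndepFun (fun g : E n => inner ℝ g u) (fun g : E n => inner ℝ g w) (stdGaussian (E n)) := by
  have e1 : (fun g : E n => inner ℝ g u) = fun g : E n => inner ℝ u g := by
    ext g; exact real_inner_comm _ _
  have e2 : (fun g : E n => inner ℝ g w) = fun g : E n => inner ℝ w g := by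
    ext g; exact real_inner_comm _ _
  rw [e1, e2]
  apply HasGaussianLaw.indepFun_of_covariance_eq_zero
  · exact (IsGaussian.hasGaussianLaw_id (μ := stdGaussian (E n))).map_fun
      ((innerSL ℝ u).prod (innerSL ℝ w))
  · rw [← covarianceBilin_apply_eq_cov IsGaussian.memLp_two_id, covarianceBilin_stdGaussian]
    exact h

theorem sm_pdf (ω : ℝ) (hω : 0 < ω) (y : ℝ) :
    gaussianPDFReal 0 (ω ^ 2).toNNReal y = gd (y / ω) / ω := by
  have hπ := Real.pi_pos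
  unfold gaussianPDFReal gd
  rw [Real.coe_toNNReal _ (sq_nonneg ω), Real.sqrt_mul (by positivity), Real.sqrt_sq hω.le]
  have e : -(y - 0) ^ 2 / (2 * ω ^ 2) = -(y / ω) ^ 2 / 2 := by
    field_simp
    ring
  rw [e]
  have : 0 < √(2 * Real.pi) := Real.sqrt_pos.2 (by positivity)
  field_simp

theorem sm_set_eq (t ρ : ℝ) : {y : ℝ | |y - t| ≤ ρ} = Set.Icc (t - ρ) (t + ρ) := by
  ext y
  simp only [Set.mem_ofPred_eq, Set.mem_Icc, abs_le]
  constructor
  · rintro ⟨h1, h2⟩; constructor <;> linarith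
  · rintro ⟨h1, h2⟩; constructor <;> linarith

theorem sm_row_eq {n : ℕ} (u : E n) (hu : 0 < ‖u‖) (t ρ : ℝ) :
    stdGaussian (E n) {h | |inner ℝ h u - t| ≤ ρ}
      = ∫⁻ y in Set.Icc (t - ρ) (t + ρ), ENNReal.ofReal (gd (y / ‖u‖) / ‖u‖) := by
  have hm : Measurable (fun h : E n => inner ℝ h u) := by fun_prop
  have e : {h : E n | |inner ℝ h u - t| ≤ ρ}
      = (fun h : E n => inner ℝ h u) ⁻¹' Set.Icc (t - ρ) (t + ρ) := by
    rw [← sm_set_eq]; rfl
  rw [e, ← Measure.map_apply hm measurableSet_Icc, sm_law, gaussianReal_apply]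
  · simp only [gaussianPDF, sm_pdf _ hu]
  · rw [Ne, Real.toNNReal_eq_zero, not_le]
    positivity

theorem sm_row_le {n : ℕ} (u : E n) (hu : 0 < ‖u‖) (t ρ M : ℝ) (hρ : 0 ≤ ρ)
    (h : ∀ y, |y - t| ≤ ρ → gd (y / ‖u‖) / ‖u‖ ≤ M) :
    stdGaussian (E n) {h | |inner ℝ h u - t| ≤ ρ} ≤ ENNReal.ofReal (2 * ρ * M) := by
  rw [sm_row_eq u hu]
  calc ∫⁻ y in Set.Icc (t - ρ) (t + ρ), ENNReal.ofReal (gd (y / ‖u‖) / ‖u‖)
      ≤ ∫⁻ _ in Set.Icc (t - ρ) (t + ρ), ENNReal.ofReal M := by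
        refine setLIntegral_mono' measurableSet_Icc fun y hy => ENNReal.ofReal_le_ofReal (h y ?_)
        rw [← sm_set_eq] at hy
        exact hy
    _ = ENNReal.ofReal (2 * ρ * M) := by
        rw [setLIntegral_const, Real.volume_Icc, ← ENNReal.ofReal_mul' (by linarith)]
        congr 1
        ring

theorem sm_row_ge {n : ℕ} (u : E n) (hu : 0 < ‖u‖) (t ρ M : ℝ) (hρ : 0 ≤ ρ)
    (h : ∀ y, |y - t| ≤ ρ → M ≤ gd (y / ‖u‖) / ‖u‖) :
    ENNReal.ofReal (2 * ρ * M) ≤ stdGaussian (E n) {h | |inner ℝ h u - t| ≤ ρ} := by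
  rw [sm_row_eq u hu]
  calc ENNReal.ofReal (2 * ρ * M) = ∫⁻ _ in Set.Icc (t - ρ) (t + ρ), ENNReal.ofReal M := by
        rw [setLIntegral_const, Real.volume_Icc, ← ENNReal.ofReal_mul' (by linarith)]
        congr 1
        ring
    _ ≤ ∫⁻ y in Set.Icc (t - ρ) (t + ρ), ENNReal.ofReal (gd (y / ‖u‖) / ‖u‖) := by
        refine setLIntegral_mono' measurableSet_Icc fun y hy => ENNReal.ofReal_le_ofReal (h y ?_)
        rw [← sm_set_eq] at hy
        exact hy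

theorem sm_gd_le (a b c : ℝ) (h : b ^ 2 / 2 - c ≤ a ^ 2 / 2) : gd a ≤ gd b * Real.exp c := by
  unfold gd
  rw [div_mul_eq_mul_div, ← Real.exp_add]
  exact div_le_div_of_nonneg_right (Real.exp_le_exp.2 (by linarith)) (Real.sqrt_nonneg _)

/-- lower density bound -/
theorem sm_dens_ge (ω θ s ζ y : ℝ) (h1 : 1 ≤ ω) (h2 : ω ≤ 1 + θ) (hy : |y - s| ≤ ζ) :
    gd s * Real.exp (-(θ + ζ * |s| + ζ ^ 2 / 2)) ≤ gd (y / ω) / ω := by
  have hω : 0 < ω := by linarith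
  have hζ : 0 ≤ ζ := (abs_nonneg _).trans hy
  have a1 : |y| ≤ |s| + ζ := by
    have := abs_add_le s (y - s)
    rw [add_sub_cancel] at this
    linarith
  have a2 : y ^ 2 ≤ (|s| + ζ) ^ 2 := by
    rw [← sq_abs y]
    exact pow_le_pow_left₀ (abs_nonneg _) a1 2
  have a3 : (y / ω) ^ 2 ≤ y ^ 2 := by
    rw [div_pow]
    exact div_le_self (sq_nonneg _) (one_le_pow₀ h1)
  have a4 : gd s ≤ gd (y / ω) * Real.exp (ζ * |s| + ζ ^ 2 / 2) := by
    apply sm_gd_le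
    have := sq_abs s
    nlinarith
  have a5 : ω ≤ Real.exp θ := h2.trans (by linarith [Real.add_one_le_exp θ])
  rw [le_div_iff₀ hω]
  have hg := sm_gd_pos (y / ω)
  calc gd s * Real.exp (-(θ + ζ * |s| + ζ ^ 2 / 2)) * ω
      ≤ gd (y / ω) * Real.exp (ζ * |s| + ζ ^ 2 / 2) * Real.exp (-(θ + ζ * |s| + ζ ^ 2 / 2))
          * Real.exp θ := by
        have := sm_gd_pos s
        gcongr
    _ = gd (y / ω) := by
        rw [mul_assoc, mul_assoc, ← Real.exp_add, ← Real.exp_add]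
        have : ζ * |s| + ζ ^ 2 / 2 + (-(θ + ζ * |s| + ζ ^ 2 / 2) + θ) = 0 := by ring
        rw [this, Real.exp_zero, mul_one]

/-- upper density bound -/
theorem sm_dens_le (ω θ a s δ y : ℝ) (ha0 : 0 ≤ a) (ha : a ≤ 1 / 2) (hθ : 0 ≤ θ)
    (h1 : 1 - a ≤ ω) (h2 : ω ≤ 1 + θ) (hy : |y - s| ≤ δ) :
    gd (y / ω) / ω ≤ gd s * Real.exp (2 * a + θ * s ^ 2 + |s| * δ) := by
  have hω : 0 < ω := by linarith
  have hδ : 0 ≤ δ := (abs_nonneg _).trans hy
  have a1 : s ^ 2 - 2 * |s| * δ ≤ y ^ 2 := by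
    have e : y ^ 2 = s ^ 2 + 2 * s * (y - s) + (y - s) ^ 2 := by ring
    have b1 : -(|s| * δ) ≤ s * (y - s) := by
      have b2 : |s * (y - s)| ≤ |s| * δ := by
        rw [abs_mul]
        exact mul_le_mul_of_nonneg_left hy (abs_nonneg _)
      exact (abs_le.1 b2).1
    nlinarith [sq_nonneg (y - s)]
  have a2 : s ^ 2 * (1 - 2 * θ) - 2 * |s| * δ ≤ (y / ω) ^ 2 := by
    have hq : 0 < (1 + θ) ^ 2 := by positivity
    have b0 : y ^ 2 / (1 + θ) ^ 2 ≤ (y / ω) ^ 2 := by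
      rw [div_pow]
      exact div_le_div_of_nonneg_left (sq_nonneg _) (by positivity)
        (pow_le_pow_left₀ hω.le h2 2)
    refine le_trans ?_ b0
    rw [le_div_iff₀ hq]
    refine le_trans ?_ a1
    have b1 : (1 - 2 * θ) * (1 + θ) ^ 2 ≤ 1 := by
      have : (1 - 2 * θ) * (1 + θ) ^ 2 = 1 - 3 * θ ^ 2 - 2 * θ ^ 3 := by ring
      rw [this]
      have := pow_nonneg hθ 2
      have := pow_nonneg hθ 3
      linarith
    have b2 : 1 ≤ (1 + θ) ^ 2 := one_le_pow₀ (by linarith)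
    have b3 : 0 ≤ |s| * δ := mul_nonneg (abs_nonneg _) hδ
    have b4 := mul_le_mul_of_nonneg_left b1 (sq_nonneg s)
    have b5 := mul_le_mul_of_nonneg_left b2 b3
    nlinarith
  have a3 : gd (y / ω) ≤ gd s * Real.exp (θ * s ^ 2 + |s| * δ) := by
    apply sm_gd_le
    linarith
  have a4 : 1 ≤ Real.exp (2 * a) * ω := by
    have b1 := Real.add_one_le_exp (2 * a)
    have b2 : (2 * a + 1) * (1 - a) ≤ Real.exp (2 * a) * ω :=
      mul_le_mul b1 h1 (by linarith) (Real.exp_pos _).le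
    nlinarith
  rw [div_le_iff₀ hω]
  have hg := sm_gd_pos s
  calc gd (y / ω) ≤ gd s * Real.exp (θ * s ^ 2 + |s| * δ) * 1 := by rw [mul_one]; exact a3
    _ ≤ gd s * Real.exp (θ * s ^ 2 + |s| * δ) * (Real.exp (2 * a) * ω) := by gcongr
    _ = gd s * Real.exp (2 * a + θ * s ^ 2 + |s| * δ) * ω := by
        rw [add_assoc, Real.exp_add (2 * a)]
        ring

/-- one-row lower bound -/
theorem sm_one_ge {n : ℕ} (u : E n) (θ ζ a X s : ℝ) (hθ : 0 ≤ θ) (hζ : 0 ≤ ζ) (hζ1 : ζ ≤ 1)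
    (ha : 0 ≤ a) (hs : |s| ≤ X) (h1 : 1 ≤ ‖u‖) (h2 : ‖u‖ ≤ 1 + θ) :
    ENNReal.ofReal (2 * ζ * gd s * Real.exp (-((X ^ 2 + 1) * (θ + ζ + a))))
      ≤ stdGaussian (E n) {h | |inner ℝ h u - s| ≤ ζ} := by
  rw [mul_assoc (2 * ζ)]
  refine sm_row_ge u (by linarith) s ζ _ hζ fun y hy => le_trans ?_ (sm_dens_ge _ θ s ζ y h1 h2 hy)
  refine mul_le_mul_of_nonneg_left (Real.exp_le_exp.2 (neg_le_neg ?_)) (sm_gd_pos s).le
  have b1 : |s| ≤ (X ^ 2 + 1) / 2 := by nlinarith [sq_nonneg (X - 1)]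
  have b2 := mul_le_mul_of_nonneg_left b1 hζ
  have b3 := mul_le_mul_of_nonneg_left hζ1 hζ
  have b4 := mul_nonneg (sq_nonneg X) hθ
  have b5 := mul_nonneg (sq_nonneg X) hζ
  have b6 := mul_nonneg (sq_nonneg X) ha
  nlinarith

/-- one-row upper bound for an almost orthogonal pair -/
theorem sm_two_le {n : ℕ} (u u' : E n) (θ ζ a X s : ℝ) (hθ : 0 ≤ θ) (hζ : 0 ≤ ζ)
    (ha0 : 0 ≤ a) (ha : a ≤ 1 / 2) (hs : |s| ≤ X) (h1 : 1 ≤ ‖u‖) (h2 : ‖u‖ ≤ 1 + θ)
    (h1' : 1 ≤ ‖u'‖) (h2' : ‖u'‖ ≤ 1 + θ) (hi : |inner ℝ u u'| ≤ a * ‖u‖) :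
    stdGaussian (E n) ({h | |inner ℝ h u - s| ≤ ζ} ∩ {h | |inner ℝ h u' - s| ≤ ζ})
      ≤ ENNReal.ofReal ((2 * ζ * gd s) ^ 2 * Real.exp (3 * ((X ^ 2 + 1) * (θ + ζ + a)))) := by
  have hu : 0 < ‖u‖ := by linarith
  set α : ℝ := inner ℝ u u' / ‖u‖ ^ 2 with hα
  set w : E n := u' - α • u with hw
  have horth : inner ℝ u w = (0 : ℝ) := by
    rw [hw, inner_sub_right, real_inner_smul_right, real_inner_self_eq_norm_sq, hα]
    field_simp
    ring
  have hαu : |α| * ‖u‖ ≤ a := by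
    rw [hα, abs_div, abs_of_pos (by positivity : 0 < ‖u‖ ^ 2), div_mul_eq_mul_div,
      div_le_iff₀ (by positivity)]
    nlinarith
  have hαa : |α| ≤ a := le_trans (le_mul_of_one_le_right (abs_nonneg _) h1) hαu
  have hn : ‖α • u‖ ≤ a := by rw [norm_smul, Real.norm_eq_abs]; exact hαu
  have hw1 : 1 - a ≤ ‖w‖ := by
    have := norm_sub_norm_le u' (α • u)
    linarith
  have hw2 : ‖w‖ ≤ 1 + (θ + a) := by
    have := norm_sub_le u' (α • u)
    linarith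
  have hsub : {h : E n | |inner ℝ h u - s| ≤ ζ} ∩ {h | |inner ℝ h u' - s| ≤ ζ}
      ⊆ (fun g : E n => inner ℝ g u) ⁻¹' {y : ℝ | |y - s| ≤ ζ}
        ∩ (fun g : E n => inner ℝ g w) ⁻¹' {y : ℝ | |y - s * (1 - α)| ≤ ζ * (1 + a)} := by
    rintro h ⟨hh1, hh2⟩
    refine ⟨hh1, ?_⟩
    simp only [Set.mem_preimage, Set.mem_ofPred_eq] at hh1 hh2 ⊢
    have e : inner ℝ h w - s * (1 - α) = (inner ℝ h u' - s) - α * (inner ℝ h u - s) := by
      rw [hw, inner_sub_right, real_inner_smul_right]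
      ring
    rw [e]
    refine (abs_sub _ _).trans ?_
    rw [abs_mul]
    have := mul_le_mul hαa hh1 (abs_nonneg _) ha0
    nlinarith
  have hI := (sm_indep u w horth).measure_inter_preimage_eq_mul {y : ℝ | |y - s| ≤ ζ}
    {y : ℝ | |y - s * (1 - α)| ≤ ζ * (1 + a)} (by rw [sm_set_eq]; exact measurableSet_Icc)
    (by rw [sm_set_eq]; exact measurableSet_Icc)
  refine (measure_mono hsub).trans ?_
  rw [hI]
  have f1 := sm_row_le u hu s ζ (gd s * Real.exp (2 * 0 + θ * s ^ 2 + |s| * ζ)) hζ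
    fun y hy => sm_dens_le _ θ 0 s ζ y le_rfl (by norm_num) hθ (by linarith) h2 hy
  have f2 := sm_row_le w (by linarith) (s * (1 - α)) (ζ * (1 + a))
    (gd s * Real.exp (2 * a + (θ + a) * s ^ 2 + |s| * (ζ * (1 + a) + a * |s|))) (by positivity)
    fun y hy => sm_dens_le _ (θ + a) a s _ y ha0 ha (by positivity) hw1 hw2 (by
      have e : y - s = (y - s * (1 - α)) - α * s := by ring
      rw [e]
      refine (abs_sub _ _).trans ?_
      rw [abs_mul]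
      have := mul_le_mul_of_nonneg_right hαa (abs_nonneg s)
      linarith)
  refine (mul_le_mul' f1 f2).trans ?_
  have hg := sm_gd_pos s
  rw [← ENNReal.ofReal_mul (by positivity)]
  apply ENNReal.ofReal_le_ofReal
  have g1 : 1 + a ≤ Real.exp a := by linarith [Real.add_one_le_exp a]
  have hX : 0 ≤ X := (abs_nonneg _).trans hs
  have b0 : s ^ 2 ≤ X ^ 2 := by
    rw [← sq_abs s]
    exact pow_le_pow_left₀ (abs_nonneg _) hs 2
  have b1 : |s| ≤ (X ^ 2 + 1) / 2 := by nlinarith [sq_nonneg (X - 1)]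
  have g2 : (2 * 0 + θ * s ^ 2 + |s| * ζ) + (a + (2 * a + (θ + a) * s ^ 2
      + |s| * (ζ * (1 + a) + a * |s|))) ≤ 3 * ((X ^ 2 + 1) * (θ + ζ + a)) := by
    have c0 : |s| * (a * |s|) = a * s ^ 2 := by rw [← sq_abs s]; ring
    have c1 := mul_le_mul_of_nonneg_left b0 hθ
    have c2 := mul_le_mul_of_nonneg_left b0 ha0
    have c3 := mul_le_mul_of_nonneg_left b1 hζ
    have c4 : |s| * (ζ * (1 + a)) ≤ (X ^ 2 + 1) / 2 * (ζ * 2) :=
      mul_le_mul b1 (mul_le_mul_of_nonneg_left (by linarith) hζ) (by positivity) (by positivity)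
    have b4 := mul_nonneg (sq_nonneg X) hθ
    have b5 := mul_nonneg (sq_nonneg X) hζ
    have b6 := mul_nonneg (sq_nonneg X) ha0
    rw [mul_add |s|, c0]
    nlinarith
  calc 2 * ζ * (gd s * Real.exp (2 * 0 + θ * s ^ 2 + |s| * ζ))
        * (2 * (ζ * (1 + a)) * (gd s * Real.exp (2 * a + (θ + a) * s ^ 2
          + |s| * (ζ * (1 + a) + a * |s|))))
      = (2 * ζ * gd s) ^ 2 * (Real.exp (2 * 0 + θ * s ^ 2 + |s| * ζ) * ((1 + a)
          * Real.exp (2 * a + (θ + a) * s ^ 2 + |s| * (ζ * (1 + a) + a * |s|)))) := by ring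
    _ ≤ (2 * ζ * gd s) ^ 2 * (Real.exp (2 * 0 + θ * s ^ 2 + |s| * ζ) * (Real.exp a
          * Real.exp (2 * a + (θ + a) * s ^ 2 + |s| * (ζ * (1 + a) + a * |s|)))) := by gcongr
    _ ≤ (2 * ζ * gd s) ^ 2 * Real.exp (3 * ((X ^ 2 + 1) * (θ + ζ + a))) := by
        rw [← Real.exp_add, ← Real.exp_add]
        gcongr

/-- one-row upper bound away from the origin -/
theorem sm_up_le {n : ℕ} (u : E n) (σ ζ : ℝ) (hζ : 0 < ζ) (hσ : ζ < σ) :
    stdGaussian (E n) {h | |inner ℝ h u - σ| ≤ ζ} ≤ ENNReal.ofReal (2 * ζ * gd 1 / (σ - ζ)) := by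
  by_cases hu : u = 0
  · have e : {h : E n | |inner ℝ h u - σ| ≤ ζ} = ∅ := by
      ext h
      simp only [hu, inner_zero_right, zero_sub, abs_neg, Set.mem_ofPred_eq, Set.mem_empty_iff_false,
        iff_false, not_le]
      exact hσ.trans_le (le_abs_self σ)
    rw [e, measure_empty]
    exact zero_le
  have hu' : 0 < ‖u‖ := norm_pos_iff.2 hu
  rw [mul_div_assoc]
  refine sm_row_le u hu' σ ζ _ hζ.le fun y hy => ?_
  have hy1 : σ - ζ ≤ y := by linarith [(abs_le.1 hy).1]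
  have hy0 : 0 < y := by linarith
  set t := y / ‖u‖ with ht
  have ht0 : 0 < t := by positivity
  have e : gd t / ‖u‖ = t * gd t / y := by
    rw [ht]
    field_simp
  rw [e]
  have k1 : t * gd t ≤ gd 1 := by
    have k2 : gd t ≤ gd 1 * Real.exp (-((t ^ 2 - 1) / 2)) := sm_gd_le _ _ _ (by linarith)
    have k3 : t ≤ Real.exp ((t ^ 2 - 1) / 2) := by
      have := Real.add_one_le_exp ((t ^ 2 - 1) / 2)
      nlinarith [sq_nonneg (t - 1)]
    calc t * gd t ≤ Real.exp ((t ^ 2 - 1) / 2) * (gd 1 * Real.exp (-((t ^ 2 - 1) / 2))) :=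
          mul_le_mul k3 k2 (sm_gd_pos t).le (Real.exp_pos _).le
      _ = gd 1 := by
          rw [mul_comm, mul_assoc, ← Real.exp_add, neg_add_cancel, Real.exp_zero, mul_one]
  exact div_le_div₀ (sm_gd_pos 1).le k1 (by linarith) hy1

end Vale.Agent.P230
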