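import Vale.Agent.P230.Avg

/-! A combinatorial sieve for the hole probability of random affine maps over `ZMod p`. -/

open Finset

namespace Vale.Agent.P230

/-- the sieve family -/
def SvD {α : Type*} [DecidableEq α] (ρ : α → ℕ) (C : Finset α → Prop) (S : Finset α) : Prop :=
  (Odd S.card → C S) ∧ (Even S.card → ∀ e ∈ S, (∀ y ∈ S, ρ e ≤ ρ y) → C (S.erase e))

lemma sieve_bounds {α : Type*} [DecidableEq α] {ρ : α → ℕ} (hρ : Function.Injective ρ)
    {C : Finset α → Prop} (hC : ∀ S S', S' ⊆ S → C S → C S') (P : Finset α) :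
    ind (P = ∅) ≤ ∑ S ∈ P.powerset, (-1 : ℝ) ^ S.card * ind (SvD ρ C S) ∧
    ∑ S ∈ P.powerset, (-1 : ℝ) ^ S.card * ind (SvD ρ C S)
      ≤ ind (P = ∅) + ∑ S ∈ P.powerset, ind (¬ C S) := by
  rcases P.eq_empty_or_nonempty with rfl | hP
  · have : SvD ρ C (∅ : Finset α) := ⟨fun h => by simp at h, fun _ e he => by simp at he⟩
    simp [ind_pos this, ind_pos, ind_nonneg]
  · rw [ind_neg hP.ne_empty, zero_add]
    obtain ⟨e, he, hmin⟩ := exists_min_image P ρ hP
    have hP' : P = insert e (P.erase e) := (insert_erase he).symm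
    have hne : e ∉ P.erase e := notMem_erase e P
    rw [hP', sum_powerset_insert hne, sum_powerset_insert hne, ← sum_add_distrib,
      ← sum_add_distrib]
    have key : ∀ S ∈ (P.erase e).powerset,
        0 ≤ (-1 : ℝ) ^ S.card * ind (SvD ρ C S)
          + (-1 : ℝ) ^ (insert e S).card * ind (SvD ρ C (insert e S)) ∧
        (-1 : ℝ) ^ S.card * ind (SvD ρ C S)
          + (-1 : ℝ) ^ (insert e S).card * ind (SvD ρ C (insert e S))
          ≤ ind (¬ C S) + ind (¬ C (insert e S)) := by
      intro S hS
      have hS' := mem_powerset.1 hS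
      have heS : e ∉ S := fun h => hne (hS' h)
      rw [card_insert_of_notMem heS]
      have n1 := ind_nonneg (¬ C S)
      have n2 := ind_nonneg (¬ C (insert e S))
      rcases Nat.even_or_odd S.card with hev | hod
      · have hod' : Odd (insert e S).card := by rw [card_insert_of_notMem heS]; exact hev.add_one
        have i1 : SvD ρ C (insert e S) ↔ C (insert e S) :=
          ⟨fun h => h.1 hod', fun h => ⟨fun _ => h, fun h' => absurd h' (Nat.not_even_iff_odd.2 hod')⟩⟩
        rw [hev.neg_one_pow, hev.add_one.neg_one_pow, ind_congr i1]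
        by_cases hc : C (insert e S)
        · have : SvD ρ C S := ⟨fun h => absurd hev (Nat.not_even_iff_odd.2 h), fun _ e' _ _ =>
            hC _ _ ((erase_subset _ _).trans (subset_insert _ _)) hc⟩
          rw [ind_pos this, ind_pos hc]; constructor <;> linarith
        · rw [ind_neg hc, ind_pos hc]
          have := ind_nonneg (SvD ρ C S)
          have := ind_le_one (SvD ρ C S)
          constructor <;> linarith
      · have hev' : Even (insert e S).card := by rw [card_insert_of_notMem heS]; exact hod.add_one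
        have i1 : SvD ρ C S ↔ C S :=
          ⟨fun h => h.1 hod, fun h => ⟨fun _ => h, fun h' => absurd h' (Nat.not_even_iff_odd.2 hod)⟩⟩
        have i2 : SvD ρ C (insert e S) ↔ C S := by
          have hmin' : ∀ y ∈ insert e S, ρ e ≤ ρ y := fun y hy => by
            rcases mem_insert.1 hy with rfl | hy
            · exact le_rfl
            · exact hmin y (mem_of_mem_erase (hS' hy))
          constructor
          · intro h
            have := h.2 hev' e (mem_insert_self _ _) hmin'
            rwa [erase_insert heS] at this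
          · intro h
            refine ⟨fun h' => absurd hev' (Nat.not_even_iff_odd.2 h'), fun _ e' he' hm => ?_⟩
            have : e' = e := hρ (le_antisymm (hm e (mem_insert_self _ _)) (hmin' e' he'))
            rw [this, erase_insert heS]; exact h
        rw [hod.neg_one_pow, hod.add_one.neg_one_pow, ind_congr i1, ind_congr i2]
        constructor <;> linarith
    exact ⟨sum_nonneg fun S hS => (key S hS).1, sum_le_sum fun S hS => (key S hS).2⟩

section bern
variable {ι : Type*} [Fintype ι] [DecidableEq ι]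

lemma Ex_coord' (p : ι → ℝ) (u : ι) : Ex p (fun ω => ind (ω u = true)) = p u := by
  have := Ex_flip (p := p) u (fun _ => 1)
  have h2 : Ex p (fun ω => if ω u = true then (1 - p u) * 1 else 0)
      = (1 - p u) * Ex p (fun ω => ind (ω u = true)) := by
    rw [← Ex_smul]; exact Ex_congr fun ω => by by_cases h : ω u = true <;> simp [ind, h]
  have h3 : Ex p (fun ω => if ω u = true then 0 else p u * 1)
      = p u * (1 - Ex p (fun ω => ind (ω u = true))) := by
    conv_rhs => rw [← Ex_const p 1]
    rw [← Ex_sub, ← Ex_smul]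
    exact Ex_congr fun ω => by by_cases h : ω u = true <;> simp [ind, h]
  rw [h2, h3] at this
  linarith

lemma Ex_prod_coord (p : ι → ℝ) (S : Finset ι) (f : ι → Bool → ℝ) :
    Ex p (fun ω => ∏ u ∈ S, f u (ω u)) = ∏ u ∈ S, Ex p (fun ω => f u (ω u)) := by
  refine Ex_prod_indep S (fun u ω => f u (ω u)) (fun u => {u}) ?_ ?_
  · intro u _ ω ω' h
    simp only [h u (mem_singleton_self u)]
  · intro u _ v _ huv
    exact disjoint_singleton.2 huv

/-- the algebraic half of the sieve -/
lemma sieve_ideal {ρ : ι → ℕ} (hρ : Function.Injective ρ)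
    {C : Finset ι → Prop} (hC : ∀ S S', S' ⊆ S → C S → C S') (a : ι → ℝ) (h0 : ∀ u, 0 ≤ a u)
    (h1 : ∀ u, a u ≤ 1) :
    ∑ S : Finset ι, (-1 : ℝ) ^ S.card * ind (SvD ρ C S) * ∏ u ∈ S, a u
      ≤ ∏ u, (1 - a u) + ∑ S : Finset ι, ind (¬ C S) * ∏ u ∈ S, a u := by
  have e1 : ∀ S : Finset ι, Ex a (fun ω => ind (S ⊆ univ.filter fun u => ω u = true))
      = ∏ u ∈ S, a u := by
    intro S
    rw [Ex_congr (g := fun ω => ∏ u ∈ S, ind (ω u = true)) fun ω => by
      rw [← ind_forall]; exact ind_congr (by simp [subset_iff]),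
      Ex_prod_coord a S (fun _ b => ind (b = true))]
    exact prod_congr rfl fun u _ => Ex_coord' a u
  have e2 : Ex a (fun ω => ind ((univ.filter fun u => ω u = true) = ∅)) = ∏ u, (1 - a u) := by
    rw [Ex_congr (g := fun ω => ∏ u, (1 - ind (ω u = true))) fun ω => by
      simp only [← ind_not]
      rw [← ind_forall]; exact ind_congr (by simp [filter_eq_empty_iff]),
      Ex_prod_coord a univ (fun _ b => 1 - ind (b = true))]
    exact prod_congr rfl fun u _ => by rw [Ex_sub, Ex_const, Ex_coord']
  have e3 : ∀ (P : Finset ι) (F : Finset ι → ℝ),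
      ∑ S ∈ P.powerset, F S = ∑ S : Finset ι, F S * ind (S ⊆ P) := by
    intro P F
    rw [← sum_subset (subset_univ P.powerset)]
    · exact sum_congr rfl fun S hS => by rw [ind_pos (mem_powerset.1 hS), mul_one]
    · intro S _ hS; rw [ind_neg (fun h => hS (mem_powerset.2 h)), mul_zero]
  have := Ex_mono h0 h1 fun ω => (sieve_bounds hρ hC (univ.filter fun u => ω u = true)).2
  simp only [e3] at this
  rw [Ex_add, e2, Ex_sum, Ex_sum] at this
  simpa only [Ex_smul, e1] using this

end bern

section affine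
variable {p : ℕ} [Fact p.Prime] {D Sg α : Type*} [Fintype D] [DecidableEq D] [Fintype Sg]
  [DecidableEq Sg]

/-- random affine map -/
def lin (φ : D → Sg → ZMod p) (x : Sg → ZMod p) (y : D → ZMod p) : Sg → ZMod p :=
  x + ∑ i, y i • φ i

/-- a set of points carrying a nontrivial linear relation to some point -/
def Dirty (vec : α → D → ZMod p) (S : Finset α) : Prop :=
  ∃ m : α → ZMod p, (∃ y1 ∈ S, ∃ y2 ∈ S, y1 ≠ y2 ∧ m y1 ≠ 0 ∧ m y2 ≠ 0) ∧
    ∃ y, vec y = ∑ s ∈ S, m s • vec s

omit [Fintype D] [DecidableEq D] in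
lemma Dirty.mono [DecidableEq α] {vec : α → D → ZMod p} {S S' : Finset α} (h : S' ⊆ S)
    (hd : Dirty vec S') : Dirty vec S := by
  obtain ⟨m, ⟨y1, h1, y2, h2, hne, m1, m2⟩, y, hy⟩ := hd
  refine ⟨fun s => if s ∈ S' then m s else 0, ⟨y1, h h1, y2, h h2, hne, by simpa [h1], by
    simpa [h2]⟩, y, ?_⟩
  rw [hy, ← sum_subset h (f := fun s => (if s ∈ S' then m s else 0) • vec s)]
  · exact sum_congr rfl fun s hs => by rw [if_pos hs]
  · intro s _ hs; rw [if_neg hs, zero_smul]

lemma exists_shift {vec : α → D → ZMod p} (hinj : Function.Injective vec) {S : Finset α}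
    (hS : ¬ Dirty vec S) {y0 : α} (hy0 : y0 ∉ S) :
    ∃ (θ0 : ZMod p) (θ : D → ZMod p), (∀ s ∈ S, θ0 + ∑ i, vec s i * θ i = 0) ∧
      θ0 + ∑ i, vec y0 i * θ i = 1 := by
  classical
  let w : α → ZMod p × (D → ZMod p) := fun y => (1, vec y)
  have hn : w y0 ∉ Submodule.span (ZMod p) (w '' (S : Set α)) := by
    intro h
    rw [Submodule.mem_span_image_finset_iff_exists_fun'] at h
    obtain ⟨m, hm⟩ := h
    have h1 : ∑ s ∈ S, m s = 1 := by
      have := congrArg Prod.fst hm
      simpa [w, Prod.fst_sum] using this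
    have h2 : ∑ s ∈ S, m s • vec s = vec y0 := by
      have := congrArg Prod.snd hm
      simpa [w, Prod.snd_sum] using this
    by_cases htwo : ∃ y1 ∈ S, ∃ y2 ∈ S, y1 ≠ y2 ∧ m y1 ≠ 0 ∧ m y2 ≠ 0
    · exact hS ⟨m, htwo, y0, h2.symm⟩
    · obtain ⟨y1, hy1, hm1⟩ := exists_ne_zero_of_sum_ne_zero (h1 ▸ one_ne_zero)
      have hz : ∀ s ∈ S, s ≠ y1 → m s = 0 := fun s hs hne => by
        by_contra h; exact htwo ⟨s, hs, y1, hy1, hne, h, hm1⟩
      rw [sum_eq_single_of_mem y1 hy1 hz] at h1
      rw [sum_eq_single_of_mem y1 hy1 (fun s hs hne => by rw [hz s hs hne, zero_smul]), h1,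
        one_smul] at h2
      exact hy0 (hinj h2 ▸ hy1)
  obtain ⟨f, hf1, hf0⟩ := Submodule.exists_dual_map_eq_bot_of_notMem hn inferInstance
  have hf : ∀ y, f (w y) = f (1, 0) + ∑ i, vec y i * f (0, Pi.single i 1) := by
    intro y
    have : w y = (1, 0) + ∑ i, vec y i • ((0 : ZMod p), (Pi.single i 1 : D → ZMod p)) := by
      ext i
      · simp [w, Prod.fst_sum]
      · simp [w, Prod.snd_sum, Pi.single_apply]
    rw [this, map_add, map_sum]
    simp only [map_smul, smul_eq_mul]
  refine ⟨f (1, 0) / f (w y0), fun i => f (0, Pi.single i 1) / f (w y0), fun s hs => ?_, ?_⟩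
  · have h0 : f (w s) = 0 := by
      have : f (w s) ∈ (Submodule.span (ZMod p) (w '' (S : Set α))).map f :=
        Submodule.mem_map_of_mem (Submodule.subset_span ⟨s, hs, rfl⟩)
      rwa [hf0, Submodule.mem_bot] at this
    simp only [← mul_div_assoc]
    rw [← sum_div, ← add_div, ← hf, h0, zero_div]
  · simp only [← mul_div_assoc]
    rw [← sum_div, ← add_div, ← hf, div_self hf1]

lemma av_insert [DecidableEq α] {vec : α → D → ZMod p} (hinj : Function.Injective vec)
    (A : α → Finset (Sg → ZMod p)) {S : Finset α} (hS : ¬ Dirty vec S) {y0 : α} (hy0 : y0 ∉ S) :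
    av (fun φ : D → Sg → ZMod p => av fun x => ind (∀ y ∈ insert y0 S, lin φ x (vec y) ∈ A y))
      = ((A y0).card : ℝ) / Fintype.card (Sg → ZMod p) *
        av (fun φ : D → Sg → ZMod p => av fun x => ind (∀ y ∈ S, lin φ x (vec y) ∈ A y)) := by
  obtain ⟨θ0, θ, h0, h1⟩ := exists_shift hinj hS hy0
  have hsh : ∀ (c x : Sg → ZMod p) (φ : D → Sg → ZMod p) (y : D → ZMod p),
      lin (φ + fun i => θ i • c) (x + θ0 • c) y = lin φ x y + (θ0 + ∑ i, y i * θ i) • c := by
    intro c x φ y
    simp only [lin, Pi.add_apply, smul_add, sum_add_distrib, add_smul, sum_smul, mul_smul]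
    abel
  have e1 : ∀ c : Sg → ZMod p,
      av (fun φ : D → Sg → ZMod p => av fun x => ind (∀ y ∈ insert y0 S, lin φ x (vec y) ∈ A y))
      = av (fun φ : D → Sg → ZMod p => av fun x =>
        ind (∀ y ∈ S, lin φ x (vec y) ∈ A y) * ind (lin φ x (vec y0) + c ∈ A y0)) := by
    intro c
    rw [← av_equiv (Equiv.addRight (fun i => θ i • c))]
    refine av_congr fun φ => ?_
    rw [← av_equiv (Equiv.addRight (θ0 • c))]
    refine av_congr fun x => ?_
    rw [← ind_and]
    refine ind_congr ?_
    simp only [Equiv.coe_addRight, hsh, forall_mem_insert, h1, one_smul]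
    rw [and_comm]
    refine and_congr_left fun _ => forall₂_congr fun y hy => ?_
    rw [h0 y hy, zero_smul, add_zero]
  rw [← av_const (Ω := Sg → ZMod p) (av _), av_congr e1, av_comm, ← av_smul]
  refine av_congr fun φ => ?_
  rw [av_comm, ← av_smul]
  refine av_congr fun x => ?_
  rw [av_smul, mul_comm, ← av_ind_mem,
    ← av_equiv (Equiv.addLeft (lin φ x (vec y0))) (fun ω => ind (ω ∈ A y0))]
  rfl

lemma av_clean [DecidableEq α] {vec : α → D → ZMod p} (hinj : Function.Injective vec)
    (A : α → Finset (Sg → ZMod p)) (S : Finset α) (hS : ¬ Dirty vec S) :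
    av (fun φ : D → Sg → ZMod p => av fun x => ind (∀ y ∈ S, lin φ x (vec y) ∈ A y))
      = ∏ y ∈ S, ((A y).card : ℝ) / Fintype.card (Sg → ZMod p) := by
  induction S using Finset.induction_on with
  | empty => simp [ind_pos, av_const]
  | insert y0 S hy0 ih =>
    have hS' : ¬ Dirty vec S := fun h => hS (h.mono (subset_insert _ _))
    rw [av_insert hinj A hS' hy0, ih hS', prod_insert hy0]

/-- The hole probability of a random affine map. -/
lemma hole_bound [Fintype α] [DecidableEq α] {vec : α → D → ZMod p}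
    (hinj : Function.Injective vec) (A : α → Finset (Sg → ZMod p)) (g : ℕ) (a : α → ℝ)
    (ha : ∀ y, a y = ((A y).card : ℝ) / Fintype.card (Sg → ZMod p)) :
    av (fun φ : D → Sg → ZMod p => av fun x => ind (∀ y, lin φ x (vec y) ∉ A y))
      ≤ ∏ y, (1 - a y) + Real.exp (2 * ∑ y, a y) / 2 ^ g
        + ∑ S : Finset α, ind (S.card ≤ g ∧ Dirty vec S) * ∏ y ∈ S, a y := by
  have hc : (0 : ℝ) < Fintype.card (Sg → ZMod p) := by exact_mod_cast Fintype.card_pos
  have h0 : ∀ y, 0 ≤ a y := fun y => by rw [ha]; positivity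
  have h1 : ∀ y, a y ≤ 1 := fun y => by
    rw [ha, div_le_one hc]; exact_mod_cast card_le_univ _
  let ρ : α → ℕ := fun y => (Fintype.equivFin α y : ℕ)
  have hρ : Function.Injective ρ := fun y y' h => (Fintype.equivFin α).injective (Fin.ext h)
  let C : Finset α → Prop := fun S => S.card ≤ g ∧ ¬ Dirty vec S
  have hC : ∀ S S', S' ⊆ S → C S → C S' := fun S S' h hS =>
    ⟨(card_le_card h).trans hS.1, fun hd => hS.2 (hd.mono h)⟩
  have e3 : ∀ (P : Finset α) (F : Finset α → ℝ),
      ∑ S ∈ P.powerset, F S = ∑ S : Finset α, F S * ind (S ⊆ P) := by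
    intro P F
    rw [← sum_subset (subset_univ P.powerset)]
    · exact sum_congr rfl fun S hS => by rw [ind_pos (mem_powerset.1 hS), mul_one]
    · intro S _ hS; rw [ind_neg (fun h => hS (mem_powerset.2 h)), mul_zero]
  have hD : ∀ S, SvD ρ C S →
      av (fun φ : D → Sg → ZMod p => av fun x => ind (∀ y ∈ S, lin φ x (vec y) ∈ A y))
      = ∏ y ∈ S, a y := by
    intro S hS
    simp only [ha]
    rcases Nat.even_or_odd S.card with hev | hod
    · rcases S.eq_empty_or_nonempty with rfl | hne
      · simp [ind_pos, av_const]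
      · obtain ⟨e, he, hmin⟩ := exists_min_image S ρ hne
        have hcl := (hS.2 hev e he hmin).2
        rw [← insert_erase he, av_insert hinj A hcl (notMem_erase e S), av_clean hinj A _ hcl,
          prod_insert (notMem_erase e S)]
    · exact av_clean hinj A S (hS.1 hod).2
  have s1 : av (fun φ : D → Sg → ZMod p => av fun x => ind (∀ y, lin φ x (vec y) ∉ A y))
      ≤ ∑ S : Finset α, (-1 : ℝ) ^ S.card * ind (SvD ρ C S) * ∏ y ∈ S, a y := by
    calc _ ≤ av (fun φ : D → Sg → ZMod p => av fun x => ∑ S : Finset α,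
          (-1 : ℝ) ^ S.card * ind (SvD ρ C S) * ind (∀ y ∈ S, lin φ x (vec y) ∈ A y)) := by
          refine av_mono fun φ => av_mono fun x => ?_
          have := (sieve_bounds hρ hC (univ.filter fun y => lin φ x (vec y) ∈ A y)).1
          rw [e3] at this
          refine le_trans (le_of_eq (ind_congr (by simp [filter_eq_empty_iff])))
            (this.trans (le_of_eq (sum_congr rfl fun S _ => ?_)))
          congr 1
          exact ind_congr (by simp [subset_iff])
      _ = _ := by
          simp only [av_sum, av_smul]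
          refine sum_congr rfl fun S _ => ?_
          by_cases hS : SvD ρ C S
          · rw [hD S hS]
          · rw [ind_neg hS]; simp
  refine s1.trans ((sieve_ideal hρ hC a h0 h1).trans ?_)
  rw [add_assoc]
  refine add_le_add le_rfl ?_
  have s2 : ∑ S : Finset α, ind (g < S.card) * ∏ y ∈ S, a y ≤ Real.exp (2 * ∑ y, a y) / 2 ^ g := by
    rw [le_div_iff₀ (by positivity), sum_mul]
    calc ∑ S : Finset α, ind (g < S.card) * (∏ y ∈ S, a y) * 2 ^ g
        ≤ ∑ S : Finset α, ∏ y ∈ S, (2 * a y) := by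
          refine sum_le_sum fun S _ => ?_
          have hp : 0 ≤ ∏ y ∈ S, a y := prod_nonneg fun y _ => h0 y
          rw [prod_mul_distrib, prod_const]
          by_cases h : g < S.card
          · rw [ind_pos h, one_mul, mul_comm]
            exact mul_le_mul_of_nonneg_right (pow_le_pow_right₀ (by norm_num) h.le) hp
          · rw [ind_neg h]; simp only [zero_mul]; positivity
      _ = ∏ y, (1 + 2 * a y) := by rw [Finset.prod_one_add, powerset_univ]
      _ ≤ ∏ y, Real.exp (2 * a y) := prod_le_prod (fun y _ => by linarith [h0 y])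
          fun y _ => by linarith [Real.add_one_le_exp (2 * a y)]
      _ = _ := by rw [← Real.exp_sum, mul_sum]
  refine le_trans ?_ (add_le_add s2 le_rfl)
  rw [← sum_add_distrib]
  refine sum_le_sum fun S _ => ?_
  rw [← add_mul]
  refine mul_le_mul_of_nonneg_right ?_ (prod_nonneg fun y _ => h0 y)
  by_cases h : g < S.card
  · rw [ind_pos h]; linarith [ind_le_one (¬ C S), ind_nonneg (S.card ≤ g ∧ Dirty vec S)]
  · rw [ind_neg h, zero_add]
    exact ind_mono fun hn => ⟨not_lt.1 h, by_contra fun hd => hn ⟨not_lt.1 h, hd⟩⟩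

end affine

end Vale.Agent.P230
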