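import Vale.Agent.P230.StageA

/-! One stage of the vertical construction. -/

open Finset

namespace Vale.Agent.P230

lemma zc_lin {κ₁ κ₂ : Type} [Fintype κ₁] [Fintype κ₂] {p r d : ℕ} [Fact p.Prime]
    (φ : κ₁ → Fin d → ZMod p) (ψ : κ₂ ⊕ Fin r → Fin d → ZMod p) (t : Fin d → ℤ) (g : κ₁ → ℤ)
    (z : κ₂ → ℤ) (j : Fin r → ℤ) :
    (zc p fun c => t c - ∑ i, Sum.elim (Sum.elim g z) (-j) i *
      (Sum.elim (Sum.elim (fun i c => -((φ i c).val : ℤ)) fun i c => -((ψ (Sum.inl i) c).val : ℤ))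
        (fun i c => ((ψ (Sum.inr i) c).val : ℤ)) : (κ₁ ⊕ κ₂) ⊕ Fin r → Fin d → ℤ) i c)
      = lin ψ (lin φ (zc p t) (zc p g)) (Sum.elim (zc p z) (zc p j)) := by
  funext c
  simp [zc, lin, Fintype.sum_sum_type, Finset.sum_apply]
  ring

theorem stage (hRK : RKP) (hG : GroupP) (hE : ExtP) : StageP := by
  intro κ₁ κ₂ _ _ _ _ B D R Q h₁ h₂ tot ω ν p r d J μ η η' ε ε₁ N ν' A Q' hD hD1 hR hrep hpat hA1
    hA2 hp hη0 hη1 hη' hJ hε hε₁ hεs htot0 htot1 hω0 hω1 hν hN hν' hμ hsm hp1 hp2 hr hl1 hl2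
  classical
  have : Fact p.Prime := ⟨hp⟩
  choose! Z₁ Z₂ w t1 t2 w0 wQ wt wω wν using hpat
  set JJ := (Fintype.piFinset fun _ : Fin r => Win J).filter (TypD η J) with hJJ
  have hq0 : ∀ j : Fin r → ℤ, 0 ≤ ∏ c, qq η (j c) := fun j => prod_nonneg fun _ _ => qq_nonneg hη0.le _
  have hsg := fun ζ j => sg_props (p := p) (a := A ζ j) hRK hη' (hq0 j) hε hN
    fun s hs => ⟨(hA2 ζ j s hs).2.2.1, (hA2 ζ j s hs).2.2.2.1⟩
  let G : (κ₁ ⊕ κ₂ → ℤ) → (κ₁ → ℤ) → (κ₂ → ℤ) → (Fin r → ℤ) → (Fin d → ZMod p) → ℝ :=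
    fun ρ g z j => sg p η' (∏ c, qq η (j c)) (A (ρ - B.mulVec (Sum.elim g z)) j)
  let m : (κ₁ ⊕ κ₂ → ℤ) → (κ₁ → ℤ) → ℝ := fun ρ g => ∑ z ∈ Z₂ ρ g, w ρ g z
  let fail : (κ₁ ⊕ κ₂ → ℤ) → (κ₁ → ℤ) → (κ₂ ⊕ Fin r → Fin d → ZMod p) → (Fin d → ZMod p) → Prop :=
    fun ρ g ψ x => ∀ sel : {z // z ∈ Z₂ ρ g} → {j // j ∈ JJ},
      ∑ z : {z // z ∈ Z₂ ρ g}, w ρ g z * G ρ g z (sel z)
        (lin ψ x (Sum.elim (zc p z.1) (zc p (sel z).1)))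
        < (1 - 4 * ε - (ε₁ + ε)) * ∑ z : {z // z ∈ Z₂ ρ g}, w ρ g z
  have hm0 : ∀ ρ ∈ R, ∀ g, 0 ≤ m ρ g := fun ρ hρ g => sum_nonneg fun z _ => w0 ρ hρ g z
  have hfail : ∀ ρ ∈ R, ∀ g ∈ Z₁ ρ, 0 < m ρ g →
      av (fun ψ => av fun x => ind (fail ρ g ψ x)) ≤ Real.exp (3 - ε * μ) := by
    intro ρ hρ g hg hm
    have e : ∑ z : {z // z ∈ Z₂ ρ g}, w ρ g z = m ρ g := sum_coe_sort _ _
    refine hG p κ₂ (Fin d) {z // z ∈ Z₂ ρ g} {j // j ∈ JJ} r J μ h₂ η ε (ε₁ + ε) ν N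
      (fun z => zc p z.1) (fun j => j.1) (fun z => w ρ g z) (fun z j => G ρ g z j) hη0 hη1 hJ
      (fun z z' h => Subtype.ext (TL.injOn hp.two_le (t2 ρ hρ g) z.2 z'.2 h))
      Subtype.val_injective (fun j => (mem_filter.1 j.2).2) hε (by linarith) (by linarith)
      (by linarith) (by rw [Fintype.card_coe]; exact (t2 ρ hρ g).card_le) (fun z => w0 ρ hρ g z)
      (e ▸ hm) (fun z => e ▸ wν ρ hρ g hg z z.2) (fun z j => (hsg _ _).1)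
      (fun z j => (hsg _ _).2.1) hsm (fun z j => (hsg _ _).2.2.1) (fun z j => (hsg _ _).2.2.2.1)
      (fun z hz => ?_) hμ hp1 hp2 hr
    have h1 := hA1 _ (hz.trans_le (wQ ρ hρ g hg z z.2))
    refine le_trans ?_ (sum_le_sum fun j _ => (hsg _ _).2.2.2.2)
    rw [sum_coe_sort JJ fun j => ∑ s ∈ Fintype.piFinset fun _ : Fin d => Win p,
      (∏ c, qq η (j c)) * (∏ c, qq η' (s c)) * ind (A (ρ - B.mulVec (Sum.elim g z)) j s)
        - ε * ∏ c, qq η (j c), sum_sub_distrib, ← mul_sum, hJJ, sum_filter_of_ne]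
    · have h2 : ∑ j ∈ JJ, ∏ c, qq η (j c) ≤ 1 :=
        (sum_le_sum_of_subset_of_nonneg (filter_subset _ _) fun j _ _ => hq0 j).trans
          (sum_win_le hRK hη0 r J)
      have := mul_le_mul_of_nonneg_left h2 hε.le
      linarith
    · intro j _ hj
      obtain ⟨s, -, hs⟩ := exists_ne_zero_of_sum_ne_zero hj
      by_contra e
      exact hs (by rw [ind_neg fun h => e (hA2 _ _ _ h).1, mul_zero])
  set K := ε * μ - 3 with hK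
  have hD0 : (0 : ℝ) < D := by exact_mod_cast hD1
  have hD1' : (1 : ℝ) ≤ D := by exact_mod_cast hD1
  have hlog : 0 < Real.log (4 * D) := Real.log_pos (by linarith)
  have hK0 : 0 < K := (mul_pos_iff_of_pos_left hε).1 (hlog.trans_le hl1)
  let I : (κ₁ ⊕ κ₂ → ℤ) → Finset (κ₁ → ℤ) := fun ρ => (Z₁ ρ).filter fun g => 0 < m ρ g
  have hI : ∀ ρ ∈ R, ∀ F : (κ₁ → ℤ) → ℝ, ∑ g ∈ I ρ, m ρ g * F g = ∑ g ∈ Z₁ ρ, m ρ g * F g := by
    intro ρ hρ F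
    refine sum_filter_of_ne fun g _ h => (hm0 ρ hρ g).lt_of_ne' fun e => h (by rw [e, zero_mul])
  have hI1 : ∀ ρ ∈ R, ∑ g ∈ I ρ, m ρ g = ∑ g ∈ Z₁ ρ, m ρ g := by
    intro ρ hρ
    simpa using hI ρ hρ fun _ => 1
  let f : (κ₁ ⊕ κ₂ → ℤ) → (κ₁ → ℤ) → (κ₂ ⊕ Fin r → Fin d → ZMod p) → (Fin d → ZMod p) → ℝ :=
    fun ρ g ψ x => max (ind (fail ρ g ψ x)) (Real.exp (-K))
  have hf0 : ∀ ρ g ψ x, 0 ≤ f ρ g ψ x := fun ρ g ψ x => le_max_of_le_left (ind_nonneg _)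
  have hf0' : ∀ ρ ψ g x, 0 ≤ f ρ g ψ x ^ (m ρ g / ω) :=
    fun ρ ψ g x => Real.rpow_nonneg (hf0 _ _ _ _) _
  let Φ : (κ₁ ⊕ κ₂ → ℤ) → (κ₂ ⊕ Fin r → Fin d → ZMod p) → (κ₁ → Fin d → ZMod p) → ℝ :=
    fun ρ ψ φ => Phi (fun g x => f ρ g ψ x ^ (m ρ g / ω)) (I ρ) φ
  have hΦ0 : ∀ ρ ψ φ, 0 ≤ Φ ρ ψ φ := fun ρ ψ φ => Phi_nonneg (hf0' ρ ψ) (I ρ) φ
  have hΦ : ∀ ρ ∈ R, av (fun ψ => av fun φ => Φ ρ ψ φ ^ (1 / ∑ g ∈ I ρ, m ρ g / ω))
      ≤ 2 * Real.exp (-K) := by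
    intro ρ hρ
    refine wtree (f ρ) (hf0 ρ) h₁ (I ρ) ((t1 ρ hρ).subset (filter_subset _ _)) ?_ (fun g hg => ?_)
      _ fun g hg => ⟨div_pos (mem_filter.1 hg).2 hω0,
        (div_le_one hω0).2 (wω ρ hρ g (mem_filter.1 hg).1)⟩
    · refine nonempty_of_sum_ne_zero (f := m ρ) ?_
      rw [hI1 ρ hρ]
      exact (htot0.trans_le (wt ρ hρ)).ne'
    · have h1 := hfail ρ hρ g (mem_filter.1 hg).1 (mem_filter.1 hg).2
      have h2 : av (fun ψ => av fun x => f ρ g ψ x)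
          ≤ av (fun ψ => av fun x => ind (fail ρ g ψ x) + Real.exp (-K)) :=
        av_mono fun ψ => av_mono fun x => max_le (le_add_of_nonneg_right (Real.exp_pos _).le)
          (le_add_of_nonneg_left (ind_nonneg _))
      simp only [av_add, av_const] at h2
      rw [show 3 - ε * μ = -K by rw [hK]; ring] at h1
      linarith
  obtain ⟨⟨ψ, φ⟩, hgood⟩ := exists_good R
    (fun ρ (x : (κ₂ ⊕ Fin r → Fin d → ZMod p) × (κ₁ → Fin d → ZMod p)) =>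
      4 * D * Real.exp (-K) ≤ Φ ρ x.1 x.2 ^ (1 / ∑ g ∈ I ρ, m ρ g / ω)) (by
      have : ∀ ρ ∈ R, av (fun x : (κ₂ ⊕ Fin r → Fin d → ZMod p) × (κ₁ → Fin d → ZMod p) =>
          ind (4 * D * Real.exp (-K) ≤ Φ ρ x.1 x.2 ^ (1 / ∑ g ∈ I ρ, m ρ g / ω))) ≤ 1 / (2 * D) := by
        intro ρ hρ
        refine (av_markov (f := fun x : (κ₂ ⊕ Fin r → Fin d → ZMod p) × (κ₁ → Fin d → ZMod p) =>
          Φ ρ x.1 x.2 ^ (1 / ∑ g ∈ I ρ, m ρ g / ω)) (fun x => Real.rpow_nonneg (hΦ0 ρ x.1 x.2) _)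
          (by positivity)).trans ?_
        rw [av_prod, div_le_iff₀ (by positivity)]
        refine (hΦ ρ hρ).trans (le_of_eq ?_)
        field_simp
        norm_num
      refine (sum_le_card_nsmul _ _ _ this).trans_lt ?_
      have : (R.card : ℝ) ≤ D := by exact_mod_cast hR
      rw [nsmul_eq_mul, mul_one_div, div_lt_one (by positivity)]
      linarith)
  obtain ⟨B', hdet, hB', hR'⟩ := hE (κ₁ ⊕ κ₂) (Fin r) (Fin d) B p
    (Sum.elim (Sum.elim (fun i c => -((φ i c).val : ℤ)) fun i c => -((ψ (Sum.inl i) c).val : ℤ))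
      fun i c => ((ψ (Sum.inr i) c).val : ℤ)) hp.pos
  obtain ⟨R', hrep', hcard, hR'⟩ := hR' R hrep
  rw [Fintype.card_fin] at hdet hcard
  refine ⟨B', R', by rw [hdet, hD]; push_cast; rfl, hcard.trans (Nat.mul_le_mul_right _ hR), hrep',
    fun ρ' hρ' => ?_⟩
  obtain ⟨ρ, hρ, t, rfl⟩ := hR' ρ' hρ'
  let F : (κ₁ → ℤ) → Prop := fun g => fail ρ g ψ (lin φ (zc p t) (zc p g))
  have hjs : ∀ g, ∃ js : (κ₂ → ℤ) → Fin r → ℤ, (1 - 4 * ε - (ε₁ + ε)) * (m ρ g * (1 - ind (F g)))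
      ≤ ∑ z ∈ Z₂ ρ g, w ρ g z * G ρ g z (js z)
        (lin ψ (lin φ (zc p t) (zc p g)) (Sum.elim (zc p z) (zc p (js z)))) := by
    intro g
    by_cases e : F g
    · refine ⟨0, ?_⟩
      rw [ind_pos e, sub_self, mul_zero, mul_zero]
      exact sum_nonneg fun z _ => mul_nonneg (w0 ρ hρ g z) ((hsg _ _).1 _)
    · rw [ind_neg e, sub_zero, mul_one]
      obtain ⟨sel, hsel⟩ := not_forall.1 e
      refine ⟨fun z => if h : z ∈ Z₂ ρ g then (sel ⟨z, h⟩).1 else 0, ?_⟩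
      rw [← sum_coe_sort (Z₂ ρ g), show m ρ g = ∑ z : {z // z ∈ Z₂ ρ g}, w ρ g z from
        (sum_coe_sort _ _).symm]
      refine (not_lt.1 hsel).trans (le_of_eq (sum_congr rfl fun z _ => ?_))
      simp only [dif_pos z.2]
  choose js hjs using hjs
  refine pat_build hB' hp.pos hη0.le hη'.le hω1 hν hν' (fun ζ j s h => (hA2 ζ j s h).2.2.2.2)
    (fun ζ j => (hsg ζ j).2.1) t (t1 ρ hρ) (t2 ρ hρ) (w0 ρ hρ) (wQ ρ hρ) (wω ρ hρ) (wν ρ hρ) js ?_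
  simp only [zc_lin]
  refine le_trans ?_ (sum_le_sum fun g _ => hjs g)
  have ht : tot ≤ ∑ g ∈ Z₁ ρ, m ρ g := wt ρ hρ
  have h1 := fail_mass (I ρ) (fun g => m ρ g / ω) F (K := 4 * D) (T := (p : ℝ) ^ d)
    (Φ := Φ ρ ψ φ) hK0.le
    (by rw [← sum_div, hI1 ρ hρ]; exact div_pos (htot0.trans_le ht) hω0)
    (pow_pos (by exact_mod_cast hp.pos) _) (by positivity) (hΦ0 ρ ψ φ)
    (by
      have := single_le_av (f := fun x => ∏ g ∈ I ρ,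
        f ρ g ψ (lin φ x (zc p g)) ^ (m ρ g / ω)) (fun x => prod_nonneg fun g _ => hf0' _ _ _ _)
        (zc p t)
      simpa [Φ, Phi] using this)
    (not_le.1 (hgood ρ hρ))
  simp only [div_mul_eq_mul_div, ← sum_div] at h1
  rw [hI ρ hρ, hI1 ρ hρ, Real.log_pow] at h1
  simp only [mul_sub (m ρ _), mul_one, ← mul_sum, sum_sub_distrib]
  set a := ∑ g ∈ Z₁ ρ, m ρ g
  set b := ∑ g ∈ Z₁ ρ, m ρ g * ind (F g)
  have h2 : K * b ≤ K * (ε + ε * a) := by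
    have h3 := mul_le_mul_of_nonneg_left h1 hω0.le
    have h4 : ω * (K * (b / ω)) = K * b := by field_simp
    have h5 : ω * (d * Real.log p + a * Real.log (4 * D) / ω)
      = ω * d * Real.log p + a * Real.log (4 * D) := by field_simp
    have h6 := mul_le_mul_of_nonneg_left hl1 (htot0.le.trans ht)
    rw [h4, h5] at h3
    linarith
  have h3 : b ≤ ε + ε * a := le_of_mul_le_mul_left h2 hK0
  have h4 : tot - 2 * ε ≤ a - b := by nlinarith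
  have h5 := mul_le_mul_of_nonneg_left h4 (show 0 ≤ 1 - 4 * ε - (ε₁ + ε) by linarith)
  nlinarith

end Vale.Agent.P230
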