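import Vale.Agent.P230.Tree

/-! The gain function of a block and the new pattern. -/

open Finset

namespace Vale.Agent.P230

/-- weight of the admissible representatives of the residue class `τ` -/
noncomputable def sg0 (p : ℕ) {d : ℕ} (η' q : ℝ) (a : (Fin d → ℤ) → Prop) (τ : Fin d → ZMod p) :
    ℝ :=
  ∑ s ∈ Fintype.piFinset fun _ : Fin d => Win p,
    ind (zc p s = τ) * (ind (a s) * (q * ∏ c, (p * qq η' (s c))))

/-- the gain, cut below `1` -/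
noncomputable def sg (p : ℕ) {d : ℕ} (η' q : ℝ) (a : (Fin d → ℤ) → Prop) (τ : Fin d → ZMod p) :
    ℝ :=
  sg0 p η' q a τ * ind (1 ≤ sg0 p η' q a τ)

section
variable {p d : ℕ} {η' q ε N : ℝ} {a : (Fin d → ℤ) → Prop}

lemma sg_fold (τ : Fin d → ZMod p) : q * ∏ c, fold η' p (τ c) = sg0 p η' q (fun _ => True) τ := by
  unfold fold sg0
  simp only [mul_sum]
  rw [prod_univ_sum, mul_sum]
  refine sum_congr rfl fun s _ => ?_
  rw [ind_pos trivial, ind_congr (show zc p s = τ ↔ ∀ c, (s c : ZMod p) = τ c from funext_iff),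
    ind_forall']
  simp only [← mul_assoc, prod_mul_distrib]
  ring

lemma sg0_nonneg (hη : 0 ≤ η') (hq : 0 ≤ q) (τ : Fin d → ZMod p) : 0 ≤ sg0 p η' q a τ :=
  sum_nonneg fun _ _ => mul_nonneg (ind_nonneg _) (mul_nonneg (ind_nonneg _)
    (mul_nonneg hq (prod_nonneg fun _ _ => mul_nonneg (Nat.cast_nonneg _) (qq_nonneg hη _))))

lemma sg0_le (hη : 0 ≤ η') (hq : 0 ≤ q) (τ : Fin d → ZMod p) :
    sg0 p η' q a τ ≤ sg0 p η' q (fun _ => True) τ :=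
  sum_le_sum fun _ _ => mul_le_mul_of_nonneg_left (mul_le_mul_of_nonneg_right
    (ind_mono fun _ => trivial)
    (mul_nonneg hq (prod_nonneg fun _ _ => mul_nonneg (Nat.cast_nonneg _) (qq_nonneg hη _))))
    (ind_nonneg _)

lemma sg0_pos {τ : Fin d → ZMod p} (h : sg0 p η' q a τ ≠ 0) : ∃ s, a s ∧ zc p s = τ := by
  obtain ⟨s, -, hs⟩ := exists_ne_zero_of_sum_ne_zero h
  refine ⟨s, ?_, ?_⟩ <;> by_contra e <;> simp [ind_neg e] at hs

lemma sg0_av [Fact p.Prime] : av (sg0 p η' q a) = ∑ s ∈ Fintype.piFinset fun _ : Fin d => Win p,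
    q * (∏ c, qq η' (s c)) * ind (a s) := by
  unfold sg0
  rw [av_sum]
  refine sum_congr rfl fun s _ => ?_
  have hp : (p : ℝ) ≠ 0 := by exact_mod_cast (Fact.out : p.Prime).ne_zero
  rw [av_mul_const, av_congr (fun τ => ind_congr (show zc p s = τ ↔ τ ∈ ({zc p s} : Finset _) by
    rw [mem_singleton, eq_comm])), av_ind_mem, prod_mul_distrib]
  simp only [card_singleton, Fintype.card_fun, ZMod.card, Fintype.card_fin, prod_const, card_univ]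
  push_cast
  field_simp

lemma sum_win_le (hRK : RKP) {η : ℝ} (hη : 0 < η) (r J : ℕ) :
    ∑ s ∈ Fintype.piFinset fun _ : Fin r => Win J, ∏ c, qq η (s c) ≤ 1 := by
  rw [← prod_univ_sum (fun _ : Fin r => Win J) fun _ i => qq η i]
  exact prod_le_one (fun _ _ => sum_nonneg fun _ _ => qq_nonneg hη.le _) fun _ _ => hRK.1 η J hη

lemma sg_props (hRK : RKP) [Fact p.Prime] (hη : 0 < η') (hq : 0 ≤ q) (hε : 0 < ε) (hN : 0 ≤ N)
    (ha : ∀ s, a s → 1 / ε ≤ q * ∏ c, fold η' p (s c) ∧ q * ∏ c, fold η' p (s c) ≤ N) :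
    (∀ τ, 0 ≤ sg p η' q a τ) ∧ (∀ τ, sg p η' q a τ ≤ N) ∧
    av (fun τ => ind (0 < sg p η' q a τ)) ≤ ε * q ∧ av (sg p η' q a) ≤ q ∧
    ∑ s ∈ Fintype.piFinset fun _ : Fin d => Win p, q * (∏ c, qq η' (s c)) * ind (a s) - ε * q
      ≤ av (sg p η' q a) := by
  have h0 := sg0_nonneg (p := p) (a := a) hη.le hq
  have h0' := sg0_nonneg (p := p) (d := d) (a := fun _ => True) hη.le hq
  have h1 := sg0_le (p := p) (a := a) hη.le hq
  have h2 : ∀ τ, sg0 p η' q a τ ≠ 0 → 1 ≤ ε * sg0 p η' q (fun _ => True) τ ∧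
      sg0 p η' q (fun _ => True) τ ≤ N := by
    intro τ h
    obtain ⟨s, hs, rfl⟩ := sg0_pos h
    rw [← sg_fold]
    have := ha s hs
    rw [div_le_iff₀ hε, mul_comm] at this
    exact this
  have h3 : av (sg0 p η' q (fun _ : Fin d → ℤ => True)) ≤ q := by
    rw [sg0_av]
    simp only [ind_pos trivial, mul_one, ← mul_sum]
    exact mul_le_of_le_one_right hq (sum_win_le hRK hη d p)
  have h4 : ∀ τ, sg p η' q a τ ≤ sg0 p η' q a τ :=
    fun τ => mul_le_of_le_one_right (h0 τ) (ind_le_one _)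
  have h5 : av (fun τ => ε * sg0 p η' q (fun _ : Fin d → ℤ => True) τ) ≤ ε * q := by
    rw [av_smul]; gcongr
  refine ⟨fun τ => mul_nonneg (h0 τ) (ind_nonneg _), fun τ => ?_, le_trans (av_mono fun τ => ?_) h5,
    (av_mono fun τ => (h4 τ).trans (h1 τ)).trans h3, ?_⟩
  · by_cases e : sg0 p η' q a τ = 0
    · exact (h4 τ).trans (e ▸ hN)
    · exact (h4 τ).trans ((h1 τ).trans (h2 τ e).2)
  · by_cases e : 0 < sg p η' q a τ
    · rw [ind_pos e]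
      exact (h2 τ (e.trans_le (h4 τ)).ne').1
    · rw [ind_neg e]
      exact mul_nonneg hε.le (h0' τ)
  · rw [← sg0_av]
    have : av (fun τ => sg0 p η' q a τ - ε * sg0 p η' q (fun _ : Fin d → ℤ => True) τ)
        ≤ av (sg p η' q a) := by
      refine av_mono fun τ => ?_
      have := mul_nonneg hε.le (h0' τ)
      unfold sg
      by_cases e : 1 ≤ sg0 p η' q a τ
      · rw [ind_pos e]; linarith
      · rw [ind_neg e]
        by_cases e' : sg0 p η' q a τ = 0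
        · linarith
        · have := (h2 τ e').1
          linarith
    rw [av_sub] at this
    linarith

end

lemma fail_mass {ι : Type*} (I : Finset ι) (θ : ι → ℝ) (P : ι → Prop) {κ T Φ K : ℝ} (hκ : 0 ≤ κ)
    (hs : 0 < ∑ g ∈ I, θ g) (hT : 0 < T) (hK : 0 < K) (hΦ : 0 ≤ Φ)
    (h1 : ∏ g ∈ I, max (ind (P g)) (Real.exp (-κ)) ^ θ g ≤ T * Φ)
    (h2 : Φ ^ (1 / ∑ g ∈ I, θ g) < K * Real.exp (-κ)) :
    κ * ∑ g ∈ I, θ g * ind (P g) ≤ Real.log T + (∑ g ∈ I, θ g) * Real.log K := by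
  have e1 : ∏ g ∈ I, max (ind (P g)) (Real.exp (-κ)) ^ θ g
      = Real.exp (κ * ∑ g ∈ I, θ g * ind (P g) - κ * ∑ g ∈ I, θ g) := by
    rw [mul_sum, mul_sum, ← sum_sub_distrib, Real.exp_sum]
    refine prod_congr rfl fun g _ => ?_
    by_cases e : P g
    · rw [ind_pos e, max_eq_left (Real.exp_le_one_iff.2 (by linarith))]; simp
    · rw [ind_neg e, max_eq_right (Real.exp_pos _).le, ← Real.exp_mul]; simp
  set s := ∑ g ∈ I, θ g
  have h3 := Real.rpow_le_rpow (Real.rpow_nonneg hΦ _) h2.le hs.le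
  rw [← Real.rpow_mul hΦ, one_div_mul_cancel hs.ne', Real.rpow_one, ← Real.exp_log hK,
    ← Real.exp_add, ← Real.exp_mul] at h3
  have h4 := h1.trans (mul_le_mul_of_nonneg_left h3 hT.le)
  rw [e1, ← Real.exp_log hT, ← Real.exp_add, Real.exp_le_exp] at h4
  linarith

lemma pat_build {κ₁ κ₂ : Type} [Fintype κ₁] [DecidableEq κ₁] [Fintype κ₂] [DecidableEq κ₂]
    {B : Matrix (κ₁ ⊕ κ₂) (κ₁ ⊕ κ₂) ℤ} {Q : (κ₁ ⊕ κ₂ → ℤ) → ℝ} {h₁ h₂ p r d : ℕ}
    {ω ν η η' N ν' tot' : ℝ} {A : (κ₁ ⊕ κ₂ → ℤ) → (Fin r → ℤ) → (Fin d → ℤ) → Prop}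
    {Q' : ((κ₁ ⊕ κ₂) ⊕ (Fin r ⊕ Fin d) → ℤ) → ℝ}
    {B' : Matrix ((κ₁ ⊕ κ₂) ⊕ (Fin r ⊕ Fin d)) ((κ₁ ⊕ κ₂) ⊕ (Fin r ⊕ Fin d)) ℤ}
    {M : (κ₁ ⊕ κ₂) ⊕ Fin r → Fin d → ℤ}
    (hB' : ∀ z z₁ z₂, B'.mulVec (Sum.elim z (Sum.elim z₁ z₂)) = Sum.elim (B.mulVec z)
      (Sum.elim z₁ fun c => ∑ i, Sum.elim z z₁ i * M i c + p * z₂ c))
    (hp : 0 < p) (hη : 0 ≤ η) (hη' : 0 ≤ η') (hω : ω ≤ 1) (hν : 0 ≤ ν) (hν' : 0 ≤ ν')
    (hA : ∀ ζ j s, A ζ j s → (∏ c, qq η (j c)) * ∏ c, (p * qq η' (s c)) ≤ ν' ∧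
      Q ζ * ((∏ c, qq η (j c)) * ∏ c, (p * qq η' (s c))) ≤ Q' (Sum.elim ζ (Sum.elim j s)))
    (hAN : ∀ ζ j τ, sg p η' (∏ c, qq η (j c)) (A ζ j) τ ≤ N)
    {ρ : κ₁ ⊕ κ₂ → ℤ} (t : Fin d → ℤ) {Z₁ : Finset (κ₁ → ℤ)} {Z₂ : (κ₁ → ℤ) → Finset (κ₂ → ℤ)}
    {w : (κ₁ → ℤ) → (κ₂ → ℤ) → ℝ} (t1 : TL h₁ Z₁) (t2 : ∀ g, TL h₂ (Z₂ g)) (w0 : ∀ g z, 0 ≤ w g z)
    (wQ : ∀ g ∈ Z₁, ∀ z ∈ Z₂ g, w g z ≤ Q (ρ - B.mulVec (Sum.elim g z)))
    (wω : ∀ g ∈ Z₁, ∑ z ∈ Z₂ g, w g z ≤ ω)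
    (wν : ∀ g ∈ Z₁, ∀ z ∈ Z₂ g, w g z ≤ ν * ∑ z' ∈ Z₂ g, w g z')
    (js : (κ₁ → ℤ) → (κ₂ → ℤ) → Fin r → ℤ)
    (ht : tot' ≤ ∑ g ∈ Z₁, ∑ z ∈ Z₂ g, w g z * sg p η' (∏ c, qq η (js g z c))
      (A (ρ - B.mulVec (Sum.elim g z)) (js g z))
      (zc p fun c => t c - ∑ i, Sum.elim (Sum.elim g z) (-js g z) i * M i c)) :
    Pat B' Q' (h₁ + h₂) d tot' (ν * N) ν' (Sum.elim ρ (Sum.elim 0 t)) := by
  classical
  let j : (κ₁ ⊕ κ₂ → ℤ) → Fin r → ℤ := fun z => js (z ∘ Sum.inl) (z ∘ Sum.inr)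
  let y : (κ₁ ⊕ κ₂ → ℤ) → Fin d → ℤ := fun z c => t c - ∑ i, Sum.elim z (-j z) i * M i c
  let v : (κ₁ ⊕ κ₂ → ℤ) → ℝ := fun z => w (z ∘ Sum.inl) (z ∘ Sum.inr)
  let q : (κ₁ ⊕ κ₂ → ℤ) → ℝ := fun z => ∏ c, qq η (j z c)
  let a : (κ₁ ⊕ κ₂ → ℤ) → (Fin d → ℤ) → Prop := fun z => A (ρ - B.mulVec z) (j z)
  let SS : (κ₁ ⊕ κ₂ → ℤ) → Finset (Fin d → ℤ) := fun z =>
    (Fintype.piFinset fun _ : Fin d => Win p).filter fun s =>
      zc p s = zc p (y z) ∧ a z s ∧ 1 ≤ sg0 p η' (q z) (a z) (zc p (y z))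
  let em : (κ₁ ⊕ κ₂ → ℤ) → (Fin d → ℤ) → Fin r ⊕ Fin d → ℤ := fun z s =>
    Sum.elim (-j z) fun c => (y z c - s c) / p
  let w' : (κ₁ ⊕ κ₂ → ℤ) → (Fin r ⊕ Fin d → ℤ) → ℝ := fun z u =>
    v z * (q z * ∏ c, (p * qq η' (y z c - p * u (Sum.inr c))))
  let Z₁' : Finset (κ₁ ⊕ κ₂ → ℤ) := (Z₁.sigma Z₂).image fun x => Sum.elim x.1 x.2
  have hmem : ∀ z ∈ Z₁', z ∘ Sum.inl ∈ Z₁ ∧ z ∘ Sum.inr ∈ Z₂ (z ∘ Sum.inl) := by
    intro z hz
    obtain ⟨x, hx, rfl⟩ := mem_image.1 hz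
    exact mem_sigma.1 hx
  have hq0 : ∀ z, 0 ≤ q z := fun z => prod_nonneg fun _ _ => qq_nonneg hη _
  have hdiv : ∀ z, ∀ s ∈ SS z, ∀ c, y z c - p * em z s (Sum.inr c) = s c := by
    intro z s hs c
    have h1 : (s c : ZMod p) = y z c := congrFun (mem_filter.1 hs).2.1 c
    have h2 := Int.mul_ediv_cancel' ((ZMod.intCast_eq_intCast_iff_dvd_sub _ _ _).1 h1)
    show y z c - p * ((y z c - s c) / p) = s c
    linarith
  have hw' : ∀ z, ∀ s ∈ SS z, w' z (em z s) = v z * (q z * ∏ c, (p * qq η' (s c))) := by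
    intro z s hs
    simp only [w', hdiv z s hs]
  have hsum : ∀ z, ∑ u ∈ (SS z).image (em z), w' z u = v z * sg p η' (q z) (a z) (zc p (y z)) := by
    intro z
    rw [sum_image fun s hs s' hs' e => funext fun c => by rw [← hdiv z s hs, e, hdiv z s' hs'],
      sum_congr rfl (hw' z), ← mul_sum, sum_filter]
    congr 1
    unfold sg
    by_cases e3 : 1 ≤ sg0 p η' (q z) (a z) (zc p (y z))
    · simp only [e3, ind_pos trivial, mul_one, and_true]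
      unfold sg0
      refine sum_congr rfl fun s _ => ?_
      by_cases e1 : zc p s = zc p (y z) <;> by_cases e2 : a z s <;> simp [ind, e1, e2]
    · simp [e3, ind]
  have hv : ∀ z ∈ Z₁', v z ≤ ν := fun z hz =>
    (wν _ (hmem z hz).1 _ (hmem z hz).2).trans
      (mul_le_of_le_one_right hν ((wω _ (hmem z hz).1).trans hω))
  refine ⟨Z₁', fun z => (SS z).image (em z), w', TL.ext t2 t1 hmem, fun z => ?_, fun z u => ?_,
    fun z hz u hu => ?_, ?_, fun z hz => ?_, fun z hz u hu => ?_⟩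
  · have := TL.cube (univ.map (Function.Embedding.inr : Fin d ↪ Fin r ⊕ Fin d))
      (Sum.elim (-j z) fun c => y z c / p) ((SS z).image (em z)) ?_
    · simpa using this
    intro u hu i
    obtain ⟨s, hs, rfl⟩ := mem_image.1 hu
    rcases i with i | c
    · exact Or.inl rfl
    · have h1 := hdiv z s hs c
      have h2 := mem_Ico.1 (Fintype.mem_piFinset.1 (mem_filter.1 hs).1 c)
      have hp' : (0 : ℤ) < p := by exact_mod_cast hp
      have h3 := Int.mul_ediv_add_emod (y z c) p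
      have h4 := Int.emod_nonneg (y z c) hp'.ne'
      have h5 := Int.emod_lt_of_pos (y z c) hp'
      simp only [Sum.elim_inr, mem_map, mem_univ, true_and, Function.Embedding.inr_apply,
        exists_apply_eq_apply]
      set k := em z s (Sum.inr c)
      set l := y z c / p
      have h6 : l - 1 < k := by
        by_contra h
        have : (p : ℤ) * k ≤ p * (l - 1) := mul_le_mul_of_nonneg_left (by linarith) hp'.le
        linarith
      have h7 : k < l + 2 := by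
        by_contra h
        have : (p : ℤ) * (l + 2) ≤ p * k := mul_le_mul_of_nonneg_left (by linarith) hp'.le
        linarith
      omega
  · exact mul_nonneg (w0 _ _) (mul_nonneg (hq0 z)
      (prod_nonneg fun _ _ => mul_nonneg (Nat.cast_nonneg _) (qq_nonneg hη' _)))
  · obtain ⟨s, hs, rfl⟩ := mem_image.1 hu
    have e : Sum.elim ρ (Sum.elim 0 t) - B'.mulVec (Sum.elim z (em z s))
        = Sum.elim (ρ - B.mulVec z) (Sum.elim (j z) s) := by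
      simp only [em]
      rw [hB']
      funext i
      rcases i with i | i | c
      · rfl
      · simp
      · have := hdiv z s hs c
        simp only [em, y, Sum.elim_inr] at this
        simp only [Pi.sub_apply, Sum.elim_inr, y]
        linarith
    rw [e, hw' z s hs]
    refine le_trans (mul_le_mul_of_nonneg_right ?_ (mul_nonneg (hq0 z)
      (prod_nonneg fun _ _ => mul_nonneg (Nat.cast_nonneg _) (qq_nonneg hη' _))))
      (hA _ _ _ (mem_filter.1 hs).2.2.1).2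
    have := wQ _ (hmem z hz).1 _ (hmem z hz).2
    rwa [Sum.elim_comp_inl_inr] at this
  · simp only [hsum]
    rw [sum_image, sum_sigma]
    · exact ht
    · rintro ⟨g, z⟩ - ⟨g', z'⟩ - e
      have e1 : g = g' := congrArg (· ∘ Sum.inl) e
      have e2 : z = z' := congrArg (· ∘ Sum.inr) e
      subst e1 e2
      rfl
  · rw [hsum]
    exact mul_le_mul (hv z hz) (hAN _ _ _) (mul_nonneg (sg0_nonneg hη' (hq0 z) _) (ind_nonneg _)) hν
  · obtain ⟨s, hs, rfl⟩ := mem_image.1 hu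
    have h1 := (mem_filter.1 hs).2.2.2
    rw [hsum, hw' z s hs, sg, ind_pos h1, mul_one, mul_left_comm ν']
    refine mul_le_mul_of_nonneg_left ?_ (w0 _ _)
    exact (hA _ _ _ (mem_filter.1 hs).2.2.1).1.trans (le_mul_of_one_le_right hν' h1)

end Vale.Agent.P230
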