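import Vale.Agent.P230.UDefs

/-! Weak thin shell estimate. -/

open MeasureTheory Finset Metric ProbabilityTheory
open scoped ENNReal

namespace Vale.Agent.P230

section basic

variable {n : ℕ} {K : Set (E n)}

theorem thin_pr_nonneg (K A : Set (E n)) : 0 ≤ pr K A :=
  div_nonneg ENNReal.toReal_nonneg ENNReal.toReal_nonneg

theorem thin_fin (hK : IsConvexBody K) (A : Set (E n)) : volume (K ∩ A) ≠ ⊤ :=
  ((measure_mono Set.inter_subset_left).trans_lt hK.1.measure_lt_top).ne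

theorem thin_pr_mono (hK : IsConvexBody K) {A B : Set (E n)} (h : A ⊆ B) : pr K A ≤ pr K B :=
  div_le_div_of_nonneg_right (ENNReal.toReal_mono (thin_fin hK B)
    (measure_mono (Set.inter_subset_inter_right _ h))) ENNReal.toReal_nonneg

theorem thin_pr_union (hK : IsConvexBody K) (A B : Set (E n)) :
    pr K (A ∪ B) ≤ pr K A + pr K B := by
  unfold pr
  rw [← add_div, ← ENNReal.toReal_add (thin_fin hK A) (thin_fin hK B), Set.inter_union_distrib_left]
  exact div_le_div_of_nonneg_right (ENNReal.toReal_mono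
    (ENNReal.add_ne_top.2 ⟨thin_fin hK A, thin_fin hK B⟩) (measure_union_le _ _))
    ENNReal.toReal_nonneg

theorem thin_pr_biUnion (hK : IsConvexBody K) {ι : Type} (s : Finset ι) (A : ι → Set (E n)) :
    pr K (⋃ i ∈ s, A i) ≤ ∑ i ∈ s, pr K (A i) := by
  classical
  induction s using Finset.induction_on with
  | empty => simp [pr]
  | insert j t hj ih =>
    rw [Finset.set_biUnion_insert, sum_insert hj]
    exact le_trans (thin_pr_union hK _ _) (by linarith)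

theorem thin_pr_univ (hK : IsConvexBody K) : pr K Set.univ = 1 := by
  unfold pr
  rw [Set.inter_univ]
  exact div_self (ENNReal.toReal_pos (Measure.measure_pos_of_nonempty_interior _ hK.2.2).ne'
    hK.1.measure_lt_top.ne).ne'

/-- spherical shells -/
def thinSh (n : ℕ) (a b : ℝ) : Set (E n) := {x | a * √n ≤ ‖x‖ ∧ ‖x‖ ≤ b * √n}

theorem thinSh_meas (n : ℕ) (a b : ℝ) : MeasurableSet (thinSh n a b) :=
  ((isClosed_le continuous_const continuous_norm).inter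
    (isClosed_le continuous_norm continuous_const)).measurableSet

theorem thin_box_meas {κ : Type} (g : κ → E n) (c d ζ : ℝ) :
    MeasurableSet {x : E n | ∀ i, |inner ℝ (g i) x / c - d| ≤ ζ} := by
  rw [Set.ofPred_forall]
  exact (isClosed_iInter (fun i => isClosed_le (by fun_prop) continuous_const)).measurableSet

end basic

theorem thin_gd : 1 / 6 ≤ gd 1 := by
  unfold gd
  have h1 := Real.add_one_le_exp (-1 ^ 2 / 2 : ℝ)
  have h2 : √(2 * Real.pi) ≤ 3 := by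
    rw [Real.sqrt_le_iff]
    exact ⟨by norm_num, by linarith [Real.pi_le_four]⟩
  have h3 : 0 < √(2 * Real.pi) := Real.sqrt_pos.2 (by positivity)
  rw [le_div_iff₀ h3]
  linarith

theorem thin_small {v σ : ℝ} {k : ℕ} (hv : 10 ^ 160 ≤ v) (hk : (k : ℝ) ≤ 42 * v ^ 9)
    (h1 : 1 / 100 ≤ σ) :
    ((k : ℝ) + 1) * (1 ^ 2 + 1) * (1 / v ^ 10 + 1 / v ^ 12 / σ + 100 * v ^ 20 / v ^ 50)
      ≤ 1 / 8000 := by
  have hv1 : 1 ≤ v := le_trans (by norm_num) hv
  have hv0 : 0 < v := by linarith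
  have h9 : 1 ≤ v ^ 9 := one_le_pow₀ hv1
  have e1 : 1 / v ^ 12 / σ ≤ 100 / v ^ 10 := by
    calc 1 / v ^ 12 / σ ≤ 1 / v ^ 10 / (1 / 100) :=
          div_le_div₀ (by positivity)
            (one_div_le_one_div_of_le (by positivity) (pow_le_pow_right₀ hv1 (by norm_num)))
            (by norm_num) h1
      _ = _ := by ring
  have e2 : 100 * v ^ 20 / v ^ 50 ≤ 100 / v ^ 10 := by
    rw [show 100 * v ^ 20 / v ^ 50 = 100 / v ^ 30 by field_simp]
    exact div_le_div_of_nonneg_left (by norm_num) (by positivity)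
      (pow_le_pow_right₀ hv1 (by norm_num))
  calc _ ≤ (43 * v ^ 9) * (1 ^ 2 + 1) * (1 / v ^ 10 + 100 / v ^ 10 + 100 / v ^ 10) := by
        have : 0 ≤ 1 / v ^ 12 / σ := by have : 0 < σ := by linarith
                                        positivity
        gcongr
        linarith
    _ = 17286 / v := by field_simp; norm_num
    _ ≤ _ := by
        rw [div_le_div_iff₀ hv0 (by norm_num)]
        have : (17286 * 8000 : ℝ) ≤ 10 ^ 160 := by norm_num
        linarith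

theorem thin_tail {v σ P : ℝ} {k : ℕ} (hv : 10 ^ 160 ≤ v) (hk : (k : ℝ) ≤ 42 * v ^ 9)
    (h1 : 1 / 100 ≤ σ) (h2 : σ ≤ 5) (hP : 1 / (4000 * v ^ 10) ≤ P) :
    12 * Real.exp (-v ^ 20 / 10) / (P * (2 * (1 / v ^ 12 / σ) * gd 1) ^ k) ^ 2 ≤ 1 / 8 := by
  have hv1 : 4000 ≤ v := le_trans (by norm_num) hv
  have hv0 : 0 < v := by linarith
  have hσ : 0 < σ := by linarith
  have he : Real.exp (-v) ≤ 1 / v := by
    rw [Real.exp_neg, ← one_div]
    exact one_div_le_one_div_of_le hv0 (by linarith [Real.add_one_le_exp v])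
  have e1 : Real.exp (-v) ^ 11 ≤ P := by
    refine le_trans (pow_le_pow_left₀ (Real.exp_pos _).le he 11) (le_trans ?_ hP)
    rw [one_div_pow]
    refine one_div_le_one_div_of_le (by positivity) ?_
    rw [pow_succ' v 10]
    gcongr
  have e2 : Real.exp (-v) ^ 13 ≤ 2 * (1 / v ^ 12 / σ) * gd 1 := by
    refine le_trans (pow_le_pow_left₀ (Real.exp_pos _).le he 13) ?_
    calc (1 / v) ^ 13 = 1 / v ^ 12 * (1 / v) := by field_simp
      _ ≤ 1 / v ^ 12 * (1 / 15) := by gcongr; linarith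
      _ = 2 * (1 / v ^ 12 / 5) * (1 / 6) := by ring
      _ ≤ _ := by gcongr; exact thin_gd
  have e3 : (Real.exp (-v) ^ 11 * (Real.exp (-v) ^ 13) ^ k) ^ 2
      ≤ (P * (2 * (1 / v ^ 12 / σ) * gd 1) ^ k) ^ 2 := by
    have : 0 ≤ P := le_trans (by positivity) hP
    gcongr
  refine le_trans (div_le_div_of_nonneg_left (by positivity) (by positivity) e3) ?_
  rw [← pow_mul, ← pow_add, ← pow_mul, ← Real.exp_nat_mul, mul_div_assoc, ← Real.exp_sub]
  have h9 : 1 ≤ v ^ 9 := one_le_pow₀ (by linarith)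
  have h10 : 13000 ≤ v ^ 10 := by
    rw [pow_succ' v 9]
    have : (13000 : ℝ) ≤ v := le_trans (by norm_num) hv
    nlinarith
  have e4 : -v ^ 20 / 10 - (((11 + 13 * k) * 2 : ℕ) : ℝ) * -v ≤ -100 := by
    push_cast
    have h3 : (11 + 13 * (k : ℝ)) * 2 * v ≤ 1200 * v ^ 9 * v :=
      mul_le_mul_of_nonneg_right (by linarith) hv0.le
    have h4 : v ^ 9 * v = v ^ 10 := by ring
    have h5 : v ^ 20 = v ^ 10 * v ^ 10 := by ring
    nlinarith
  have e5 : Real.exp (-100) ≤ 1 / 101 := by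
    rw [Real.exp_neg, ← one_div]
    exact one_div_le_one_div_of_le (by norm_num) (by linarith [Real.add_one_le_exp 100])
  have e6 := le_trans (Real.exp_le_exp.2 e4) e5
  linarith

theorem thin_base {v σ1 σ2 : ℝ} (hv : 10 ^ 160 ≤ v) (h1 : 1 / 100 ≤ σ1) (h2 : σ2 ≤ 5)
    (h : σ1 * (1 + 1 / v ^ 4 / 2) ≤ σ2) :
    σ1 * σ2 * (1 + 1 / (10 ^ 7 * v ^ 8)) ≤ ((σ1 + σ2) / 2 - 1 / v ^ 12) ^ 2 := by
  have hv1 : 10 ^ 7 ≤ v := le_trans (by norm_num) hv
  have hv0 : 0 < v := by linarith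
  set t : ℝ := 1 / v ^ 4 with ht
  have ht0 : 0 < t := by positivity
  have ht1 : t ≤ 1 / 10 ^ 7 := one_div_le_one_div_of_le (by norm_num)
    (le_trans hv1 (le_self_pow₀ (by linarith) (by norm_num)))
  have e1 : 1 / (10 ^ 7 * v ^ 8) = t ^ 2 / 10 ^ 7 := by rw [ht]; field_simp
  have e2 : 1 / v ^ 12 = t ^ 3 := by rw [ht]; field_simp
  rw [e1, e2]
  have h3 : t / 200 ≤ σ2 - σ1 := by nlinarith
  have h4 : (t / 200) ^ 2 ≤ (σ2 - σ1) ^ 2 := pow_le_pow_left₀ (by positivity) h3 2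
  have h5 : σ1 ≤ σ2 := by linarith
  have h6 : σ1 * σ2 ≤ 25 := by nlinarith
  have h7 : σ1 * σ2 * t ^ 2 ≤ 25 * t ^ 2 := mul_le_mul_of_nonneg_right h6 (by positivity)
  have h8 : (σ1 + σ2) * t ^ 3 ≤ 10 * t ^ 3 :=
    mul_le_mul_of_nonneg_right (by linarith) (by positivity)
  have h9 : t ^ 3 ≤ 1 / 10 ^ 7 * t ^ 2 := by
    rw [pow_succ' t 2]; exact mul_le_mul_of_nonneg_right ht1 (by positivity)
  have h10 : 0 ≤ (t ^ 3) ^ 2 := by positivity
  nlinarith

theorem thin_big {v : ℝ} (hv : 10 ^ 160 ≤ v) :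
    64 * (4000 * v ^ 10) ^ 2 ≤ (1 + 1 / (10 ^ 7 * v ^ 8)) ^ (⌈v ^ 9⌉₊ * 21) := by
  have hv0 : 0 < v := lt_of_lt_of_le (by norm_num) hv
  have h0 : (0 : ℝ) ≤ 1 / (10 ^ 7 * v ^ 8) := by positivity
  have h1 := one_add_mul_le_pow (a := (1 / (10 ^ 7 * v ^ 8) : ℝ)) (by linarith) ⌈v ^ 9⌉₊
  have h2 : v / 10 ^ 7 ≤ 1 + (⌈v ^ 9⌉₊ : ℝ) * (1 / (10 ^ 7 * v ^ 8)) := by
    calc v / 10 ^ 7 = v ^ 9 * (1 / (10 ^ 7 * v ^ 8)) := by field_simp
      _ ≤ (⌈v ^ 9⌉₊ : ℝ) * (1 / (10 ^ 7 * v ^ 8)) :=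
          mul_le_mul_of_nonneg_right (Nat.le_ceil _) (by positivity)
      _ ≤ _ := by linarith
  rw [pow_mul]
  refine le_trans ?_ (pow_le_pow_left₀ (by positivity) (le_trans h2 h1) 21)
  calc 64 * (4000 * v ^ 10) ^ 2 = 1024000000 * v ^ 20 := by ring
    _ ≤ v / 10 ^ 147 * v ^ 20 := by
        refine mul_le_mul_of_nonneg_right ?_ (by positivity)
        rw [le_div_iff₀ (by norm_num)]
        exact le_trans (by norm_num) hv
    _ = _ := by ring

/-- two heavy thin shells are close -/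
theorem thin_sep (h2 : SMP) (h3 : SMUpP) {n : ℕ} (hn : 2 ≤ n) {K : Set (E n)} (hK : Iso K)
    {v : ℝ} (hv : 10 ^ 160 ≤ v) (hvn : v ^ 100 = n) {σ1 σ2 : ℝ} (h1 : 1 / 100 ≤ σ1)
    (h5 : σ2 ≤ 5) (hA1 : 1 / (4000 * v ^ 10) ≤ pr K (thinSh n σ1 (σ1 * (1 + 1 / v ^ 10))))
    (hA2 : 1 / (4000 * v ^ 10) ≤ pr K (thinSh n σ2 (σ2 * (1 + 1 / v ^ 10)))) :
    σ2 < σ1 * (1 + 1 / v ^ 4 / 2) := by
  by_contra hc
  replace hc := not_lt.1 hc
  have hv1 : 1000 ≤ v := le_trans (by norm_num) hv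
  have hv0 : 0 < v := by linarith
  have h12 : σ1 ≤ σ2 := le_trans (le_mul_of_one_le_right (by linarith)
    (le_add_of_nonneg_right (by positivity))) hc
  have hsq : √(n : ℝ) = v ^ 50 := by
    rw [← hvn, show v ^ 100 = (v ^ 50) ^ 2 by ring, Real.sqrt_sq (by positivity)]
  set k := ⌈v ^ 9⌉₊ * 21 with hkdef
  have hk : (k : ℝ) ≤ 42 * v ^ 9 := by
    have h9 : 1 ≤ v ^ 9 := one_le_pow₀ (by linarith)
    have := Nat.ceil_lt_add_one (show 0 ≤ v ^ 9 by positivity)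
    rw [hkdef]; push_cast; linarith
  have hζ : 1 / v ^ 12 < 1 / 100 := one_div_lt_one_div_of_lt (by norm_num)
    (lt_of_lt_of_le (by linarith) (le_self_pow₀ (by linarith) (by norm_num)))
  have key : ∀ σ, 1 / 100 ≤ σ → σ ≤ 5 →
      1 / (4000 * v ^ 10) ≤ pr K (thinSh n σ (σ * (1 + 1 / v ^ 10))) →
      gmat n (Fin k) {g | pr K {x | ∀ i, |inner ℝ (g i) x / √n - σ| ≤ 1 / v ^ 12}
        < 1 / (4000 * v ^ 10) * (2 * (1 / v ^ 12 / σ) * gd 1) ^ k / 2}
        ≤ ENNReal.ofReal (1 / 4) := by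
    intro σ a1 a2 a3
    have hσ : 0 < σ := by linarith
    have b1 := thin_small hv hk a1
    have b2 := thin_tail hv hk a1 a2 a3
    have b3 := h2 n K hn hK (Fin k) (thinSh n σ (σ * (1 + 1 / v ^ 10))) σ (1 / v ^ 10)
      (1 / v ^ 12 / σ) (v ^ 20) 1 (fun _ => 1) (thinSh_meas _ _ _) a1 (by positivity)
      (by positivity) (by positivity) (fun x hx => hx) (fun _ => by simp)
      (lt_of_lt_of_le (by positivity) a3) (by rw [Fintype.card_fin, hsq]; linarith)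
    simp only [prod_const, card_univ, Fintype.card_fin] at b3
    refine le_trans (measure_mono (fun g hg => ?_)) (le_trans b3 (ENNReal.ofReal_le_ofReal ?_))
    · refine lt_of_le_of_lt (thin_pr_mono hK.1 ?_) (lt_of_lt_of_le hg ?_)
      · intro x hx i
        have b4 := hx.2 i
        rw [show inner ℝ (g i) x / √n - σ = (inner ℝ (g i) x / (σ * √n) - 1) * σ by
          rw [hsq]; field_simp, abs_mul, abs_of_pos hσ]
        exact (le_div_iff₀ hσ).1 b4
      · have := thin_gd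
        gcongr
    · rw [hsq]; linarith
  have k1 := key σ1 h1 (by linarith) hA1
  have k2 := key σ2 (by linarith) h5 hA2
  have k3 := h3 n K (by omega) hK.1 (Fin k) ((σ1 + σ2) / 2) (1 / v ^ 12) (by positivity)
    (by linarith)
  rw [Fintype.card_fin] at k3
  have hprob : IsProbabilityMeasure (gmat n (Fin k)) := by unfold gmat; infer_instance
  obtain ⟨g, g1, g2, g3⟩ : ∃ g : Fin k → E n,
      1 / (4000 * v ^ 10) * (2 * (1 / v ^ 12 / σ1) * gd 1) ^ k / 2
        ≤ pr K {x | ∀ i, |inner ℝ (g i) x / √n - σ1| ≤ 1 / v ^ 12} ∧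
      1 / (4000 * v ^ 10) * (2 * (1 / v ^ 12 / σ2) * gd 1) ^ k / 2
        ≤ pr K {x | ∀ i, |inner ℝ (g i) x / √n - σ2| ≤ 1 / v ^ 12} ∧
      pr K {x | ∀ i, |inner ℝ (g i) x / √n - (σ1 + σ2) / 2| ≤ 1 / v ^ 12}
        < 4 * (2 * (1 / v ^ 12) * gd 1 / ((σ1 + σ2) / 2 - 1 / v ^ 12)) ^ k := by
    by_contra hne
    have h6 := le_trans (measure_union_le _ _) (add_le_add
      (le_trans (measure_union_le _ _) (add_le_add k1 k2)) k3)
    rw [Set.eq_univ_of_forall (s := _ ∪ _) (fun g => ?_), measure_univ,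
      ← ENNReal.ofReal_add (by norm_num) (by norm_num),
      ← ENNReal.ofReal_add (by norm_num) (by norm_num), ENNReal.one_le_ofReal] at h6
    · norm_num at h6
    · by_contra hg
      simp only [Set.mem_union, Set.mem_ofPred_eq, not_or, not_lt, not_le] at hg
      exact hne ⟨g, hg.1.1, hg.1.2, hg.2⟩
  have hm := pr_mid hK.1 (thin_box_meas g (√n) σ1 (1 / v ^ 12))
    (thin_box_meas g (√n) σ2 (1 / v ^ 12)) (thin_box_meas g (√n) ((σ1 + σ2) / 2) (1 / v ^ 12))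
    (fun x _ hx y _ hy i => by
      have c1 := abs_le.1 (hx i)
      have c2 := abs_le.1 (hy i)
      rw [inner_smul_right, inner_add_right, mul_div_assoc, add_div, abs_le]
      constructor <;> linarith [c1.1, c1.2, c2.1, c2.2])
  have hgd : 0 < gd 1 := lt_of_lt_of_le (by norm_num) thin_gd
  have hσ1 : 0 < σ1 := by linarith
  have hσ2 : 0 < σ2 := by linarith
  have hd : 0 < (σ1 + σ2) / 2 - 1 / v ^ 12 := by linarith
  have h7 := lt_of_le_of_lt (le_trans (mul_le_mul g1 g2 (by positivity) (thin_pr_nonneg _ _)) hm)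
    (pow_lt_pow_left₀ g3 (thin_pr_nonneg _ _) (by norm_num))
  have h8 := thin_base hv h1 h5 hc
  have h9 := thin_big hv
  rw [← hkdef] at h9
  clear_value k
  have hb : 0 ≤ 1 + 1 / (10 ^ 7 * v ^ 8) := by positivity
  have hB : 0 < 4000 * v ^ 10 := by positivity
  have hz : 0 < 1 / v ^ 12 := by positivity
  generalize (σ1 + σ2) / 2 - 1 / v ^ 12 = d at hd h7 h8
  generalize 1 + 1 / (10 ^ 7 * v ^ 8) = b at hb h8 h9
  generalize 4000 * v ^ 10 = B at hB h7 h9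
  generalize 1 / v ^ 12 = z at hz h7
  have h10 : (σ1 * σ2) ^ k * (64 * B ^ 2) ≤ (d ^ 2) ^ k := by
    calc _ ≤ (σ1 * σ2) ^ k * b ^ k := mul_le_mul_of_nonneg_left h9 (by positivity)
      _ ≤ _ := by rw [← mul_pow]; exact pow_le_pow_left₀ (by positivity) h8 k
  have e1 : 1 / B * (2 * (z / σ1) * gd 1) ^ k / 2 * (1 / B * (2 * (z / σ2) * gd 1) ^ k / 2)
      = 16 * ((2 * z * gd 1) ^ k) ^ 2 / ((σ1 * σ2) ^ k * (64 * B ^ 2)) := by
    simp only [mul_pow, div_pow]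
    field_simp
    norm_num
  have e2 : (4 * (2 * z * gd 1 / d) ^ k) ^ 2 = 16 * ((2 * z * gd 1) ^ k) ^ 2 / (d ^ 2) ^ k := by
    rw [div_pow, pow_right_comm d 2 k]
    field_simp
    norm_num
  rw [e1, e2] at h7
  exact absurd h7 (not_lt.2 (div_le_div_of_nonneg_left (by positivity) (by positivity) h10))

theorem thin (h1 : IsoBoundsP) (h2 : SMP) (h3 : SMUpP) : ThinP := by
  obtain ⟨V, hV⟩ : ∃ V : ℝ, V = 10 ^ 160 := ⟨_, rfl⟩
  refine ⟨max 2 ⌈V ^ 100⌉₊, fun n hn K hK v hv0 hvn => ?_⟩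
  have hn2 : 2 ≤ n := le_trans (le_max_left _ _) hn
  have hv : 10 ^ 160 ≤ v := by
    rw [← hV]
    refine le_of_not_gt (fun hlt => ?_)
    have h4 := pow_lt_pow_left₀ hlt hv0 (show 100 ≠ 0 by norm_num)
    have h5 : V ^ 100 ≤ n := Nat.ceil_le.1 (le_trans (le_max_right _ _) hn)
    linarith
  have hv1 : 2 ≤ v := le_trans (by norm_num) hv
  have hvp : 0 < v := by linarith
  have h10 : 1 ≤ v ^ 10 := one_le_pow₀ (by linarith)
  have hsn : 0 < √(n : ℝ) := Real.sqrt_pos.2 (by rw [← hvn]; positivity)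
  obtain ⟨-, -, hb1, hb2, -⟩ := h1 n K hn2 hK
  set δ : ℝ := 1 / (100 * v ^ 10) with hδ
  have hδ0 : 0 < δ := by positivity
  set I : ℕ := ⌈399 * v ^ 10⌉₊ with hI
  have hI1 : 399 * v ^ 10 ≤ I := Nat.le_ceil _
  have hI2 : (I : ℝ) < 399 * v ^ 10 + 1 := Nat.ceil_lt_add_one (by positivity)
  let σ : ℕ → ℝ := fun i => 1 / 100 + i * δ
  let A : ℕ → Set (E n) := fun i => thinSh n (σ i) (σ i * (1 + 1 / v ^ 10))
  have hσ1 : ∀ i, 1 / 100 ≤ σ i := fun i => le_add_of_nonneg_right (by positivity)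
  have hσ2 : ∀ i < I, σ i ≤ 4 := by
    intro i hi
    have h4 : (i : ℝ) < 399 * v ^ 10 := Nat.lt_ceil.1 hi
    have h5 : (i : ℝ) * δ ≤ 399 * v ^ 10 * δ := mul_le_mul_of_nonneg_right h4.le hδ0.le
    have h6 : 399 * v ^ 10 * δ = 399 / 100 := by rw [hδ]; field_simp
    simp only [σ]
    linarith
  have hcov : ∀ x : E n, √n / 100 < ‖x‖ → ‖x‖ < 4 * √n → ∃ i < I, x ∈ A i := by
    intro x hx1 hx2
    have hr1 : 1 / 100 < ‖x‖ / √n := by rw [lt_div_iff₀ hsn]; linarith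
    have hr2 : ‖x‖ / √n < 4 := by rw [div_lt_iff₀ hsn]; linarith
    have h0 : 0 ≤ (‖x‖ / √n - 1 / 100) / δ := div_nonneg (by linarith) hδ0.le
    have h4 := Nat.floor_le h0
    have h5 := Nat.lt_floor_add_one ((‖x‖ / √n - 1 / 100) / δ)
    rw [le_div_iff₀ hδ0] at h4
    rw [div_lt_iff₀ hδ0] at h5
    refine ⟨⌊(‖x‖ / √n - 1 / 100) / δ⌋₊, (Nat.floor_lt h0).2 (lt_of_lt_of_le ?_ hI1), ?_, ?_⟩
    · rw [div_lt_iff₀ hδ0, show 399 * v ^ 10 * δ = 399 / 100 by rw [hδ]; field_simp]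
      linarith
    · rw [← le_div_iff₀ hsn]
      simp only [σ]
      linarith
    · rw [← div_le_iff₀ hsn]
      have h6 := mul_le_mul_of_nonneg_right (hσ1 ⌊(‖x‖ / √n - 1 / 100) / δ⌋₊)
        (show 0 ≤ 1 / v ^ 10 by positivity)
      have h7 : 1 / 100 * (1 / v ^ 10) = δ := by rw [hδ]; field_simp
      simp only [σ] at h6 ⊢
      linarith
  classical
  let H := (range I).filter (fun i => 1 / (4000 * v ^ 10) ≤ pr K (A i))
  have hlight : pr K (⋃ i ∈ range I \ H, A i) ≤ 1 / 10 := by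
    refine le_trans (thin_pr_biUnion hK.1 _ _) ?_
    calc ∑ i ∈ range I \ H, pr K (A i) ≤ ∑ _i ∈ range I \ H, 1 / (4000 * v ^ 10) :=
          sum_le_sum (fun i hi => le_of_not_ge (fun h =>
            (mem_sdiff.1 hi).2 (mem_filter.2 ⟨(mem_sdiff.1 hi).1, h⟩)))
      _ ≤ ∑ _i ∈ range I, 1 / (4000 * v ^ 10) :=
          sum_le_sum_of_subset_of_nonneg sdiff_subset (fun _ _ _ => by positivity)
      _ ≤ 1 / 10 := by
          rw [sum_const, card_range, nsmul_eq_mul, mul_one_div,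
            div_le_div_iff₀ (by positivity) (by norm_num)]
          linarith
  have hmain : ∀ S : Set (E n), (∀ i ∈ H, A i ⊆ S) → 1 / 10 ≤ pr K S := by
    intro S hS
    have h4 := thin_pr_mono hK.1 (A := Set.univ)
      (B := ({x | 4 * √n ≤ ‖x‖} ∪ {x | ‖x‖ ≤ √n / 100}) ∪ ((⋃ i ∈ range I \ H, A i) ∪ S))
      (fun x _ => by
        by_cases c1 : 4 * √n ≤ ‖x‖
        · exact Or.inl (Or.inl c1)
        by_cases c2 : ‖x‖ ≤ √n / 100
        · exact Or.inl (Or.inr c2)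
        obtain ⟨i, hi, hx⟩ := hcov x (not_le.1 c2) (not_le.1 c1)
        by_cases c3 : i ∈ H
        · exact Or.inr (Or.inr (hS i c3 hx))
        · exact Or.inr (Or.inl (Set.mem_biUnion (mem_sdiff.2 ⟨mem_range.2 hi, c3⟩) hx)))
    rw [thin_pr_univ hK.1] at h4
    have h5 := le_trans h4 (le_trans (thin_pr_union hK.1 _ _)
      (add_le_add (thin_pr_union hK.1 _ _) (thin_pr_union hK.1 _ _)))
    linarith
  have hne : H.Nonempty := by
    rw [nonempty_iff_ne_empty]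
    intro h0
    have := hmain ∅ (fun i hi => by rw [h0] at hi; exact absurd hi (notMem_empty i))
    simp only [pr, Set.inter_empty, measure_empty, ENNReal.toReal_zero, zero_div] at this
    norm_num at this
  have hm := mem_filter.1 (H.min'_mem hne)
  refine ⟨σ (H.min' hne), hσ1 _, hσ2 _ (mem_range.1 hm.1), hmain _ (fun i hi x hx => ⟨?_, ?_⟩)⟩
  · refine le_trans (mul_le_mul_of_nonneg_right ?_ hsn.le) hx.1
    have h4 : ((H.min' hne : ℕ) : ℝ) ≤ i := by exact_mod_cast H.min'_le i hi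
    simp only [σ]
    gcongr
  · refine le_trans hx.2 (mul_le_mul_of_nonneg_right ?_ hsn.le)
    have hi' := mem_filter.1 hi
    have h4 := thin_sep h2 h3 hn2 hK hv hvn (hσ1 _) (le_trans (hσ2 i (mem_range.1 hi'.1))
      (by norm_num)) hm.2 hi'.2
    have h5 : 1 / v ^ 10 ≤ 1 / v ^ 4 / 4 := by
      rw [div_div]
      refine one_div_le_one_div_of_le (by positivity) ?_
      rw [show v ^ 10 = v ^ 4 * v ^ 6 by ring]
      refine mul_le_mul_of_nonneg_left (le_trans (by norm_num)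
        (pow_le_pow_left₀ (by norm_num) hv1 6)) (by positivity)
    have h6 : 1 / v ^ 4 ≤ 1 := by
      rw [div_le_one (by positivity)]; exact one_le_pow₀ (by linarith)
    have h7 : 0 < 1 / v ^ 4 := by positivity
    have h8 : 0 < σ (H.min' hne) := lt_of_lt_of_le (by norm_num) (hσ1 _)
    calc σ i * (1 + 1 / v ^ 10) ≤ σ (H.min' hne) * (1 + 1 / v ^ 4 / 2) * (1 + 1 / v ^ 4 / 4) := by
          gcongr
      _ = σ (H.min' hne) * ((1 + 1 / v ^ 4 / 2) * (1 + 1 / v ^ 4 / 4)) := by ring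
      _ ≤ _ := mul_le_mul_of_nonneg_left (by nlinarith) h8.le

end Vale.Agent.P230
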