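import Vale.Agent.P230.Defs

open MeasureTheory Filter Topology
open scoped Pointwise ENNReal

namespace Vale.Agent.P230

lemma measurableSet_cube (n : ℕ) (R : ℝ) : MeasurableSet (cube n R) := by
  have : cube n R = ⋂ i, {x : E n | |x i| ≤ R} := by
    ext x; simp [cube]
  rw [this]
  refine MeasurableSet.iInter fun i => ?_
  exact measurableSet_le (by fun_prop) measurable_const

lemma volume_cube (n : ℕ) (R : ℝ) (hR : 0 ≤ R) :
    volume (cube n R) = ENNReal.ofReal ((2 * R) ^ n) := by
  have h1 : cube n R = (@WithLp.ofLp 2 (Fin n → ℝ)) ⁻¹'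
      (Set.pi Set.univ fun _ : Fin n => Set.Icc (-R) R) := by
    ext x
    simp only [cube, Set.mem_ofPred_eq, Set.mem_preimage, Set.mem_pi, Set.mem_univ, true_imp_iff,
      Set.mem_Icc, abs_le]
  rw [h1, (PiLp.volume_preserving_ofLp (Fin n)).measure_preimage
    (MeasurableSet.univ_pi fun _ => measurableSet_Icc).nullMeasurableSet, volume_pi,
    Measure.pi_pi]
  simp only [Real.volume_Icc, Finset.prod_const, Finset.card_univ, Fintype.card_fin]
  rw [ENNReal.ofReal_pow (by linarith)]
  congr 2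
  ring

lemma isBounded_cube (n : ℕ) (R : ℝ) : Bornology.IsBounded (cube n R) := by
  rw [isBounded_iff_forall_norm_le]
  refine ⟨Real.sqrt (∑ _i : Fin n, R ^ 2), fun x hx => ?_⟩
  rw [EuclideanSpace.norm_eq]
  refine Real.sqrt_le_sqrt (Finset.sum_le_sum fun i _ => ?_)
  have h := hx i
  rw [Real.norm_eq_abs]
  exact pow_le_pow_left₀ (abs_nonneg _) h 2

lemma locFin_span {n : ℕ} (b : Module.Basis (Fin n) ℝ (E n)) :
    LocFin (Submodule.span ℤ (Set.range b) : Set (E n)) := by
  intro S hS
  rw [Set.inter_comm]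
  exact ZSpan.setFinite_inter b hS

/-- Lattice points in a cube: the translates of the fundamental domain are disjoint. -/
lemma ncard_mul_le {n : ℕ} (b : Module.Basis (Fin n) ℝ (E n)) {d : ℝ}
    (hd : ∀ y ∈ ZSpan.fundamentalDomain b, ‖y‖ ≤ d) (R : ℝ) :
    (((Submodule.span ℤ (Set.range b) : Set (E n)) ∩ cube n R).ncard : ℝ≥0∞) *
      volume (ZSpan.fundamentalDomain b) ≤ volume (cube n (R + d)) := by
  classical
  have hfin := locFin_span b _ (isBounded_cube n R)
  set F := ZSpan.fundamentalDomain b with hF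
  have hFm : MeasurableSet F := ZSpan.fundamentalDomain_measurableSet b
  set s := hfin.toFinset with hs
  have hmeas : ∀ x ∈ s, MeasurableSet ((fun y => -x + y) ⁻¹' F) := fun x _ =>
    hFm.preimage (by fun_prop)
  have hdisj : Set.PairwiseDisjoint (s : Set (E n)) (fun x => (fun y => -x + y) ⁻¹' F) := by
    intro x hx x' hx' hne
    rw [Function.onFun, Set.disjoint_left]
    intro z hz hz'
    have hx1 : x ∈ Submodule.span ℤ (Set.range b) := by
      have := (Set.Finite.mem_toFinset hfin).1 hx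
      exact this.1
    have hx2 : x' ∈ Submodule.span ℤ (Set.range b) := by
      have := (Set.Finite.mem_toFinset hfin).1 hx'
      exact this.1
    obtain ⟨v, -, hv⟩ := ZSpan.exist_unique_vadd_mem_fundamentalDomain b z
    have e1 := hv ⟨-x, neg_mem hx1⟩ hz
    have e2 := hv ⟨-x', neg_mem hx2⟩ hz'
    have e3 : -x = -x' := congrArg Subtype.val (e1.trans e2.symm)
    exact hne (neg_injective e3)
  have hU := measure_biUnion_finset (μ := (volume : Measure (E n))) hdisj hmeas
  have hsub : (⋃ x ∈ s, (fun y => -x + y) ⁻¹' F) ⊆ cube n (R + d) := by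
    intro z hz
    simp only [Set.mem_iUnion] at hz
    obtain ⟨x, hx, hz⟩ := hz
    have hx' : x ∈ cube n R := ((Set.Finite.mem_toFinset hfin).1 hx).2
    intro i
    have h1 : ‖-x + z‖ ≤ d := hd _ hz
    have h2 : |(-x + z) i| ≤ ‖-x + z‖ := by
      have := PiLp.norm_apply_le (-x + z) i
      rwa [Real.norm_eq_abs] at this
    have h3 : z i = x i + (-x + z) i := by simp
    have h4 := hx' i
    rw [h3]
    exact (abs_add_le _ _).trans (by linarith)
  have hsum : ∑ x ∈ s, volume ((fun y => -x + y) ⁻¹' F) = (s.card : ℝ≥0∞) * volume F := by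
    rw [Finset.sum_congr rfl fun x _ => measure_preimage_add volume (-x) F]
    simp
  rw [Set.ncard_eq_toFinset_card _ hfin, ← hs, ← hsum, ← hU]
  exact measure_mono hsub

lemma tendsto_ratio (n : ℕ) (d : ℝ) :
    Tendsto (fun R : ℝ => ENNReal.ofReal (((R + d) / R) ^ n)) atTop (𝓝 1) := by
  have h1 : Tendsto (fun R : ℝ => (R + d) / R) atTop (𝓝 1) := by
    have h2 : Tendsto (fun R : ℝ => 1 + d / R) atTop (𝓝 (1 + 0)) :=
      tendsto_const_nhds.add (tendsto_const_nhds.div_atTop tendsto_id)
    rw [add_zero] at h2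
    refine h2.congr' ?_
    filter_upwards [eventually_gt_atTop 0] with R hR
    field_simp
  have h3 := ENNReal.tendsto_ofReal (h1.pow n)
  simpa using h3

lemma upperDensity_span_le {n : ℕ} (b : Module.Basis (Fin n) ℝ (E n)) :
    upperDensity (Submodule.span ℤ (Set.range b) : Set (E n)) ≤
      (volume (ZSpan.fundamentalDomain b))⁻¹ := by
  obtain ⟨d, hd⟩ := isBounded_iff_forall_norm_le.1 (ZSpan.fundamentalDomain_isBounded b)
  have hd0 : ∀ y ∈ ZSpan.fundamentalDomain b, ‖y‖ ≤ |d| := fun y hy =>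
    (hd y hy).trans (le_abs_self d)
  set V := volume (ZSpan.fundamentalDomain b) with hV
  have hV0 : V ≠ 0 := ZSpan.measure_fundamentalDomain_ne_zero b
  have hVt : V ≠ ⊤ := (ZSpan.fundamentalDomain_isBounded b).measure_lt_top.ne
  have hlim : Tendsto (fun R : ℝ => ENNReal.ofReal (((R + |d|) / R) ^ n) * V⁻¹) atTop
      (𝓝 (1 * V⁻¹)) :=
    ENNReal.Tendsto.mul_const (tendsto_ratio n |d|) (Or.inl one_ne_zero)
  rw [one_mul] at hlim
  rw [← hlim.limsup_eq]
  unfold upperDensity
  refine limsup_le_limsup ?_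
  filter_upwards [eventually_gt_atTop 0] with R hR
  have h1 := ncard_mul_le b hd0 R
  rw [volume_cube n _ (by positivity), ← hV] at h1
  have hpos : 0 < (2 * R) ^ n := by positivity
  have h2 : ((R + |d|) / R) ^ n = (2 * (R + |d|)) ^ n / (2 * R) ^ n := by
    rw [← div_pow]
    congr 1
    field_simp
  rw [h2, ENNReal.ofReal_div_of_pos hpos, div_eq_mul_inv, div_eq_mul_inv, mul_right_comm]
  refine mul_le_mul_left ?_ _
  rw [← div_eq_mul_inv]
  exact (ENNReal.le_div_iff_mul_le (Or.inl hV0) (Or.inl hVt)).2 h1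

theorem thetaT_le_thetaL {n : ℕ} (K : Set (E n)) : thetaT K ≤ thetaL K := by
  unfold thetaL
  refine le_iInf fun b => le_iInf fun hb => ?_
  unfold thetaT
  refine (iInf_le _ (Submodule.span ℤ (Set.range b) : Set (E n))).trans ?_
  refine (iInf_le _ (locFin_span b)).trans ?_
  refine (iInf_le _ hb).trans ?_
  rw [div_eq_mul_inv]
  exact mul_le_mul_right (upperDensity_span_le b) _

theorem ThetaT_le_ThetaL (n : ℕ) : ThetaT n ≤ ThetaL n := by
  unfold ThetaT ThetaL
  exact iSup_mono fun K => iSup_mono fun _ => thetaT_le_thetaL K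

end Vale.Agent.P230
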