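import Vale.Agent.P230.DDefs

/-! Boolean trees and the amplification lemmas along trees. -/

open Finset

namespace Vale.Agent.P230

section comb
variable {κ : Type}

lemma TL.of_card {h : ℕ} {Z : Finset (κ → ℤ)} (hZ : Z.card ≤ 1) : TL h Z := by
  cases h with
  | zero => exact hZ
  | succ h => exact Or.inl hZ

lemma TL.succ : ∀ {h : ℕ} {Z : Finset (κ → ℤ)}, TL h Z → TL (h + 1) Z
  | 0, _, hZ => Or.inl hZ
  | _ + 1, _, hZ => hZ.imp id fun ⟨i, c, h1, h2, h3⟩ => ⟨i, c, h1, h2.succ, h3.succ⟩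

lemma TL.mono {h h' : ℕ} {Z : Finset (κ → ℤ)} (hZ : TL h Z) (hh : h ≤ h') : TL h' Z := by
  induction hh with
  | refl => exact hZ
  | step _ ih => exact ih.succ

lemma TL.subset : ∀ {h : ℕ} {Z Z' : Finset (κ → ℤ)}, TL h Z → Z' ⊆ Z → TL h Z'
  | 0, _, _, hZ, hs => (card_le_card hs).trans hZ
  | _ + 1, _, _, hZ, hs => hZ.imp (fun h => (card_le_card hs).trans h)
      fun ⟨i, c, h1, h2, h3⟩ => ⟨i, c, fun z hz => h1 z (hs hz),
        h2.subset (filter_subset_filter _ hs), h3.subset (filter_subset_filter _ hs)⟩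

lemma sum_split {M : Type*} [AddCommMonoid M] {Z : Finset (κ → ℤ)} {i : κ} {c : ℤ}
    (h : ∀ z ∈ Z, z i = c ∨ z i = c + 1) (f : (κ → ℤ) → M) :
    ∑ z ∈ Z, f z = ∑ z ∈ Z.filter (fun z => z i = c), f z
      + ∑ z ∈ Z.filter (fun z => z i = c + 1), f z := by
  rw [← sum_filter_add_sum_filter_not Z (fun z => z i = c)]
  congr 1
  refine sum_congr (filter_congr fun z hz => ?_) fun _ _ => rfl
  rcases h z hz with e | e <;> simp [e]

lemma prod_split {M : Type*} [CommMonoid M] {Z : Finset (κ → ℤ)} {i : κ} {c : ℤ}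
    (h : ∀ z ∈ Z, z i = c ∨ z i = c + 1) (f : (κ → ℤ) → M) :
    ∏ z ∈ Z, f z = (∏ z ∈ Z.filter (fun z => z i = c), f z)
      * ∏ z ∈ Z.filter (fun z => z i = c + 1), f z := by
  rw [← prod_filter_mul_prod_filter_not Z (fun z => z i = c)]
  congr 1
  refine prod_congr (filter_congr fun z hz => ?_) fun _ _ => rfl
  rcases h z hz with e | e <;> simp [e]

lemma TL.card_le : ∀ {h : ℕ} {Z : Finset (κ → ℤ)}, TL h Z → Z.card ≤ 2 ^ h
  | 0, _, hZ => hZ
  | h + 1, Z, hZ => by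
    rcases hZ with hZ | ⟨i, c, h1, h2, h3⟩
    · exact hZ.trans Nat.one_le_two_pow
    · have := sum_split h1 (fun _ => 1 : (κ → ℤ) → ℕ)
      simp only [sum_const, smul_eq_mul, mul_one] at this
      have := h2.card_le
      have := h3.card_le
      omega

lemma TL.injOn {p : ℕ} (hp : 2 ≤ p) :
    ∀ {h : ℕ} {Z : Finset (κ → ℤ)}, TL h Z → Set.InjOn (zc p) (Z : Set (κ → ℤ))
  | 0, _, hZ => fun _ hx _ hy _ => card_le_one.1 hZ _ hx _ hy
  | h + 1, Z, hZ => by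
    rcases hZ with hZ | ⟨i, c, h1, h2, h3⟩
    · exact fun _ hx _ hy _ => card_le_one.1 hZ _ hx _ hy
    · intro x hx y hy e
      have : Fact (1 < p) := ⟨hp⟩
      have ei : (x i : ZMod p) = y i := congrFun e i
      rcases h1 x hx with ex | ex <;> rcases h1 y hy with ey | ey
      · exact TL.injOn hp h2 (by simpa using ⟨hx, ex⟩) (by simpa using ⟨hy, ey⟩) e
      · rw [ex, ey] at ei; simp at ei
      · rw [ex, ey] at ei; simp at ei
      · exact TL.injOn hp h3 (by simpa using ⟨hx, ex⟩) (by simpa using ⟨hy, ey⟩) e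

/-- subsets of a discrete cube are trees -/
lemma TL.cube [DecidableEq κ] (s : Finset κ) : ∀ (a : κ → ℤ) (Z : Finset (κ → ℤ)),
    (∀ z ∈ Z, ∀ i, z i = a i ∨ (i ∈ s ∧ z i = a i + 1)) → TL s.card Z := by
  induction s using Finset.induction_on with
  | empty =>
    intro a Z h
    refine card_le_one.2 fun x hx y hy => funext fun i => ?_
    have h1 := h x hx i
    have h2 := h y hy i
    simp only [notMem_empty, false_and, or_false] at h1 h2
    rw [h1, h2]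
  | insert i s hi ih =>
    intro a Z h
    rw [card_insert_of_notMem hi]
    refine Or.inr ⟨i, a i, fun z hz => (h z hz i).imp id And.right, ih a _ fun z hz j => ?_,
      ih (Function.update a i (a i + 1)) _ fun z hz j => ?_⟩
    · obtain ⟨hz, e⟩ := mem_filter.1 hz
      by_cases hj : j = i
      · subst hj; exact Or.inl e
      · exact (h z hz j).imp id fun ⟨h1, h2⟩ => ⟨(mem_insert.1 h1).resolve_left hj, h2⟩
    · obtain ⟨hz, e⟩ := mem_filter.1 hz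
      by_cases hj : j = i
      · subst hj; left; simpa using e
      · rw [Function.update_of_ne hj]
        exact (h z hz j).imp id fun ⟨h1, h2⟩ => ⟨(mem_insert.1 h1).resolve_left hj, h2⟩

lemma TL.fibre {κ₁ κ₂ : Type} (g : κ₁ → ℤ) : ∀ {h : ℕ} {Z₂ : Finset (κ₂ → ℤ)}
    {Z : Finset (κ₁ ⊕ κ₂ → ℤ)}, TL h Z₂ → (∀ z ∈ Z, z ∘ Sum.inl = g ∧ z ∘ Sum.inr ∈ Z₂) → TL h Z := by
  have key : ∀ {Z₂ : Finset (κ₂ → ℤ)} {Z : Finset (κ₁ ⊕ κ₂ → ℤ)}, Z₂.card ≤ 1 →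
      (∀ z ∈ Z, z ∘ Sum.inl = g ∧ z ∘ Sum.inr ∈ Z₂) → Z.card ≤ 1 := by
    intro Z₂ Z h1 h2
    refine card_le_one.2 fun x hx y hy => ?_
    rw [← Sum.elim_comp_inl_inr x, ← Sum.elim_comp_inl_inr y, (h2 x hx).1, (h2 y hy).1,
      card_le_one.1 h1 _ (h2 x hx).2 _ (h2 y hy).2]
  intro h
  induction h with
  | zero => exact fun h1 h2 => key h1 h2
  | succ h ih =>
    intro Z₂ Z h1 h2
    rcases h1 with h1 | ⟨i, c, h3, h4, h5⟩
    · exact Or.inl (key h1 h2)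
    · refine Or.inr ⟨Sum.inr i, c, fun z hz => h3 _ (h2 z hz).2, ih h4 fun z hz => ?_,
        ih h5 fun z hz => ?_⟩
      · obtain ⟨hz, e⟩ := mem_filter.1 hz
        exact ⟨(h2 z hz).1, mem_filter.2 ⟨(h2 z hz).2, e⟩⟩
      · obtain ⟨hz, e⟩ := mem_filter.1 hz
        exact ⟨(h2 z hz).1, mem_filter.2 ⟨(h2 z hz).2, e⟩⟩

/-- a tree of trees is a tree -/
lemma TL.ext {κ₁ κ₂ : Type} {h₂ : ℕ} {Z₂ : (κ₁ → ℤ) → Finset (κ₂ → ℤ)} (hZ₂ : ∀ g, TL h₂ (Z₂ g)) :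
    ∀ {h₁ : ℕ} {Z₁ : Finset (κ₁ → ℤ)} {Z : Finset (κ₁ ⊕ κ₂ → ℤ)}, TL h₁ Z₁ →
      (∀ z ∈ Z, z ∘ Sum.inl ∈ Z₁ ∧ z ∘ Sum.inr ∈ Z₂ (z ∘ Sum.inl)) → TL (h₁ + h₂) Z := by
  have key : ∀ {Z₁ : Finset (κ₁ → ℤ)} {Z : Finset (κ₁ ⊕ κ₂ → ℤ)}, Z₁.card ≤ 1 →
      (∀ z ∈ Z, z ∘ Sum.inl ∈ Z₁ ∧ z ∘ Sum.inr ∈ Z₂ (z ∘ Sum.inl)) → TL h₂ Z := by
    intro Z₁ Z h1 h2
    rcases Z.eq_empty_or_nonempty with rfl | ⟨z0, hz0⟩
    · exact TL.of_card (by simp)
    · refine TL.fibre (z0 ∘ Sum.inl) (hZ₂ (z0 ∘ Sum.inl)) fun z hz => ?_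
      have e := card_le_one.1 h1 _ (h2 z hz).1 _ (h2 z0 hz0).1
      exact ⟨e, e ▸ (h2 z hz).2⟩
  intro h₁
  induction h₁ with
  | zero => intro Z₁ Z h1 h2; rw [zero_add]; exact key h1 h2
  | succ h ih =>
    intro Z₁ Z h1 h2
    rcases h1 with h1 | ⟨i, c, h3, h4, h5⟩
    · exact (key h1 h2).mono (Nat.le_add_left _ _)
    · rw [Nat.add_right_comm]
      refine Or.inr ⟨Sum.inl i, c, fun z hz => h3 _ (h2 z hz).1, ih h4 fun z hz => ?_,
        ih h5 fun z hz => ?_⟩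
      · obtain ⟨hz, e⟩ := mem_filter.1 hz
        exact ⟨mem_filter.2 ⟨(h2 z hz).1, e⟩, (h2 z hz).2⟩
      · obtain ⟨hz, e⟩ := mem_filter.1 hz
        exact ⟨mem_filter.2 ⟨(h2 z hz).1, e⟩, (h2 z hz).2⟩

end comb

section ana
variable {p : ℕ} [Fact p.Prime] {κ Sg : Type} [Fintype κ] [DecidableEq κ] [Fintype Sg]
  [DecidableEq Sg]

/-- average over the shift of a product along a pattern -/
noncomputable def Phi (f : (κ → ℤ) → (Sg → ZMod p) → ℝ) (Z : Finset (κ → ℤ))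
    (φ : κ → Sg → ZMod p) : ℝ :=
  av fun x => ∏ z ∈ Z, f z (lin φ x (zc p z))

omit [DecidableEq κ] in
lemma Phi_nonneg {f : (κ → ℤ) → (Sg → ZMod p) → ℝ} (hf : ∀ z x, 0 ≤ f z x) (Z : Finset (κ → ℤ))
    (φ : κ → Sg → ZMod p) : 0 ≤ Phi f Z φ :=
  av_nonneg fun _ => prod_nonneg fun _ _ => hf _ _

omit [DecidableEq κ] in
lemma Phi_le_one {f : (κ → ℤ) → (Sg → ZMod p) → ℝ} (hf : ∀ z x, 0 ≤ f z x)
    (hf1 : ∀ z x, f z x ≤ 1) (Z : Finset (κ → ℤ)) (φ : κ → Sg → ZMod p) : Phi f Z φ ≤ 1 :=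
  av_le_const fun _ => prod_le_one (fun _ _ => hf _ _) fun _ _ => hf1 _ _

omit [Fintype Sg] [DecidableEq Sg] in
lemma lin_add_single (φ : κ → Sg → ZMod p) (i : κ) (e x : Sg → ZMod p) (y : κ → ZMod p) :
    lin (φ + Pi.single i e) x y = lin φ (x + y i • e) y := by
  unfold lin
  simp only [Pi.add_apply, smul_add, sum_add_distrib]
  rw [sum_eq_single (f := fun j => y j • (Pi.single i e : κ → Sg → ZMod p) j) i
    (fun j _ hj => by rw [Pi.single_eq_of_ne hj, smul_zero]) (by simp), Pi.single_eq_same]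
  abel

lemma split_av {Z : Finset (κ → ℤ)} {i : κ} {c : ℤ} (h : ∀ z ∈ Z, z i = c ∨ z i = c + 1)
    (f : (κ → ℤ) → (Sg → ZMod p) → ℝ) (hf : ∀ z x, 0 ≤ f z x) {θ : ℝ} (h0 : 0 < θ) (h1 : θ ≤ 1) :
    av (fun φ => Phi f Z φ ^ θ) ≤ av fun φ => (Phi f (Z.filter fun z => z i = c) φ
      * Phi f (Z.filter fun z => z i = c + 1) φ) ^ θ := by
  have e1 : av (fun φ => Phi f Z φ ^ θ)
      = av fun φ : κ → Sg → ZMod p => av fun e => Phi f Z (φ + Pi.single i e) ^ θ := by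
    rw [av_comm, ← av_const (Ω := Sg → ZMod p) (av (fun φ => Phi f Z φ ^ θ))]
    exact av_congr fun e =>
      (av_equiv (Equiv.addRight (Pi.single i e)) (fun φ => Phi f Z φ ^ θ)).symm
  rw [e1]
  refine av_mono fun φ => ?_
  refine (av_rpow_le (fun e => Phi_nonneg hf _ _) h0 h1).trans (le_of_eq ?_)
  congr 1
  set F₀ := fun x => ∏ z ∈ Z.filter (fun z => z i = c), f z (lin φ x (zc p z)) with hF₀
  set F₁ := fun x => ∏ z ∈ Z.filter (fun z => z i = c + 1), f z (lin φ x (zc p z)) with hF₁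
  have e2 : ∀ e, Phi f Z (φ + Pi.single i e) = av fun x => F₀ x * F₁ (x + e) := by
    intro e
    rw [← av_equiv (Equiv.addRight ((c : ZMod p) • e)) (fun x => F₀ x * F₁ (x + e))]
    refine av_congr fun x => ?_
    rw [prod_split h]
    congr 1
    · refine prod_congr rfl fun z hz => ?_
      rw [lin_add_single, show zc p z i = (c : ZMod p) by simp [zc, (mem_filter.1 hz).2]]
      rfl
    · refine prod_congr rfl fun z hz => ?_
      rw [lin_add_single, show zc p z i = (c : ZMod p) + 1 by simp [zc, (mem_filter.1 hz).2],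
        add_smul, one_smul, ← add_assoc]
      rfl
  simp only [e2]
  rw [av_comm]
  have e3 : ∀ x, av (fun e => F₀ x * F₁ (x + e)) = F₀ x * av F₁ := by
    intro x
    rw [av_smul]
    congr 1
    exact av_equiv (Equiv.addLeft x) F₁
  simp only [e3]
  rw [av_mul_const]
  rfl

lemma amgm2 {a b s t : ℝ} (ha : 0 ≤ a) (hb : 0 ≤ b) (hs : 0 < s) (ht : 0 < t) {c : ℝ} :
    (a * b) ^ (c / (s + t)) ≤ s / (s + t) * a ^ (c / s) + t / (s + t) * b ^ (c / t) := by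
  have hst : 0 < s + t := by positivity
  have := Real.geom_mean_le_arith_mean2_weighted (w₁ := s / (s + t)) (w₂ := t / (s + t))
    (p₁ := a ^ (c / s)) (p₂ := b ^ (c / t)) (by positivity) (by positivity) (by positivity)
    (by positivity) (by field_simp)
  rw [← Real.rpow_mul ha, ← Real.rpow_mul hb, show c / s * (s / (s + t)) = c / (s + t) by
    field_simp, show c / t * (t / (s + t)) = c / (s + t) by field_simp] at this
  rwa [Real.mul_rpow ha hb]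

/-- weighted amplification along a tree -/
theorem wtree {Ω : Type} [Fintype Ω] [Nonempty Ω] (f : (κ → ℤ) → Ω → (Sg → ZMod p) → ℝ)
    (hf : ∀ z ω x, 0 ≤ f z ω x) {E : ℝ} : ∀ (h : ℕ) (Z : Finset (κ → ℤ)), TL h Z → Z.Nonempty →
    (∀ z ∈ Z, av (fun ω => av fun x => f z ω x) ≤ E) → ∀ θ : (κ → ℤ) → ℝ,
    (∀ z ∈ Z, 0 < θ z ∧ θ z ≤ 1) →
    av (fun ω => av fun φ : κ → Sg → ZMod p =>
      Phi (fun z x => f z ω x ^ θ z) Z φ ^ (1 / ∑ z ∈ Z, θ z)) ≤ E := by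
  have hf' : ∀ (θ : (κ → ℤ) → ℝ) ω z x, 0 ≤ f z ω x ^ θ z :=
    fun θ ω z x => Real.rpow_nonneg (hf _ _ _) _
  have jen : ∀ {s : ℝ}, 0 < s → s ≤ 1 → ∀ F : (Sg → ZMod p) → ℝ, (∀ x, 0 ≤ F x) →
      (av F) ^ (1 / s) ≤ av fun x => F x ^ (1 / s) := by
    intro s h0 h1 F hF
    have h2 := av_rpow_le (f := fun x => F x ^ (1 / s)) (fun x => Real.rpow_nonneg (hF x) _) h0 h1
    have e : av (fun x => (F x ^ (1 / s)) ^ s) = av F := av_congr fun x => by
      rw [← Real.rpow_mul (hF x), one_div_mul_cancel h0.ne', Real.rpow_one]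
    rw [e] at h2
    have h3 := Real.rpow_le_rpow (av_nonneg hF) h2 (z := 1 / s) (by positivity)
    rwa [← Real.rpow_mul (av_nonneg fun x => Real.rpow_nonneg (hF x) _),
      mul_one_div_cancel h0.ne', Real.rpow_one] at h3
  have base : ∀ Z : Finset (κ → ℤ), Z.card ≤ 1 → Z.Nonempty →
      (∀ z ∈ Z, av (fun ω => av fun x => f z ω x) ≤ E) → ∀ θ : (κ → ℤ) → ℝ,
      (∀ z ∈ Z, 0 < θ z ∧ θ z ≤ 1) →
      av (fun ω => av fun φ : κ → Sg → ZMod p =>
        Phi (fun z x => f z ω x ^ θ z) Z φ ^ (1 / ∑ z ∈ Z, θ z)) ≤ E := by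
    intro Z h1 ⟨z, hz⟩ hE θ hθ
    obtain rfl : Z = {z} := eq_singleton_iff_unique_mem.2 ⟨hz, fun y hy => card_le_one.1 h1 _ hy _ hz⟩
    refine le_trans (av_mono fun ω => av_le_const fun φ => ?_) (hE z hz)
    unfold Phi
    simp only [prod_singleton, sum_singleton]
    refine (jen (hθ z hz).1 (hθ z hz).2 _ fun x => hf' θ ω z _).trans (le_of_eq ?_)
    rw [← av_equiv (Equiv.addRight (∑ i, zc p z i • φ i)) (fun x => f z ω x)]
    refine av_congr fun x => ?_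
    rw [← Real.rpow_mul (hf _ _ _), mul_one_div_cancel (hθ z hz).1.ne', Real.rpow_one]
    rfl
  intro h
  induction h with
  | zero => exact base
  | succ h ih =>
    intro Z hZ hne hE θ hθ
    rcases hZ with hZ | ⟨i, c, h1, h2, h3⟩
    · exact base Z hZ hne hE θ hθ
    set Z₀ := Z.filter (fun z => z i = c) with hZ₀
    set Z₁ := Z.filter (fun z => z i = c + 1) with hZ₁
    have s0 : Z₀ ⊆ Z := filter_subset _ _
    have s1 : Z₁ ⊆ Z := filter_subset _ _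
    rcases Z₀.eq_empty_or_nonempty with e0 | n0
    · have : Z₁ = Z := filter_true_of_mem fun z hz => (h1 z hz).resolve_left fun e =>
        notMem_empty z (e0 ▸ mem_filter.2 ⟨hz, e⟩)
      exact ih Z (this ▸ h3) hne hE θ hθ
    rcases Z₁.eq_empty_or_nonempty with e1 | n1
    · have : Z₀ = Z := filter_true_of_mem fun z hz => (h1 z hz).resolve_right fun e =>
        notMem_empty z (e1 ▸ mem_filter.2 ⟨hz, e⟩)
      exact ih Z (this ▸ h2) hne hE θ hθ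
    have main : ∀ θ : (κ → ℤ) → ℝ, (∀ z ∈ Z, 0 < θ z ∧ θ z ≤ 1) → 1 ≤ ∑ z ∈ Z, θ z →
        av (fun ω => av fun φ : κ → Sg → ZMod p =>
          Phi (fun z x => f z ω x ^ θ z) Z φ ^ (1 / ∑ z ∈ Z, θ z)) ≤ E := by
      intro θ hθ hs
      have p0 : 0 < ∑ z ∈ Z₀, θ z := sum_pos (fun z hz => (hθ z (s0 hz)).1) n0
      have p1 : 0 < ∑ z ∈ Z₁, θ z := sum_pos (fun z hz => (hθ z (s1 hz)).1) n1
      have i0 := ih Z₀ h2 n0 (fun z hz => hE z (s0 hz)) θ fun z hz => hθ z (s0 hz)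
      have i1 := ih Z₁ h3 n1 (fun z hz => hE z (s1 hz)) θ fun z hz => hθ z (s1 hz)
      have es : ∑ z ∈ Z, θ z = ∑ z ∈ Z₀, θ z + ∑ z ∈ Z₁, θ z := sum_split h1 θ
      rw [es] at hs ⊢
      refine (av_mono fun ω => (split_av h1 _ (hf' θ ω) (by positivity)
        (by rw [div_le_one (by positivity)]; exact hs)).trans (av_mono fun φ =>
          amgm2 (Phi_nonneg (hf' θ ω) _ _) (Phi_nonneg (hf' θ ω) _ _) p0 p1)).trans ?_
      simp only [av_add, av_smul]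
      set a := ∑ z ∈ Z₀, θ z
      set b := ∑ z ∈ Z₁, θ z
      have : a / (a + b) * E + b / (a + b) * E = E := by field_simp
      rw [← this]
      gcongr
    have ps : 0 < ∑ z ∈ Z, θ z := sum_pos (fun z hz => (hθ z hz).1) hne
    rcases le_total 1 (∑ z ∈ Z, θ z) with hs | hs
    · exact main θ hθ hs
    set s := ∑ z ∈ Z, θ z with hsd
    have es : ∑ z ∈ Z, θ z / s = 1 := by rw [← sum_div, div_self ps.ne']
    have := main (fun z => θ z / s) (fun z hz => ⟨div_pos (hθ z hz).1 ps, by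
      rw [div_le_one ps]
      exact single_le_sum (fun z hz => (hθ z hz).1.le) hz⟩) es.ge
    rw [es] at this
    refine le_trans (av_mono fun ω => av_mono fun φ => ?_) this
    refine (jen ps hs _ fun x => prod_nonneg fun z _ => hf' θ ω z _).trans (le_of_eq ?_)
    rw [div_one, Real.rpow_one]
    refine av_congr fun x => ?_
    rw [← Real.finsetProd_rpow _ _ fun z _ => hf' θ ω z _]
    refine prod_congr rfl fun z _ => ?_
    rw [← Real.rpow_mul (hf _ _ _), mul_one_div]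

/-- amplification along a tree cut at a given mass -/
theorem mtree_aux {Ω : Type} [Fintype Ω] [Nonempty Ω] (f : (κ → ℤ) → Ω → (Sg → ZMod p) → ℝ)
    (hf : ∀ z ω x, 0 ≤ f z ω x) (hf1 : ∀ z ω x, f z ω x ≤ 1) (m : (κ → ℤ) → ℝ) {c cap γ : ℝ}
    (hc : 0 < c) (hcap : c ≤ cap) : ∀ (h : ℕ) (Z : Finset (κ → ℤ)), TL h Z →
    (∀ z ∈ Z, 0 ≤ m z ∧ m z ≤ cap) →
    (∀ Z' ⊆ Z, c ≤ ∑ z ∈ Z', m z → ∑ z ∈ Z', m z ≤ cap →
      av (fun ω => av fun φ : κ → Sg → ZMod p => Phi (fun z => f z ω) Z' φ)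
        ≤ Real.exp (-γ * ∑ z ∈ Z', m z)) →
    ∃ M : ℝ, ∑ z ∈ Z, m z - c - h * c * (∑ z ∈ Z, m z) / cap ≤ M ∧ (M = 0 ∨ (c ≤ M ∧
      av (fun ω => av fun φ : κ → Sg → ZMod p => Phi (fun z => f z ω) Z φ ^ (c / M))
        ≤ Real.exp (-γ * c))) := by
  have hcap0 : 0 < cap := hc.trans_le hcap
  have hP0 : ∀ ω Z (φ : κ → Sg → ZMod p), 0 ≤ Phi (fun z => f z ω) Z φ :=
    fun ω Z φ => Phi_nonneg (fun z x => hf z ω x) Z φ
  have hP1 : ∀ ω Z (φ : κ → Sg → ZMod p), Phi (fun z => f z ω) Z φ ≤ 1 :=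
    fun ω Z φ => Phi_le_one (fun z x => hf z ω x) (fun z x => hf1 z ω x) Z φ
  have base : ∀ (h : ℕ) (Z : Finset (κ → ℤ)), ∑ z ∈ Z, m z ≤ cap →
      (∀ z ∈ Z, 0 ≤ m z ∧ m z ≤ cap) →
      (∀ Z' ⊆ Z, c ≤ ∑ z ∈ Z', m z → ∑ z ∈ Z', m z ≤ cap →
        av (fun ω => av fun φ : κ → Sg → ZMod p => Phi (fun z => f z ω) Z' φ)
          ≤ Real.exp (-γ * ∑ z ∈ Z', m z)) →
      ∃ M : ℝ, ∑ z ∈ Z, m z - c - h * c * (∑ z ∈ Z, m z) / cap ≤ M ∧ (M = 0 ∨ (c ≤ M ∧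
        av (fun ω => av fun φ : κ → Sg → ZMod p => Phi (fun z => f z ω) Z φ ^ (c / M))
          ≤ Real.exp (-γ * c))) := by
    intro h Z hs hm hB
    have h0 : 0 ≤ ∑ z ∈ Z, m z := sum_nonneg fun z hz => (hm z hz).1
    have h1 : 0 ≤ h * c * (∑ z ∈ Z, m z) / cap := by positivity
    rcases le_total c (∑ z ∈ Z, m z) with hcs | hcs
    · refine ⟨∑ z ∈ Z, m z, by linarith, Or.inr ⟨hcs, ?_⟩⟩
      have hB' := hB Z Subset.rfl hcs hs
      set s := ∑ z ∈ Z, m z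
      have ps : 0 < s := hc.trans_le hcs
      have t0 : 0 < c / s := by positivity
      have t1 : c / s ≤ 1 := by rwa [div_le_one ps]
      refine (av_mono fun ω => av_rpow_le (hP0 ω Z) t0 t1).trans
        ((av_rpow_le (fun ω => av_nonneg (hP0 ω Z)) t0 t1).trans ?_)
      refine (Real.rpow_le_rpow (av_nonneg fun ω => av_nonneg (hP0 ω Z)) hB' t0.le).trans
        (le_of_eq ?_)
      rw [← Real.exp_mul]
      congr 1
      field_simp
    · exact ⟨0, by linarith, Or.inl rfl⟩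
  have small : ∀ Z : Finset (κ → ℤ), Z.card ≤ 1 → (∀ z ∈ Z, 0 ≤ m z ∧ m z ≤ cap) →
      ∑ z ∈ Z, m z ≤ cap := by
    intro Z h1 hm
    rcases Z.eq_empty_or_nonempty with rfl | ⟨z, hz⟩
    · simpa using hcap0.le
    · obtain rfl : Z = {z} :=
        eq_singleton_iff_unique_mem.2 ⟨hz, fun y hy => card_le_one.1 h1 _ hy _ hz⟩
      simpa using (hm z hz).2
  intro h
  induction h with
  | zero => exact fun Z hZ hm hB => base 0 Z (small Z hZ hm) hm hB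
  | succ h ih =>
    intro Z hZ hm hB
    rcases le_total (∑ z ∈ Z, m z) cap with hs | hs
    · exact base _ Z hs hm hB
    rcases hZ with hZ | ⟨i, c', h1, h2, h3⟩
    · exact base _ Z (small Z hZ hm) hm hB
    set Z₀ := Z.filter (fun z => z i = c') with hZ₀
    set Z₁ := Z.filter (fun z => z i = c' + 1) with hZ₁
    have s0 : Z₀ ⊆ Z := filter_subset _ _
    have s1 : Z₁ ⊆ Z := filter_subset _ _
    obtain ⟨M₀, l0, r0⟩ := ih Z₀ h2 (fun z hz => hm z (s0 hz)) fun Z' hZ' => hB Z' (hZ'.trans s0)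
    obtain ⟨M₁, l1, r1⟩ := ih Z₁ h3 (fun z hz => hm z (s1 hz)) fun Z' hZ' => hB Z' (hZ'.trans s1)
    have es : ∑ z ∈ Z, m z = ∑ z ∈ Z₀, m z + ∑ z ∈ Z₁, m z := sum_split h1 m
    refine ⟨M₀ + M₁, ?_, ?_⟩
    · have : c ≤ c * (∑ z ∈ Z, m z) / cap := by
        rw [le_div_iff₀ hcap0]; gcongr
      have e : ((h + 1 : ℕ) : ℝ) * c * (∑ z ∈ Z, m z) / cap
          = h * c * (∑ z ∈ Z₀, m z) / cap + h * c * (∑ z ∈ Z₁, m z) / cap
            + c * (∑ z ∈ Z, m z) / cap := by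
        rw [es]; push_cast; ring
      rw [e]
      linarith
    have sp : ∀ {M : ℝ}, c ≤ M → ∀ ω, av (fun φ : κ → Sg → ZMod p =>
        Phi (fun z => f z ω) Z φ ^ (c / M)) ≤ av fun φ : κ → Sg → ZMod p =>
          (Phi (fun z => f z ω) Z₀ φ * Phi (fun z => f z ω) Z₁ φ) ^ (c / M) := by
      intro M hM ω
      have : 0 < M := hc.trans_le hM
      exact split_av h1 _ (fun z x => hf z ω x) (by positivity) (by rwa [div_le_one this])
    rcases r0 with rfl | ⟨c0, r0⟩ <;> rcases r1 with rfl | ⟨c1, r1⟩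
    · exact Or.inl (add_zero 0)
    · rw [zero_add]
      have : 0 < M₁ := hc.trans_le c1
      refine Or.inr ⟨c1, le_trans (av_mono fun ω => (sp c1 ω).trans (av_mono fun φ => ?_)) r1⟩
      exact Real.rpow_le_rpow (mul_nonneg (hP0 _ _ _) (hP0 _ _ _))
        (mul_le_of_le_one_left (hP0 _ _ _) (hP1 _ _ _)) (by positivity)
    · rw [add_zero]
      have : 0 < M₀ := hc.trans_le c0
      refine Or.inr ⟨c0, le_trans (av_mono fun ω => (sp c0 ω).trans (av_mono fun φ => ?_)) r0⟩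
      exact Real.rpow_le_rpow (mul_nonneg (hP0 _ _ _) (hP0 _ _ _))
        (mul_le_of_le_one_right (hP0 _ _ _) (hP1 _ _ _)) (by positivity)
    · have p0 : 0 < M₀ := hc.trans_le c0
      have p1 : 0 < M₁ := hc.trans_le c1
      have c2 : c ≤ M₀ + M₁ := by linarith
      refine Or.inr ⟨c2, (av_mono fun ω => (sp c2 ω).trans (av_mono fun φ =>
        amgm2 (hP0 _ _ _) (hP0 _ _ _) p0 p1)).trans ?_⟩
      simp only [av_add, av_smul]
      have : M₀ / (M₀ + M₁) * Real.exp (-γ * c) + M₁ / (M₀ + M₁) * Real.exp (-γ * c)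
        = Real.exp (-γ * c) := by field_simp
      rw [← this]
      gcongr

/-- tail bound from the amplification along a tree cut at a given mass -/
theorem mtree {Ω : Type} [Fintype Ω] [Nonempty Ω] (f : (κ → ℤ) → Ω → (Sg → ZMod p) → ℝ)
    (hf : ∀ z ω x, 0 ≤ f z ω x) (hf1 : ∀ z ω x, f z ω x ≤ 1) (m : (κ → ℤ) → ℝ) {c cap : ℝ}
    (hc : 0 < c) (hcap : c ≤ cap) {h : ℕ} (hh : 4 * h * c ≤ cap) {Z : Finset (κ → ℤ)}
    (hZ : TL h Z) (hm : ∀ z ∈ Z, 0 ≤ m z ∧ m z ≤ cap) (hs : 4 * c ≤ ∑ z ∈ Z, m z)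
    (hB : ∀ Z' ⊆ Z, c ≤ ∑ z ∈ Z', m z → ∑ z ∈ Z', m z ≤ cap →
      av (fun ω => av fun φ : κ → Sg → ZMod p => Phi (fun z => f z ω) Z' φ)
        ≤ Real.exp (-(∑ z ∈ Z', m z) / 2)) :
    av (fun ω => av fun φ : κ → Sg → ZMod p =>
      ind (Real.exp (-(∑ z ∈ Z, m z) / 8) ≤ Phi (fun z => f z ω) Z φ)) ≤ Real.exp (-c / 4) := by
  have hcap0 : 0 < cap := hc.trans_le hcap
  obtain ⟨M, h1, h2⟩ := mtree_aux f hf hf1 m (γ := 1 / 2) hc hcap h Z hZ hm
    fun Z' a b c => (hB Z' a b c).trans (le_of_eq (by congr 1; ring))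
  set s := ∑ z ∈ Z, m z
  have h3 : h * c * s / cap ≤ s / 4 := by
    rw [div_le_iff₀ hcap0]; nlinarith
  have h4 : s / 2 ≤ M := by linarith
  have pM : 0 < M := by linarith
  obtain ⟨-, h5⟩ := h2.resolve_left pM.ne'
  have hP0 : ∀ ω (φ : κ → Sg → ZMod p), 0 ≤ Phi (fun z => f z ω) Z φ :=
    fun ω φ => Phi_nonneg (fun z x => hf z ω x) Z φ
  have h6 : ∀ ω (φ : κ → Sg → ZMod p), ind (Real.exp (-s / 8) ≤ Phi (fun z => f z ω) Z φ)
      ≤ Real.exp (c / 4) * Phi (fun z => f z ω) Z φ ^ (c / M) := by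
    intro ω φ
    by_cases e : Real.exp (-s / 8) ≤ Phi (fun z => f z ω) Z φ
    · rw [ind_pos e]
      have h7 := Real.rpow_le_rpow (Real.exp_pos _).le e (z := c / M) (by positivity)
      rw [← Real.exp_mul] at h7
      refine le_trans ?_ (mul_le_mul_of_nonneg_left h7 (Real.exp_pos _).le)
      rw [← Real.exp_add]
      refine Real.one_le_exp ?_
      have : s / 8 * (c / M) ≤ c / 4 := by
        rw [← mul_div_assoc, div_le_iff₀ pM]; nlinarith
      linarith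
    · rw [ind_neg e]
      exact mul_nonneg (Real.exp_pos _).le (Real.rpow_nonneg (hP0 _ _) _)
  refine (av_mono fun ω => av_mono fun φ => h6 ω φ).trans ?_
  simp only [av_smul]
  refine (mul_le_mul_of_nonneg_left h5 (Real.exp_pos _).le).trans (le_of_eq ?_)
  rw [← Real.exp_add]
  congr 1
  ring

end ana

end Vale.Agent.P230
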