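import Vale.Agent.P230.VertNum

/-! The vertical lattice: induction over the stages. -/

open Finset

namespace Vale.Agent.P230

lemma vert_markov {α γ : Type} (W1 : Finset α) (W2 : Finset γ) (q1 : α → ℝ) (q2 : γ → ℝ)
    (Typ : α → γ → Prop) (f : α → γ → ℝ) {P : Prop} (hP : P) {T : ℝ} (hT : 0 < T)
    (h1 : ∀ j, 0 ≤ q1 j) (h2 : ∀ s, 0 ≤ q2 s) (hf : ∀ j s, 0 ≤ f j s) :
    ∑ j ∈ W1, ∑ s ∈ W2, q1 j * q2 s * ind (Typ j s) - (∑ j ∈ W1, ∑ s ∈ W2, q1 j * q2 s * f j s) / T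
      ≤ ∑ j ∈ W1, ∑ s ∈ W2, q1 j * q2 s * ind (Typ j s ∧ P ∧ f j s ≤ T) := by
  rw [sum_div, ← sum_sub_distrib]
  refine sum_le_sum fun j _ => ?_
  rw [sum_div, ← sum_sub_distrib]
  refine sum_le_sum fun s _ => ?_
  rw [mul_div_assoc, ← mul_sub]
  refine mul_le_mul_of_nonneg_left ?_ (mul_nonneg (h1 j) (h2 s))
  have h0 : 0 ≤ f j s / T := div_nonneg (hf j s) hT.le
  by_cases h : f j s ≤ T
  · have := ind_mono (P := Typ j s) (Q := Typ j s ∧ P ∧ f j s ≤ T) fun h' => ⟨h', hP, h⟩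
    linarith
  · have h3 : 1 ≤ f j s / T := (one_le_div hT).2 (not_le.1 h).le
    linarith [ind_le_one (Typ j s), ind_nonneg (Typ j s ∧ P ∧ f j s ≤ T)]

lemma vert_grid {b β d p r : ℕ} (hb : 99 ≤ b) (hβ : β = b + 1) (hd : 2000 * β ^ 6 ≤ d)
    (hp1 : d ^ 7 < p) (hp2 : p ≤ 2 * d ^ 7) (hr : r ≤ d) {η1 η2 : ℝ}
    (e1 : η1 = 4 * β / (p / 2 : ℕ)) (e2 : η2 = 4 * β / p) :
    (η1 ≤ 1 / 100 ∧ 1 / (2 * (d : ℝ) ^ 7) ≤ η1 ∧ η1 * (p / 2 : ℕ) = 4 * β) ∧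
    (η2 ≤ 1 ∧ 1 / (2 * (d : ℝ) ^ 7) ≤ η2 ∧ η2 * p = 4 * β) ∧
    r * (η1 / (1 / (d : ℝ) ^ 3)) + d * (η2 / (1 / (d : ℝ) ^ 3)) ≤ 1 / b - 1 / β ∧
    (r + d) * ((4 * β + 2) * (1 / (d : ℝ) ^ 3)) ≤ 1 / b - 1 / β := by
  have hb' : (99 : ℝ) ≤ b := by exact_mod_cast hb
  have hβ' : (β : ℝ) = b + 1 := by rw [hβ]; push_cast; rfl
  have hd' : 2000 * (β : ℝ) ^ 6 ≤ d := by exact_mod_cast hd
  have hJ : (d : ℝ) ^ 7 ≤ 2 * ((p / 2 : ℕ) : ℝ) := by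
    exact_mod_cast (by omega : d ^ 7 ≤ 2 * (p / 2))
  have hJ2 : 2 * ((p / 2 : ℕ) : ℝ) ≤ p := by exact_mod_cast (by omega : 2 * (p / 2) ≤ p)
  have hp2' : (p : ℝ) ≤ 2 * (d : ℝ) ^ 7 := by exact_mod_cast hp2
  have hr' : (r : ℝ) ≤ d := by exact_mod_cast hr
  generalize ((p / 2 : ℕ) : ℝ) = J at *
  have hβ1 : (1 : ℝ) ≤ β := by linarith
  have h3 : (β : ℝ) ^ 3 ≤ (β : ℝ) ^ 6 := pow_le_pow_right₀ hβ1 (by norm_num)
  have h1 : (β : ℝ) ≤ (β : ℝ) ^ 3 := le_self_pow₀ hβ1 (by norm_num)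
  have hd1 : (1 : ℝ) ≤ d := by linarith
  have hd7 : (d : ℝ) ≤ (d : ℝ) ^ 7 := le_self_pow₀ hd1 (by norm_num)
  have hd3 : (d : ℝ) ≤ (d : ℝ) ^ 3 := le_self_pow₀ hd1 (by norm_num)
  have hd2 : (d : ℝ) ≤ (d : ℝ) ^ 2 := le_self_pow₀ hd1 (by norm_num)
  have hJ0 : 0 < J := by linarith
  have hp0 : (0 : ℝ) < p := by linarith
  have hu1 : η1 ≤ 8 * β / (d : ℝ) ^ 7 := by
    rw [e1, div_le_div_iff₀ hJ0 (by positivity)]; nlinarith
  have hu2 : η2 ≤ 8 * β / (d : ℝ) ^ 7 := by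
    rw [e2, div_le_div_iff₀ hp0 (by positivity)]; nlinarith
  have hu : 8 * β / (d : ℝ) ^ 7 ≤ 1 / 100 := by
    rw [div_le_div_iff₀ (by positivity) (by norm_num)]; linarith
  have hl2 : 1 / (2 * (d : ℝ) ^ 7) ≤ η2 := by
    rw [e2]; exact div_le_div₀ (by positivity) (by linarith) hp0 hp2'
  have hl1 : η2 ≤ η1 := by
    rw [e1, e2]; exact div_le_div_of_nonneg_left (by positivity) hJ0 (by linarith)
  have hdiff : 1 / (β : ℝ) ^ 2 ≤ 1 / b - 1 / β := by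
    have : (1 : ℝ) / b - 1 / β = 1 / (b * β) := by
      rw [hβ']; field_simp; ring
    rw [this]
    exact one_div_le_one_div_of_le (by positivity) (by nlinarith)
  have h0 : 0 ≤ η2 := le_trans (by positivity) hl2
  have h00 : 0 ≤ η1 := h0.trans hl1
  refine ⟨⟨hu1.trans hu, hl2.trans hl1, ?_⟩, ⟨by linarith, hl2, ?_⟩, le_trans ?_ hdiff,
    le_trans ?_ hdiff⟩
  · rw [e1]; exact div_mul_cancel₀ _ hJ0.ne'
  · rw [e2]; exact div_mul_cancel₀ _ hp0.ne'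
  · calc _ ≤ d * (8 * β / (d : ℝ) ^ 7 / (1 / (d : ℝ) ^ 3))
          + d * (8 * β / (d : ℝ) ^ 7 / (1 / (d : ℝ) ^ 3)) := by gcongr
      _ = 16 * β / (d : ℝ) ^ 3 := by field_simp; ring
      _ ≤ _ := by
        rw [div_le_div_iff₀ (by positivity) (by positivity)]
        have : 16 * (β : ℝ) * β ^ 2 = 16 * β ^ 3 := by ring
        linarith
  · calc _ ≤ (d + d) * ((4 * β + 2 * β) * (1 / (d : ℝ) ^ 3)) := by gcongr; linarith
      _ = 12 * β / (d : ℝ) ^ 2 := by field_simp; ring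
      _ ≤ _ := by
        rw [div_le_div_iff₀ (by positivity) (by positivity)]
        have : 12 * (β : ℝ) * β ^ 2 = 12 * β ^ 3 := by ring
        linarith

lemma vert_stage_num {b β p r D μ : ℕ} (hb : 99 ≤ b) (hβ : β = b + 1)
    (hp1 : dd β ^ 7 < p) (hp2 : p ≤ 2 * dd β ^ 7) (hr : dd β ≤ 1000 * β ^ 2 * r) (hD0 : 1 ≤ D)
    (hD : D ≤ 2 ^ (114 * b ^ 2 * dd b)) (hμ : μ = 1000 * β ^ 6 * dd b) {ε : ℝ}
    (hε : ε = 1 / (β : ℝ) ^ 2) :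
    1 ≤ μ ∧ μ * Real.exp (-2 ^ (5 * b ^ 2 - 1)) * Real.exp (2 ^ (4 * β ^ 2 + 4 * β)) ≤ ε ∧
    2 * μ * (dd b + 2) ≤ p ∧ 9 * μ + 1 ≤ p ∧ 42000 * μ * Real.log p ≤ r ∧
    Real.log (4 * D) ≤ ε * (ε * μ - 3) ∧
    Real.exp (-2 ^ b ^ 2) * dd β * Real.log p ≤ ε * (ε * μ - 3) ∧
    Real.exp (-2 ^ (5 * b ^ 2 - 1)) * Real.exp (2 ^ (4 * β ^ 2 + 4 * β))
      ≤ Real.exp (-2 ^ β ^ 2) := by
  have n1 := vert_r hb (hβ ▸ hr)
  have n2 := vert_om hb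
  have n3 := vert_mu hb
  have n4 := vert_nuN hb
  have n5 := vert_dd_two b
  have n6 := vert_dd_ge (b := β) (by omega)
  have n7 := vert_dd_ge hb
  have n8 := vert_p_le hp2
  rw [← hβ] at n1 n2 n3 n4 n5
  rw [← hμ] at n1 n3
  have hb' : (99 : ℝ) ≤ b := by exact_mod_cast hb
  have hβ' : (β : ℝ) = b + 1 := by rw [hβ]; push_cast; rfl
  have hβ0 : 0 < β := by omega
  have hd : 2000 ≤ dd b := le_trans (Nat.le_mul_of_pos_right _ (by positivity)) n7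
  have hμ1 : 1 ≤ μ := by rw [hμ]; exact Nat.mul_pos (by positivity) (by omega)
  have hp0 : (0 : ℝ) < p := by exact_mod_cast (by omega : 0 < p)
  have hβ2 : (1 : ℝ) ≤ (β : ℝ) ^ 2 := one_le_pow₀ (by linarith)
  have hlog : Real.log p ≤ 57 * (β : ℝ) ^ 2 := by
    have := vert_log_le hp0 (n := 56 * β ^ 2 + 1) (by exact_mod_cast n8)
    push_cast at this
    linarith
  have hlog0 : 0 ≤ Real.log p := Real.log_natCast_nonneg p
  have hpp : 2 * μ * (dd b + 2) ≤ p := by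
    calc 2 * μ * (dd b + 2) = 2000 * β ^ 6 * dd b * (dd b + 2) := by rw [hμ]; ring
      _ ≤ dd β * dd β * dd β := Nat.mul_le_mul (Nat.mul_le_mul n6 (by omega)) (by omega)
      _ = dd β ^ 3 := by ring
      _ ≤ dd β ^ 7 := Nat.pow_le_pow_right (vert_dd_pos β) (by norm_num)
      _ ≤ p := hp1.le
  have hd' : (2000 : ℝ) ≤ dd b := by exact_mod_cast hd
  have hE : 999 * (β : ℝ) ^ 2 * dd b ≤ ε * (ε * μ - 3) := by
    have e1 : ε * (ε * μ - 3) = 1000 * (β : ℝ) ^ 2 * dd b - 3 * (1 / (β : ℝ) ^ 2) := by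
      rw [hε, hμ]; push_cast; field_simp
    have e2 : 1 / (β : ℝ) ^ 2 ≤ 1 := (div_le_one (by positivity)).2 hβ2
    rw [e1]; nlinarith
  have hexp : ∀ k : ℕ, ((2 ^ 2 ^ k : ℕ) : ℝ) * Real.exp (-2 ^ k) ≤ 1 := by
    intro k
    have := vert_two_pow_le_exp (2 ^ k)
    push_cast at this ⊢
    rw [Real.exp_neg]
    exact mul_inv_le_one_of_le₀ this (Real.exp_pos _).le
  refine ⟨hμ1, ?_, hpp, le_trans (by nlinarith) hpp, ?_, le_trans ?_ hE, le_trans ?_ hE,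
    n4.trans (Real.exp_le_exp.2 (neg_le_neg (pow_le_pow_right₀ (by norm_num) ?_)))⟩
  · have n3' : (μ : ℝ) * (β : ℝ) ^ 2 ≤ ((2 ^ 2 ^ (5 * b ^ 2 - 2) : ℕ) : ℝ) := by
      exact_mod_cast n3
    rw [hε, le_div_iff₀ (by positivity), mul_assoc (μ : ℝ), mul_right_comm]
    exact (mul_le_mul n3' n4 (by positivity) (by positivity)).trans (hexp _)
  · have n1' : 42000 * (μ : ℝ) * (57 * (β : ℝ) ^ 2) ≤ r := by exact_mod_cast n1
    exact (mul_le_mul_of_nonneg_left hlog (by positivity)).trans n1'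
  · have hD' : (0 : ℝ) < 4 * D := by
      have : (1 : ℝ) ≤ D := by exact_mod_cast hD0
      linarith
    have := vert_log_le hD' (n := 2 + 114 * b ^ 2 * dd b) (by
      rw [pow_add]
      have : (D : ℝ) ≤ 2 ^ (114 * b ^ 2 * dd b) := by exact_mod_cast hD
      linarith)
    push_cast at this
    have h1 : (b : ℝ) ^ 2 ≤ (β : ℝ) ^ 2 := by rw [hβ']; nlinarith
    nlinarith
  · have n2' : (dd β : ℝ) * (57 * (β : ℝ) ^ 2) ≤ ((2 ^ 2 ^ b ^ 2 : ℕ) : ℝ) := by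
      exact_mod_cast n2
    have h1 := (mul_le_mul_of_nonneg_left hlog (Nat.cast_nonneg (dd β))).trans n2'
    have h2 := (mul_le_mul_of_nonneg_right h1 (Real.exp_pos (-2 ^ b ^ 2)).le).trans (hexp _)
    rw [mul_assoc, mul_comm]
    nlinarith
  · have e1 : β ^ 2 = b ^ 2 + 2 * b + 1 := by rw [hβ]; ring
    have e2 : 99 * b ≤ b ^ 2 := by nlinarith
    omega

lemma vert_main (h1 : StageP) {C0 : ℝ} (hC : 1 ≤ C0) {b β : ℕ} (hb : 99 ≤ b) (hβ : β = b + 1)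
    {κ₁ κ₂ : Type} [Fintype κ₁] [DecidableEq κ₁] [Fintype κ₂] [DecidableEq κ₂]
    {η : κ₁ ⊕ κ₂ → ℝ} {J : κ₁ ⊕ κ₂ → ℕ} {D h₁ p r : ℕ} {η1 η2 θ : ℝ}
    {Typ : (Fin r → ℤ) → (Fin (dd β) → ℤ) → Prop}
    {pot' : ((κ₁ ⊕ κ₂) ⊕ (Fin r ⊕ Fin (dd β)) → ℤ) → ℝ}
    {B : Matrix (κ₁ ⊕ κ₂) (κ₁ ⊕ κ₂) ℤ} {R : Finset (κ₁ ⊕ κ₂ → ℤ)}
    (a3 : 1 ≤ D) (a4 : D ≤ 2 ^ (114 * b ^ 2 * dd b)) (hη : ∀ i, 0 < η i) (hp : p.Prime)
    (hp1 : dd β ^ 7 < p) (hp2 : p ≤ 2 * dd β ^ 7) (c1 : dd β ≤ 1000 * β ^ 2 * r)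
    (hη1 : 0 < η1) (g1 : η1 ≤ 1 / 100) (hη2 : 0 < η2)
    (c3 : 1 - 6 / (β : ℝ) ^ 2 ≤ ∑ j ∈ Fintype.piFinset fun _ : Fin r => Win (p / 2),
      ∑ s ∈ Fintype.piFinset fun _ : Fin (dd β) => Win p,
        (∏ c, qq η1 (j c)) * (∏ c, qq η2 (s c)) * ind (Typ j s))
    (c4 : ∀ j s, Typ j s → TypD η1 (p / 2) j ∧ (∀ c, s c ∈ Win p) ∧
      (β : ℝ) ^ 2 ≤ (∏ c, qq η1 (j c)) * ∏ c, fold η2 p (s c) ∧
      (∏ c, qq η1 (j c)) * ∏ c, fold η2 p (s c) ≤ Real.exp (2 ^ (4 * β ^ 2 + 4 * β)) ∧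
      (∏ c, qq η1 (j c)) * ∏ c, (p * qq η2 (s c)) ≤ Real.exp (-2 ^ (5 * β ^ 2 - 1)))
    (hpot : ∀ ζ, 0 ≤ pot' ζ) (hθ : 0 < θ) (b1 : B.det = D) (b2 : R.card ≤ D) (b3 : Reps B R)
    (b4 : ∀ ρ ∈ R, Pat B (vertQ C0 D η J (fun ζ =>
      ∑ j ∈ Fintype.piFinset fun _ : Fin r => Win (p / 2),
        ∑ s ∈ Fintype.piFinset fun _ : Fin (dd β) => Win p,
          (∏ c, qq η1 (j c)) * (∏ c, qq η2 (s c)) * pot' (Sum.elim ζ (Sum.elim j s)))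
      (C0 * (b.factorial : ℝ) ^ 2 * θ)) h₁ (dd b) (1 / 2 + 14 / b) (Real.exp (-2 ^ (b ^ 2)))
      (Real.exp (-2 ^ (5 * b ^ 2 - 1))) ρ) :
    ∃ (B' : Matrix ((κ₁ ⊕ κ₂) ⊕ (Fin r ⊕ Fin (dd β))) ((κ₁ ⊕ κ₂) ⊕ (Fin r ⊕ Fin (dd β))) ℤ)
      (R' : Finset ((κ₁ ⊕ κ₂) ⊕ (Fin r ⊕ Fin (dd β)) → ℤ)),
      B'.det = (D * p ^ dd β : ℕ) ∧ R'.card ≤ D * p ^ dd β ∧ Reps B' R' ∧ ∀ ρ ∈ R',
        Pat B' (vertQ C0 (D * p ^ dd β) (Sum.elim η (Sum.elim (fun _ => η1) fun _ => η2))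
          (Sum.elim J (Sum.elim (fun _ => p / 2) fun _ => p)) pot'
          (C0 * (β.factorial : ℝ) ^ 2 * θ)) (h₁ + dd b) (dd β) (1 / 2 + 14 / β)
          (Real.exp (-2 ^ (β ^ 2))) (Real.exp (-2 ^ (5 * β ^ 2 - 1))) ρ := by
  obtain ⟨n1, n2, n3, n4, n5, n6, n7, n8⟩ := vert_stage_num hb hβ hp1 hp2 c1 a3 a4 rfl rfl
  have hb' : (99 : ℝ) ≤ b := by exact_mod_cast hb
  have hβ' : (β : ℝ) = b + 1 := by rw [hβ]; push_cast; rfl
  have hβ0 : 0 < β := by omega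
  have hb0 : 0 < b := by omega
  have hq1 : ∀ j : Fin r → ℤ, 0 ≤ ∏ c, qq η1 (j c) :=
    fun j => prod_nonneg fun _ _ => qq_nonneg hη1.le _
  have hq2 : ∀ s : Fin (dd β) → ℤ, 0 ≤ ∏ c, qq η2 (s c) :=
    fun j => prod_nonneg fun _ _ => qq_nonneg hη2.le _
  have hq : ∀ ζ : κ₁ ⊕ κ₂ → ℤ, 0 ≤ ∏ i, qq (η i) (ζ i) :=
    fun j => prod_nonneg fun i _ => qq_nonneg (hη i).le _
  have hf : (0 : ℝ) < b.factorial := by exact_mod_cast b.factorial_pos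
  have hT : C0 * (β.factorial : ℝ) ^ 2 * θ = (β : ℝ) ^ 2 * (C0 * (b.factorial : ℝ) ^ 2 * θ) := by
    rw [hβ, Nat.factorial_succ]; push_cast; ring
  have hT0 : 0 < C0 * (b.factorial : ℝ) ^ 2 * θ := by positivity
  have hβ2 : (100 : ℝ) ≤ (β : ℝ) ^ 2 := by nlinarith
  have hε : 1 / (β : ℝ) ^ 2 ≤ 1 / 100 := one_div_le_one_div_of_le (by norm_num) hβ2
  have hbb : (1 : ℝ) / b ≤ 1 / 99 := one_div_le_one_div_of_le (by norm_num) hb'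
  have h14 : (14 : ℝ) / b = 14 * (1 / b) := by ring
  have m1 : 0 < 1 / (β : ℝ) ^ 2 := by positivity
  have m2 : 5 * (1 / (β : ℝ) ^ 2) + 7 * (1 / (β : ℝ) ^ 2) ≤ 1 := by linarith
  have m3 : (0 : ℝ) < 1 / 2 + 14 / b := by positivity
  have m4 : (1 : ℝ) / 2 + 14 / b ≤ 1 := by linarith
  have m5 : 1 / 2 + 14 / (β : ℝ) ≤
      1 / 2 + 14 / b - 7 * (1 / (β : ℝ) ^ 2) - 7 * (1 / (β : ℝ) ^ 2) := by
    have : 1 / (β : ℝ) ^ 2 ≤ 1 / b - 1 / β := by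
      have : (1 : ℝ) / b - 1 / β = 1 / (b * β) := by
        rw [hβ']; field_simp; ring
      rw [this]
      exact one_div_le_one_div_of_le (by positivity) (by nlinarith)
    have h15 : (14 : ℝ) / β = 14 * (1 / β) := by ring
    linarith
  refine (h1 κ₁ κ₂ B D R _ h₁ (dd b) _ _ _ p r (dd β) (p / 2) _ η1 η2
    (1 / (β : ℝ) ^ 2) (7 * (1 / (β : ℝ) ^ 2)) _ (Real.exp (-2 ^ (5 * β ^ 2 - 1)))
    (fun ζ j s => Typ j s ∧ (ζ ∈ Fintype.piFinset fun i => Win (J i)) ∧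
      pot' (Sum.elim ζ (Sum.elim j s)) ≤ C0 * (β.factorial : ℝ) ^ 2 * θ)
    (vertQ C0 (D * p ^ dd β) (Sum.elim η (Sum.elim (fun _ => η1) fun _ => η2))
      (Sum.elim J (Sum.elim (fun _ => p / 2) fun _ => p)) pot' (C0 * (β.factorial : ℝ) ^ 2 * θ))
    b1 a3 b2 b3 b4 ?_ ?_ hp hη1 g1 hη2 (Nat.mul_div_le p 2) m1 (by positivity) m2 m3 m4
    (Real.exp_pos _) (Real.exp_le_one_iff.2 (neg_nonpos.2 (by positivity))) (Real.exp_pos _).le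
    (Real.exp_pos _).le (Real.exp_pos _).le n1 n2 n3 n4 n5 n6 n7).imp fun B' =>
    Exists.imp fun R' ⟨d1, d2, d3, d4⟩ => ⟨d1, d2, d3, fun ρ hρ => vert_pat_mono (d4 ρ hρ) m5 n8⟩
  · intro ζ hζ
    have hI := by_contra fun hn => by
      rw [vertQ, ind_neg hn, mul_zero] at hζ; exact lt_irrefl _ hζ
    obtain ⟨hw, hP⟩ := hI
    refine le_trans ?_ (vert_markov _ _ _ _ Typ (fun j s => pot' (Sum.elim ζ (Sum.elim j s))) hw
      (hT ▸ (by positivity)) hq1 hq2 fun _ _ => hpot _)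
    have h6 : (6 : ℝ) / (β : ℝ) ^ 2 = 6 * (1 / (β : ℝ) ^ 2) := by ring
    have h7 := div_le_div_of_nonneg_right hP
      (c := (β : ℝ) ^ 2 * (C0 * (b.factorial : ℝ) ^ 2 * θ)) (by positivity)
    rw [← div_div (C0 * _ * θ), div_right_comm, div_self hT0.ne'] at h7
    rw [hT]
    linarith
  · rintro ζ j s ⟨hA, hw, hP⟩
    obtain ⟨x1, x2, x3, x4, x5⟩ := c4 j s hA
    refine ⟨x1, x2, by rwa [one_div_one_div], x4, x5, ?_⟩
    rw [vertQ, vertQ, ind_pos (P := _ ∧ pot' _ ≤ _) ⟨?_, hP⟩, mul_one, prod_mul_distrib,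
      Fintype.prod_sum_type (α₁ := κ₁ ⊕ κ₂), Fintype.prod_sum_type (α₁ := Fin r)]
    · simp only [Sum.elim_inl, Sum.elim_inr, prod_const, card_univ, Fintype.card_fin]
      push_cast
      have := hq ζ
      have := hq1 j
      have := hq2 s
      refine (mul_le_mul_of_nonneg_right (mul_le_of_le_one_right (by positivity) (ind_le_one _))
        (by positivity)).trans (le_of_eq ?_)
      ring
    · rw [Fintype.mem_piFinset] at hw ⊢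
      rintro (i | i | i)
      · exact hw i
      · exact x1.1 i
      · exact x2 i

lemma vert_step (h1 : StageP) (h2 : BTP) {C0 : ℝ} (hC : 1 ≤ C0) {b β : ℕ} (hb : 99 ≤ b)
    (hβ : β = b + 1) (h : VertInv C0 b) : VertInv C0 β := by
  obtain ⟨κ₁, κ₂, _, _, _, _, η, ℓ, J, D, h₁, a1, a2, a3, a4, a5, a6, a7, a8, a9⟩ := h
  obtain ⟨p, hp, hp1, hp2⟩ :=
    Nat.exists_prime_lt_and_le_two_mul (dd β ^ 7) (pow_ne_zero _ (vert_dd_pos _).ne')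
  obtain ⟨r, Typ, c1, c2, c3, c4⟩ := h2 β (by omega) p hp1.le hp2
  obtain ⟨η1, e1⟩ : ∃ η1 : ℝ, η1 = 4 * β / (p / 2 : ℕ) := ⟨_, rfl⟩
  obtain ⟨η2, e2⟩ : ∃ η2 : ℝ, η2 = 4 * β / p := ⟨_, rfl⟩
  rw [← e1, ← e2] at c3 c4
  obtain ⟨⟨g1, g2, g3⟩, ⟨g4, g5, g6⟩, g7, g8⟩ :=
    vert_grid hb hβ (vert_dd_ge (b := β) (by omega)) hp1 hp2 c2 e1 e2
  have n9 : 2 * dd b ≤ dd β := hβ ▸ vert_dd_two b
  have hb' : (99 : ℝ) ≤ b := by exact_mod_cast hb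
  have hβ' : (β : ℝ) = b + 1 := by rw [hβ]; push_cast; rfl
  have hd : (0 : ℝ) < dd b := by exact_mod_cast vert_dd_pos b
  have hd' : (0 : ℝ) < dd β := by exact_mod_cast vert_dd_pos β
  have hdd : (dd b : ℝ) ≤ dd β := by exact_mod_cast (by omega : dd b ≤ dd β)
  have hη1 : 0 < η1 := lt_of_lt_of_le (by positivity) g2
  have hη2 : 0 < η2 := lt_of_lt_of_le (by positivity) g5
  have hη : ∀ i, 0 < η i := fun i => lt_of_lt_of_le (by positivity) (a5 i).1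
  refine ⟨κ₁ ⊕ κ₂, Fin r ⊕ Fin (dd β), inferInstance, inferInstance, inferInstance, inferInstance,
    Sum.elim η (Sum.elim (fun _ => η1) fun _ => η2), Sum.elim ℓ fun _ => 1 / (dd β : ℝ) ^ 3,
    Sum.elim J (Sum.elim (fun _ => p / 2) fun _ => p), D * p ^ dd β, h₁ + dd b,
    ?_, by omega, Nat.mul_pos a3 (Nat.pow_pos hp.pos), ?_, ?_, ?_, ?_, ?_, ?_⟩
  · rw [Fintype.card_sum, Fintype.card_sum (α := Fin r), Fintype.card_fin, Fintype.card_fin]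
    omega
  · have e3 : b ^ 2 ≤ β ^ 2 := Nat.pow_le_pow_left (by omega) 2
    have e4 : 1 ≤ β ^ 2 := Nat.one_le_pow _ _ (by omega)
    calc D * p ^ dd β ≤ 2 ^ (114 * b ^ 2 * dd b) * (2 ^ (56 * β ^ 2 + 1)) ^ dd β :=
          Nat.mul_le_mul a4 (Nat.pow_le_pow_left (vert_p_le hp2) _)
      _ = 2 ^ (57 * b ^ 2 * (2 * dd b) + (56 * β ^ 2 + 1) * dd β) := by
          rw [← pow_mul, ← pow_add]; congr 1; ring
      _ ≤ 2 ^ (57 * β ^ 2 * dd β + 57 * β ^ 2 * dd β) := Nat.pow_le_pow_right (by norm_num)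
          (Nat.add_le_add (Nat.mul_le_mul (by omega) n9) (Nat.mul_le_mul_right _ (by omega)))
      _ = _ := by congr 1; ring
  · rintro (i | i | i)
    · obtain ⟨x1, x2, x3, x4⟩ := a5 i
      refine ⟨le_trans ?_ x1, x2, x3.trans (by linarith), x4⟩
      gcongr
    · exact ⟨g2, g1.trans (by norm_num), g3.le, by simp only [Sum.elim_inr]; positivity⟩
    · exact ⟨g5, g4, g6.le, by simp only [Sum.elim_inr]; positivity⟩
  · rw [Fintype.sum_sum_type, Fintype.sum_sum_type (α₁ := Fin r)]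
    simp only [Sum.elim_inl, Sum.elim_inr, sum_const, card_univ, Fintype.card_fin, nsmul_eq_mul]
    linarith
  · rw [Fintype.sum_sum_type, Fintype.sum_sum_type (α₁ := Fin r)]
    simp only [Sum.elim_inl, Sum.elim_inr, sum_const, card_univ, Fintype.card_fin, nsmul_eq_mul,
      g3, g6]
    linarith
  · rw [Fintype.prod_sum_type, Fintype.prod_sum_type (α₁ := Fin r), Fintype.card_sum,
      Fintype.card_sum (α := Fin r), Fintype.card_fin, Fintype.card_fin, pow_add, pow_add]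
    simp only [Sum.elim_inl, Sum.elim_inr, prod_const, card_univ, Fintype.card_fin]
    push_cast
    calc _ = (D * ∏ i, η i) * (η1 ^ r * (η2 * p) ^ dd β) := by rw [mul_pow]; ring
      _ ≤ _ := by
        rw [g6]
        refine mul_le_mul (a8.trans ?_) ?_ (by positivity) (by positivity)
        · gcongr; linarith
        · gcongr; linarith
  · intro pot' θ hpot hθ hsum
    obtain ⟨B, R, b1, b2, b3, b4⟩ := a9 (fun ζ =>
      ∑ j ∈ Fintype.piFinset fun _ : Fin r => Win (p / 2),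
        ∑ s ∈ Fintype.piFinset fun _ : Fin (dd β) => Win p,
          (∏ c, qq η1 (j c)) * (∏ c, qq η2 (s c)) * pot' (Sum.elim ζ (Sum.elim j s))) θ
      (fun ζ => sum_nonneg fun j _ => sum_nonneg fun s _ => mul_nonneg (mul_nonneg
        (prod_nonneg fun _ _ => qq_nonneg hη1.le _) (prod_nonneg fun _ _ => qq_nonneg hη2.le _))
        (hpot _)) hθ (by
        refine le_trans (ge_of_eq ?_) hsum
        rw [vert_sum_elim]
        refine sum_congr rfl fun ζ _ => ?_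
        rw [vert_sum_elim, mul_sum]
        refine sum_congr rfl fun j _ => ?_
        rw [mul_sum]
        refine sum_congr rfl fun s _ => ?_
        rw [Fintype.prod_sum_type (α₁ := κ₁ ⊕ κ₂), Fintype.prod_sum_type (α₁ := Fin r)]
        simp only [Sum.elim_inl, Sum.elim_inr]
        ring)
    exact vert_main h1 hC hb hβ a3 a4 hη hp hp1 hp2 c1 hη1 g1 hη2 c3 c4 hpot hθ b1 b2 b3 b4

theorem vert (h1 : StageP) (h2 : BTP) : VertP := by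
  classical
  obtain ⟨C0, hC, h0⟩ := vert_base 99 le_rfl
  have hall : ∀ b, 99 ≤ b → VertInv C0 b := fun b hb =>
    Nat.le_induction h0 (fun n hn ih => vert_step h1 h2 hC hn rfl ih) b hb
  refine ⟨C0, hC, fun b hb => ?_⟩
  obtain ⟨κ₁, κ₂, _, _, _, _, η, ℓ, J, D, h₁, a1, a2, a3, a4, a5, a6, a7, a8, a9⟩ :=
    hall b (by omega)
  have hb0 : (0 : ℝ) ≤ 1 / b := by positivity
  refine ⟨κ₁ ⊕ κ₂, inferInstance, inferInstance, η, ℓ, J, D, h₁ + dd b, a1, by omega, a3, a4, a5,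
    by linarith, by linarith, a8, fun pot θ hpot hθ hsum => ?_⟩
  obtain ⟨B, R, b1, b2, b3, b4⟩ := a9 pot θ hpot hθ hsum
  refine ⟨B, R, b1, b2, b3, fun ρ hρ => ?_⟩
  obtain ⟨Z₁, Z₂, w, t1, t2, t3, t4, t5, t6, t7⟩ := b4 ρ hρ
  let Z : Finset (κ₁ ⊕ κ₂ → ℤ) := (Z₁.sigma Z₂).image fun x => Sum.elim x.1 x.2
  have hZ : ∀ z ∈ Z, z ∘ Sum.inl ∈ Z₁ ∧ z ∘ Sum.inr ∈ Z₂ (z ∘ Sum.inl) := by
    intro z hz
    obtain ⟨x, hx, rfl⟩ := mem_image.1 hz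
    exact mem_sigma.1 hx
  refine ⟨Z.filter fun z => 0 < w (z ∘ Sum.inl) (z ∘ Sum.inr),
    fun z => w (z ∘ Sum.inl) (z ∘ Sum.inr), (TL.ext t2 t1 hZ).subset (filter_subset _ _), ?_,
    fun z hz => ?_⟩
  · rw [sum_filter_of_ne fun z _ hz => lt_of_le_of_ne (t3 _ _) hz.symm, sum_image, sum_sigma]
    · have : (0 : ℝ) ≤ 14 / b := by positivity
      exact le_trans (by linarith) t5
    · rintro ⟨x1, x2⟩ _ ⟨y1, y2⟩ _ e
      obtain rfl : x1 = y1 := congrArg (· ∘ Sum.inl) e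
      obtain rfl : x2 = y2 := congrArg (· ∘ Sum.inr) e
      rfl
  · obtain ⟨hz, hw⟩ := mem_filter.1 hz
    obtain ⟨z1, z2⟩ := hZ z hz
    have h3 := t4 _ z1 _ z2
    rw [Sum.elim_comp_inl_inr] at h3
    have hI := by_contra fun hn => by
      rw [vertQ, ind_neg hn, mul_zero] at h3; exact absurd hw (not_lt.2 h3)
    rw [vertQ, ind_pos hI, mul_one] at h3
    refine ⟨hw, (t7 _ z1 _ z2).trans (mul_le_of_le_one_right (Real.exp_pos _).le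
      ((t6 _ z1).trans (Real.exp_le_one_iff.2 (neg_nonpos.2 (by positivity))))), h3, hI⟩

end Vale.Agent.P230
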