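import Vale.Agent.P230.HDefs

/-! Auxiliary facts for the vertical construction. -/

open Finset

namespace Vale.Agent.P230

lemma vert_sum_elim {κ₁ κ₂ : Type} [Fintype κ₁] [DecidableEq κ₁] [Fintype κ₂] [DecidableEq κ₂]
    (W : κ₁ ⊕ κ₂ → Finset ℤ) (F : (κ₁ ⊕ κ₂ → ℤ) → ℝ) :
    ∑ ι ∈ Fintype.piFinset W, F ι = ∑ a ∈ Fintype.piFinset fun i => W (Sum.inl i),
      ∑ b ∈ Fintype.piFinset fun i => W (Sum.inr i), F (Sum.elim a b) := by
  rw [← sum_product']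
  refine sum_nbij' (fun ι => (ι ∘ Sum.inl, ι ∘ Sum.inr)) (fun x => Sum.elim x.1 x.2) ?_ ?_ ?_ ?_ ?_
  · intro ι hι
    simp only [mem_product, Fintype.mem_piFinset] at hι ⊢
    exact ⟨fun i => hι _, fun i => hι _⟩
  · intro x hx
    simp only [mem_product, Fintype.mem_piFinset] at hx ⊢
    rintro (i | i)
    · exact hx.1 i
    · exact hx.2 i
  · intro ι _; exact Sum.elim_comp_inl_inr ι
  · intro x _; rfl
  · intro ι _; rw [Sum.elim_comp_inl_inr]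

lemma vert_pat_mono {κ₁ κ₂ : Type} [Fintype κ₁] [Fintype κ₂] {B : Matrix (κ₁ ⊕ κ₂) (κ₁ ⊕ κ₂) ℤ}
    {Q : (κ₁ ⊕ κ₂ → ℤ) → ℝ} {h₁ h₂ : ℕ} {tot ω ν tot' ω' : ℝ} {t : κ₁ ⊕ κ₂ → ℤ}
    (h : Pat B Q h₁ h₂ tot ω ν t) (h1 : tot' ≤ tot) (h2 : ω ≤ ω') : Pat B Q h₁ h₂ tot' ω' ν t := by
  obtain ⟨Z₁, Z₂, w, a1, a2, a3, a4, a5, a6, a7⟩ := h
  exact ⟨Z₁, Z₂, w, a1, a2, a3, a4, h1.trans a5, fun g hg => (a6 g hg).trans h2, a7⟩

lemma vert_gd_anti {x y : ℝ} (hx : 0 ≤ x) (h : x ≤ y) : gd y ≤ gd x := by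
  unfold gd
  have := Real.pi_pos
  refine div_le_div_of_nonneg_right (Real.exp_le_exp.2 ?_) (by positivity)
  nlinarith

lemma vert_gd_le_one (x : ℝ) : gd x ≤ 1 := by
  unfold gd
  have h1 : 1 ≤ √(2 * Real.pi) := Real.one_le_sqrt.2 (by linarith [Real.pi_gt_three])
  rw [div_le_one (by linarith)]
  exact (Real.exp_le_one_iff.2 (by nlinarith [sq_nonneg x])).trans h1

lemma vert_two_pow_le_exp (n : ℕ) : (2 : ℝ) ^ n ≤ Real.exp n := by
  rw [← mul_one (n : ℝ), Real.exp_nat_mul]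
  exact pow_le_pow_left₀ (by norm_num) (by linarith [Real.add_one_le_exp 1]) n

lemma vert_exp_le_two_pow (n : ℕ) : Real.exp n ≤ (2 : ℝ) ^ (2 * n) := by
  rw [← mul_one (n : ℝ), Real.exp_nat_mul, pow_mul]
  exact pow_le_pow_left₀ (Real.exp_pos _).le (by linarith [Real.exp_one_lt_d9]) n

lemma vert_log_le {x : ℝ} (hx : 0 < x) {n : ℕ} (h : x ≤ 2 ^ n) : Real.log x ≤ n :=
  (Real.log_le_iff_le_exp hx).2 (h.trans (vert_two_pow_le_exp n))

lemma vert_pow_le (x k : ℕ) : x ^ k ≤ 2 ^ (k * x) := by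
  rw [mul_comm, pow_mul]; exact Nat.pow_le_pow_left Nat.lt_two_pow_self.le k

lemma vert_four {b : ℕ} (hb : 4 ≤ b) : b ^ 4 ≤ 2 ^ b ^ 2 :=
  (Nat.pow_le_pow_right (by omega) hb).trans (by rw [sq]; exact vert_pow_le b b)

lemma vert_dd_succ (b : ℕ) : dd (b + 1) = dd b * 2 ^ (16 * b + 8) := by
  rw [dd, dd, ← pow_add]; congr 1; ring

lemma vert_dd_pos (b : ℕ) : 0 < dd b := Nat.two_pow_pos _

lemma vert_dd_ge {b : ℕ} (hb : 99 ≤ b) : 2000 * b ^ 6 ≤ dd b := by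
  have h1 := vert_pow_le b 6
  calc 2000 * b ^ 6 ≤ 2 ^ 11 * 2 ^ (6 * b) := Nat.mul_le_mul (by norm_num) h1
    _ = 2 ^ (11 + 6 * b) := (pow_add _ _ _).symm
    _ ≤ dd b := Nat.pow_le_pow_right (by norm_num) (by nlinarith)

lemma vert_dd_two (b : ℕ) : 2 * dd b ≤ dd (b + 1) := by
  rw [vert_dd_succ, mul_comm]
  exact Nat.mul_le_mul_left _ (Nat.le_self_pow (by omega) 2)

lemma vert_p_le {β p : ℕ} (hp : p ≤ 2 * dd β ^ 7) : p ≤ 2 ^ (56 * β ^ 2 + 1) := by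
  refine hp.trans (le_of_eq ?_)
  rw [dd, ← pow_mul, ← pow_succ']; congr 1; ring

lemma vert_r {b r : ℕ} (hb : 99 ≤ b) (hr : dd (b + 1) ≤ 1000 * (b + 1) ^ 2 * r) :
    42000 * (1000 * (b + 1) ^ 6 * dd b) * (57 * (b + 1) ^ 2) ≤ r := by
  have h1 := vert_pow_le (b + 1) 10
  have h2 : 2394000000000 * (b + 1) ^ 10 ≤ 2 ^ (16 * b + 8) :=
    calc 2394000000000 * (b + 1) ^ 10 ≤ 2 ^ 42 * 2 ^ (10 * (b + 1)) :=
          Nat.mul_le_mul (by norm_num) h1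
      _ = 2 ^ (42 + 10 * (b + 1)) := (pow_add _ _ _).symm
      _ ≤ _ := Nat.pow_le_pow_right (by norm_num) (by omega)
  refine Nat.le_of_mul_le_mul_left (le_trans ?_ hr) (by positivity)
  rw [vert_dd_succ]
  calc _ = dd b * (2394000000000 * (b + 1) ^ 10) := by ring
    _ ≤ _ := Nat.mul_le_mul_left _ h2

lemma vert_om {b : ℕ} (hb : 99 ≤ b) : dd (b + 1) * (57 * (b + 1) ^ 2) ≤ 2 ^ 2 ^ b ^ 2 := by
  have h1 := vert_pow_le (b + 1) 2
  have h2 := vert_four (b := b) (by omega)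
  calc dd (b + 1) * (57 * (b + 1) ^ 2) ≤ 2 ^ (8 * (b + 1) ^ 2) * (2 ^ 6 * 2 ^ (2 * (b + 1))) :=
        Nat.mul_le_mul_left _ (Nat.mul_le_mul (by norm_num) h1)
    _ = 2 ^ (8 * (b + 1) ^ 2 + (6 + 2 * (b + 1))) := by rw [← pow_add, ← pow_add]
    _ ≤ _ := Nat.pow_le_pow_right (by norm_num) (le_trans (by
        have e1 : b ^ 4 = b ^ 2 * b ^ 2 := by ring
        have e2 : 99 * b ≤ b ^ 2 := by nlinarith
        have e3 : 99 * b ^ 2 ≤ b ^ 2 * b ^ 2 := Nat.mul_le_mul_right _ (by omega)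
        have e4 : (b + 1) ^ 2 = b ^ 2 + 2 * b + 1 := by ring
        omega) h2)

lemma vert_mu {b : ℕ} (hb : 99 ≤ b) :
    1000 * (b + 1) ^ 6 * dd b * (b + 1) ^ 2 ≤ 2 ^ 2 ^ (5 * b ^ 2 - 2) := by
  have h1 := vert_pow_le (b + 1) 8
  have h2 := vert_four (b := b) (by omega)
  have h3 : 2 ^ b ^ 2 ≤ 2 ^ (5 * b ^ 2 - 2) := Nat.pow_le_pow_right (by norm_num) (by
    have : 1 ≤ b ^ 2 := Nat.one_le_pow _ _ (by omega)
    omega)
  calc _ = 1000 * (b + 1) ^ 8 * dd b := by ring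
    _ ≤ 2 ^ 10 * 2 ^ (8 * (b + 1)) * 2 ^ (8 * b ^ 2) :=
        Nat.mul_le_mul_right _ (Nat.mul_le_mul (by norm_num) h1)
    _ = 2 ^ (10 + 8 * (b + 1) + 8 * b ^ 2) := by rw [← pow_add, ← pow_add]
    _ ≤ _ := Nat.pow_le_pow_right (by norm_num) (le_trans (by
        have e1 : b ^ 4 = b ^ 2 * b ^ 2 := by ring
        have e2 : 99 * b ≤ b ^ 2 := by nlinarith
        have e3 : 99 * b ^ 2 ≤ b ^ 2 * b ^ 2 := Nat.mul_le_mul_right _ (by omega)
        omega) (h2.trans h3))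

lemma vert_nuN {b : ℕ} (hb : 99 ≤ b) :
    Real.exp (-2 ^ (5 * b ^ 2 - 1)) * Real.exp (2 ^ (4 * (b + 1) ^ 2 + 4 * (b + 1)))
      ≤ Real.exp (-2 ^ (5 * b ^ 2 - 2)) := by
  rw [← Real.exp_add, Real.exp_le_exp]
  have h0 : 12 * b + 10 ≤ b ^ 2 := by nlinarith
  have h1 : 5 * b ^ 2 - 1 = 5 * b ^ 2 - 2 + 1 := by omega
  have h2 : (2 : ℝ) ^ (4 * (b + 1) ^ 2 + 4 * (b + 1)) ≤ 2 ^ (5 * b ^ 2 - 2) :=
    pow_le_pow_right₀ (by norm_num) (by
      have : (b + 1) ^ 2 = b ^ 2 + 2 * b + 1 := by ring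
      omega)
  rw [h1, pow_succ]
  linarith

/-- the weight function of the invariant -/
noncomputable def vertQ {κ : Type} [Fintype κ] [DecidableEq κ] (C0 : ℝ) (D : ℕ) (η : κ → ℝ)
    (J : κ → ℕ) (pot : (κ → ℤ) → ℝ) (T : ℝ) (ζ : κ → ℤ) : ℝ :=
  C0 * D * (∏ i, qq (η i) (ζ i)) * ind (ζ ∈ (Fintype.piFinset fun i => Win (J i)) ∧ pot ζ ≤ T)

/-- the invariant of the vertical induction -/
def VertInv (C0 : ℝ) (b : ℕ) : Prop :=
  ∃ (κ₁ κ₂ : Type) (_ : Fintype κ₁) (_ : DecidableEq κ₁) (_ : Fintype κ₂) (_ : DecidableEq κ₂)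
    (η ℓ : κ₁ ⊕ κ₂ → ℝ) (J : κ₁ ⊕ κ₂ → ℕ) (D h₁ : ℕ),
    Fintype.card (κ₁ ⊕ κ₂) ≤ 4 * dd b ∧ h₁ ≤ 2 * dd b ∧ 1 ≤ D ∧ D ≤ 2 ^ (114 * b ^ 2 * dd b) ∧
    (∀ i, 1 / (2 * (dd b : ℝ) ^ 7) ≤ η i ∧ η i ≤ 1 ∧ η i * J i ≤ 4 * b ∧ 0 < ℓ i) ∧
    ∑ i, η i / ℓ i ≤ 1 / 20 - 1 / b ∧ ∑ i, (η i * J i + 2) * ℓ i ≤ 1 / 20 - 1 / b ∧
    (D : ℝ) * ∏ i, η i ≤ (4 * b) ^ Fintype.card (κ₁ ⊕ κ₂) ∧
    ∀ (pot : (κ₁ ⊕ κ₂ → ℤ) → ℝ) (θ : ℝ), (∀ ζ, 0 ≤ pot ζ) → 0 < θ →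
      ∑ ι ∈ Fintype.piFinset fun i => Win (J i), (∏ i, qq (η i) (ι i)) * pot ι ≤ θ →
      ∃ (B : Matrix (κ₁ ⊕ κ₂) (κ₁ ⊕ κ₂) ℤ) (R : Finset (κ₁ ⊕ κ₂ → ℤ)),
        B.det = D ∧ R.card ≤ D ∧ Reps B R ∧ ∀ ρ ∈ R,
          Pat B (vertQ C0 D η J pot (C0 * (b.factorial : ℝ) ^ 2 * θ)) h₁ (dd b) (1 / 2 + 14 / b)
            (Real.exp (-2 ^ (b ^ 2))) (Real.exp (-2 ^ (5 * b ^ 2 - 1))) ρ

lemma vert_base (b : ℕ) (hb : 99 ≤ b) : ∃ C0 : ℝ, 1 ≤ C0 ∧ VertInv C0 b := by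
  classical
  have hge := vert_dd_ge hb
  have hdd : dd b = 2 ^ (8 * b ^ 2) := rfl
  have hb' : (99 : ℝ) ≤ b := by exact_mod_cast hb
  have hmass : ∀ k, k ≤ 5 * b ^ 2 → ((2 : ℝ) ^ dd b)⁻¹ ≤ Real.exp (-2 ^ k) := by
    intro k hk
    rw [Real.exp_neg]
    refine inv_anti₀ (Real.exp_pos _) ?_
    have h1 := vert_exp_le_two_pow (2 ^ k)
    push_cast at h1
    refine h1.trans (pow_le_pow_right₀ (by norm_num) ?_)
    rw [hdd, ← pow_succ']
    exact Nat.pow_le_pow_right (by norm_num) (by nlinarith)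
  generalize dd b = d at *
  have hd : 2000 ≤ d := le_trans (Nat.le_mul_of_pos_right _ (by positivity)) hge
  have hd' : (2000 : ℝ) ≤ d := by exact_mod_cast hd
  have hd0 : (0 : ℝ) < d := by linarith
  have hP : (2 : ℝ) ≤ (d : ℝ) ^ 7 := by
    have : (d : ℝ) ≤ (d : ℝ) ^ 7 := le_self_pow₀ (by linarith) (by norm_num)
    linarith
  have hg := gd_pos 3
  have hC : 1 ≤ ((d : ℝ) ^ 7 / gd 3) ^ (d + d) :=
    one_le_pow₀ ((one_le_div hg).2 ((vert_gd_le_one 3).trans (by linarith)))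
  have hbb : (1 : ℝ) / b ≤ 1 / 99 := one_div_le_one_div_of_le (by norm_num) hb'
  refine ⟨_, hC, Fin d, Fin d, inferInstance, inferInstance, inferInstance, inferInstance,
    fun _ => 1 / (d : ℝ) ^ 7, fun _ => 1 / (d : ℝ) ^ 3, fun _ => d ^ 7, (d ^ 7) ^ (d + d), d,
    ?_, ?_, ?_, ?_, ?_, ?_, ?_, ?_, ?_⟩ <;> try rw [show dd b = d from hdd.symm]
  · simp; omega
  · omega
  · exact Nat.one_le_pow _ _ (by positivity)
  · rw [← pow_mul]
    nth_rewrite 1 [hdd]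
    rw [← pow_mul]
    exact Nat.pow_le_pow_right (by norm_num) (by nlinarith [Nat.zero_le (b ^ 2 * d)])
  · intro i
    refine ⟨one_div_le_one_div_of_le (by positivity) (by linarith), ?_, ?_, by positivity⟩
    · rw [div_le_one (by positivity)]; linarith
    · push_cast; rw [one_div_mul_cancel (by positivity)]; linarith
  · simp only [sum_const, card_univ, Fintype.card_sum, Fintype.card_fin, nsmul_eq_mul]
    have : ((d + d : ℕ) : ℝ) * (1 / (d : ℝ) ^ 7 / (1 / (d : ℝ) ^ 3)) = 2 / (d : ℝ) ^ 3 := by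
      push_cast; field_simp; ring
    rw [this]
    have : 2 / (d : ℝ) ^ 3 ≤ 2 / 2000 := div_le_div_of_nonneg_left (by norm_num) (by norm_num)
      (hd'.trans (le_self_pow₀ (by linarith) (by norm_num)))
    linarith
  · simp only [sum_const, card_univ, Fintype.card_sum, Fintype.card_fin, nsmul_eq_mul]
    have : ((d + d : ℕ) : ℝ) * ((1 / (d : ℝ) ^ 7 * ((d ^ 7 : ℕ) : ℝ) + 2) * (1 / (d : ℝ) ^ 3)) =
        6 / (d : ℝ) ^ 2 := by
      push_cast; field_simp; ring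
    rw [this]
    have : 6 / (d : ℝ) ^ 2 ≤ 6 / 2000 := div_le_div_of_nonneg_left (by norm_num) (by norm_num)
      (hd'.trans (le_self_pow₀ (by linarith) (by norm_num)))
    linarith
  · simp only [prod_const, card_univ, Fintype.card_sum, Fintype.card_fin]
    push_cast
    rw [← mul_pow, mul_one_div_cancel (by positivity), one_pow]
    exact one_le_pow₀ (by linarith)
  · intro pot θ hpot hθ hsum
    have hP0 : (0 : ℤ) < ((d ^ 7 : ℕ) : ℤ) := by positivity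
    refine ⟨Matrix.diagonal fun _ => ((d ^ 7 : ℕ) : ℤ),
      Fintype.piFinset fun _ => Ico (0 : ℤ) ((d ^ 7 : ℕ) : ℤ), by simp, ?_, fun t => ?_,
      fun ρ hρ => ?_⟩
    · simp only [Fintype.card_piFinset, Int.card_Ico, sub_zero, Int.toNat_natCast, prod_const,
        card_univ, Fintype.card_sum, Fintype.card_fin, le_refl]
    · refine ⟨fun i => t i % ((d ^ 7 : ℕ) : ℤ), Fintype.mem_piFinset.2 fun i =>
        mem_Ico.2 ⟨Int.emod_nonneg _ hP0.ne', Int.emod_lt_of_pos _ hP0⟩,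
        fun i => t i / ((d ^ 7 : ℕ) : ℤ), ?_⟩
      funext i
      rw [Pi.add_apply, Matrix.mulVec_diagonal, Int.emod_add_mul_ediv]
    · let Z : Finset (Fin d → ℤ) := Fintype.piFinset fun _ => {0, 1}
      have hZ : TL d Z := by
        have := TL.cube (univ : Finset (Fin d)) 0 Z fun z hz i => by
          simpa using Fintype.mem_piFinset.1 hz i
        simpa using this
      have hZc : (Z.card : ℝ) = 2 ^ d := by simp [Z, Fintype.card_piFinset]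
      have h2d : (0 : ℝ) < 2 ^ d := by positivity
      have hsum2 : ∑ _z ∈ Z, ((2 : ℝ) ^ d)⁻¹ * ((2 : ℝ) ^ d)⁻¹ = ((2 : ℝ) ^ d)⁻¹ := by
        rw [sum_const, nsmul_eq_mul, hZc]; field_simp
      refine ⟨Z, fun _ => Z, fun _ _ => ((2 : ℝ) ^ d)⁻¹ * ((2 : ℝ) ^ d)⁻¹, hZ, fun _ => hZ,
        fun _ _ => by positivity, fun g hg' z hz => ?_, ?_, fun g _ => ?_, fun g _ z _ => ?_⟩
      · set ζ := ρ - (Matrix.diagonal fun _ => ((d ^ 7 : ℕ) : ℤ)).mulVec (Sum.elim g z) with hζ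
        have hwin : ∀ i, ζ i ∈ Win (d ^ 7) := by
          intro i
          have h1 := mem_Ico.1 (Fintype.mem_piFinset.1 hρ i)
          have h2 : Sum.elim g z i = 0 ∨ Sum.elim g z i = 1 := by
            cases i with
            | inl i => simpa using Fintype.mem_piFinset.1 hg' i
            | inr i => simpa using Fintype.mem_piFinset.1 hz i
          rw [hζ, Pi.sub_apply, Matrix.mulVec_diagonal, Win, mem_Ico]
          rcases h2 with h2 | h2 <;> rw [h2] <;> constructor <;> linarith [h1.1, h1.2]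
        have hq : ∀ i, gd 3 / (d : ℝ) ^ 7 ≤ qq (1 / (d : ℝ) ^ 7) (ζ i) := by
          intro i
          have h1 := mem_Ico.1 (hwin i)
          have h2 : |(ζ i : ℝ)| ≤ (d : ℝ) ^ 7 := by
            have : |ζ i| ≤ ((d ^ 7 : ℕ) : ℤ) := abs_le.2 ⟨h1.1, h1.2.le⟩
            exact_mod_cast this
          rw [qq, div_eq_mul_one_div, mul_comm]
          refine mul_le_mul_of_nonneg_left (vert_gd_anti (by positivity) ?_) (by positivity)
          rw [one_div_mul_eq_div, div_le_iff₀ (by positivity)]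
          linarith
        have h3 : 1 ≤ ((d : ℝ) ^ 7 / gd 3) ^ (d + d) * ∏ i, qq (1 / (d : ℝ) ^ 7) (ζ i) := by
          have h4 := prod_le_prod (s := univ) (fun i _ => by positivity) fun i _ => hq i
          simp only [prod_const, card_univ, Fintype.card_sum, Fintype.card_fin] at h4
          refine le_trans (le_of_eq ?_) (mul_le_mul_of_nonneg_left h4 (by positivity))
          rw [← mul_pow, div_mul_div_cancel₀ hg.ne', div_self (by positivity), one_pow]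
        have hmem : ζ ∈ Fintype.piFinset fun _ => Win (d ^ 7) := Fintype.mem_piFinset.2 hwin
        have h5 := (single_le_sum (f := fun ι : Fin d ⊕ Fin d → ℤ =>
          (∏ i, qq (1 / (d : ℝ) ^ 7) (ι i)) * pot ι) (fun ι _ => mul_nonneg
            (prod_nonneg fun _ _ => qq_nonneg (by positivity) _) (hpot ι)) hmem).trans hsum
        have h6 : (1 : ℝ) ≤ (b.factorial : ℝ) ^ 2 :=
          one_le_pow₀ (by exact_mod_cast b.factorial_pos)
        have h7 : pot ζ ≤ ((d : ℝ) ^ 7 / gd 3) ^ (d + d) * (b.factorial : ℝ) ^ 2 * θ := by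
          have a1 := mul_le_mul_of_nonneg_right h3 (hpot ζ)
          have a2 := mul_le_mul_of_nonneg_left h5 (zero_le_one.trans hC)
          have a3 := mul_le_mul_of_nonneg_left h6 (mul_nonneg (zero_le_one.trans hC) hθ.le)
          linarith
        rw [vertQ, ind_pos ⟨hmem, h7⟩, mul_one, mul_right_comm]
        have h8 : ((2 : ℝ) ^ d)⁻¹ ≤ 1 := inv_le_one_of_one_le₀ (one_le_pow₀ (by norm_num))
        have h9 : (1 : ℝ) ≤ (((d ^ 7) ^ (d + d) : ℕ) : ℝ) := by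
          exact_mod_cast Nat.one_le_pow _ _ (by positivity)
        exact (mul_le_one₀ h8 (by positivity) h8).trans (one_le_mul_of_one_le_of_one_le h3 h9)
      · simp only [hsum2]
        rw [sum_const, nsmul_eq_mul, hZc, mul_inv_cancel₀ h2d.ne']
        have : (14 : ℝ) / b = 14 * (1 / b) := by ring
        linarith
      · rw [hsum2]; exact hmass _ (by omega)
      · rw [hsum2]
        exact mul_le_mul_of_nonneg_right (hmass _ (by omega)) (by positivity)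

end Vale.Agent.P230
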